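import Crest.Agent.R74.Basic

/-!
# Row 74: elementary facts on `BS`

Most lemmas: apply `dc` to `t • ζ`, use `Sm.little` for the height term, divide by `t`, let `t → 0`
(`le_of_forall_pos_le_add`).
-/

namespace Crest.Agent.R74

open Finset

variable {X Y : Type*} [NormedAddCommGroup X] [NormedSpace ℝ X] [NormedAddCommGroup Y]
  [NormedSpace ℝ Y]

private theorem eq_zero_of_norm_le {Z : Type*} [NormedAddCommGroup Z] {v : Z}
    (h : ∀ ε : ℝ, 0 < ε → ‖v‖ ≤ ε) : v = 0 := by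
  rw [← norm_le_zero_iff]
  apply le_of_forall_pos_le_add
  intro ε hε
  simpa using h ε hε

namespace BS

variable {S : SI X Y} {p : X}

theorem J_p (B : BS S p) : B.J p = 1 := by
  rw [B.hJ.2, B.hp]

theorem J'_Fp (B : BS S p) : B.J' (S.F p) = 1 := by
  rw [B.hJ'.2, S.norm, B.hp]

theorem norm_Fp (B : BS S p) : ‖S.F p‖ = 1 := by
  rw [S.norm, B.hp]

/-- `T` is the Gâteaux derivative of `F` at `p`. -/
theorem little (B : BS S p) (ζ : X) {ε : ℝ} (hε : 0 < ε) :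
    ∃ t₀ : ℝ, 0 < t₀ ∧ ∀ t : ℝ, |t| ≤ t₀ → ‖S.F (p + t • ζ) - S.F p - t • B.T ζ‖ ≤ ε * |t| := by
  have hC := C0_pos
  have hc := c0_pos
  obtain ⟨t₁, ht₁, h₁⟩ := B.sm.little B.hJ ζ (ε := ε / (2 * C0)) (by positivity)
  have hN : 0 < ‖ζ‖ + 1 := by positivity
  refine ⟨min t₁ (min (c0 / (‖ζ‖ + 1)) (ε / (2 * C0 * (‖ζ‖ + 1) ^ 2))), by positivity, ?_⟩
  intro t ht
  have ht1 : |t| ≤ t₁ := ht.trans (min_le_left _ _)
  have ht2 : |t| ≤ c0 / (‖ζ‖ + 1) := ht.trans ((min_le_right _ _).trans (min_le_left _ _))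
  have ht3 : |t| ≤ ε / (2 * C0 * (‖ζ‖ + 1) ^ 2) :=
    ht.trans ((min_le_right _ _).trans (min_le_right _ _))
  have ha := abs_nonneg t
  have hz := norm_nonneg ζ
  have hn : ‖t • ζ‖ = |t| * ‖ζ‖ := by rw [norm_smul, Real.norm_eq_abs]
  rw [le_div_iff₀ hN] at ht2
  rw [le_div_iff₀ (by positivity)] at ht3
  have hle : ‖t • ζ‖ ≤ c0 := by rw [hn]; nlinarith
  have h2 := B.dc _ hle
  have h3 := h₁ t ht1
  rw [map_smul, map_smul, smul_eq_mul, hn] at h2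
  rw [B.hp] at h3
  have h4 : C0 * (‖p + t • ζ‖ - 1 - t * B.J ζ) ≤ ε / 2 * |t| := by
    calc C0 * (‖p + t • ζ‖ - 1 - t * B.J ζ) ≤ C0 * (ε / (2 * C0) * |t|) :=
          mul_le_mul_of_nonneg_left h3 hC.le
      _ = ε / 2 * |t| := by field_simp
  have h5 : C0 * (|t| * ‖ζ‖) ^ 2 ≤ ε / 2 * |t| := by
    have h6 : ‖ζ‖ ^ 2 ≤ (‖ζ‖ + 1) ^ 2 := by nlinarith
    have h7 : |t| * (2 * C0 * ‖ζ‖ ^ 2) ≤ ε := by
      refine le_trans ?_ ht3
      gcongr
    calc C0 * (|t| * ‖ζ‖) ^ 2 = (|t| * (2 * C0 * ‖ζ‖ ^ 2)) / 2 * |t| := by ring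
      _ ≤ ε / 2 * |t| := by gcongr
  calc _ ≤ _ := h2
    _ = C0 * (|t| * ‖ζ‖) ^ 2 + C0 * (‖p + t • ζ‖ - 1 - t * B.J ζ) := by ring
    _ ≤ ε / 2 * |t| + ε / 2 * |t| := add_le_add h5 h4
    _ = ε * |t| := by ring

/-- `little` for `ζ = p` and homogeneity of `F`. -/
theorem T_p (B : BS S p) : B.T p = S.F p := by
  symm
  rw [← sub_eq_zero]
  apply eq_zero_of_norm_le
  intro ε hε
  obtain ⟨t, ht, h⟩ := B.little p hε
  have h1 := h t (by rw [abs_of_pos ht])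
  have h2 : S.F (p + t • p) - S.F p - t • B.T p = t • (S.F p - B.T p) := by
    have : p + t • p = (1 + t) • p := by rw [add_smul, one_smul]
    rw [this, S.smul, add_smul, one_smul, smul_sub]; abel
  rw [h2, norm_smul, Real.norm_eq_abs, abs_of_pos ht, mul_comm] at h1
  exact le_of_mul_le_mul_right h1 ht

/-- differentiate `‖F (p + t ζ)‖ = ‖p + t ζ‖`: `J' (F (p + t ζ)) ≤ ‖p + t ζ‖ ≤ 1 + t J ζ + o(t)` for both
signs of `t`. -/
theorem J'_T (B : BS S p) (x : X) : B.J' (B.T x) = B.J x := by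
  have key : ∀ ε : ℝ, 0 < ε → |B.J' (B.T x) - B.J x| ≤ ε := by
    intro ε hε
    obtain ⟨t₁, ht₁, h₁⟩ := B.little x (half_pos hε)
    obtain ⟨t₂, ht₂, h₂⟩ := B.sm.little B.hJ x (half_pos hε)
    have h3 : ∀ t : ℝ, |t| ≤ min t₁ t₂ → t * (B.J' (B.T x) - B.J x) ≤ ε * |t| := by
      intro t ht
      have a1 := h₁ t (ht.trans (min_le_left _ _))
      have a2 := h₂ t (ht.trans (min_le_right _ _))
      have a3 := B.hJ'.le (S.F (p + t • x))
      have a4 := (abs_le.1 ((B.hJ'.abs_le (S.F (p + t • x) - S.F p - t • B.T x)).trans a1)).1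
      rw [S.norm] at a3
      rw [map_sub, map_sub, map_smul, B.J'_Fp, smul_eq_mul] at a4
      rw [B.hp] at a2
      nlinarith
    have hm : 0 < min t₁ t₂ := lt_min ht₁ ht₂
    have b1 := h3 (min t₁ t₂) (by rw [abs_of_pos hm])
    have b2 := h3 (-min t₁ t₂) (by rw [abs_neg, abs_of_pos hm])
    rw [abs_of_pos hm] at b1
    rw [abs_neg, abs_of_pos hm] at b2
    rw [abs_le]
    constructor <;> nlinarith
  have : B.J' (B.T x) - B.J x = 0 := by
    apply eq_zero_of_norm_le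
    intro ε hε
    simpa using key ε hε
  linarith

theorem J_Tsymm (B : BS S p) (y : Y) : B.J (B.T.symm y) = B.J' y := by
  rw [← B.J'_T, ContinuousLinearEquiv.apply_symm_apply]

theorem T_le (B : BS S p) (x : X) : ‖B.T x‖ ≤ 3 * ‖x‖ := by
  apply le_of_forall_pos_le_add
  intro ε hε
  obtain ⟨t, ht, h⟩ := B.little x hε
  have h1 := h t (by rw [abs_of_pos ht])
  have h2 := S.lip3 (p + t • x) p
  rw [add_sub_cancel_left, norm_smul, Real.norm_eq_abs, abs_of_pos ht] at h2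
  rw [abs_of_pos ht] at h1
  have h3 : ‖t • B.T x‖ ≤ ‖S.F (p + t • x) - S.F p‖ + ‖S.F (p + t • x) - S.F p - t • B.T x‖ := by
    have : t • B.T x = (S.F (p + t • x) - S.F p) - (S.F (p + t • x) - S.F p - t • B.T x) := by abel
    conv_lhs => rw [this]
    exact norm_sub_le _ _
  rw [norm_smul, Real.norm_eq_abs, abs_of_pos ht] at h3
  have h4 : t * ‖B.T x‖ ≤ t * (3 * ‖x‖ + ε) := by nlinarith
  exact le_of_mul_le_mul_left h4 ht

theorem Tsymm_le (B : BS S p) (y : Y) : ‖B.T.symm y‖ ≤ 3 * ‖y‖ := by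
  exact B.symm.T_le y

theorem sph_little (B : BS S p) {ζ : X} (hζ : B.J ζ = 0) {ε : ℝ} (hε : 0 < ε) :
    ∃ t₀ : ℝ, 0 < t₀ ∧ ∀ t : ℝ, |t| ≤ t₀ → ‖sph p (t • ζ)‖ = 1 ∧
      ‖sph p (t • ζ) - p - t • ζ‖ ≤ ε * |t| ∧ ‖S.F (sph p (t • ζ)) - S.F p - t • B.T ζ‖ ≤ ε * |t| := by
  have hε4 : 0 < ε / 4 := by positivity
  obtain ⟨t₁, ht₁, h₁⟩ := B.little ζ hε4
  obtain ⟨t₂, ht₂, h₂⟩ := B.sm.little B.hJ ζ hε4
  have hN : 0 < ‖ζ‖ + 1 := by positivity
  refine ⟨min t₁ (min t₂ (1 / (‖ζ‖ + 1))), by positivity, ?_⟩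
  intro t ht
  have ht1 : |t| ≤ t₁ := ht.trans (min_le_left _ _)
  have ht2 : |t| ≤ t₂ := ht.trans ((min_le_right _ _).trans (min_le_left _ _))
  have ht3 : |t| ≤ 1 / (‖ζ‖ + 1) := ht.trans ((min_le_right _ _).trans (min_le_right _ _))
  have ha := abs_nonneg t
  have hz := norm_nonneg ζ
  have hlt : ‖t • ζ‖ < 1 := by
    rw [norm_smul, Real.norm_eq_abs]
    calc |t| * ‖ζ‖ ≤ 1 / (‖ζ‖ + 1) * ‖ζ‖ := by gcongr
      _ < 1 := by rw [div_mul_eq_mul_div, div_lt_one hN]; linarith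
  have a1 := h₁ t ht1
  have a2 := h₂ t ht2
  rw [hζ, B.hp] at a2
  have a3 := B.hJ.sub_le (t • ζ)
  rw [map_smul, hζ, B.hp, smul_zero] at a3
  have a4 : ‖sph p (t • ζ) - p - t • ζ‖ ≤ ε / 4 * |t| := by
    have := norm_dX B.hp hlt
    unfold dX at this
    rw [this, abs_of_nonneg a3]
    linarith
  refine ⟨norm_sph B.hp hlt, a4.trans (by nlinarith), ?_⟩
  have a5 := S.lip3 (sph p (t • ζ)) (p + t • ζ)
  rw [← sub_sub] at a5
  have : S.F (sph p (t • ζ)) - S.F p - t • B.T ζ =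
      (S.F (sph p (t • ζ)) - S.F (p + t • ζ)) + (S.F (p + t • ζ) - S.F p - t • B.T ζ) := by abel
  rw [this]
  refine (norm_add_le _ _).trans ?_
  linarith

/-- `‖F (sph p (t ζ)) - F p‖ = ‖sph p (t ζ) - p‖`. -/
theorem T_iso (B : BS S p) {ζ : X} (hζ : B.J ζ = 0) : ‖B.T ζ‖ = ‖ζ‖ := by
  have key : ∀ ε : ℝ, 0 < ε → |‖B.T ζ‖ - ‖ζ‖| ≤ ε := by
    intro ε hε
    obtain ⟨t, ht, h⟩ := B.sph_little hζ (half_pos hε)
    obtain ⟨h1, h2, h3⟩ := h t (by rw [abs_of_pos ht])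
    rw [abs_of_pos ht] at h2 h3
    have h4 := S.dist (sph p (t • ζ)) p (by rw [h1, B.hp])
    have h5 := abs_le.1 ((abs_norm_sub_norm_le _ _).trans h2)
    have h6 := abs_le.1 ((abs_norm_sub_norm_le _ _).trans h3)
    rw [norm_smul, Real.norm_eq_abs, abs_of_pos ht] at h5 h6
    rw [h4] at h6
    rw [abs_le]
    constructor <;> nlinarith [h5.1, h5.2, h6.1, h6.2]
  have : ‖B.T ζ‖ - ‖ζ‖ = 0 := by
    apply eq_zero_of_norm_le
    intro ε hε
    simpa using key ε hε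
  linarith

theorem J_unique (B B' : BS S p) (x : X) : B.J x = B'.J x := by
  rw [B.sm.nm_unique B.hJ B'.hJ]

theorem T_unique (B B' : BS S p) (x : X) : B.T x = B'.T x := by
  rw [← sub_eq_zero]
  apply eq_zero_of_norm_le
  intro ε hε
  obtain ⟨t₁, ht₁, h₁⟩ := B.little x (half_pos hε)
  obtain ⟨t₂, ht₂, h₂⟩ := B'.little x (half_pos hε)
  have hm : 0 < min t₁ t₂ := lt_min ht₁ ht₂
  have a1 := h₁ (min t₁ t₂) (by rw [abs_of_pos hm]; exact min_le_left _ _)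
  have a2 := h₂ (min t₁ t₂) (by rw [abs_of_pos hm]; exact min_le_right _ _)
  set t := min t₁ t₂
  rw [abs_of_pos hm] at a1 a2
  have a3 : t • (B.T x - B'.T x) =
      (S.F (p + t • x) - S.F p - t • B'.T x) - (S.F (p + t • x) - S.F p - t • B.T x) := by
    rw [smul_sub]; abel
  have a4 : ‖t • (B.T x - B'.T x)‖ ≤ ε / 2 * t + ε / 2 * t := by
    rw [a3]; exact (norm_sub_le _ _).trans (add_le_add a2 a1)
  rw [norm_smul, Real.norm_eq_abs, abs_of_pos hm] at a4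
  have a5 : t * ‖B.T x - B'.T x‖ ≤ t * ε := by linarith
  exact le_of_mul_le_mul_left a5 hm

theorem J_pr (B : BS S p) (x : X) : B.J (B.pr x) = 0 := by
  simp [pr, B.J_p]

theorem pr_le (B : BS S p) (x : X) : ‖B.pr x‖ ≤ 2 * ‖x‖ := by
  unfold pr
  have h1 := norm_sub_le x (B.J x • p)
  rw [norm_smul, B.hp, Real.norm_eq_abs] at h1
  have h2 := B.hJ.abs_le x
  linarith

theorem pr_of_ker (B : BS S p) {x : X} (hx : B.J x = 0) : B.pr x = x := by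
  simp [pr, hx]

theorem pr_sub (B : BS S p) (x y : X) : B.pr (x - y) = B.pr x - B.pr y := by
  simp only [pr, map_sub, sub_smul]; abel

theorem pr_smul (B : BS S p) (t : ℝ) (x : X) : B.pr (t • x) = t • B.pr x := by
  simp only [pr, map_smul, smul_eq_mul, smul_sub, mul_smul]

/-- `T ∘ pr` as a continuous linear map of norm at most `2`. -/
theorem exists_Tpr (B : BS S p) :
    ∃ A : X →L[ℝ] Y, (∀ x, A x = B.T (B.pr x)) ∧ ∀ x, ‖A x‖ ≤ 2 * ‖x‖ := by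
  refine ⟨(B.T : X →L[ℝ] Y).comp (ContinuousLinearMap.id ℝ X - B.J.smulRight p), fun x => rfl, ?_⟩
  intro x
  change ‖B.T (B.pr x)‖ ≤ _
  rw [B.T_iso (B.J_pr x)]
  exact B.pr_le x

theorem J_le_one (B : BS S p) {r : X} (hr : ‖r‖ = 1) : B.J r ≤ 1 := by
  simpa [hr] using B.hJ.le r

theorem height_le (B : BS S p) (r : X) : 1 - B.J r ≤ ‖r - p‖ := by
  have h := (abs_le.1 (B.hJ.abs_le (r - p))).1
  rw [map_sub, B.J_p] at h
  linarith

theorem J_le_add (B : BS S p) (q : X) : B.J q ≤ ‖p + q‖ - 1 := by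
  simpa [B.hp] using B.hJ.sub_le q

theorem dc_sphere (B : BS S p) {r : X} (hr : ‖r‖ = 1) (h : ‖r - p‖ ≤ c0) :
    ‖S.F r - S.F p - B.T (r - p)‖ ≤ C0 * (‖r - p‖ ^ 2 + (1 - B.J r)) := by
  have h1 := B.dc _ h
  rw [add_sub_cancel, hr, map_sub B.J, B.J_p] at h1
  convert h1 using 3
  ring

/-- heights in `X` and `Y` are comparable: apply `J` to `dc_sphere` for `B.symm`. -/
theorem height_cmp (B : BS S p) {r : X} (hr : ‖r‖ = 1) (h : ‖r - p‖ ≤ c0) :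
    1 - B.J r ≤ (C0 + 1) * (‖r - p‖ ^ 2 + (1 - B.J' (S.F r))) := by
  have hd : ‖S.F r - S.F p‖ = ‖r - p‖ := S.dist _ _ (by rw [hr, B.hp])
  have hr' : ‖S.F r‖ = 1 := by rw [S.norm, hr]
  have h1 := B.symm.dc_sphere hr' (by rw [hd]; exact h)
  simp only [SI.symm_F, Equiv.symm_apply_apply, symm_T, symm_J, hd] at h1
  have h2 := (abs_le.1 ((B.hJ.abs_le _).trans h1)).1
  rw [map_sub, map_sub, B.J_Tsymm, map_sub, B.J_p, B.J'_Fp] at h2
  have h3 : B.J' (S.F r) ≤ 1 := B.symm.J_le_one hr'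
  nlinarith [sq_nonneg ‖r - p‖]

theorem height_cmp' (B : BS S p) {r : X} (hr : ‖r‖ = 1) (h : ‖r - p‖ ≤ c0) :
    1 - B.J' (S.F r) ≤ (C0 + 1) * (‖r - p‖ ^ 2 + (1 - B.J r)) := by
  have h1 := B.dc_sphere hr h
  have h2 := (abs_le.1 ((B.hJ'.abs_le _).trans h1)).1
  rw [map_sub, map_sub, B.J'_T, map_sub, B.J_p, B.J'_Fp] at h2
  have h3 := B.J_le_one hr
  nlinarith [sq_nonneg ‖r - p‖]

theorem Good.symm {B : BS S p} {ε : ℝ} (h : B.Good ε) : B.symm.Good ε := by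
  refine ⟨fun z => ?_, fun z => ?_⟩
  · simpa using h.2 (B.T.symm z)
  · simpa using h.1 (B.T.symm z)

theorem Good.of_symm {B : BS S p} {ε : ℝ} (h : B.symm.Good ε) : B.Good ε := by
  refine ⟨fun z => ?_, fun z => ?_⟩
  · simpa using h.2 (B.T z)
  · simpa using h.1 (B.T z)

theorem Good.mono {B : BS S p} {ε ε' : ℝ} (h : B.Good ε) (hε : ε ≤ ε') : B.Good ε' := by
  refine ⟨fun z => (h.1 z).trans ?_, fun z => (h.2 z).trans ?_⟩ <;> gcongr

theorem Ta_p (B : BS S p) (a : Y) : B.Ta a p = a := by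
  rw [Ta_apply, B.T_p, B.J_p, one_smul]; abel

theorem J'_Ta (B : BS S p) (a : Y) (z : X) : B.J' (B.Ta a z) = B.J' a * B.J z := by
  rw [Ta_apply, map_add, map_smul, map_sub, B.J'_T, B.J'_Fp, smul_eq_mul]; ring

/-- solve `Ta a z = y` by `z = T⁻¹ (y - (J' y / J' a) • (a - F p))`. -/
theorem Ta_surj (B : BS S p) {a : Y} (ha : B.J' a ≠ 0) : Function.Surjective (B.Ta a) := by
  intro y
  refine ⟨B.T.symm (y - (B.J' y / B.J' a) • (a - S.F p)), ?_⟩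
  have h : B.J (B.T.symm (y - (B.J' y / B.J' a) • (a - S.F p))) = B.J' y / B.J' a := by
    rw [B.J_Tsymm, map_sub, map_smul, map_sub, B.J'_Fp, smul_eq_mul]
    field_simp
    ring
  rw [Ta_apply, h, ContinuousLinearEquiv.apply_symm_apply]; abel

theorem Ta_ar (B : BS S p) {r : X} (hr : B.J r ≠ 1) : B.Ta (B.ar r) (r - p) = S.F r - S.F p := by
  have h : (1 - B.J r) ≠ 0 := sub_ne_zero.2 (Ne.symm hr)
  have h1 : (B.J r - 1) * (1 - B.J r)⁻¹ = -1 := by field_simp; ring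
  rw [Ta_apply, ar, add_sub_cancel_left, map_sub B.J, B.J_p, smul_smul, h1, neg_one_smul]; abel

theorem J'_ar (B : BS S p) {r : X} (hr : B.J r ≠ 1) :
    B.J' (B.ar r) = (1 - B.J' (S.F r)) / (1 - B.J r) := by
  have h : (1 - B.J r) ≠ 0 := sub_ne_zero.2 (Ne.symm hr)
  rw [ar, map_add, map_smul, map_sub, B.J'_T, map_sub, map_sub, B.J'_Fp, B.J_p, smul_eq_mul]
  field_simp
  ring

/-- both maps invert each other on `ker J` and on `r - p`; write `z = ζ + α (r - p)`. -/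
theorem Ta_ar_inv (B : BS S p) {r : X} (hr : B.J r ≠ 1) (hr' : B.J' (S.F r) ≠ 1) (z : X) :
    B.symm.Ta (B.symm.ar (S.F r)) (B.Ta (B.ar r) z) = z := by
  have h : (B.J r - 1) ≠ 0 := sub_ne_zero.2 hr
  obtain ⟨ζ, α, hζ, rfl⟩ : ∃ (ζ : X) (α : ℝ), B.J ζ = 0 ∧ z = ζ + α • (r - p) := by
    refine ⟨z - (B.J z / (B.J r - 1)) • (r - p), B.J z / (B.J r - 1), ?_, by abel⟩
    rw [map_sub, map_smul, map_sub, B.J_p, smul_eq_mul]
    field_simp
    ring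
  have h1 : B.Ta (B.ar r) ζ = B.T ζ := by rw [Ta_apply, hζ, zero_smul, add_zero]
  have h2 : B.symm.Ta (B.symm.ar (S.F r)) (B.T ζ) = ζ := by
    rw [Ta_apply, symm_J, B.J'_T, hζ, zero_smul, add_zero, symm_T,
      ContinuousLinearEquiv.symm_apply_apply]
  have h3 := B.symm.Ta_ar (r := S.F r) hr'
  simp only [SI.symm_F, Equiv.symm_apply_apply] at h3
  rw [map_add, map_smul, B.Ta_ar hr, h1, map_add, map_smul, h2, h3]

theorem ar_sub_le (B : BS S p) {r : X} (hr : ‖r‖ = 1) (h : ‖r - p‖ ≤ c0) (hJ : B.J r < 1)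
    (hh : ‖r - p‖ ^ 2 ≤ 1 - B.J r) : ‖B.ar r - S.F p‖ ≤ 2 * C0 := by
  have h0 : 0 < 1 - B.J r := by linarith
  have h1 := B.dc_sphere hr h
  have hC := C0_pos
  rw [ar, add_sub_cancel_left, norm_smul, Real.norm_eq_abs, abs_of_pos (inv_pos.2 h0),
    norm_sub_rev, inv_mul_le_iff₀ h0]
  nlinarith

theorem Ta_le (B : BS S p) (a : Y) (z : X) : ‖B.Ta a z‖ ≤ (3 + ‖a - S.F p‖) * ‖z‖ := by
  rw [Ta_apply]
  refine (norm_add_le _ _).trans ?_
  rw [norm_smul, Real.norm_eq_abs]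
  have h1 := B.T_le z
  have h2 := B.hJ.abs_le z
  have h3 := norm_nonneg (a - S.F p)
  nlinarith

private theorem err_aux (B : BS S p) {c : X} (hc : ‖c‖ < 1) :
    S.F (p + c) - S.F p - B.T c =
      ‖p + c‖ • (S.F (sph p c) - S.F p - B.T (sph p c - p)) := by
  have h1 := smul_sph B.hp hc
  have h2 : ‖p + c‖ • S.F (sph p c) = S.F (p + c) := by rw [← S.smul, h1]
  have h3 : ‖p + c‖ • B.T (sph p c) = S.F p + B.T c := by
    rw [← map_smul, h1, map_add, B.T_p]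
  rw [map_sub, B.T_p, smul_sub, smul_sub, smul_sub, h2, h3]; abel

/-- the error of the linear approximation in terms of `ar`: with `r = sph p c`,
`F (p + c) - F p - T c = -‖p + c‖ (1 - J r) (ar r - F p)`. -/
theorem err_eq (B : BS S p) {c : X} (hc : ‖c‖ < 1) (hr : B.J (sph p c) ≠ 1) :
    S.F (p + c) - S.F p - B.T c =
      -(‖p + c‖ * (1 - B.J (sph p c))) • (B.ar (sph p c) - S.F p) := by
  have h : (1 - B.J (sph p c)) ≠ 0 := sub_ne_zero.2 (Ne.symm hr)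
  have h1 : -(‖p + c‖ * (1 - B.J (sph p c))) * (1 - B.J (sph p c))⁻¹ = -‖p + c‖ := by field_simp
  rw [B.err_aux hc, ar, add_sub_cancel_left, smul_smul, h1, neg_smul, ← smul_neg, neg_sub]

theorem err_eq' (B : BS S p) {c : X} (hc : ‖c‖ < 1) :
    S.F (p + c) - S.F p - B.T c =
      ‖p + c‖ • (S.F (sph p c) - S.F p - B.T (sph p c - p)) := by
  exact B.err_aux hc

theorem height_eq (B : BS S p) {c : X} (hc : ‖c‖ < 1) :
    ‖p + c‖ - 1 - B.J c = ‖p + c‖ * (1 - B.J (sph p c)) := by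
  have h1 := smul_sph B.hp hc
  have h2 : ‖p + c‖ * B.J (sph p c) = 1 + B.J c := by
    rw [← smul_eq_mul, ← map_smul, h1, map_add, B.J_p]
  linarith

end BS

end Crest.Agent.R74
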