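import Crest.Agent.R74.Defs

/-!
# Row 74: elementary facts on norming functionals, second differences, `SI`, `kk`
-/

namespace Crest.Agent.R74

open Finset

variable {X Y : Type*} [NormedAddCommGroup X] [NormedSpace ℝ X] [NormedAddCommGroup Y]
  [NormedSpace ℝ Y]

theorem exists_nm (v : X) : ∃ φ : X →L[ℝ] ℝ, Nm φ v := by
  obtain ⟨g, h1, h2⟩ := exists_dual_vector'' ℝ v
  exact ⟨g, h1, by simpa using h2⟩

theorem Nm.abs_le {φ : X →L[ℝ] ℝ} {v : X} (h : Nm φ v) (x : X) : |φ x| ≤ ‖x‖ := by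
  have := φ.le_opNorm x
  rw [Real.norm_eq_abs] at this
  exact this.trans (mul_le_of_le_one_left (norm_nonneg _) h.1)

theorem Nm.le {φ : X →L[ℝ] ℝ} {v : X} (h : Nm φ v) (x : X) : φ x ≤ ‖x‖ := by
  exact (le_abs_self _).trans (h.abs_le x)

/-- subgradient inequality. -/
theorem Nm.sub_le {φ : X →L[ℝ] ℝ} {v : X} (h : Nm φ v) (x : X) : φ x ≤ ‖v + x‖ - ‖v‖ := by
  have := h.le (v + x)
  rw [map_add, h.2] at this
  linarith

theorem Nm.smul {φ : X →L[ℝ] ℝ} {v : X} (h : Nm φ v) {t : ℝ} (ht : 0 ≤ t) : Nm φ (t • v) := by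
  exact ⟨h.1, by rw [map_smul, h.2, norm_smul, Real.norm_eq_abs, abs_of_nonneg ht, smul_eq_mul]⟩

theorem Nm.of_smul {φ : X →L[ℝ] ℝ} {v : X} {t : ℝ} (ht : 0 < t) (h : Nm φ (t • v)) : Nm φ v := by
  have := h.smul (inv_pos.2 ht).le
  rwa [inv_smul_smul₀ ht.ne'] at this

theorem Nm.neg {φ : X →L[ℝ] ℝ} {v : X} (h : Nm φ v) : Nm (-φ) (-v) := by
  exact ⟨by rw [norm_neg]; exact h.1, by simp [h.2]⟩

theorem D2_nonneg (x c : X) : 0 ≤ D2 x c := by
  have h := norm_add_le (x + c) (x - c)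
  rw [show x + c + (x - c) = (2 : ℝ) • x by module, norm_smul, Real.norm_two] at h
  unfold D2
  linarith

theorem D2_neg (x c : X) : D2 x (-c) = D2 x c := by
  unfold D2
  rw [sub_neg_eq_add, ← sub_eq_add_neg]
  ring

theorem D2_le (x c : X) : D2 x c ≤ 2 * ‖c‖ := by
  have h1 := norm_add_le x c
  have h2 := norm_sub_le x c
  unfold D2
  linarith

theorem D2_smul (x c : X) {t : ℝ} (ht : 0 ≤ t) : D2 (t • x) (t • c) = t * D2 x c := by
  unfold D2
  rw [← smul_add, ← smul_sub, norm_smul, norm_smul, norm_smul, Real.norm_eq_abs, abs_of_nonneg ht]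
  ring

/-- `s ↦ D2 x (s • c) / s` is monotone (convexity: `x + s c` is a convex combination of `x` and `x + t c`). -/
theorem D2_mono (x c : X) {s t : ℝ} (hs : 0 ≤ s) (hst : s ≤ t) :
    t * D2 x (s • c) ≤ s * D2 x (t • c) := by
  have key : ∀ c : X, t * ‖x + s • c‖ ≤ (t - s) * ‖x‖ + s * ‖x + t • c‖ := fun c => by
    have h := norm_add_le ((t - s) • x) (s • (x + t • c))
    rw [show (t - s) • x + s • (x + t • c) = t • (x + s • c) by module, norm_smul, norm_smul,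
      norm_smul, Real.norm_eq_abs, Real.norm_eq_abs, Real.norm_eq_abs, abs_of_nonneg hs,
      abs_of_nonneg (hs.trans hst), abs_of_nonneg (sub_nonneg.2 hst)] at h
    exact h
  have h1 := key c
  have h2 := key (-c)
  rw [smul_neg, smul_neg, ← sub_eq_add_neg, ← sub_eq_add_neg] at h2
  unfold D2
  linarith

theorem D2_mono' (x c : X) {s t : ℝ} (hs : 0 ≤ s) (hst : s ≤ t) : D2 x (s • c) ≤ D2 x (t • c) := by
  rcases (hs.trans hst).eq_or_lt with ht | ht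
  · have : s = t := le_antisymm hst (ht ▸ hs)
    rw [this]
  · have h1 := D2_mono x c hs hst
    have h2 := mul_le_mul_of_nonneg_right hst (D2_nonneg x (t • c))
    exact le_of_mul_le_mul_left (h1.trans h2) ht

theorem D2_lip (x y c : X) : D2 x c ≤ D2 y c + 4 * ‖x - y‖ := by
  have h1 := norm_sub_norm_le (x + c) (y + c)
  have h2 := norm_sub_norm_le (x - c) (y - c)
  have h3 := norm_sub_norm_le y x
  rw [add_sub_add_right_eq_sub] at h1
  rw [sub_sub_sub_cancel_right] at h2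
  rw [norm_sub_rev y x] at h3
  unfold D2
  linarith

theorem D2_lip_right (x c c' : X) : D2 x c ≤ D2 x c' + 2 * ‖c - c'‖ := by
  have h1 := norm_sub_norm_le (x + c) (x + c')
  have h2 := norm_sub_norm_le (x - c) (x - c')
  rw [add_sub_add_left_eq_sub] at h1
  rw [sub_sub_sub_cancel_left, norm_sub_rev c' c] at h2
  unfold D2
  linarith

theorem Nm.h_le_D2 {φ : X →L[ℝ] ℝ} {v : X} (h : Nm φ v) (c : X) :
    ‖v + c‖ - ‖v‖ - φ c ≤ D2 v c := by
  have := h.sub_le (-c)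
  rw [map_neg, ← sub_eq_add_neg] at this
  unfold D2
  linarith

/-- first order goodness at scale `L` gives it at all smaller scales. -/
theorem Nm.h_le_of_D2 {φ : X →L[ℝ] ℝ} {v : X} (h : Nm φ v) (e : X) {s L : ℝ} (hL : 0 < L)
    (hs : |s| ≤ L) : ‖v + s • e‖ - ‖v‖ - s * φ e ≤ |s| / L * D2 v (L • e) := by
  have h1 := h.h_le_D2 (s • e)
  rw [map_smul, smul_eq_mul] at h1
  have h2 : D2 v (s • e) = D2 v (|s| • e) := by
    rcases abs_choice s with a | a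
    · rw [a]
    · rw [a, neg_smul, D2_neg]
  have h3 := D2_mono v e (abs_nonneg s) hs
  refine h1.trans ?_
  rw [h2, div_mul_eq_mul_div, le_div_iff₀ hL]
  linarith

/-- two norming functionals at nearby points almost agree on a good direction:
`ψ' e ≤ (‖w' + L e‖ - ‖w'‖) / L`, `ψ e ≥ (‖w‖ - ‖w - L e‖) / L`. -/
theorem Nm.sub_le_of_D2 {ψ ψ' : X →L[ℝ] ℝ} {w w' : X} (h : Nm ψ w) (h' : Nm ψ' w') (e : X) {L : ℝ}
    (hL : 0 < L) : |ψ' e - ψ e| ≤ (D2 w (L • e) + 2 * ‖w' - w‖) / L := by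
  have key : ∀ e : X, L * (ψ' e - ψ e) ≤ D2 w (L • e) + 2 * ‖w' - w‖ := fun e => by
    have h1 := h'.sub_le (L • e)
    have h2 := h.sub_le (-(L • e))
    have h3 := norm_sub_norm_le (w' + L • e) (w + L • e)
    have h4 := norm_sub_norm_le w w'
    rw [add_sub_add_right_eq_sub] at h3
    rw [norm_sub_rev w w'] at h4
    rw [map_neg, ← sub_eq_add_neg] at h2
    rw [map_smul, smul_eq_mul] at h1 h2
    unfold D2
    linarith
  have h1 := key e
  have h2 := key (-e)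
  rw [smul_neg, D2_neg, map_neg, map_neg] at h2
  rw [le_div_iff₀ hL]
  rcases abs_choice (ψ' e - ψ e) with a | a <;> rw [a] <;> linarith

theorem Sm.little {x : X} (h : Sm x) {φ : X →L[ℝ] ℝ} (hφ : Nm φ x) (ζ : X) {ε : ℝ} (hε : 0 < ε) :
    ∃ t₀ : ℝ, 0 < t₀ ∧ ∀ t : ℝ, |t| ≤ t₀ → ‖x + t • ζ‖ - ‖x‖ - t * φ ζ ≤ ε * |t| := by
  obtain ⟨t₀, ht₀, h1⟩ := h ζ ε hε
  refine ⟨t₀, ht₀, fun t ht => (hφ.h_le_of_D2 ζ ht₀ ht).trans ?_⟩
  calc |t| / t₀ * D2 x (t₀ • ζ) ≤ |t| / t₀ * (ε * t₀) :=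
        mul_le_mul_of_nonneg_left h1 (by positivity)
    _ = ε * |t| := by field_simp

theorem Sm.nm_unique {x : X} (h : Sm x) {φ φ' : X →L[ℝ] ℝ} (hφ : Nm φ x) (hφ' : Nm φ' x) :
    φ = φ' := by
  ext ζ
  refine eq_of_abs_sub_nonpos (le_of_forall_pos_le_add fun ε hε => ?_)
  obtain ⟨t, ht, h1⟩ := h ζ ε hε
  have h2 := hφ'.sub_le_of_D2 hφ ζ ht
  rw [sub_self, norm_zero, mul_zero, add_zero] at h2
  refine h2.trans ?_
  rw [zero_add, div_le_iff₀ ht]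
  exact h1

theorem Sm.smul {x : X} (h : Sm x) {t : ℝ} (ht : 0 < t) : Sm (t • x) := by
  intro ζ ε hε
  obtain ⟨s, hs, h1⟩ := h ζ ε hε
  refine ⟨t * s, by positivity, ?_⟩
  rw [mul_smul, D2_smul _ _ ht.le]
  nlinarith

theorem sm_of_D2_le {x : X} {δ C : ℝ} (hδ : 0 < δ) (h : ∀ c, ‖c‖ ≤ δ → D2 x c ≤ C * ‖c‖ ^ 2) :
    Sm x := by
  intro ζ ε hε
  set K : ℝ := |C| * ‖ζ‖ ^ 2 + 1 with hK
  have hK0 : 0 < K := by positivity
  have hz : 0 < ‖ζ‖ + 1 := by positivity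
  set t : ℝ := min (δ / (‖ζ‖ + 1)) (ε / K) with ht
  have ht0 : 0 < t := lt_min (by positivity) (by positivity)
  have h1 : t * (‖ζ‖ + 1) ≤ δ := (le_div_iff₀ hz).1 (min_le_left _ _)
  have h2 : t * K ≤ ε := (le_div_iff₀ hK0).1 (min_le_right _ _)
  have hn : ‖t • ζ‖ = t * ‖ζ‖ := by rw [norm_smul, Real.norm_eq_abs, abs_of_pos ht0]
  refine ⟨t, ht0, (h _ (by rw [hn]; nlinarith)).trans ?_⟩
  rw [hn]
  calc C * (t * ‖ζ‖) ^ 2 ≤ |C| * (t * ‖ζ‖) ^ 2 :=
        mul_le_mul_of_nonneg_right (le_abs_self C) (by positivity)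
    _ ≤ (t * K) * t := by rw [hK]; nlinarith [mul_pos ht0 ht0]
    _ ≤ ε * t := mul_le_mul_of_nonneg_right h2 ht0.le

theorem norm_normalize {x : X} (hx : x ≠ 0) : ‖‖x‖⁻¹ • x‖ = 1 := by
  rw [norm_smul, norm_inv, norm_norm, inv_mul_cancel₀ (norm_ne_zero_iff.2 hx)]

theorem normalize_sub_le {x y : X} (hx : x ≠ 0) (hy : y ≠ 0) :
    ‖‖x‖⁻¹ • x - ‖y‖⁻¹ • y‖ ≤ 2 * ‖x - y‖ / ‖x‖ := by
  have hx0 := norm_pos_iff.2 hx
  have hy0 := norm_pos_iff.2 hy
  have e : ‖x‖⁻¹ • x - ‖y‖⁻¹ • y = ‖x‖⁻¹ • (x - y) + (‖x‖⁻¹ * (‖y‖ - ‖x‖)) • (‖y‖⁻¹ • y) := by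
    rw [smul_smul, show ‖x‖⁻¹ * (‖y‖ - ‖x‖) * ‖y‖⁻¹ = ‖x‖⁻¹ - ‖y‖⁻¹ by field_simp]
    module
  rw [e]
  refine (norm_add_le _ _).trans ?_
  rw [norm_smul, norm_smul, norm_normalize hy, norm_mul, norm_inv, norm_norm, Real.norm_eq_abs,
    mul_one, le_div_iff₀ hx0]
  have h1 := abs_norm_sub_norm_le y x
  rw [norm_sub_rev y x] at h1
  have : (‖x‖⁻¹ * ‖x - y‖ + ‖x‖⁻¹ * |‖y‖ - ‖x‖|) * ‖x‖ = ‖x - y‖ + |‖y‖ - ‖x‖| := by field_simp
  rw [this]
  linarith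

theorem basic_add_ne {p a : X} (hp : ‖p‖ = 1) (ha : ‖a‖ < 1) : p + a ≠ 0 := by
  intro h
  rw [eq_neg_of_add_eq_zero_left h, norm_neg] at hp
  exact ha.ne hp

theorem norm_sph {p a : X} (hp : ‖p‖ = 1) (ha : ‖a‖ < 1) : ‖sph p a‖ = 1 := by
  exact norm_normalize (basic_add_ne hp ha)

theorem smul_sph {p a : X} (hp : ‖p‖ = 1) (ha : ‖a‖ < 1) : ‖p + a‖ • sph p a = p + a := by
  rw [sph, smul_inv_smul₀ (norm_ne_zero_iff.2 (basic_add_ne hp ha))]

theorem sph_sub_le {p a : X} (hp : ‖p‖ = 1) (ha : ‖a‖ < 1) : ‖sph p a - p‖ ≤ 2 * ‖a‖ := by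
  have hp0 : p ≠ 0 := by
    rintro rfl
    simp at hp
  have := normalize_sub_le hp0 (basic_add_ne hp ha)
  rw [hp, inv_one, one_smul, div_one, sub_add_cancel_left, norm_neg, norm_sub_rev] at this
  exact this

theorem norm_dX {p a : X} (hp : ‖p‖ = 1) (ha : ‖a‖ < 1) : ‖dX p a‖ = |‖p + a‖ - 1| := by
  have e : dX p a = (1 - ‖p + a‖) • sph p a := by
    rw [sub_smul, smul_sph hp ha, one_smul, dX, sub_sub]
  rw [e, norm_smul, norm_sph hp ha, mul_one, Real.norm_eq_abs, abs_sub_comm]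

namespace SI

variable (S : SI X Y)

theorem map_zero : S.F 0 = 0 := by
  have := S.smul 0 0
  rwa [zero_smul, zero_smul] at this

theorem neg (x : X) : S.F (-x) = -S.F x := by
  have := S.smul (-1) x
  rwa [neg_one_smul, neg_one_smul] at this

theorem add {x x' : X} (h : ‖x‖ = ‖x'‖) : ‖S.F x + S.F x'‖ = ‖x + x'‖ := by
  have := S.dist x (-x') (by rw [norm_neg, h])
  rwa [S.neg, sub_neg_eq_add, sub_neg_eq_add] at this

/-- compare through `x'' = (‖x‖ / ‖x'‖) • x'`. -/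
theorem lip3 (x x' : X) : ‖S.F x - S.F x'‖ ≤ 3 * ‖x - x'‖ := by
  rcases eq_or_ne x' 0 with rfl | hx'
  · rw [S.map_zero, sub_zero, sub_zero, S.norm]
    linarith [norm_nonneg x]
  have h0 := norm_pos_iff.2 hx'
  set r : ℝ := ‖x‖ / ‖x'‖ with hr
  have hr0 : 0 ≤ r := by positivity
  have hrx : r * ‖x'‖ = ‖x‖ := by rw [hr]; field_simp
  have h1 : ‖S.F x - S.F (r • x')‖ = ‖x - r • x'‖ :=
    S.dist _ _ (by rw [norm_smul, Real.norm_eq_abs, abs_of_nonneg hr0, hrx])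
  have h2 : |r - 1| * ‖x'‖ ≤ ‖x - x'‖ := by
    rw [← abs_of_pos h0, ← abs_mul, sub_mul, hrx, one_mul]
    exact abs_norm_sub_norm_le x x'
  have h3 : ‖S.F (r • x') - S.F x'‖ = |r - 1| * ‖x'‖ := by
    rw [S.smul, show r • S.F x' - S.F x' = (r - 1) • S.F x' by module, norm_smul, S.norm,
      Real.norm_eq_abs]
  have h4 : ‖x' - r • x'‖ = |r - 1| * ‖x'‖ := by
    rw [show x' - r • x' = -((r - 1) • x') by module, norm_neg, norm_smul, Real.norm_eq_abs]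
  have h5 := norm_sub_le_norm_sub_add_norm_sub (S.F x) (S.F (r • x')) (S.F x')
  have h6 := norm_sub_le_norm_sub_add_norm_sub x x' (r • x')
  linarith

theorem continuous : Continuous S.F := by
  refine (LipschitzWith.of_dist_le_mul (K := 3) fun x x' => ?_).continuous
  rw [dist_eq_norm, dist_eq_norm]
  exact S.lip3 x x'

theorem F_sph {p a : X} : S.F (sph p a) = ‖p + a‖⁻¹ • S.F (p + a) := by
  exact S.smul _ _

end SI

theorem kk_gauge {φ : X →L[ℝ] ℝ} {v : X} (h : Nm φ v) : Gauge (kk φ v) := by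
  refine ⟨⟨convex_univ, fun x _ y _ a b ha hb hab => ?_⟩, fun c => ?_, by simp [kk]⟩
  · have h1 := norm_add_le (a • (v - x)) (b • (v - y))
    have e : a • (v - x) + b • (v - y) = v - (a • x + b • y) := by
      have : v = (a + b) • v := by rw [hab, one_smul]
      conv_rhs => rw [this]
      module
    rw [e, norm_smul, norm_smul, Real.norm_eq_abs, Real.norm_eq_abs, abs_of_nonneg ha,
      abs_of_nonneg hb] at h1
    simp only [kk, map_add, map_smul, smul_eq_mul]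
    have : ‖v‖ = (a + b) * ‖v‖ := by rw [hab, one_mul]
    linarith
  · have := h.sub_le (-c)
    rw [map_neg, ← sub_eq_add_neg] at this
    unfold kk
    linarith

theorem kk_add_neg (φ : X →L[ℝ] ℝ) (v c : X) : kk φ v c + kk φ v (-c) = D2 v c := by
  unfold kk D2
  rw [map_neg, sub_neg_eq_add]
  ring

theorem kk_smul_self {φ : X →L[ℝ] ℝ} {v : X} (h : Nm φ v) {s : ℝ} (hs : s ≤ 1) :
    kk φ v (s • v) = 0 := by
  unfold kk
  rw [show v - s • v = (1 - s) • v by module, norm_smul, Real.norm_eq_abs,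
    abs_of_nonneg (sub_nonneg.2 hs), map_smul, h.2, smul_eq_mul]
  ring

theorem kk_lip {φ : X →L[ℝ] ℝ} {v : X} (h : Nm φ v) (c c' : X) :
    |kk φ v c - kk φ v c'| ≤ 2 * ‖c - c'‖ := by
  have h1 := abs_norm_sub_norm_le (v - c) (v - c')
  rw [sub_sub_sub_cancel_left, norm_sub_rev c' c] at h1
  have h2 := h.abs_le (c - c')
  rw [map_sub] at h2
  rw [abs_le] at h1 h2 ⊢
  unfold kk
  constructor <;> linarith [h1.1, h1.2, h2.1, h2.2]

theorem kk_le_of_D2 {φ : X →L[ℝ] ℝ} {v : X} (h : Nm φ v) (e : X) {s L : ℝ} (hL : 0 < L)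
    (hs : |s| ≤ L) : kk φ v (s • e) ≤ |s| / L * D2 v (L • e) := by
  have := h.h_le_of_D2 e (s := -s) hL (by rwa [abs_neg])
  rw [abs_neg, neg_smul, ← sub_eq_add_neg] at this
  unfold kk
  rw [map_smul, smul_eq_mul]
  linarith

/-- `‖v‖ ≥ ‖v - c‖ + φ' c` for `φ'` norming `v - c`. -/
theorem kk_le_sub {φ φ' : X →L[ℝ] ℝ} {v c : X} (h' : Nm φ' (v - c)) : kk φ v c ≤ φ c - φ' c := by
  have := h'.sub_le c
  rw [sub_add_cancel] at this
  unfold kk
  linarith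

theorem C0_pos : 0 < C0 := by unfold C0; positivity
theorem one_le_C0 : 1 ≤ C0 := by unfold C0; norm_num
theorem c0_pos : 0 < c0 := by unfold c0; positivity
theorem c0_le : c0 ≤ 1 / 100 := by unfold c0; norm_num

end Crest.Agent.R74
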