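import Crest.Agent.R74.Defs2

/-!
# Row 74: calculus of `E`, `Q`, `QL`, `P`
-/

namespace Crest.Agent.R74

open Finset

variable {X Y : Type*} [NormedAddCommGroup X] [NormedSpace ℝ X] [NormedAddCommGroup Y]
  [NormedSpace ℝ Y]

namespace Fam

section E

variable {V : Type*} [AddCommGroup V] (𝓕 : Fam V)

theorem E_add {Z : Type*} [AddCommGroup Z] [Module ℝ Z] (g h : 𝓕.Ω → Z) :
    𝓕.E (fun ω => g ω + h ω) = 𝓕.E g + 𝓕.E h := by
  simp only [E, sum_add_distrib, smul_add]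

theorem E_sub {Z : Type*} [AddCommGroup Z] [Module ℝ Z] (g h : 𝓕.Ω → Z) :
    𝓕.E (fun ω => g ω - h ω) = 𝓕.E g - 𝓕.E h := by
  simp only [E, sum_sub_distrib, smul_sub]

theorem E_smul {Z : Type*} [AddCommGroup Z] [Module ℝ Z] (c : ℝ) (g : 𝓕.Ω → Z) :
    𝓕.E (fun ω => c • g ω) = c • 𝓕.E g := by
  simp only [E, ← smul_sum]
  exact smul_comm _ _ _

theorem E_mul (c : ℝ) (g : 𝓕.Ω → ℝ) : 𝓕.E (fun ω => c * g ω) = c * 𝓕.E g := by
  exact 𝓕.E_smul c g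

theorem E_const {Z : Type*} [AddCommGroup Z] [Module ℝ Z] (z : Z) : 𝓕.E (fun _ => z) = z := by
  have : (Fintype.card 𝓕.Ω : ℝ) ≠ 0 := Nat.cast_ne_zero.2 Fintype.card_ne_zero
  rw [E, sum_const, card_univ, ← Nat.cast_smul_eq_nsmul ℝ, smul_smul, inv_mul_cancel₀ this, one_smul]

theorem E_sum {Z ι : Type*} [AddCommGroup Z] [Module ℝ Z] (I : Finset ι) (g : ι → 𝓕.Ω → Z) :
    𝓕.E (fun ω => ∑ i ∈ I, g i ω) = ∑ i ∈ I, 𝓕.E (g i) := by
  simp only [E]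
  rw [sum_comm, smul_sum]

theorem E_mono {g h : 𝓕.Ω → ℝ} (hgh : ∀ ω, g ω ≤ h ω) : 𝓕.E g ≤ 𝓕.E h := by
  simp only [E, smul_eq_mul]
  exact mul_le_mul_of_nonneg_left (sum_le_sum fun ω _ => hgh ω) (by positivity)

theorem E_nonneg {g : 𝓕.Ω → ℝ} (hg : ∀ ω, 0 ≤ g ω) : 0 ≤ 𝓕.E g := by
  have := 𝓕.E_mono (g := fun _ => 0) hg
  rwa [E_const] at this

theorem E_abs_le (g : 𝓕.Ω → ℝ) : |𝓕.E g| ≤ 𝓕.E fun ω => |g ω| := by
  refine abs_le.2 ⟨?_, 𝓕.E_mono fun ω => le_abs_self _⟩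
  have h := 𝓕.E_mono (g := fun ω => (-1 : ℝ) * |g ω|) (h := g)
    fun ω => by rw [neg_one_mul]; exact neg_abs_le _
  rwa [E_mul, neg_one_mul] at h

theorem E_clm {Z Z' : Type*} [NormedAddCommGroup Z] [NormedSpace ℝ Z] [NormedAddCommGroup Z']
    [NormedSpace ℝ Z'] (A : Z →L[ℝ] Z') (g : 𝓕.Ω → Z) : A (𝓕.E g) = 𝓕.E fun ω => A (g ω) := by
  simp only [E, map_smul, map_sum]

theorem E_ng {Z : Type*} [AddCommGroup Z] [Module ℝ Z] (g : 𝓕.Ω → Z) :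
    𝓕.E (fun ω => g (𝓕.ng ω)) = 𝓕.E g := by
  simp only [E]
  rw [Equiv.sum_comp 𝓕.ng g]

theorem exists_le_E (g : 𝓕.Ω → ℝ) : ∃ ω, g ω ≤ 𝓕.E g := by
  obtain ⟨ω, -, hω⟩ := exists_min_image univ g univ_nonempty
  refine ⟨ω, ?_⟩
  have := 𝓕.E_mono (g := fun _ => g ω) (h := g) fun ω' => hω ω' (mem_univ _)
  rwa [E_const] at this

end E

variable (𝓕 : Fam X)

theorem exists_bound : ∃ M : ℝ, 1 ≤ M ∧ ∀ ω, ‖𝓕.u ω‖ ≤ M := by
  obtain ⟨ω, -, hω⟩ := exists_max_image univ (fun ω => ‖𝓕.u ω‖) univ_nonempty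
  exact ⟨max 1 ‖𝓕.u ω‖, le_max_left _ _, fun ω' => (hω ω' (mem_univ _)).trans (le_max_right _ _)⟩

theorem map_E {Z : Type*} [AddCommGroup Z] [Module ℝ Z] (A : X →L[ℝ] Y) (g : 𝓕.Ω → Z) :
    (𝓕.map A).E g = 𝓕.E g := rfl

theorem map_u (A : X →L[ℝ] Y) (ω : 𝓕.Ω) : (𝓕.map A).u ω = A (𝓕.u ω) := rfl

/-- `l = [1]`. -/
theorem Up.E_sq {𝓕 : Fam X} {c : ℝ} (h : 𝓕.Up c) : 𝓕.E (fun ω => ‖𝓕.u ω‖ ^ 2) ≤ c := by
  simpa [QL, Q] using h [1]

theorem Q_sym (τ : ℝ) (g : X → ℝ) (x : X) :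
    𝓕.Q τ g x = g x + 1 / 2 * 𝓕.E fun ω => g (x + τ • 𝓕.u ω) + g (x - τ • 𝓕.u ω) - 2 * g x := by
  have h1 : 𝓕.E (fun ω => g (x - τ • 𝓕.u ω)) = 𝓕.Q τ g x := by
    rw [← E_ng]
    simp only [𝓕.hng, smul_neg, sub_neg_eq_add, Q]
  rw [E_sub, E_add, h1, E_const]
  change 𝓕.Q τ g x = g x + 1 / 2 * (𝓕.Q τ g x + 𝓕.Q τ g x - 2 * g x)
  ring

theorem QL_mono (l : List ℝ) {g h : X → ℝ} (hgh : ∀ x, g x ≤ h x) (x : X) : 𝓕.QL l g x ≤ 𝓕.QL l h x := by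
  induction l generalizing x with
  | nil => exact hgh x
  | cons τ l ih => exact 𝓕.E_mono fun ω => ih _

theorem QL_mul (l : List ℝ) (c : ℝ) (g : X → ℝ) (x : X) :
    𝓕.QL l (fun y => c * g y) x = c * 𝓕.QL l g x := by
  induction l generalizing x with
  | nil => rfl
  | cons τ l ih =>
    change 𝓕.E (fun ω => 𝓕.QL l (fun y => c * g y) (x + τ • 𝓕.u ω)) =
      c * 𝓕.E fun ω => 𝓕.QL l g (x + τ • 𝓕.u ω)
    simp only [ih, E_mul]

theorem QL_map (A : X →L[ℝ] Y) (l : List ℝ) (g : Y → ℝ) (x : X) :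
    (𝓕.map A).QL l g (A x) = 𝓕.QL l (fun y => g (A y)) x := by
  induction l generalizing x with
  | nil => rfl
  | cons τ l ih =>
    change 𝓕.E (fun ω => (𝓕.map A).QL l g (A x + τ • A (𝓕.u ω))) =
      𝓕.E fun ω => 𝓕.QL l (fun y => g (A y)) (x + τ • 𝓕.u ω)
    simp only [← ih, map_add, map_smul]

/-- `(𝓕.map A).QL l g (A x) = 𝓕.QL l (g ∘ A) x` by induction on `l`. -/
theorem Up.map {𝓕 : Fam X} {c K : ℝ} (h : 𝓕.Up c) (A : X →L[ℝ] Y) (hK : 0 ≤ K) (hA : ∀ x, ‖A x‖ ≤ K * ‖x‖) :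
    (𝓕.map A).Up (K ^ 2 * c) := by
  intro l
  have h1 := 𝓕.QL_map A l (fun y => ‖y‖ ^ 2) 0
  rw [map_zero] at h1
  rw [h1, mul_assoc]
  calc 𝓕.QL l (fun y => ‖A y‖ ^ 2) 0 ≤ 𝓕.QL l (fun y => K ^ 2 * ‖y‖ ^ 2) 0 :=
        𝓕.QL_mono l (fun y => by
          rw [← mul_pow]
          exact pow_le_pow_left₀ (norm_nonneg _) (hA y) 2) 0
    _ ≤ _ := by
        rw [QL_mul]
        exact mul_le_mul_of_nonneg_left (h l) (pow_nonneg hK 2)

theorem Good.mono {𝓕 : Fam X} {β β' : ℝ} (h : 𝓕.Good β) (h0 : 0 ≤ β) (hβ : β ≤ β') : 𝓕.Good β' := by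
  exact ⟨h.up, h.low, fun φ => (h.weak φ).trans
    (mul_le_mul_of_nonneg_right (pow_le_pow_left₀ h0 hβ 2) (sq_nonneg _))⟩

section P

variable {ι : Type*} {I : Finset ι} {π t : ι → ℝ}

theorem P_sub (hP : Prob I π) (g : X → ℝ) (x : X) :
    𝓕.P I π t g x - g x = ∑ i ∈ I, π i / 2 *
      𝓕.E fun ω => g (x + t i • 𝓕.u ω) + g (x - t i • 𝓕.u ω) - 2 * g x := by
  have : g x = ∑ i ∈ I, π i * g x := by rw [← sum_mul, hP.2, one_mul]
  rw [P]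
  conv_lhs => rw [this]
  rw [← sum_sub_distrib]
  refine sum_congr rfl fun i _ => ?_
  rw [Q_sym]
  ring

theorem P_iter_mono (hP : Prob I π) (k : ℕ) {g h : X → ℝ} (hgh : ∀ y, g y ≤ h y) (x : X) :
    (𝓕.P I π t)^[k] g x ≤ (𝓕.P I π t)^[k] h x := by
  induction k generalizing x with
  | zero => exact hgh x
  | succ k ih =>
    rw [Function.iterate_succ_apply', Function.iterate_succ_apply']
    exact sum_le_sum fun i hi => mul_le_mul_of_nonneg_left (𝓕.E_mono fun ω => ih _) (hP.1 i hi)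

theorem P_iter_add (k : ℕ) (g h : X → ℝ) (x : X) :
    (𝓕.P I π t)^[k] (fun y => g y + h y) x = (𝓕.P I π t)^[k] g x + (𝓕.P I π t)^[k] h x := by
  induction k generalizing x with
  | zero => rfl
  | succ k ih =>
    simp only [Function.iterate_succ_apply', P, Q, ih, E_add, mul_add, sum_add_distrib]

theorem P_iter_sub (k : ℕ) (g h : X → ℝ) (x : X) :
    (𝓕.P I π t)^[k] (fun y => g y - h y) x = (𝓕.P I π t)^[k] g x - (𝓕.P I π t)^[k] h x := by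
  induction k generalizing x with
  | zero => rfl
  | succ k ih =>
    simp only [Function.iterate_succ_apply', P, Q, ih, E_sub, mul_sub, sum_sub_distrib]

theorem P_iter_mul (k : ℕ) (c : ℝ) (g : X → ℝ) (x : X) :
    (𝓕.P I π t)^[k] (fun y => c * g y) x = c * (𝓕.P I π t)^[k] g x := by
  induction k generalizing x with
  | zero => rfl
  | succ k ih =>
    simp only [Function.iterate_succ_apply', P, Q, ih, E_mul, mul_sum]
    exact sum_congr rfl fun i _ => by ring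

theorem P_iter_sum {κ : Type*} (J : Finset κ) (k : ℕ) (g : κ → X → ℝ) (x : X) :
    (𝓕.P I π t)^[k] (fun y => ∑ j ∈ J, g j y) x = ∑ j ∈ J, (𝓕.P I π t)^[k] (g j) x := by
  induction k generalizing x with
  | zero => rfl
  | succ k ih =>
    simp only [Function.iterate_succ_apply', P, Q, ih, E_sum, mul_sum]
    exact sum_comm

theorem P_iter_const (hP : Prob I π) (k : ℕ) (c : ℝ) (x : X) : (𝓕.P I π t)^[k] (fun _ => c) x = c := by
  induction k generalizing x with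
  | zero => rfl
  | succ k ih =>
    simp only [Function.iterate_succ_apply', P, Q, ih, E_const]
    rw [← sum_mul, hP.2, one_mul]

theorem P_iter_translate (k : ℕ) (g : X → ℝ) (a x : X) :
    (𝓕.P I π t)^[k] (fun y => g (y + a)) x = (𝓕.P I π t)^[k] g (x + a) := by
  induction k generalizing x with
  | zero => rfl
  | succ k ih =>
    simp only [Function.iterate_succ_apply', P, Q, ih, add_right_comm x a]

theorem exists_le_P_iter (hP : Prob I π) (k : ℕ) (g : X → ℝ) (x : X) : ∃ y, g y ≤ (𝓕.P I π t)^[k] g x := by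
  induction k generalizing x with
  | zero => exact ⟨x, le_rfl⟩
  | succ k ih =>
    have hne : I.Nonempty := nonempty_iff_ne_empty.2 fun h => by simpa [h] using hP.2
    rw [Function.iterate_succ_apply']
    set G := (𝓕.P I π t)^[k] g
    obtain ⟨i, -, hi⟩ := exists_min_image I (fun i => 𝓕.Q (t i) G x) hne
    obtain ⟨ω, hω⟩ := 𝓕.exists_le_E fun ω => G (x + t i • 𝓕.u ω)
    obtain ⟨y, hy⟩ := ih (x + t i • 𝓕.u ω)
    refine ⟨y, hy.trans (hω.trans ?_)⟩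
    calc 𝓕.Q (t i) G x = ∑ j ∈ I, π j * 𝓕.Q (t i) G x := by rw [← sum_mul, hP.2, one_mul]
      _ ≤ _ := sum_le_sum fun j hj => mul_le_mul_of_nonneg_left (hi j hj) (hP.1 j hj)

theorem P_iter_convex (hP : Prob I π) (k : ℕ) {g : X → ℝ} (hg : ConvexOn ℝ Set.univ g) :
    ConvexOn ℝ Set.univ ((𝓕.P I π t)^[k] g) := by
  refine ⟨convex_univ, fun x _ y _ a b ha hb hab => ?_⟩
  have h1 := 𝓕.P_iter_translate (I := I) (π := π) (t := t) k g (a • x + b • y) 0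
  have h2 := 𝓕.P_iter_translate (I := I) (π := π) (t := t) k g x 0
  have h3 := 𝓕.P_iter_translate (I := I) (π := π) (t := t) k g y 0
  rw [zero_add] at h1 h2 h3
  rw [← h1, ← h2, ← h3, smul_eq_mul, smul_eq_mul, ← P_iter_mul, ← P_iter_mul, ← P_iter_add]
  refine 𝓕.P_iter_mono hP k (fun z => ?_) 0
  have h4 : z + (a • x + b • y) = a • (z + x) + b • (z + y) := by
    rw [smul_add, smul_add, add_add_add_comm, ← add_smul, hab, one_smul]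
  rw [h4]
  exact hg.2 (Set.mem_univ _) (Set.mem_univ _) ha hb hab

theorem P_iter_lip (hP : Prob I π) (k : ℕ) {g : X → ℝ} (hg : ∀ x y, |g x - g y| ≤ ‖x - y‖) (x y : X) :
    |(𝓕.P I π t)^[k] g x - (𝓕.P I π t)^[k] g y| ≤ ‖x - y‖ := by
  have h2 := 𝓕.P_iter_translate (I := I) (π := π) (t := t) k g x 0
  have h3 := 𝓕.P_iter_translate (I := I) (π := π) (t := t) k g y 0
  rw [zero_add] at h2 h3
  rw [← h2, ← h3, ← P_iter_sub]
  have h4 : ∀ z, |g (z + x) - g (z + y)| ≤ ‖x - y‖ := fun z => by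
    simpa only [add_sub_add_left_eq_sub] using hg (z + x) (z + y)
  refine abs_le.2 ⟨?_, ?_⟩
  · rw [← 𝓕.P_iter_const hP k (-‖x - y‖) 0]
    exact 𝓕.P_iter_mono hP k (fun z => (abs_le.1 (h4 z)).1) 0
  · rw [← 𝓕.P_iter_const hP k ‖x - y‖ 0]
    exact 𝓕.P_iter_mono hP k (fun z => (abs_le.1 (h4 z)).2) 0

theorem P_iter_succ_QL (k : ℕ) (l : List ℝ) (g : X → ℝ) (x : X) :
    (𝓕.P I π t)^[k + 1] (𝓕.QL l g) x = ∑ i ∈ I, π i * (𝓕.P I π t)^[k] (𝓕.QL (t i :: l) g) x := by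
  rw [Function.iterate_succ_apply]
  simp only [← P_iter_mul]
  rw [← P_iter_sum]
  rfl

theorem prob_sum (hP : Prob I π) (c : ℝ) (k : ℕ) (l : List ℝ) :
    ∑ i ∈ I, π i * (c * (k * ∑ j ∈ I, π j * t j ^ 2 + ((t i :: l).map (· ^ 2)).sum)) =
      c * ((k + 1 : ℕ) * ∑ j ∈ I, π j * t j ^ 2 + (l.map (· ^ 2)).sum) := by
  set S := ∑ j ∈ I, π j * t j ^ 2 with hS
  set L := (l.map (· ^ 2)).sum with hL
  have h1 : ∀ i ∈ I, π i * (c * (k * S + ((t i :: l).map (· ^ 2)).sum)) =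
      c * (k * S + L) * π i + c * (π i * t i ^ 2) := fun i _ => by
    rw [List.map_cons, List.sum_cons, ← hL]
    ring
  rw [sum_congr rfl h1, sum_add_distrib, ← mul_sum, ← mul_sum, hP.2, ← hS]
  push_cast
  ring

theorem P_iter_sq (k : ℕ) (x : X) :
    (𝓕.P I π t)^[k] (fun y => ‖y - x‖ ^ 2) x = (𝓕.P I π t)^[k] (𝓕.QL [] fun y => ‖y‖ ^ 2) 0 := by
  have h := 𝓕.P_iter_translate (I := I) (π := π) (t := t) k (fun y => ‖y‖ ^ 2) (-x) x
  rw [add_neg_cancel] at h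
  simp only [sub_eq_add_neg]
  exact h

/-- generalise: `P^[k] (QL l ‖·‖²) 0 ≤ c (k ∑ π t² + ∑ l²)` for all `l`, by induction on `k`, since
`P (QL l g) = ∑ π i * QL (t i :: l) g` (`Function.iterate_succ_apply`); then translate. -/
theorem P_iter_up (hP : Prob I π) {c : ℝ} (h : 𝓕.Up c) (k : ℕ) (x : X) :
    (𝓕.P I π t)^[k] (fun y => ‖y - x‖ ^ 2) x ≤ c * (k * ∑ i ∈ I, π i * t i ^ 2) := by
  have key : ∀ l : List ℝ, (𝓕.P I π t)^[k] (𝓕.QL l fun y => ‖y‖ ^ 2) 0 ≤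
      c * (k * ∑ j ∈ I, π j * t j ^ 2 + (l.map (· ^ 2)).sum) := by
    induction k with
    | zero => intro l; simpa using h l
    | succ k ih =>
      intro l
      rw [P_iter_succ_QL, ← prob_sum hP]
      exact sum_le_sum fun i hi => mul_le_mul_of_nonneg_left (ih _) (hP.1 i hi)
  rw [P_iter_sq]
  simpa using key []

theorem P_iter_low (hP : Prob I π) {β : ℝ} (h : 𝓕.Good β) (k : ℕ) (x : X) :
    (k * ∑ i ∈ I, π i * t i ^ 2) / 16 ≤ (𝓕.P I π t)^[k] (fun y => ‖y - x‖ ^ 2) x := by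
  have key : ∀ l : List ℝ, 16⁻¹ * (k * ∑ j ∈ I, π j * t j ^ 2 + (l.map (· ^ 2)).sum) ≤
      (𝓕.P I π t)^[k] (𝓕.QL l fun y => ‖y‖ ^ 2) 0 := by
    induction k with
    | zero => intro l; simpa [div_eq_inv_mul] using h.low l
    | succ k ih =>
      intro l
      rw [P_iter_succ_QL, ← prob_sum hP]
      exact sum_le_sum fun i hi => mul_le_mul_of_nonneg_left (ih _) (hP.1 i hi)
  rw [P_iter_sq, div_eq_inv_mul]
  simpa using key []

/-- `‖y - x₀‖² ≤ 2‖x - x₀‖² + 2‖y - x‖²`. -/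
theorem P_iter_up' (hP : Prob I π) {c : ℝ} (h : 𝓕.Up c) (k : ℕ) (x₀ x : X) :
    (𝓕.P I π t)^[k] (fun y => ‖y - x₀‖ ^ 2) x ≤
      2 * ‖x - x₀‖ ^ 2 + 2 * (c * (k * ∑ i ∈ I, π i * t i ^ 2)) := by
  calc (𝓕.P I π t)^[k] (fun y => ‖y - x₀‖ ^ 2) x
      ≤ (𝓕.P I π t)^[k] (fun y => 2 * ‖x - x₀‖ ^ 2 + 2 * ‖y - x‖ ^ 2) x := by
        refine 𝓕.P_iter_mono hP k (fun y => ?_) x
        have h1 : ‖y - x₀‖ ≤ ‖y - x‖ + ‖x - x₀‖ := norm_sub_le_norm_sub_add_norm_sub _ _ _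
        have h2 := pow_le_pow_left₀ (norm_nonneg _) h1 2
        nlinarith [sq_nonneg (‖y - x‖ - ‖x - x₀‖)]
    _ ≤ _ := by
        rw [P_iter_add, P_iter_const _ hP, P_iter_mul]
        have := 𝓕.P_iter_up (t := t) hP h k x
        linarith

/-- `‖y‖ ≤ ‖x‖ + s / 2 + ‖y - x‖² / (2 s)`. -/
theorem P_iter_norm_le (hP : Prob I π) {c : ℝ} (h : 𝓕.Up c) (k : ℕ) (x : X) {s : ℝ} (hs : 0 < s) :
    (𝓕.P I π t)^[k] (fun y => ‖y‖) x ≤ ‖x‖ + s / 2 + c * (k * ∑ i ∈ I, π i * t i ^ 2) / (2 * s) := by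
  calc (𝓕.P I π t)^[k] (fun y => ‖y‖) x
      ≤ (𝓕.P I π t)^[k] (fun y => ‖x‖ + s / 2 + (2 * s)⁻¹ * ‖y - x‖ ^ 2) x := by
        refine 𝓕.P_iter_mono hP k (fun y => ?_) x
        have h1 : ‖y‖ ≤ ‖x‖ + ‖y - x‖ := norm_le_norm_add_norm_sub' _ _
        have h2 : ‖y - x‖ ≤ s / 2 + (2 * s)⁻¹ * ‖y - x‖ ^ 2 := by
          rw [inv_mul_eq_div, ← sub_le_iff_le_add', le_div_iff₀ (by positivity)]
          nlinarith [sq_nonneg (‖y - x‖ - s)]
        linarith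
    _ ≤ _ := by
        rw [P_iter_add, P_iter_const _ hP, P_iter_mul, inv_mul_eq_div]
        have := 𝓕.P_iter_up (t := t) hP h k x
        gcongr

end P

end Fam

end Crest.Agent.R74
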