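import Crest.Agent.R74.Chord1
import Crest.Agent.R74.FamB

/-!
# Row 74: the chains of a weakly small random vector
-/

namespace Crest.Agent.R74

open Finset

variable {X Y : Type*} [NormedAddCommGroup X] [NormedSpace ℝ X] [NormedAddCommGroup Y]
  [NormedSpace ℝ Y]

theorem apx_J {S : SI X Y} {p q₁ : X} (B : BS S p) (B₁ : BS S q₁) (sg : Bool) (j : ℕ) (x : X) :
    B.J (apx B B₁ sg j x) = 0 := by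
  exact B.J_pr _

theorem bes_iter {f : X → X} {L : ℝ} (hL : 0 ≤ L) (hf : ∀ x, ‖f x‖ ≤ L * ‖x‖) (j : ℕ) (x : X) :
    ‖f^[j] x‖ ≤ L ^ j * ‖x‖ := by
  induction j with
  | zero => simp
  | succ j ih =>
    rw [Function.iterate_succ_apply', pow_succ', mul_assoc]
    exact (hf _).trans (mul_le_mul_of_nonneg_left ih hL)

theorem bes_nine {S : SI X Y} {p q : X} (B : BS S p) (B₁ : BS S q) (x : X) :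
    ‖B₁.T.symm (B.T x)‖ ≤ 9 * ‖x‖ := by
  linarith [B₁.Tsymm_le (B.T x), B.T_le x]

theorem apx_le {S : SI X Y} {p q₁ : X} (B : BS S p) (B₁ : BS S q₁) (sg : Bool) (j : ℕ) (x : X) :
    ‖apx B B₁ sg j x‖ ≤ 4 * 9 ^ j * ‖x‖ := by
  have h1 := bes_iter (f := fun z => if sg then B₁.T.symm (B.T z) else B.T.symm (B₁.T z)) (L := 9)
    (by norm_num) (fun z => by split_ifs <;> apply bes_nine) j (B.pr x)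
  have h2 := mul_le_mul_of_nonneg_left (B.pr_le x) (show (0 : ℝ) ≤ 9 ^ j by positivity)
  exact (B.pr_le _).trans (by linarith)

/-- iterates of a rank two perturbation of `U`, compared with the iterates of `U₁`. -/
theorem lin_chain (Λ U U₁ : X →L[ℝ] X) (l₁ l₂ : X →L[ℝ] ℝ) (y₁ y₂ : X) {ϖ : ℝ} (hϖ : 0 ≤ ϖ)
    (hΛ : ∀ a, Λ a = U a + l₁ a • y₁ + l₂ a • y₂) (hU : ∀ x, ‖U x‖ ≤ 9 * ‖x‖) (hU₁ : ∀ x, ‖U₁ x‖ ≤ 9 * ‖x‖)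
    (hUU : ∀ x, ‖U x - U₁ x‖ ≤ 3 * ϖ * ‖x‖) (hy₁ : ‖y₁‖ ≤ 6) (hy₂ : ‖y₂‖ ≤ 6) (j : ℕ) (a : X) :
    ‖Λ^[j] a - U₁^[j] a‖ ≤
      3 * j * 9 ^ j * ϖ * ‖a‖ + 6 * 9 ^ j * ∑ l ∈ range j, (|l₁ (Λ^[l] a)| + |l₂ (Λ^[l] a)|) := by
  induction j with
  | zero => simp
  | succ j ih =>
    have h1 := bes_iter (by norm_num) hU₁ j a
    have h2 : Λ^[j + 1] a - U₁^[j + 1] a = U (Λ^[j] a - U₁^[j] a) +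
        (U (U₁^[j] a) - U₁ (U₁^[j] a)) + l₁ (Λ^[j] a) • y₁ + l₂ (Λ^[j] a) • y₂ := by
      rw [Function.iterate_succ_apply', Function.iterate_succ_apply', hΛ, map_sub]; abel
    have h3 := norm_add₄_le (a := U (Λ^[j] a - U₁^[j] a)) (b := U (U₁^[j] a) - U₁ (U₁^[j] a))
      (c := l₁ (Λ^[j] a) • y₁) (d := l₂ (Λ^[j] a) • y₂)
    rw [norm_smul, norm_smul, Real.norm_eq_abs, Real.norm_eq_abs] at h3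
    have h4 := mul_le_mul_of_nonneg_left h1 hϖ
    have h5 := mul_le_mul_of_nonneg_left (one_le_pow₀ (by norm_num : (1 : ℝ) ≤ 9) (n := j))
      (add_nonneg (abs_nonneg (l₁ (Λ^[j] a))) (abs_nonneg (l₂ (Λ^[j] a))))
    have h6 : 0 ≤ ϖ * (9 ^ j * ‖a‖) := by positivity
    rw [h2, sum_range_succ, pow_succ]
    push_cast
    linarith [hU (Λ^[j] a - U₁^[j] a), hUU (U₁^[j] a), abs_nonneg (l₁ (Λ^[j] a)),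
      mul_le_mul_of_nonneg_left hy₁ (abs_nonneg (l₁ (Λ^[j] a))), abs_nonneg (l₂ (Λ^[j] a)),
      mul_le_mul_of_nonneg_left hy₂ (abs_nonneg (l₂ (Λ^[j] a)))]

/-- `(∑ |x i|)² ≤ card · ∑ (x i)²` and `weak`. -/
theorem E_sum_sq_le (𝓕 : Fam X) {β M : ℝ} (h : 𝓕.Good β) {ι : Type*} (I : Finset ι) (l : ι → X →L[ℝ] ℝ)
    (hl : ∀ i ∈ I, ‖l i‖ ≤ M) :
    𝓕.E (fun ω => (∑ i ∈ I, |l i (𝓕.u ω)|) ^ 2) ≤ (I.card * M * β) ^ 2 := by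
  refine (𝓕.E_mono (h := fun ω => I.card * ∑ i ∈ I, l i (𝓕.u ω) ^ 2) fun ω => by
    simpa only [sq_abs] using sq_sum_le_card_mul_sum_sq (f := fun i => |l i (𝓕.u ω)|)).trans ?_
  rw [𝓕.E_mul, 𝓕.E_sum]
  refine (mul_le_mul_of_nonneg_left (sum_le_card_nsmul _ _ (β ^ 2 * M ^ 2) fun i hi =>
    (h.weak _).trans (by gcongr; exact hl i hi)) (Nat.cast_nonneg _)).trans (le_of_eq ?_)
  rw [nsmul_eq_mul]; ring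

theorem bes_fun {Z : Type*} [NormedAddCommGroup Z] [NormedSpace ℝ Z] {J : Z →L[ℝ] ℝ} {z w : Z}
    (hJ : Nm J z) {θ L : ℝ} (hθ : 0 < θ) (hw : 2 * θ ≤ |J w|) (A : X →L[ℝ] Z)
    (hA : ∀ x, ‖A x‖ ≤ L * ‖x‖) :
    ∃ l : X →L[ℝ] ℝ, (∀ x, J (A x + l x • w) = 0) ∧ ∀ x, |l x| ≤ L / 2 * θ⁻¹ * ‖x‖ := by
  have h0 : 0 < |J w| := by linarith
  refine ⟨-(J w)⁻¹ • J.comp A, fun x => ?_, fun x => ?_⟩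
  · have := abs_pos.1 h0
    simp only [map_add, map_smul, smul_apply, ContinuousLinearMap.comp_apply, smul_eq_mul]
    field_simp
    ring
  · simp only [smul_apply, ContinuousLinearMap.comp_apply, smul_eq_mul, abs_mul, abs_neg, abs_inv]
    refine (mul_le_mul (inv_anti₀ (by positivity) hw) ((hJ.abs_le _).trans (hA x)) (abs_nonneg _)
      (by positivity)).trans (le_of_eq ?_)
    field_simp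

theorem bes_norm {l : X →L[ℝ] ℝ} {θ L : ℝ} (h : ∀ x, |l x| ≤ L * ‖x‖) (hL : L ≤ 10 * θ⁻¹ ^ 2) :
    ‖l‖ ≤ 10 / θ ^ 2 := by
  refine l.opNorm_le_bound (by positivity) fun x => (h x).trans ?_
  rw [div_eq_mul_inv, ← inv_pow]
  exact mul_le_mul_of_nonneg_right hL (norm_nonneg x)

theorem bes_smul (t : ℝ) {v : X} {L : ℝ} (h : ‖v‖ ≤ L) (x : X) : ‖x + t • v‖ ≤ ‖x‖ + L * |t| := by
  refine (norm_add_le _ _).trans (add_le_add le_rfl ?_)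
  rw [norm_smul, mul_comm]
  exact mul_le_mul_of_nonneg_right h (abs_nonneg t)

/-- forward step: `α' = -J'_q (T a) / J'_q w`, `b = T_q⁻¹ (T a + α' w)`, `α = -J_p b / J_p v`, `Λ a = b + α v`;
`U = T_q⁻¹ T`, `l₁ = α'`, `y₁ = T_q⁻¹ w`, `l₂ = α`, `y₂ = v`.  `‖b‖ = ‖T_q b‖ ≤ ‖a‖ + 2|α'|` for `a ∈ ker J_p` (`T_iso`). -/
theorem Ch.step_fwd {S : SI X Y} {δ C θ : ℝ} (c : Ch S δ C θ) (hθ : 0 < θ) :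
    ∃ (Λ : X →L[ℝ] X) (l₁ l₂ : X →L[ℝ] ℝ) (y₁ y₂ : X),
      (∀ a, Λ a = c.Bq.T.symm (c.Bp.T a) + l₁ a • y₁ + l₂ a • y₂) ∧ ‖y₁‖ ≤ 6 ∧ ‖y₂‖ ≤ 6 ∧
      ‖l₁‖ ≤ 10 / θ ^ 2 ∧ ‖l₂‖ ≤ 10 / θ ^ 2 ∧
      ∀ a, c.Bp.J a = 0 → c.Rel a (Λ a) (|l₁ a| + |l₂ a|) ∧ ‖Λ a‖ ≤ ‖a‖ + 2 * (|l₁ a| + |l₂ a|) := by
  have ht : 1 ≤ θ⁻¹ := (one_le_inv₀ hθ).2 (by linarith [c.rob, norm_nonneg (c.p + c.q)])
  have hw : ‖c.w‖ ≤ 2 := c.norm_w ▸ c.norm_v_le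
  have hy : ‖c.Bq.T.symm c.w‖ ≤ 6 := by linarith [c.Bq.Tsymm_le c.w]
  obtain ⟨l₁, a1, a2⟩ := bes_fun c.Bq.hJ' hθ (c.Jq_w.trans (le_abs_self _))
    (c.Bp.T : X →L[ℝ] Y) c.Bp.T_le
  let b : X →L[ℝ] X := (c.Bq.T.symm : Y →L[ℝ] X).comp ((c.Bp.T : X →L[ℝ] Y) + l₁.smulRight c.w)
  have hb : ∀ a, b a = c.Bq.T.symm (c.Bp.T a + l₁ a • c.w) := fun a => rfl
  obtain ⟨l₂, a3, a4⟩ := bes_fun c.Bp.hJ hθ ((le_neg.1 c.Jp_v).trans (neg_le_abs _)) b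
    (L := 9 + 9 * θ⁻¹) fun a => by
      rw [hb, map_add, map_smul]
      linarith [bes_smul (l₁ a) hy (c.Bq.T.symm (c.Bp.T a)), bes_nine c.Bp c.Bq a, a2 a]
  refine ⟨b + l₂.smulRight c.v, l₁, l₂, c.Bq.T.symm c.w, c.v, fun a => ?_, hy,
    c.norm_v_le.trans (by norm_num), bes_norm a2 (by nlinarith), bes_norm a4 (by nlinarith),
    fun a ha => ?_⟩
  · rw [← map_smul, ← map_add]; rfl
  have h1 : c.Bq.J (b a) = 0 := (c.Bq.J_Tsymm _).trans (a1 a)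
  have h2 : c.Bq.T (b a) = c.Bp.T a + l₁ a • c.w := c.Bq.T.apply_symm_apply _
  refine ⟨⟨ha, a3 a, b a, l₂ a, l₁ a, h1, h2, rfl, le_add_of_nonneg_left (abs_nonneg _),
    le_add_of_nonneg_right (abs_nonneg _)⟩, (bes_smul (l₂ a) c.norm_v_le (b a)).trans ?_⟩
  rw [← c.Bq.T_iso h1, h2, ← c.Bp.T_iso ha]
  linarith [bes_smul (l₁ a) hw (c.Bp.T a)]

/-- backward step: `α = J_q a' / J_q v`, `b = a' - α v`, `α' = J'_p (T_q b) / J'_p w`, `Λ a' = T⁻¹ (T_q b - α' w)`;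
`l₁ = 3 α`, `y₁ = -(1/3) T⁻¹ T_q v`, `l₂ = α'`, `y₂ = -T⁻¹ w`; `‖Λ a'‖ = ‖T Λ a'‖ ≤ ‖b‖ + 2|α'|`. -/
theorem Ch.step_bwd {S : SI X Y} {δ C θ : ℝ} (c : Ch S δ C θ) (hθ : 0 < θ) :
    ∃ (Λ : X →L[ℝ] X) (l₁ l₂ : X →L[ℝ] ℝ) (y₁ y₂ : X),
      (∀ a, Λ a = c.Bp.T.symm (c.Bq.T a) + l₁ a • y₁ + l₂ a • y₂) ∧ ‖y₁‖ ≤ 6 ∧ ‖y₂‖ ≤ 6 ∧
      ‖l₁‖ ≤ 10 / θ ^ 2 ∧ ‖l₂‖ ≤ 10 / θ ^ 2 ∧
      ∀ a, c.Bp.J a = 0 → c.Rel (Λ a) a (|l₁ a| + |l₂ a|) ∧ ‖Λ a‖ ≤ ‖a‖ + 2 * (|l₁ a| + |l₂ a|) := by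
  have ht : 1 ≤ θ⁻¹ := (one_le_inv₀ hθ).2 (by linarith [c.rob, norm_nonneg (c.p + c.q)])
  have hw : ‖c.w‖ ≤ 2 := c.norm_w ▸ c.norm_v_le
  obtain ⟨l₁, a1, a2⟩ := bes_fun c.Bq.hJ hθ (c.Jq_v.trans (le_abs_self _))
    (ContinuousLinearMap.id ℝ X) (L := 1) fun x => by simp
  have hb : ∀ a, ‖c.Bq.T (a + l₁ a • c.v)‖ ≤ ‖a‖ + 2 * |l₁ a| := fun a =>
    (c.Bq.T_iso (a1 a)).trans_le (bes_smul _ c.norm_v_le a)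
  let b : X →L[ℝ] Y := (c.Bq.T : X →L[ℝ] Y).comp (ContinuousLinearMap.id ℝ X + l₁.smulRight c.v)
  obtain ⟨l₂, a3, a4⟩ := bes_fun c.Bp.hJ' hθ ((le_neg.1 c.Jp_w).trans (neg_le_abs _)) b
    (L := 1 + θ⁻¹) fun a => (hb a).trans (by linarith [a2 a])
  have h3 : ∀ a, |((3 : ℝ) • l₁) a| = 3 * |l₁ a| := fun a => by
    rw [smul_apply, smul_eq_mul, abs_mul, abs_of_pos three_pos]
  let Λ : X →L[ℝ] X := (c.Bp.T.symm : Y →L[ℝ] X).comp (b + l₂.smulRight c.w)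
  have hΛ : ∀ a, Λ a = c.Bp.T.symm (c.Bq.T (a + l₁ a • c.v) + l₂ a • c.w) := fun a => rfl
  refine ⟨Λ, (3 : ℝ) • l₁, l₂, (3 : ℝ)⁻¹ • c.Bp.T.symm (c.Bq.T c.v), c.Bp.T.symm c.w, fun a => ?_,
    ?_, by linarith [c.Bp.Tsymm_le c.w],
    bes_norm (L := 3 / 2 * θ⁻¹) (fun a => by rw [h3]; linarith [a2 a]) (by nlinarith),
    bes_norm a4 (by nlinarith), fun a ha => ?_⟩
  · simp only [hΛ, map_add, map_smul, smul_apply, smul_eq_mul]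
    module
  · rw [norm_smul, norm_inv, Real.norm_ofNat]
    linarith [bes_nine c.Bq c.Bp c.v, c.norm_v_le]
  have h1 : c.Bp.J (Λ a) = 0 := (c.Bp.J_Tsymm _).trans (a3 a)
  have h2 : c.Bp.T (Λ a) = c.Bq.T (a + l₁ a • c.v) + l₂ a • c.w := c.Bp.T.apply_symm_apply _
  rw [h3]
  refine ⟨⟨h1, ha, a + l₁ a • c.v, -l₁ a, -l₂ a, a1 a, by rw [h2]; module, by module, ?_, ?_⟩, ?_⟩
  · rw [abs_neg]; linarith [abs_nonneg (l₁ a), abs_nonneg (l₂ a)]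
  · rw [abs_neg]; linarith [abs_nonneg (l₁ a), abs_nonneg (l₂ a)]
  · rw [← c.Bp.T_iso h1, h2]
    linarith [bes_smul (l₂ a) hw (c.Bq.T (a + l₁ a • c.v)), hb a, abs_nonneg (l₁ a)]

theorem bes_half {S : SI X Y} {p : X} (B : BS S p) {N ϖ β : ℝ} (K : ℕ) (U U₁ : X →L[ℝ] X)
    {Λ : X →L[ℝ] X} {l₁ l₂ : X →L[ℝ] ℝ} {y₁ y₂ : X} (hϖ : 0 ≤ ϖ)
    (hΛ : ∀ a, Λ a = U a + l₁ a • y₁ + l₂ a • y₂) (hU : ∀ x, ‖U x‖ ≤ 9 * ‖x‖)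
    (hU₁ : ∀ x, ‖U₁ x‖ ≤ 9 * ‖x‖) (hUU : ∀ x, ‖U x - U₁ x‖ ≤ 3 * ϖ * ‖x‖) (hy₁ : ‖y₁‖ ≤ 6)
    (hy₂ : ‖y₂‖ ≤ 6) (h₁ : ‖l₁‖ ≤ N) (h₂ : ‖l₂‖ ≤ N)
    (hk : ∀ a, B.J a = 0 → B.J (Λ a) = 0 ∧ ‖Λ a‖ ≤ ‖a‖ + 2 * (|l₁ a| + |l₂ a|))
    {𝓕 : Fam X} (hF : 𝓕.Good β) :
    ∃ σ : X → ℝ, (∀ x, 0 ≤ σ x ∧ σ x ≤ K * 2 * (N * ((9 + 12 * N) ^ K * 2)) * ‖x‖) ∧
      𝓕.E (fun ω => σ (𝓕.u ω) ^ 2) ≤ (K * 2 * (N * ((9 + 12 * N) ^ K * 2)) * β) ^ 2 ∧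
      (∀ j < K, ∀ x, |l₁ (Λ^[j] (B.pr x))| + |l₂ (Λ^[j] (B.pr x))| ≤ σ x) ∧
      ∀ j ≤ K, ∀ x, B.J (Λ^[j] (B.pr x)) = 0 ∧ ‖Λ^[j] (B.pr x)‖ ≤ 2 * ‖x‖ + 2 * σ x ∧
        ‖Λ^[j] (B.pr x) - B.pr (U₁^[j] (B.pr x))‖ ≤ 12 * K * 9 ^ K * ϖ * ‖x‖ + 12 * 9 ^ K * σ x := by
  have hN : 0 ≤ N := (norm_nonneg _).trans h₁
  have a1 : ∀ x, ‖Λ x‖ ≤ (9 + 12 * N) * ‖x‖ := fun x => by
    have b1 : |l₁ x| ≤ _ := l₁.le_of_opNorm_le h₁ x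
    have b2 : |l₂ x| ≤ _ := l₂.le_of_opNorm_le h₂ x
    rw [hΛ]
    linarith [bes_smul (l₂ x) hy₂ (U x + l₁ x • y₁), bes_smul (l₁ x) hy₁ (U x), hU x]
  let f : ℕ × Bool → X →L[ℝ] ℝ := fun i => (if i.2 then l₁ else l₂).comp
    ((Λ ^ i.1).comp (ContinuousLinearMap.id ℝ X - B.J.smulRight p))
  have hf : ∀ i x, f i x = (if i.2 then l₁ else l₂) (Λ^[i.1] (B.pr x)) := fun i x => by
    rw [← FunLike.coe_pow_eq_iterate]; rfl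
  have a2 : ∀ i ∈ range K ×ˢ (univ : Finset Bool), ‖f i‖ ≤ N * ((9 + 12 * N) ^ K * 2) := fun i hi => by
    refine (f i).opNorm_le_bound (by positivity) fun x => ?_
    rw [hf, mul_assoc, mul_assoc]
    refine ContinuousLinearMap.le_of_opNorm_le_of_le _ (by split_ifs <;> assumption)
      ((bes_iter (by positivity) a1 _ _).trans (mul_le_mul (pow_le_pow_right₀ (by linarith)
        (mem_range.1 (mem_product.1 hi).1).le) (B.pr_le x) (norm_nonneg _) (by positivity)))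
  have a3 : ∀ x, ∑ i ∈ range K ×ˢ (univ : Finset Bool), |f i x| =
      ∑ l ∈ range K, (|l₁ (Λ^[l] (B.pr x))| + |l₂ (Λ^[l] (B.pr x))|) := fun x => by
    simp [sum_product, hf]
  have a4 : ((range K ×ˢ (univ : Finset Bool)).card : ℝ) = K * 2 := by simp
  have a5 : ∀ j x, B.J (Λ^[j] (B.pr x)) = 0 ∧ ‖Λ^[j] (B.pr x)‖ ≤
      2 * ‖x‖ + 2 * ∑ l ∈ range j, (|l₁ (Λ^[l] (B.pr x))| + |l₂ (Λ^[l] (B.pr x))|) := fun j x => by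
    induction j with
    | zero => simpa using ⟨B.J_pr x, B.pr_le x⟩
    | succ j ih =>
      rw [Function.iterate_succ_apply', sum_range_succ]
      exact ⟨(hk _ ih.1).1, by linarith [(hk _ ih.1).2, ih.2]⟩
  refine ⟨fun x => ∑ i ∈ range K ×ˢ (univ : Finset Bool), |f i x|,
    fun x => ⟨by positivity, ?_⟩, a4 ▸ E_sum_sq_le 𝓕 hF _ f a2, fun j hj x => ?_, fun j hj x => ?_⟩
  · rw [← a4, mul_assoc, ← nsmul_eq_mul]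
    exact sum_le_card_nsmul _ _ _ fun i hi => (f i).le_of_opNorm_le (a2 i hi) x
  · simp only [a3]
    exact single_le_sum (f := fun l => |l₁ (Λ^[l] (B.pr x))| + |l₂ (Λ^[l] (B.pr x))|)
      (fun _ _ => by positivity) (mem_range.2 hj)
  · simp only [a3]
    have b1 := sum_le_sum_of_subset_of_nonneg (range_subset_range.2 hj)
      (f := fun l => |l₁ (Λ^[l] (B.pr x))| + |l₂ (Λ^[l] (B.pr x))|) fun _ _ _ => by positivity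
    refine ⟨(a5 j x).1, by linarith [(a5 j x).2], ?_⟩
    rw [← B.pr_of_ker (a5 j x).1, ← B.pr_sub]
    have b2 := lin_chain Λ U U₁ l₁ l₂ y₁ y₂ hϖ hΛ hU hU₁ hUU hy₁ hy₂ j (B.pr x)
    have b3 : (9 : ℝ) ^ j ≤ 9 ^ K := pow_le_pow_right₀ (by norm_num) hj
    have b4 : 3 * j * 9 ^ j * ϖ * ‖B.pr x‖ ≤ 3 * K * 9 ^ K * ϖ * (2 * ‖x‖) := by
      gcongr; exact B.pr_le x
    have b5 := mul_le_mul b3 b1 (by positivity) (by positivity)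
    linarith [B.pr_le (Λ^[j] (B.pr x) - U₁^[j] (B.pr x))]

/-- `ap j ω = Λ₊^[j] (pr u)`, `am j ω = Λ₋^[j] (pr u)`, `Θ = 12 · 9 ^ K · ∑_{l<K} (|l₁ Λ₊^l pr u| + |l₂ ..| + the same for Λ₋)`;
`‖Λ x‖ ≤ (9 + 120/θ²) ‖x‖`, so the functionals `l_i ∘ Λ^l ∘ pr` have norms bounded in terms of `θ`, `K`;
`ap j - apx j = pr (ap j - U₁^[j] (pr u))`. -/
theorem bessel {θ : ℝ} (hθ : 0 < θ) (K : ℕ) :
    ∃ C₅ : ℝ, 1 ≤ C₅ ∧ ∀ (S : SI X Y) (δ C : ℝ) (c : Ch S δ C θ) (q₁ : X) (B₁ : BS S q₁) (ϖ β : ℝ), 0 ≤ ϖ →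
      (∀ x, ‖c.Bq.T x - B₁.T x‖ ≤ ϖ * ‖x‖) → (∀ y, ‖c.Bq.T.symm y - B₁.T.symm y‖ ≤ ϖ * ‖y‖) →
      ∀ 𝓕 : Fam X, 𝓕.Good β →
        ∃ (ap am : ℕ → 𝓕.Ω → X) (Θ : 𝓕.Ω → ℝ),
          (∀ ω, 0 ≤ Θ ω ∧ Θ ω ≤ C₅ * ‖𝓕.u ω‖) ∧ 𝓕.E (fun ω => Θ ω ^ 2) ≤ (C₅ * β) ^ 2 ∧
          (∀ ω, ap 0 ω = c.Bp.pr (𝓕.u ω) ∧ am 0 ω = c.Bp.pr (𝓕.u ω)) ∧
          (∀ j < K, ∀ ω, c.Rel (ap j ω) (ap (j + 1) ω) (C₅ * ‖𝓕.u ω‖) ∧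
            c.Rel (am (j + 1) ω) (am j ω) (C₅ * ‖𝓕.u ω‖)) ∧
          ∀ j ≤ K, ∀ ω, c.Bp.J (ap j ω) = 0 ∧ c.Bp.J (am j ω) = 0 ∧
            ‖ap j ω‖ ≤ 2 * ‖𝓕.u ω‖ + Θ ω ∧ ‖am j ω‖ ≤ 2 * ‖𝓕.u ω‖ + Θ ω ∧
            ‖ap j ω - apx c.Bp B₁ true j (𝓕.u ω)‖ ≤ C₅ * ϖ * ‖𝓕.u ω‖ + Θ ω ∧
            ‖am j ω - apx c.Bp B₁ false j (𝓕.u ω)‖ ≤ C₅ * ϖ * ‖𝓕.u ω‖ + Θ ω ∧
            ‖apx c.Bp B₁ true j (𝓕.u ω)‖ ≤ C₅ * ‖𝓕.u ω‖ ∧ ‖apx c.Bp B₁ false j (𝓕.u ω)‖ ≤ C₅ * ‖𝓕.u ω‖ := by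
  obtain ⟨D, hD⟩ : ∃ D : ℝ, D = K * 2 * (10 / θ ^ 2 * ((9 + 12 * (10 / θ ^ 2)) ^ K * 2)) := ⟨_, rfl⟩
  have hD0 : 0 ≤ D := by rw [hD]; positivity
  have h9 : (1 : ℝ) ≤ 9 ^ K := one_le_pow₀ (by norm_num)
  have k1 : (0 : ℝ) ≤ 12 * K * 9 ^ K := by positivity
  have k2 : (0 : ℝ) ≤ 24 * 9 ^ K * D := by positivity
  refine ⟨12 * K * 9 ^ K + 4 * 9 ^ K + 24 * 9 ^ K * D, by linarith,
    fun S δ C c q₁ B₁ ϖ β hϖ hT hT' 𝓕 hF => ?_⟩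
  obtain ⟨Λ, l₁, l₂, y₁, y₂, a1, a2, a3, a4, a5, a6⟩ := c.step_fwd hθ
  obtain ⟨Λ', l₁', l₂', y₁', y₂', b1, b2, b3, b4, b5, b6⟩ := c.step_bwd hθ
  have u1 : ∀ x, ‖c.Bq.T.symm (c.Bp.T x) - B₁.T.symm (c.Bp.T x)‖ ≤ 3 * ϖ * ‖x‖ := fun x => by
    linarith [hT' (c.Bp.T x), mul_le_mul_of_nonneg_left (c.Bp.T_le x) hϖ]
  have u2 : ∀ x, ‖c.Bp.T.symm (c.Bq.T x) - c.Bp.T.symm (B₁.T x)‖ ≤ 3 * ϖ * ‖x‖ := fun x => by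
    rw [← map_sub]
    linarith [hT x, c.Bp.Tsymm_le (c.Bq.T x - B₁.T x)]
  obtain ⟨σ, c1, c2, c3, c4⟩ := bes_half c.Bp K ((c.Bq.T.symm : Y →L[ℝ] X).comp (c.Bp.T : X →L[ℝ] Y))
    ((B₁.T.symm : Y →L[ℝ] X).comp (c.Bp.T : X →L[ℝ] Y)) hϖ a1 (bes_nine c.Bp c.Bq) (bes_nine c.Bp B₁)
    u1 a2 a3 a4 a5
    (fun a ha => ⟨(a6 a ha).1.2.1, (a6 a ha).2⟩) hF
  obtain ⟨σ', d1, d2, d3, d4⟩ := bes_half c.Bp K ((c.Bp.T.symm : Y →L[ℝ] X).comp (c.Bq.T : X →L[ℝ] Y))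
    ((c.Bp.T.symm : Y →L[ℝ] X).comp (B₁.T : X →L[ℝ] Y)) hϖ b1 (bes_nine c.Bq c.Bp) (bes_nine B₁ c.Bp)
    u2 b2 b3 b4 b5
    (fun a ha => ⟨(b6 a ha).1.1, (b6 a ha).2⟩) hF
  rw [← hD] at c1 c2 d1 d2
  have e1 : ∀ x, 12 * σ x ≤ 12 * 9 ^ K * σ x ∧ 12 * σ' x ≤ 12 * 9 ^ K * σ' x ∧
      12 * 9 ^ K * (σ x + σ' x) ≤ (12 * K * 9 ^ K + 4 * 9 ^ K + 24 * 9 ^ K * D) * ‖x‖ := fun x =>
    ⟨mul_le_mul_of_nonneg_right (by linarith) (c1 x).1,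
      mul_le_mul_of_nonneg_right (by linarith) (d1 x).1, by
        have := mul_le_mul_of_nonneg_left (add_le_add (c1 x).2 (d1 x).2)
          (show (0 : ℝ) ≤ 12 * 9 ^ K by positivity)
        have : 0 ≤ (12 * K * 9 ^ K + 4 * 9 ^ K) * ‖x‖ := by positivity
        linarith⟩
  refine ⟨fun j ω => Λ^[j] (c.Bp.pr (𝓕.u ω)), fun j ω => Λ'^[j] (c.Bp.pr (𝓕.u ω)),
    fun ω => 12 * 9 ^ K * (σ (𝓕.u ω) + σ' (𝓕.u ω)),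
    fun ω => ⟨mul_nonneg (by positivity) (add_nonneg (c1 _).1 (d1 _).1), (e1 _).2.2⟩, ?_,
    fun ω => ⟨rfl, rfl⟩, fun j hj ω => ?_, fun j hj ω => ?_⟩
  · refine (𝓕.E_mono (h := fun ω => 2 * (12 * 9 ^ K) ^ 2 * (σ (𝓕.u ω) ^ 2 + σ' (𝓕.u ω) ^ 2))
      fun ω => ?_).trans ?_
    · linarith [mul_le_mul_of_nonneg_left (add_sq_le (a := σ (𝓕.u ω)) (b := σ' (𝓕.u ω)))
        (sq_nonneg (12 * 9 ^ K : ℝ))]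
    rw [𝓕.E_mul, 𝓕.E_add]
    refine (mul_le_mul_of_nonneg_left (add_le_add c2 d2) (by positivity)).trans
      (le_trans (le_of_eq (by ring : _ = (24 * 9 ^ K * D) ^ 2 * β ^ 2)) ?_)
    rw [mul_pow _ β]
    exact mul_le_mul_of_nonneg_right (pow_le_pow_left₀ k2 (by linarith) 2) (sq_nonneg β)
  · simp only [Function.iterate_succ_apply']
    obtain ⟨f1, f2, f3⟩ := e1 (𝓕.u ω)
    exact ⟨(a6 _ (c4 j hj.le _).1).1.mono (by linarith [c3 j hj (𝓕.u ω), (c1 (𝓕.u ω)).1, (d1 (𝓕.u ω)).1]),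
      (b6 _ (d4 j hj.le _).1).1.mono (by linarith [d3 j hj (𝓕.u ω), (c1 (𝓕.u ω)).1, (d1 (𝓕.u ω)).1])⟩
  · obtain ⟨f1, f2, -⟩ := e1 (𝓕.u ω)
    obtain ⟨g1, g2, g3⟩ := c4 j hj (𝓕.u ω)
    obtain ⟨g4, g5, g6⟩ := d4 j hj (𝓕.u ω)
    have g7 : 0 ≤ (4 * 9 ^ K + 24 * 9 ^ K * D) * ϖ * ‖𝓕.u ω‖ := by positivity
    have g8 : 4 * 9 ^ j * ‖𝓕.u ω‖ ≤ (12 * K * 9 ^ K + 4 * 9 ^ K + 24 * 9 ^ K * D) * ‖𝓕.u ω‖ :=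
      mul_le_mul_of_nonneg_right (by linarith [pow_le_pow_right₀ (by norm_num : (1 : ℝ) ≤ 9) hj])
        (norm_nonneg _)
    have g9 := (c1 (𝓕.u ω)).1
    have g10 := (d1 (𝓕.u ω)).1
    exact ⟨g1, g4, by linarith, by linarith, g3.trans (by linarith), g6.trans (by linarith),
      (apx_le ..).trans g8, (apx_le ..).trans g8⟩

end Crest.Agent.R74
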