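import Crest.Agent.R74.Pair

/-!
# Row 74: an almost isometric `Ta a` has `a ≈ F p` (walking lemma)
-/

namespace Crest.Agent.R74

open Finset

variable {X Y : Type*} [NormedAddCommGroup X] [NormedSpace ℝ X] [NormedAddCommGroup Y]
  [NormedSpace ℝ Y]

variable {S : SI X Y} {p : X}

/-- Take a pair `(φ, ψ)` for the chord `v = q - p`, `w = F q - F p` (`exists_nm`, `exists_pair`), `λ = φ p - ψ a`.
If `λ ≥ 0` then `ψ (Ta a v) = ‖v‖ - λ J v ≥ ‖v‖`.  Otherwise let `Ta a z = w` (`Ta_surj`); `J z = J' w / J' a ≤ 0`,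
`φ z = ψ w + λ J z ≥ ‖v‖`, so `‖v + z‖ ≥ 2‖v‖` and `‖Ta a v + w‖ ≥ 2‖v‖ / (1 + ε) ≥ 2‖v‖ - 4ε`. -/
theorem common_norming (B : BS S p) {a : Y} (ha : 0 < B.J' a) {ε : ℝ} (hε : 0 ≤ ε)
    (hl : ∀ z, ‖z‖ ≤ (1 + ε) * ‖B.Ta a z‖) {q : X} (hq : ‖q‖ = 1) :
    2 * ‖q - p‖ - 4 * ε ≤ ‖S.F q - S.F p + B.Ta a (q - p)‖ := by
  obtain ⟨ψ, hψ⟩ := exists_nm (S.F q - S.F p)
  obtain ⟨φ, hP⟩ := B.exists_pair hq hψ
  have hw : ‖S.F q - S.F p‖ = ‖q - p‖ := S.dist q p (by rw [hq, B.hp])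
  have hv2 : ‖q - p‖ ≤ 2 := by
    have := norm_sub_le q p
    rw [hq, B.hp] at this
    linarith
  have hφv : φ (q - p) = ‖q - p‖ := hP.1.2
  have hψw : ψ (S.F q - S.F p) = ‖q - p‖ := by rw [hψ.2, hw]
  rcases le_or_gt 0 (φ p - ψ a) with hlam | hlam
  · have h1 := hP.compat a (q - p)
    have h2 : B.J (q - p) ≤ 0 := by
      rw [map_sub, B.J_p]
      linarith [B.J_le_one hq]
    have h3 := mul_nonpos_of_nonneg_of_nonpos hlam h2
    have h4 := hψ.le (S.F q - S.F p + B.Ta a (q - p))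
    rw [map_add] at h4
    linarith
  · obtain ⟨z, hz⟩ := B.Ta_surj ha.ne' (S.F q - S.F p)
    have h1 := hP.compat a z
    have h2 := B.J'_Ta a z
    rw [hz] at h1 h2
    have h3 : B.J' (S.F q - S.F p) ≤ 0 := by
      rw [map_sub, B.J'_Fp]
      have := B.hJ'.le (S.F q)
      rw [S.norm, hq] at this
      linarith
    have h4 : B.J z ≤ 0 := by
      by_contra h5
      have := mul_pos ha (not_le.1 h5)
      linarith
    have h5 := mul_nonneg_of_nonpos_of_nonpos hlam.le h4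
    have h6 := hP.1.le (z + (q - p))
    rw [map_add] at h6
    have h7 := hl (z + (q - p))
    rw [map_add, hz] at h7
    rcases le_total 4 ‖S.F q - S.F p + B.Ta a (q - p)‖ with h8 | h8
    · linarith
    · have h9 := mul_le_mul_of_nonneg_left h8 hε
      linarith

/-- **Walking lemma.**  `c = T p - F p`, `κ = ‖c‖`, `q₀ = p`, `q (n+1) = F⁻¹ (‖T (q n)‖⁻¹ T (q n))`,
`s n = ‖q n - p‖ ≤ 2`.  Invariant: `‖T (q n - p) + c‖ ≥ s n + κ - 20 n ε`.  Step: `w = F (q (n+1)) - F p` is within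
`ε` of `T (q n - p) + c = T (q n) - F p` (`|‖T (q n)‖ - 1| ≤ ε`), so `s (n+1) = ‖w‖ ≥ s n + κ - 20 n ε - ε`; a
functional `ψ` norming `w + T (q (n+1) - p)` has `ψ w ≥ s (n+1) - 6ε`, `ψ (T (q (n+1) - p)) ≥ s (n+1) - 4ε`, hence
`ψ c ≥ κ - 20 n ε - 10 ε`.  So `n κ ≤ 2 + 21 n² ε` for all `n`. -/
theorem walking (S : SI X Y) {p : X} (hp : ‖p‖ = 1) (T : X →L[ℝ] Y) {ε : ℝ} (hε : 0 ≤ ε) (hε1 : ε ≤ 1)
    (hu : ∀ z, ‖T z‖ ≤ (1 + ε) * ‖z‖) (hl : ∀ z, ‖z‖ ≤ (1 + ε) * ‖T z‖)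
    (hc : ∀ q, ‖q‖ = 1 → 2 * ‖q - p‖ - 4 * ε ≤ ‖S.F q - S.F p + T (q - p)‖) (n : ℕ) :
    n * ‖T p - S.F p‖ ≤ 2 + 21 * n ^ 2 * ε := by
  have hs2 : ∀ q : X, ‖q‖ = 1 → ‖q - p‖ ≤ 2 := fun q hq => by
    have := norm_sub_le q p
    rw [hq, hp] at this
    linarith
  have hT2 : ∀ q : X, ‖q‖ = 1 → ‖T (q - p)‖ ≤ ‖q - p‖ + 2 * ε := fun q hq => by
    have h1 := hu (q - p)
    have h2 := mul_le_mul_of_nonneg_left (hs2 q hq) hε
    linarith
  have key : ∀ n : ℕ, ∃ q : X, ‖q‖ = 1 ∧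
      ‖q - p‖ + ‖T p - S.F p‖ - 20 * n * ε ≤ ‖T (q - p) + (T p - S.F p)‖ ∧
      n * ‖T p - S.F p‖ - 21 * n ^ 2 * ε ≤ ‖q - p‖ := by
    intro n
    induction n with
    | zero => exact ⟨p, hp, by simp, by simp⟩
    | succ n ih =>
      obtain ⟨q, hq, h1, h2⟩ := ih
      have a1 := hu q
      have a2 := hl q
      rw [hq] at a1 a2
      have hT0 : T q ≠ 0 := fun h => by
        rw [h, norm_zero, mul_zero] at a2
        linarith
      have hTpos : 0 < ‖T q‖ := norm_pos_iff.2 hT0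
      have a3 : 1 - ε ≤ ‖T q‖ := by
        by_contra h
        have h3 := mul_lt_mul_of_pos_left (not_le.1 h) (by linarith : 0 < 1 + ε)
        nlinarith [sq_nonneg ε]
      obtain ⟨u, hu'⟩ : ∃ u : Y, u = ‖T q‖⁻¹ • T q := ⟨_, rfl⟩
      have hun : ‖u‖ = 1 := by rw [hu']; exact norm_normalize hT0
      have huT : ‖u - T q‖ ≤ ε := by
        have : u - T q = (1 - ‖T q‖) • u := by
          rw [sub_smul, one_smul, hu', smul_smul, mul_inv_cancel₀ hTpos.ne', one_smul]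
        rw [this, norm_smul, hun, mul_one, Real.norm_eq_abs, abs_le]
        constructor <;> linarith
      obtain ⟨q', hq'⟩ := S.F.surjective u
      have hq'n : ‖q'‖ = 1 := by rw [← S.norm, hq', hun]
      have hw : ‖u - S.F p‖ = ‖q' - p‖ := by
        rw [← hq']
        exact S.dist q' p (by rw [hq'n, hp])
      have e1 : T (q - p) + (T p - S.F p) = u - S.F p - (u - T q) := by
        rw [map_sub]; abel
      have b1 : ‖T (q - p) + (T p - S.F p)‖ ≤ ‖q' - p‖ + ε := by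
        rw [e1, ← hw]
        exact (norm_sub_le _ _).trans (add_le_add le_rfl huT)
      obtain ⟨ψ, hψ⟩ := exists_nm (u - S.F p + T (q' - p))
      have b2 := hc q' hq'n
      rw [hq', ← hψ.2, map_add] at b2
      have b3 := hψ.le (u - S.F p)
      rw [hw] at b3
      have b4 := (hψ.le (T (q' - p))).trans (hT2 q' hq'n)
      have b5 := (hψ.le (T (q - p))).trans (hT2 q hq)
      have b6 := (hψ.le (u - T q)).trans huT
      have b7 : ψ (T (q - p)) + ψ (T p - S.F p) = ψ (u - S.F p) - ψ (u - T q) := by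
        rw [← map_add, e1, map_sub]
      have b8 := hψ.le (T (q' - p) + (T p - S.F p))
      rw [map_add] at b8
      have hn : (0 : ℝ) ≤ n * ε := by positivity
      refine ⟨q', hq'n, ?_, ?_⟩
      · push_cast
        linarith
      · push_cast
        linarith
  obtain ⟨q, hq, -, h2⟩ := key n
  linarith [hs2 q hq]

/-- **Lemma G.**  `walking` gives `‖a - F p‖ ≤ ε/4` (say) for `ε'` small; `T z = Ta a z - J z (a - F p)`. -/
theorem lemG (S : SI X Y) {ε : ℝ} (hε : 0 < ε) :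
    ∃ ε' : ℝ, 0 < ε' ∧ ∀ (p : X) (B : BS S p) (a : Y), 0 < B.J' a →
      (∀ z, ‖B.Ta a z‖ ≤ (1 + ε') * ‖z‖) → (∀ z, ‖z‖ ≤ (1 + ε') * ‖B.Ta a z‖) →
      ‖a - S.F p‖ ≤ ε ∧ B.Good ε := by
  obtain ⟨e, he⟩ : ∃ e : ℝ, e = min ε 1 := ⟨_, rfl⟩
  have he0 : 0 < e := by rw [he]; exact lt_min hε one_pos
  have he1 : e ≤ 1 := by rw [he]; exact min_le_right _ _
  have heε : e ≤ ε := by rw [he]; exact min_le_left _ _
  obtain ⟨n, hn⟩ := exists_nat_ge (24 / e)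
  have hn0 : (0 : ℝ) < n := lt_of_lt_of_le (by positivity) hn
  rw [div_le_iff₀ he0] at hn
  obtain ⟨ε', hε'⟩ : ∃ ε' : ℝ, ε' = min (e / 8) (1 / (21 * n ^ 2)) := ⟨_, rfl⟩
  have h0 : 0 < ε' := by rw [hε']; exact lt_min (by positivity) (by positivity)
  have h1 : ε' ≤ e / 8 := by rw [hε']; exact min_le_left _ _
  have h2 : 21 * n ^ 2 * ε' ≤ 1 := by
    have : ε' ≤ 1 / (21 * n ^ 2) := by rw [hε']; exact min_le_right _ _
    rw [le_div_iff₀ (by positivity)] at this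
    linarith
  refine ⟨ε', h0, fun p B a ha hu hl => ?_⟩
  have h3 := walking S B.hp (B.Ta a) h0.le (by linarith) hu hl
    (fun q hq => common_norming B ha h0.le hl hq) n
  rw [B.Ta_p] at h3
  have h4 : ‖a - S.F p‖ ≤ e / 8 := by
    by_contra h
    have := mul_lt_mul_of_pos_left (not_le.1 h) hn0
    linarith
  have h5 : ∀ z, ‖B.J z • (a - S.F p)‖ ≤ e / 8 * ‖z‖ := fun z => by
    rw [norm_smul, Real.norm_eq_abs, mul_comm]
    exact mul_le_mul h4 (B.hJ.abs_le z) (abs_nonneg _) (by positivity)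
  refine ⟨by linarith, fun z => ?_, fun z => ?_⟩
  · have a1 : B.T z = B.Ta a z - B.J z • (a - S.F p) := by rw [B.Ta_apply]; abel
    have a2 := norm_sub_le (B.Ta a z) (B.J z • (a - S.F p))
    rw [← a1] at a2
    have a3 := hu z
    have a4 := h5 z
    have a5 : (1 + ε') * ‖z‖ + e / 8 * ‖z‖ ≤ (1 + ε) * ‖z‖ := by
      rw [← add_mul]
      exact mul_le_mul_of_nonneg_right (by linarith) (norm_nonneg _)
    linarith
  · have a1 := norm_add_le (B.T z) (B.J z • (a - S.F p))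
    rw [← B.Ta_apply] at a1
    have a2 := hl z
    have a3 := h5 z
    have a4 : ‖z‖ ≤ (1 + e / 8) * (‖B.T z‖ + e / 8 * ‖z‖) :=
      a2.trans (mul_le_mul (by linarith) (by linarith) (norm_nonneg _) (by positivity))
    have hz := norm_nonneg z
    have hT := norm_nonneg (B.T z)
    have a5 : e * e * ‖z‖ ≤ e * ‖z‖ :=
      mul_le_mul_of_nonneg_right (mul_le_of_le_one_right he0.le he1) hz
    have a6 : (1 - e / 4) * ‖z‖ ≤ (1 + e / 8) * ‖B.T z‖ := by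
      have : 0 ≤ e * ‖z‖ := by positivity
      linarith
    have a7 : (1 + e / 8) * ‖B.T z‖ ≤ (1 - e / 4) * ((1 + e) * ‖B.T z‖) := by
      rw [← mul_assoc]
      refine mul_le_mul_of_nonneg_right ?_ hT
      have := mul_le_of_le_one_right he0.le he1
      linarith
    have a8 : ‖z‖ ≤ (1 + e) * ‖B.T z‖ := le_of_mul_le_mul_left (a6.trans a7) (by linarith)
    exact a8.trans (mul_le_mul_of_nonneg_right (by linarith) hT)

end Crest.Agent.R74
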