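import Crest.Agent.R74.Long
import Crest.Agent.R74.LemG

/-!
# Row 74: first order height forces goodness; uniform differentiability
-/

namespace Crest.Agent.R74

open Finset

variable {X Y : Type*} [NormedAddCommGroup X] [NormedSpace ℝ X] [NormedAddCommGroup Y]
  [NormedSpace ℝ Y]

/-- height in `Y` from height in `X`. -/
theorem r1_height {S : SI X Y} {p : X} (B : BS S p) {r : X} {γ : ℝ} (hr : ‖r‖ = 1)
    (h0 : ‖r - p‖ ≤ c0) (h1 : ‖r - p‖ ≤ γ / (2 * (C0 + 1))) (h2 : γ * ‖r - p‖ ≤ 1 - B.J r) :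
    γ / (2 * (C0 + 1)) * ‖r - p‖ ≤ 1 - B.J' (S.F r) := by
  have hC : 0 < C0 + 1 := by have := C0_pos; linarith
  have h3 := B.height_cmp hr h0
  set g := γ / (2 * (C0 + 1)) with hg
  have hγ : γ = 2 * g * (C0 + 1) := by rw [hg]; field_simp
  have h4 : ‖r - p‖ ^ 2 ≤ g * ‖r - p‖ := by
    rw [sq]; exact mul_le_mul_of_nonneg_right h1 (norm_nonneg _)
  have h5 : (C0 + 1) * (2 * g * ‖r - p‖) ≤ (C0 + 1) * (‖r - p‖ ^ 2 + (1 - B.J' (S.F r))) := by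
    calc (C0 + 1) * (2 * g * ‖r - p‖) = γ * ‖r - p‖ := by rw [hγ]; ring
      _ ≤ _ := h2.trans h3
  have h6 := le_of_mul_le_mul_left h5 hC
  linarith

/-- height in `X` from height in `Y`. -/
theorem r1_height' {S : SI X Y} {p : X} (B : BS S p) {r : X} {γ : ℝ} (hr : ‖r‖ = 1)
    (h0 : ‖r - p‖ ≤ c0) (h1 : ‖r - p‖ ≤ γ / (2 * (C0 + 1)))
    (h2 : γ * ‖r - p‖ ≤ 1 - B.J' (S.F r)) :
    γ / (2 * (C0 + 1)) * ‖r - p‖ ≤ 1 - B.J r := by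
  have hC : 0 < C0 + 1 := by have := C0_pos; linarith
  have h3 := B.height_cmp' hr h0
  set g := γ / (2 * (C0 + 1)) with hg
  have hγ : γ = 2 * g * (C0 + 1) := by rw [hg]; field_simp
  have h4 : ‖r - p‖ ^ 2 ≤ g * ‖r - p‖ := by
    rw [sq]; exact mul_le_mul_of_nonneg_right h1 (norm_nonneg _)
  have h5 : (C0 + 1) * (2 * g * ‖r - p‖) ≤ (C0 + 1) * (‖r - p‖ ^ 2 + (1 - B.J r)) := by
    calc (C0 + 1) * (2 * g * ‖r - p‖) = γ * ‖r - p‖ := by rw [hγ]; ring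
      _ ≤ _ := h2.trans h3
  have h6 := le_of_mul_le_mul_left h5 hC
  linarith

/-- crude lower bound for `Ta (ar r)`. -/
theorem r1_lower {S : SI X Y} {p : X} (B : BS S p) {r : X} (hr : ‖r‖ = 1) (h0 : ‖r - p‖ ≤ c0)
    (hJ : B.J r < 1) (hJ' : B.J' (S.F r) < 1) (hh : ‖r - p‖ ^ 2 ≤ 1 - B.J' (S.F r)) (x : X) :
    ‖x‖ ≤ (3 + 2 * C0) * ‖B.Ta (B.ar r) x‖ := by
  have hd : ‖S.F r - S.F p‖ = ‖r - p‖ := S.dist _ _ (by rw [hr, B.hp])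
  have h1 := B.symm.ar_sub_le (r := S.F r) (by rw [S.norm, hr]) (by rw [hd]; exact h0) hJ'
    (by rw [hd]; exact hh)
  have h2 := B.symm.Ta_le (B.symm.ar (S.F r)) (B.Ta (B.ar r) x)
  rw [B.Ta_ar_inv hJ.ne hJ'.ne] at h2
  exact h2.trans (mul_le_mul_of_nonneg_right (by linarith) (norm_nonneg _))

theorem r1_case1 {S : SI X Y} {p : X} (B : BS S p) {r z : X} {γ ε θ R : ℝ} (hγ : 0 < γ)
    (hθ0 : 0 < θ) (hθ1 : θ ≤ 1 / 10) (hR0 : 0 < R) (hR1 : 4 ≤ θ * R) (hR2 : 8 ≤ θ ^ 2 * γ * R)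
    (h4 : 1 + θ ≤ (1 + ε) * (1 - 6 * θ)) (hr : ‖r‖ = 1) (hτ0 : 0 < ‖r - p‖)
    (hh : γ * ‖r - p‖ ≤ 1 - B.J r) (hz : B.J z ≤ 0) (hy : B.Ta (B.ar r) z ≠ 0)
    (hin : ‖S.F p + (R * ‖r - p‖) •
      (‖B.Ta (B.ar r) z‖⁻¹ • B.Ta (B.ar r) z - θ • S.F p)‖ ≤ 1) :
    ‖B.Ta (B.ar r) z‖ ≤ (1 + ε) * ‖z‖ := by
  have hJ : B.J r < 1 := by nlinarith
  have hl : 0 < R * ‖r - p‖ := by positivity
  have h1 := long B hr hJ hz hy hθ0 (by linarith) hl hin (by nlinarith)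
  generalize ‖B.Ta (B.ar r) z‖ = a at h1 ⊢
  generalize ‖r - p‖ = τ at *
  generalize 1 - B.J r = u at *
  have hu : 0 < u := lt_of_lt_of_le (by positivity) hh
  have h2 : 8 * τ ^ 2 / (θ * (R * τ) * u) ≤ θ := by
    rw [div_le_iff₀ (by positivity)]
    have h3 : θ * (θ * (R * τ) * (γ * τ)) ≤ θ * (θ * (R * τ) * u) := by gcongr
    have h4 : θ * (θ * (R * τ) * (γ * τ)) = θ ^ 2 * γ * R * τ ^ 2 := by ring
    nlinarith [sq_nonneg τ]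
  have h3 : a * (1 - 6 * θ) ≤ ‖z‖ * (1 + θ) :=
    h1.trans (mul_le_mul_of_nonneg_left (by linarith) (norm_nonneg _))
  have h5 : a * (1 - 6 * θ) ≤ ((1 + ε) * ‖z‖) * (1 - 6 * θ) := by
    nlinarith [norm_nonneg z]
  exact le_of_mul_le_mul_right h5 (by linarith)

theorem r1_case2 {S : SI X Y} {p : X} (B : BS S p) {r z : X} {ε θ l m C₁ : ℝ} (hε : 0 < ε)
    (hθ0 : 0 < θ) (hθ1 : θ ≤ 1 / 10) (hC₁ : 0 ≤ C₁) (he8 : (1 + ε) * (1 - (1 + 3 * C₁) * θ) = 1)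
    (hl : 0 < l) (hlm : 2 * l ≤ m) (hm1 : m ≤ c0) (hm3 : m ≤ θ / 2 / (2 * (C0 + 1)))
    (haa : ∀ r' : X, ‖r'‖ = 1 → r' ≠ p → ‖r' - p‖ ≤ m →
      θ / 2 / (2 * (C0 + 1)) * ‖r' - p‖ ≤ 1 - B.J r' → ‖B.ar r - B.ar r'‖ ≤ θ)
    (hlow : ∀ x, ‖x‖ ≤ C₁ * ‖B.Ta (B.ar r) x‖) (hJa : 0 < B.J' (B.ar r))
    (hz : B.J z ≤ 0) (hy : B.Ta (B.ar r) z ≠ 0)
    (hin : 1 < ‖S.F p + l • (‖B.Ta (B.ar r) z‖⁻¹ • B.Ta (B.ar r) z - θ • S.F p)‖) :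
    ‖B.Ta (B.ar r) z‖ ≤ (1 + ε) * ‖z‖ := by
  have hJy : B.J' (B.Ta (B.ar r) z) ≤ 0 := by
    rw [B.J'_Ta]; exact mul_nonpos_of_nonneg_of_nonpos hJa.le hz
  obtain ⟨y, hy'⟩ : ∃ y, y = B.Ta (B.ar r) z := ⟨_, rfl⟩
  rw [← hy'] at hy hin hJy ⊢
  have hy0 : 0 < ‖y‖ := norm_pos_iff.2 hy
  obtain ⟨d, hd⟩ : ∃ d, d = ‖y‖⁻¹ • y - θ • S.F p := ⟨_, rfl⟩
  rw [← hd] at hin
  have hJd : B.J' d ≤ -θ := by
    rw [hd, map_sub, map_smul, map_smul, B.J'_Fp, smul_eq_mul, smul_eq_mul]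
    have := mul_nonpos_of_nonneg_of_nonpos (inv_pos.2 hy0).le hJy
    linarith
  obtain ⟨t, ht0, htl, ht⟩ := exit_lt B.norm_Fp B.sm' B.hJ' (by linarith) hl hin
  have hn1 : ‖‖y‖⁻¹ • y‖ = 1 := norm_normalize hy
  have hn2 : ‖θ • S.F p‖ = θ := by
    rw [norm_smul, B.norm_Fp, Real.norm_of_nonneg hθ0.le, mul_one]
  have hd1 : ‖d‖ ≤ 1 + θ := by
    rw [hd]; exact (norm_sub_le _ _).trans (by rw [hn1, hn2])
  have hd2 : 1 - θ ≤ ‖d‖ := by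
    have := norm_sub_norm_le (‖y‖⁻¹ • y) (θ • S.F p)
    rw [hn1, hn2, ← hd] at this; exact this
  obtain ⟨r', hFr'⟩ : ∃ r', S.F r' = S.F p + t • d := S.F.surjective _
  have hr'1 : ‖r'‖ = 1 := by rw [← S.norm, hFr', ht]
  have hτ' : ‖r' - p‖ = t * ‖d‖ := by
    rw [← S.dist _ _ (by rw [hr'1, B.hp]), hFr', add_sub_cancel_left, norm_smul,
      Real.norm_of_nonneg ht0.le]
  have hτ'0 : 0 < ‖r' - p‖ := by rw [hτ']; exact mul_pos ht0 (by linarith)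
  have hτ'1 : ‖r' - p‖ ≤ 2 * t := by
    rw [hτ', mul_comm 2 t]; exact mul_le_mul_of_nonneg_left (by linarith) ht0.le
  have hτ'm : ‖r' - p‖ ≤ m := by linarith
  have hhY : θ / 2 * ‖r' - p‖ ≤ 1 - B.J' (S.F r') := by
    rw [hFr', map_add, map_smul, B.J'_Fp, smul_eq_mul]
    have h1 := mul_le_mul_of_nonneg_left hτ'1 hθ0.le
    have h2 := mul_le_mul_of_nonneg_left hJd ht0.le
    linarith
  have hhX := r1_height' B hr'1 (hτ'm.trans hm1) (hτ'm.trans hm3) hhY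
  have hr'p : r' ≠ p := sub_ne_zero.1 (norm_pos_iff.1 hτ'0)
  have hJr' : B.J r' < 1 := by
    have hC := C0_pos
    have : 0 < θ / 2 / (2 * (C0 + 1)) * ‖r' - p‖ := by positivity
    linarith
  have haa' := haa r' hr'1 hr'p hτ'm hhX
  have he1 : B.Ta (B.ar r) (r' - p) = t • d + B.J (r' - p) • (B.ar r - B.ar r') := by
    have h1 := B.Ta_ar hJr'.ne
    rw [hFr', add_sub_cancel_left, BS.Ta_apply] at h1
    rw [BS.Ta_apply, ← h1]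
    module
  have he2 : B.Ta (B.ar r) (r' - p - (t / ‖y‖) • z) =
      -(t * θ) • S.F p + B.J (r' - p) • (B.ar r - B.ar r') := by
    rw [map_sub, map_smul, he1, ← hy', hd, div_eq_mul_inv]
    module
  have hJle : |B.J (r' - p)| ≤ ‖r' - p‖ := B.hJ.abs_le _
  have he3 : ‖B.Ta (B.ar r) (r' - p - (t / ‖y‖) • z)‖ ≤ 3 * θ * t := by
    rw [he2]
    refine (norm_add_le _ _).trans ?_
    rw [norm_smul, norm_smul, B.norm_Fp, Real.norm_eq_abs, Real.norm_eq_abs, abs_neg,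
      abs_of_pos (by positivity)]
    have : |B.J (r' - p)| * ‖B.ar r - B.ar r'‖ ≤ 2 * t * θ :=
      mul_le_mul (hJle.trans hτ'1) haa' (norm_nonneg _) (by positivity)
    linarith
  have he4 : ‖r' - p - (t / ‖y‖) • z‖ ≤ C₁ * (3 * θ * t) :=
    (hlow _).trans (mul_le_mul_of_nonneg_left he3 hC₁)
  have he5 := norm_sub_norm_le (r' - p) ((t / ‖y‖) • z)
  rw [norm_smul, Real.norm_of_nonneg (by positivity)] at he5
  have he6 : t * (1 - (1 + 3 * C₁) * θ) ≤ t * (‖z‖ / ‖y‖) := by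
    have h1 : t * (1 - θ) ≤ ‖r' - p‖ := by rw [hτ']; gcongr
    have h2 : t / ‖y‖ * ‖z‖ = t * (‖z‖ / ‖y‖) := by ring
    linarith
  have he7 : (1 - (1 + 3 * C₁) * θ) * ‖y‖ ≤ ‖z‖ :=
    (le_div_iff₀ hy0).1 (le_of_mul_le_mul_left he6 ht0)
  calc ‖y‖ = (1 + ε) * ((1 - (1 + 3 * C₁) * θ) * ‖y‖) := by rw [← mul_assoc, he8, one_mul]
    _ ≤ _ := by gcongr

/-- WLOG `‖z‖ = 1`, `J z ≤ 0` (replace `z` by `-z`), `y = Ta (ar r) z ≠ 0`, `ŵ = ‖y‖⁻¹ y`, `d = ŵ - θ F p`,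
`τ = ‖r - p‖`, `C₁ = 3 + 2 C0`.  Choose `θ` small, then `R` large, `l = R τ`.  If `‖F p + l d‖ ≤ 1` use `long`.
Otherwise `exit_lt` gives `0 < t < l` and a unit `r'` with `F r' = F p + t d`; `τ' = ‖r' - p‖ = t‖d‖`,
`1 - J' (F r') ≥ θ t`, hence `1 - J r' ≥ γ' τ'` (`height_cmp'`, `τ'` small), `aa` gives `‖ar r - ar r'‖ ≤ θ`,
`Ta (ar r) (r' - p - (t/‖y‖) z) = -tθ F p + J (r' - p) (ar r - ar r')`, and `‖x‖ ≤ C₁ ‖Ta (ar r) x‖`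
(`Ta_ar_inv`, `Ta_le`, `ar_sub_le` for `B.symm`, `height_cmp`).  So `t/‖y‖ ≥ t (1 - θ) - 3 C₁ θ t`. -/
theorem r1_upper (S : SI X Y) {γ ε : ℝ} (hγ : 0 < γ) (hε : 0 < ε) :
    ∃ τ₁ : ℝ, 0 < τ₁ ∧ ∀ (p : X) (B : BS S p) (r : X), ‖r‖ = 1 → r ≠ p → ‖r - p‖ ≤ τ₁ →
      γ * ‖r - p‖ ≤ 1 - B.J r → ∀ z, ‖B.Ta (B.ar r) z‖ ≤ (1 + ε) * ‖z‖ := by
  have hC0 := one_le_C0
  obtain ⟨M, hM⟩ : ∃ M : ℝ, M = 1 + 3 * (3 + 2 * C0) := ⟨_, rfl⟩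
  have hM10 : 10 ≤ M := by rw [hM]; linarith
  obtain ⟨θ, hθ0, hθe⟩ : ∃ θ : ℝ, 0 < θ ∧ M * ((1 + ε) * θ) = ε :=
    ⟨ε / (M * (1 + ε)), by positivity, by field_simp⟩
  have hθa : 10 * ((1 + ε) * θ) ≤ ε := by
    have : 0 < (1 + ε) * θ := by positivity
    nlinarith
  have hθ1 : θ ≤ 1 / 10 := by
    by_contra h
    push Not at h
    nlinarith
  have h4 : 1 + θ ≤ (1 + ε) * (1 - 6 * θ) := by nlinarith [mul_pos hε hθ0]
  have he8 : (1 + ε) * (1 - (1 + 3 * (3 + 2 * C0)) * θ) = 1 := by rw [← hM]; linarith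
  obtain ⟨R, hR0, hR1, hR2⟩ : ∃ R : ℝ, 0 < R ∧ 4 ≤ θ * R ∧ 8 ≤ θ ^ 2 * γ * R := by
    refine ⟨4 / θ + 8 / (θ ^ 2 * γ), by positivity, ?_, ?_⟩
    · have : θ * (4 / θ + 8 / (θ ^ 2 * γ)) = 4 + 8 / (θ * γ) := by field_simp
      have : 0 < 8 / (θ * γ) := by positivity
      linarith
    · have : θ ^ 2 * γ * (4 / θ + 8 / (θ ^ 2 * γ)) = 4 * θ * γ + 8 := by field_simp
      have : 0 < 4 * θ * γ := by positivity
      linarith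
  obtain ⟨γ₁, hγ₁⟩ : ∃ γ₁ : ℝ, γ₁ = γ / (2 * (C0 + 1)) := ⟨_, rfl⟩
  have hγ₁0 : 0 < γ₁ := by rw [hγ₁]; positivity
  obtain ⟨γ', hγ'⟩ : ∃ γ' : ℝ, γ' = (θ / 2) / (2 * (C0 + 1)) := ⟨_, rfl⟩
  have hγ'0 : 0 < γ' := by rw [hγ']; positivity
  obtain ⟨τ₂, hτ₂, haa⟩ := aa S (γ := min γ γ') (ε := θ) (lt_min hγ hγ'0) hθ0
  have hc0 := c0_pos
  obtain ⟨m, hm0, hm1, hm2, hm3, hm4⟩ : ∃ m : ℝ, 0 < m ∧ m ≤ c0 ∧ m ≤ γ₁ ∧ m ≤ γ' ∧ m ≤ τ₂ :=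
    ⟨min (min c0 γ₁) (min γ' τ₂), by positivity, (min_le_left _ _).trans (min_le_left _ _),
      (min_le_left _ _).trans (min_le_right _ _), (min_le_right _ _).trans (min_le_left _ _),
      (min_le_right _ _).trans (min_le_right _ _)⟩
  refine ⟨m / (1 + 2 * R), by positivity, fun p B r hr hrp hτ hh => ?_⟩
  have hτ0 : 0 < ‖r - p‖ := norm_pos_iff.2 (sub_ne_zero.2 hrp)
  have hτ1 : ‖r - p‖ * (1 + 2 * R) ≤ m := (le_div_iff₀ (by positivity)).1 hτ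
  have hl : 0 < R * ‖r - p‖ := by positivity
  have hτm : ‖r - p‖ ≤ m := by linarith
  have hτR : 2 * (R * ‖r - p‖) ≤ m := by linarith
  have hJ : B.J r < 1 := by linarith [mul_pos hγ hτ0]
  have hh' := r1_height B hr (hτm.trans hm1) (hγ₁ ▸ hτm.trans hm2) hh
  rw [← hγ₁] at hh'
  have hJ' : B.J' (S.F r) < 1 := by linarith [mul_pos hγ₁0 hτ0]
  have hlow := r1_lower B hr (hτm.trans hm1) hJ hJ' (by
    rw [sq]; exact (mul_le_mul_of_nonneg_right (hτm.trans hm2) hτ0.le).trans hh')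
  have hJa : 0 < B.J' (B.ar r) := by
    rw [B.J'_ar hJ.ne]; exact div_pos (by linarith) (by linarith)
  have key : ∀ z, B.J z ≤ 0 → ‖B.Ta (B.ar r) z‖ ≤ (1 + ε) * ‖z‖ := by
    intro z hz
    by_cases hy : B.Ta (B.ar r) z = 0
    · rw [hy, norm_zero]; positivity
    by_cases hin : ‖S.F p + (R * ‖r - p‖) •
      (‖B.Ta (B.ar r) z‖⁻¹ • B.Ta (B.ar r) z - θ • S.F p)‖ ≤ 1
    · exact r1_case1 B hγ hθ0 hθ1 hR0 hR1 hR2 h4 hr hτ0 hh hz hy hin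
    · refine r1_case2 B hε hθ0 hθ1 (by linarith) he8 hl hτR hm1 (hγ' ▸ hm3) ?_ hlow hJa hz hy
        (not_le.1 hin)
      intro r' hr'1 hr'p hτ'm hhX
      rw [← hγ'] at hhX
      exact haa p B r r' hr hr'1 hrp hr'p (hτm.trans hm4) (hτ'm.trans hm4)
        (le_trans (mul_le_mul_of_nonneg_right (min_le_left _ _) (norm_nonneg _)) hh)
        (le_trans (mul_le_mul_of_nonneg_right (min_le_right _ _) (norm_nonneg _)) hhX)
  intro z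
  rcases le_total (B.J z) 0 with hz | hz
  · exact key z hz
  · have := key (-z) (by rw [map_neg]; linarith)
    rwa [map_neg, norm_neg, norm_neg] at this

/-- `r1_upper` for `S` and for `S.symm` (`height_cmp`, `Ta_ar_inv`), then `lemG` (`J'_ar`). -/
theorem r1 (S : SI X Y) {γ ε : ℝ} (hγ : 0 < γ) (hε : 0 < ε) :
    ∃ τ₁ : ℝ, 0 < τ₁ ∧ ∀ (p : X) (B : BS S p) (r : X), ‖r‖ = 1 → r ≠ p → ‖r - p‖ ≤ τ₁ →
      γ * ‖r - p‖ ≤ 1 - B.J r → ‖B.ar r - S.F p‖ ≤ ε ∧ B.Good ε := by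
  have hC0 := one_le_C0
  obtain ⟨ε', hε', hG⟩ := lemG S hε
  set γ₁ : ℝ := γ / (2 * (C0 + 1)) with hγ₁
  have hγ₁0 : 0 < γ₁ := by positivity
  obtain ⟨τa, hτa, ha⟩ := r1_upper S hγ hε'
  obtain ⟨τb, hτb, hb⟩ := r1_upper S.symm hγ₁0 hε'
  have hc0 := c0_pos
  refine ⟨min (min c0 γ₁) (min τa τb), by positivity, fun p B r hr hrp hτ hh => ?_⟩
  have h1 : ‖r - p‖ ≤ c0 := hτ.trans ((min_le_left _ _).trans (min_le_left _ _))
  have h2 : ‖r - p‖ ≤ γ₁ := hτ.trans ((min_le_left _ _).trans (min_le_right _ _))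
  have h3 : ‖r - p‖ ≤ τa := hτ.trans ((min_le_right _ _).trans (min_le_left _ _))
  have h4 : ‖r - p‖ ≤ τb := hτ.trans ((min_le_right _ _).trans (min_le_right _ _))
  have hτ0 : 0 < ‖r - p‖ := norm_pos_iff.2 (sub_ne_zero.2 hrp)
  have hJ : B.J r < 1 := by nlinarith
  have hh' := r1_height B hr h1 h2 hh
  rw [← hγ₁] at hh'
  have hJ' : B.J' (S.F r) < 1 := by nlinarith
  have hJa : 0 < B.J' (B.ar r) := by
    rw [B.J'_ar hJ.ne]; exact div_pos (by linarith) (by linarith)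
  have hd : ‖S.F r - S.F p‖ = ‖r - p‖ := S.dist _ _ (by rw [hr, B.hp])
  refine hG p B _ hJa (ha p B r hr hrp h3 hh) fun z => ?_
  have := hb (S.F p) B.symm (S.F r) (by rw [S.norm, hr]) (fun h => hrp (S.F.injective h))
    (by rw [hd]; exact h4) (by rw [hd]; exact hh') (B.Ta (B.ar r) z)
  rwa [B.Ta_ar_inv hJ.ne hJ'.ne] at this

/-- **Uniform differentiability.**  `r = sph p c`, `τ = ‖r - p‖ ≤ 2‖c‖`.  If `r = p` or `1 - J r ≤ γ τ` use `err_eq'`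
and `dc_sphere`; otherwise `err_eq`, `r1` and `height_le`. -/
theorem thmD (S : SI X Y) {ε : ℝ} (hε : 0 < ε) :
    ∃ δ : ℝ, 0 < δ ∧ ∀ (p : X) (B : BS S p) (c : X), ‖c‖ ≤ δ →
      ‖S.F (p + c) - S.F p - B.T c‖ ≤ ε * ‖c‖ := by
  have hC0 := one_le_C0
  set γ : ℝ := ε / (8 * C0) with hγ
  have hγ0 : 0 < γ := by positivity
  have hγe : 8 * C0 * γ = ε := by rw [hγ]; field_simp
  obtain ⟨τ₁, hτ₁, h1⟩ := r1 S hγ0 (ε := ε / 4) (by positivity)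
  have hc0 := c0_pos
  have hc1 := c0_le
  refine ⟨min (min c0 γ) τ₁ / 2, by positivity, fun p B c hc => ?_⟩
  have ha : 2 * ‖c‖ ≤ c0 := by
    have := (min_le_left (min c0 γ) τ₁).trans (min_le_left _ _); linarith
  have hb : 2 * ‖c‖ ≤ γ := by
    have := (min_le_left (min c0 γ) τ₁).trans (min_le_right _ _); linarith
  have hd : 2 * ‖c‖ ≤ τ₁ := by
    have := min_le_right (min c0 γ) τ₁; linarith
  have hc' : ‖c‖ < 1 := by linarith [norm_nonneg c]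
  have hr := norm_sph B.hp hc'
  have hτ := sph_sub_le B.hp hc'
  have hpc : ‖p + c‖ ≤ 2 := by
    have := norm_add_le p c; rw [B.hp] at this; linarith
  by_cases hcase : 1 - B.J (sph p c) ≤ γ * ‖sph p c - p‖
  · rw [B.err_eq' hc', norm_smul, norm_norm]
    have h2 := B.dc_sphere hr (hτ.trans ha)
    have h3 : ‖sph p c - p‖ ^ 2 ≤ γ * ‖sph p c - p‖ := by
      rw [sq]; exact mul_le_mul_of_nonneg_right (hτ.trans hb) (norm_nonneg _)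
    have h4 : ‖sph p c - p‖ ^ 2 + (1 - B.J (sph p c)) ≤ 4 * γ * ‖c‖ := by nlinarith
    calc _ ≤ 2 * (C0 * (4 * γ * ‖c‖)) :=
          mul_le_mul hpc (h2.trans (by gcongr)) (norm_nonneg _) (by norm_num)
      _ = ε * ‖c‖ := by rw [← hγe]; ring
  · push Not at hcase
    have hpos : 0 < 1 - B.J (sph p c) := lt_of_le_of_lt (by positivity) hcase
    have hne : sph p c ≠ p := by
      intro h
      rw [h, B.J_p] at hpos
      linarith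
    obtain ⟨h2, -⟩ := h1 p B _ hr hne (hτ.trans hd) hcase.le
    rw [B.err_eq hc' (by linarith), norm_smul, Real.norm_eq_abs, abs_neg,
      abs_of_nonneg (by positivity)]
    have h3 := (B.height_le (sph p c)).trans hτ
    calc _ ≤ 2 * (2 * ‖c‖) * (ε / 4) := by gcongr
      _ = ε * ‖c‖ := by ring

theorem T_unif_aux (S : SI X Y) {ε : ℝ} (hε : 0 < ε) :
    ∃ δ : ℝ, 0 < δ ∧ ∀ (p p' : X) (B : BS S p) (B' : BS S p'), ‖p - p'‖ ≤ δ →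
      ∀ x, ‖B.T x - B'.T x‖ ≤ ε * ‖x‖ := by
  obtain ⟨δ, hδ, h⟩ := thmD S (ε := ε / 4) (by positivity)
  refine ⟨δ / 2, by positivity, fun p p' B B' hp x => ?_⟩
  by_cases hx : x = 0
  · simp [hx]
  have hx0 : 0 < ‖x‖ := norm_pos_iff.2 hx
  set t : ℝ := δ / 2 / ‖x‖ with ht
  have ht0 : 0 < t := by positivity
  have htx : ‖t • x‖ = δ / 2 := by
    rw [norm_smul, Real.norm_of_nonneg ht0.le, ht]; field_simp
  have h1 := h p B (t • x) (by linarith)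
  have hn : ‖p - p' + t • x‖ ≤ δ := (norm_add_le _ _).trans (by linarith)
  have h2 := h p' B' (p - p' + t • x) hn
  have h3 := h p' B' (p - p') (by linarith)
  have e1 : p' + (p - p' + t • x) = p + t • x := by abel
  have e2 : p' + (p - p') = p := by abel
  rw [e1] at h2
  rw [e2] at h3
  have e3 : t • (B.T x - B'.T x) = -(S.F (p + t • x) - S.F p - B.T (t • x)) +
      ((S.F (p + t • x) - S.F p' - B'.T (p - p' + t • x)) - (S.F p - S.F p' - B'.T (p - p'))) := by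
    rw [map_add B'.T, map_smul B.T, map_smul B'.T]; module
  have h4 : ‖t • (B.T x - B'.T x)‖ ≤ ε / 4 * (2 * δ) := by
    rw [e3]
    refine (norm_add_le _ _).trans ?_
    rw [norm_neg]
    have := norm_sub_le (S.F (p + t • x) - S.F p' - B'.T (p - p' + t • x))
      (S.F p - S.F p' - B'.T (p - p'))
    rw [htx] at h1
    nlinarith
  rw [norm_smul, Real.norm_of_nonneg ht0.le] at h4
  have h5 : ε / 4 * (2 * δ) = t * (ε * ‖x‖) := by rw [ht]; field_simp; ring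
  rw [h5] at h4
  exact le_of_mul_le_mul_left h4 ht0

/-- compare `F (p + h ζ) - F p` expanded at `p` and at `p'`; the inverse statement is the one for `S.symm`. -/
theorem T_unif (S : SI X Y) {ε : ℝ} (hε : 0 < ε) :
    ∃ δ : ℝ, 0 < δ ∧ ∀ (p p' : X) (B : BS S p) (B' : BS S p'), ‖p - p'‖ ≤ δ →
      (∀ x, ‖B.T x - B'.T x‖ ≤ ε * ‖x‖) ∧ ∀ y, ‖B.T.symm y - B'.T.symm y‖ ≤ ε * ‖y‖ := by
  obtain ⟨δ₁, h₁, ha⟩ := T_unif_aux S hε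
  obtain ⟨δ₂, h₂, hb⟩ := T_unif_aux S.symm hε
  refine ⟨min δ₁ δ₂, by positivity, fun p p' B B' hp => ⟨ha p p' B B' (hp.trans (min_le_left _ _)), ?_⟩⟩
  refine hb (S.F p) (S.F p') B.symm B'.symm ?_
  rw [S.dist _ _ (by rw [B.hp, B'.hp])]
  exact hp.trans (min_le_right _ _)

/-- near a good point `F` is almost `1`-Lipschitz at the scale `h`: with `x̂ = ‖x‖⁻¹ x`, `c' = ‖x‖⁻¹ c`, expand
`F (x̂ + c')` and `F x̂` at `p` (`thmD` with `ε/44`). -/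
theorem good_pair (S : SI X Y) {ε : ℝ} (hε : 0 < ε) :
    ∃ δ : ℝ, 0 < δ ∧ ∀ (p : X) (B : BS S p), B.Good ε → ∀ x c : X, 1 / 2 ≤ ‖x‖ → ‖x‖ ≤ 2 → ‖c‖ ≤ δ →
      ‖‖x‖⁻¹ • x - p‖ ≤ 10 * ‖c‖ → ‖S.F (x + c) - S.F x‖ ≤ (1 + 3 * ε) * ‖c‖ := by
  obtain ⟨δ, hδ, h⟩ := thmD S (ε := ε / 44) (by positivity)
  refine ⟨δ / 12, by positivity, fun p B hG x c hx1 hx2 hc hxp => ?_⟩
  have hx0 : 0 < ‖x‖ := by linarith
  set e := ‖x‖⁻¹ • x - p with he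
  set c' := ‖x‖⁻¹ • c with hc'
  have hc'n : ‖c'‖ = ‖x‖⁻¹ * ‖c‖ := by
    rw [hc', norm_smul, Real.norm_of_nonneg (by positivity)]
  have hinv : ‖x‖⁻¹ ≤ 2 := by
    rw [inv_le_comm₀ hx0 (by norm_num)]; linarith
  have hc'2 : ‖c'‖ ≤ 2 * ‖c‖ := by rw [hc'n]; gcongr
  have hn : ‖e + c'‖ ≤ 12 * ‖c‖ := (norm_add_le _ _).trans (by linarith)
  have h1 := h p B (e + c') (by linarith)
  have h2 := h p B e (by linarith [norm_nonneg c])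
  have e1 : S.F (x + c) = ‖x‖ • S.F (p + (e + c')) := by
    rw [← S.smul]; congr 1
    rw [he, hc']
    have : ‖x‖ * ‖x‖⁻¹ = 1 := by field_simp
    calc x + c = (‖x‖ * ‖x‖⁻¹) • (x + c) := by rw [this, one_smul]
      _ = _ := by module
  have e2 : S.F x = ‖x‖ • S.F (p + e) := by
    rw [← S.smul]; congr 1
    rw [he]
    have : ‖x‖ * ‖x‖⁻¹ = 1 := by field_simp
    calc x = (‖x‖ * ‖x‖⁻¹) • x := by rw [this, one_smul]
      _ = _ := by module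
  have e3 : S.F (p + (e + c')) - S.F (p + e) = B.T c' +
      ((S.F (p + (e + c')) - S.F p - B.T (e + c')) - (S.F (p + e) - S.F p - B.T e)) := by
    rw [map_add B.T]; abel
  have h3 : ‖S.F (p + (e + c')) - S.F (p + e)‖ ≤ (1 + ε) * (‖x‖⁻¹ * ‖c‖) + ε / 2 * ‖c‖ := by
    rw [e3]
    refine (norm_add_le _ _).trans (add_le_add (by rw [← hc'n]; exact hG.1 c') ?_)
    refine (norm_sub_le _ _).trans ?_
    nlinarith
  rw [e1, e2, ← smul_sub, norm_smul, norm_norm]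
  calc _ ≤ ‖x‖ * ((1 + ε) * (‖x‖⁻¹ * ‖c‖) + ε / 2 * ‖c‖) := by gcongr
    _ = (1 + ε) * ‖c‖ + ‖x‖ * (ε / 2 * ‖c‖) := by field_simp
    _ ≤ (1 + ε) * ‖c‖ + 2 * (ε / 2 * ‖c‖) := by gcongr
    _ ≤ _ := by nlinarith [norm_nonneg c]

end Crest.Agent.R74
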