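import Crest.Agent.R74.DC

/-!
# Row 74: the derivative of `F` at a smooth point
-/

namespace Crest.Agent.R74

open Finset Filter Topology

variable {X Y : Type*} [NormedAddCommGroup X] [NormedSpace ℝ X] [NormedAddCommGroup Y]
  [NormedSpace ℝ Y]

/-- difference quotients: from `dc_F` divided by `l`, using `‖p + l c‖ ≥ 1 + l J c`. -/
theorem quot_le (S : SI X Y) {p c : X} {J : X →L[ℝ] ℝ} (hp : ‖p‖ = 1) (hJ : Nm J p) (hc : ‖c‖ ≤ c0)
    {l : ℝ} (h0 : 0 < l) (h1 : l ≤ 1) :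
    ‖S.F (p + c) - S.F p - l⁻¹ • (S.F (p + l • c) - S.F p)‖ ≤
      C0 * (‖c‖ ^ 2 + (‖p + c‖ - 1 - J c)) := by
  have h := dc_F S hp hc h0.le h1
  have e : (1 - l) • S.F p + l • S.F (p + c) - S.F (p + l • c) =
      l • (S.F (p + c) - S.F p - l⁻¹ • (S.F (p + l • c) - S.F p)) := by
    rw [smul_sub, smul_inv_smul₀ h0.ne']
    module
  rw [e, norm_smul, Real.norm_of_nonneg h0.le] at h
  have h2 := hJ.sub_le (l • c)
  rw [map_smul, smul_eq_mul] at h2
  refine le_of_mul_le_mul_left (h.trans ?_) h0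
  rw [mul_left_comm]
  refine mul_le_mul_of_nonneg_left ?_ C0_pos.le
  rw [hp] at h2 ⊢
  linarith

theorem deriv_small (ζ : X) {r : ℝ} (hr : 0 < r) : ∀ᶠ t : ℝ in 𝓝[>] 0, ‖t • ζ‖ ≤ r := by
  have : Tendsto (fun t : ℝ => ‖t • ζ‖) (𝓝 0) (𝓝 ‖(0 : ℝ) • ζ‖) :=
    (by fun_prop : Continuous fun t : ℝ => ‖t • ζ‖).tendsto 0
  rw [zero_smul, norm_zero] at this
  exact (this.eventually_le_const hr).filter_mono nhdsWithin_le_nhds

/-- the error term of the delta-convexity estimate is `o(t)` along rays at a smooth point. -/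
theorem deriv_err {p : X} {J : X →L[ℝ] ℝ} (hp : ‖p‖ = 1) (hJ : Nm J p) (hs : Sm p) (ζ : X) :
    Tendsto (fun t : ℝ => t⁻¹ * (C0 * (‖t • ζ‖ ^ 2 + (‖p + t • ζ‖ - 1 - J (t • ζ))))) (𝓝[>] 0) (𝓝 0) := by
  have h1 : Tendsto (fun t : ℝ => t⁻¹ * (‖p + t • ζ‖ - 1 - J (t • ζ))) (𝓝[>] 0) (𝓝 0) := by
    refine Metric.tendsto_nhds.2 fun ε hε => ?_
    obtain ⟨t₀, h0, h⟩ := hs.little hJ ζ (half_pos hε)
    filter_upwards [Ioc_mem_nhdsGT h0] with t ht
    have a1 := h t (by rw [abs_of_pos ht.1]; exact ht.2)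
    have a2 := hJ.sub_le (t • ζ)
    rw [hp] at a1 a2
    rw [abs_of_pos ht.1] at a1
    rw [Real.dist_eq, sub_zero, abs_of_nonneg (mul_nonneg (inv_pos.2 ht.1).le (by linarith)),
      inv_mul_lt_iff₀ ht.1, map_smul, smul_eq_mul]
    nlinarith [mul_pos ht.1 hε]
  have h2 : Tendsto (fun t : ℝ => t * ‖ζ‖ ^ 2) (𝓝[>] 0) (𝓝 (0 * ‖ζ‖ ^ 2)) :=
    ((by fun_prop : Continuous fun t : ℝ => t * ‖ζ‖ ^ 2).tendsto 0).mono_left nhdsWithin_le_nhds
  have h3 := (h2.add h1).const_mul C0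
  rw [zero_mul, add_zero, mul_zero] at h3
  refine h3.congr' (eventually_nhdsWithin_of_forall fun t (ht : 0 < t) => ?_)
  simp only [norm_smul, Real.norm_of_nonneg ht.le]
  field_simp

/-- the midpoint estimate at a base point that is not normalised. -/
theorem deriv_mid (S : SI X Y) {x c : X} (hx : 1 / 2 ≤ ‖x‖) (hc : ‖c‖ ≤ c0 / 2) :
    ‖S.F x + S.F (x + c) - (2 : ℝ) • S.F (x + (2⁻¹ : ℝ) • c)‖ ≤
      C0 * (2 * ‖c‖ ^ 2 + (‖x‖ + ‖x + c‖ - 2 * ‖x + (2⁻¹ : ℝ) • c‖)) := by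
  have h0 : 0 < ‖x‖ := by linarith
  have hi : 0 < ‖x‖⁻¹ := inv_pos.2 h0
  have h2 : ‖x‖⁻¹ ≤ 2 := by rw [inv_le_comm₀ h0 two_pos]; linarith
  have h := dc_F S (norm_normalize (norm_pos_iff.1 h0)) (c := ‖x‖⁻¹ • c) (l := 2⁻¹) (by
    rw [norm_smul, Real.norm_of_nonneg hi.le]
    nlinarith [norm_nonneg c]) (by norm_num) (by norm_num)
  rw [smul_comm (2⁻¹ : ℝ) _ c, ← smul_add, ← smul_add, S.smul, S.smul, S.smul,
    show (1 - 2⁻¹ : ℝ) • ‖x‖⁻¹ • S.F x + (2⁻¹ : ℝ) • ‖x‖⁻¹ • S.F (x + c) -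
      ‖x‖⁻¹ • S.F (x + (2⁻¹ : ℝ) • c) = (‖x‖⁻¹ / 2) •
        (S.F x + S.F (x + c) - (2 : ℝ) • S.F (x + (2⁻¹ : ℝ) • c)) by module] at h
  simp only [norm_smul, Real.norm_of_nonneg hi.le, Real.norm_of_nonneg (half_pos hi).le] at h
  refine le_of_mul_le_mul_left (h.trans ?_) (half_pos hi)
  rw [mul_left_comm _ C0]
  refine mul_le_mul_of_nonneg_left ?_ C0_pos.le
  nlinarith [mul_le_mul_of_nonneg_left h2 (mul_nonneg hi.le (sq_nonneg ‖c‖))]

/-- By `quot_le` and `Sm.little` the quotients `t⁻¹ (F (p + t ζ) - F p)` are Cauchy as `t → 0+`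
(`cauchy_map_iff_exists_tendsto` on `𝓝[>] 0`, or the sequence `t = 2⁻ⁿ` first); call the limit `T ζ`.  It is
positively homogeneous, bounded by `3‖ζ‖` (`lip3`), midpoint additive: `dc_F` with `l = 1/2` at the base point
`x = p + t ζ₁` (normalise it, `F` and both sides are homogeneous) and increment `t (ζ₂ - ζ₁)`; the defect of the
norm is `o(t)` by `Sm.little` and the subgradient inequality.  Additive + positively homogeneous gives
linear.  The estimate is the limit `l → 0` of `quot_le`. -/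
theorem exists_deriv [CompleteSpace Y] (S : SI X Y) {p : X} {J : X →L[ℝ] ℝ} (hp : ‖p‖ = 1)
    (hJ : Nm J p) (hs : Sm p) :
    ∃ T : X →L[ℝ] Y, ∀ c, ‖c‖ ≤ c0 →
      ‖S.F (p + c) - S.F p - T c‖ ≤ C0 * (‖c‖ ^ 2 + (‖p + c‖ - 1 - J c)) := by
  have hex : ∀ ζ : X, ∃ y, Tendsto (fun t : ℝ => t⁻¹ • (S.F (p + t • ζ) - S.F p)) (𝓝[>] 0) (𝓝 y) := by
    intro ζ
    refine cauchy_map_iff_exists_tendsto.1 (Metric.cauchy_iff.2 ⟨inferInstance, fun ε hε => ?_⟩)
    obtain ⟨t, ⟨h1, h2⟩, h3⟩ := (((deriv_small ζ c0_pos).and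
      ((deriv_err hp hJ hs ζ).eventually_lt_const (half_pos hε))).and self_mem_nhdsWithin).exists
    replace h3 : 0 < t := h3
    refine ⟨Metric.ball (t⁻¹ • (S.F (p + t • ζ) - S.F p)) (ε / 2), ?_, fun x hx y hy => ?_⟩
    · refine mem_map.2 (mem_of_superset (Ioc_mem_nhdsGT h3) fun s hs => ?_)
      have h := quot_le S hp hJ h1 (div_pos hs.1 h3) ((div_le_one h3).2 hs.2)
      rw [smul_smul, div_mul_cancel₀ _ h3.ne'] at h
      rw [Set.mem_preimage, mem_ball_iff_norm']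
      refine lt_of_le_of_lt (le_trans (le_of_eq ?_)
        (mul_le_mul_of_nonneg_left h (inv_pos.2 h3).le)) h2
      rw [← Real.norm_of_nonneg (inv_pos.2 h3).le, ← norm_smul, Real.norm_of_nonneg (inv_pos.2 h3).le,
        smul_sub t⁻¹ _ (_ • _), smul_smul, inv_div, div_eq_mul_inv, inv_mul_cancel_left₀ h3.ne']
    · linarith [dist_triangle_right x y (t⁻¹ • (S.F (p + t • ζ) - S.F p)), Metric.mem_ball.1 hx,
        Metric.mem_ball.1 hy]
  choose T hT using hex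
  have hpos : ∀ᶠ t : ℝ in 𝓝[>] 0, 0 < t := self_mem_nhdsWithin
  have h0 : T 0 = 0 := tendsto_nhds_unique (hT 0) (by simp)
  have hb : ∀ ζ, ‖T ζ‖ ≤ 3 * ‖ζ‖ := fun ζ => by
    refine le_of_tendsto (hT ζ).norm (hpos.mono fun t ht => ?_)
    have := S.lip3 (p + t • ζ) p
    rw [add_sub_cancel_left, norm_smul, Real.norm_of_nonneg ht.le] at this
    rw [norm_smul, Real.norm_of_nonneg (inv_pos.2 ht).le, inv_mul_le_iff₀ ht]
    linarith
  have hm : ∀ ζ ζ', T ζ + T ζ' = (2 : ℝ) • T ((2⁻¹ : ℝ) • (ζ + ζ')) := fun ζ ζ' => by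
    rw [← sub_eq_zero, ← norm_le_zero_iff]
    have l1 := (((hT ζ).add (hT ζ')).sub ((hT ((2⁻¹ : ℝ) • (ζ + ζ'))).const_smul (2 : ℝ))).norm
    have l2 := (((deriv_err hp hJ hs ζ).add (deriv_err hp hJ hs ζ')).add
      ((deriv_err hp hJ hs (ζ' - ζ)).const_mul 2))
    rw [add_zero, mul_zero, add_zero] at l2
    refine le_of_tendsto_of_tendsto l1 l2 ?_
    filter_upwards [hpos, deriv_small ζ (by norm_num : (0 : ℝ) < 1 / 2),
      deriv_small (ζ' - ζ) (half_pos c0_pos)] with t ht a1 a2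
    have hx : 1 / 2 ≤ ‖p + t • ζ‖ := by
      have := norm_sub_le (p + t • ζ) (t • ζ)
      rw [add_sub_cancel_right, hp] at this
      linarith
    have h := deriv_mid S hx a2
    rw [show p + t • ζ + t • (ζ' - ζ) = p + t • ζ' by module,
      show p + t • ζ + (2⁻¹ : ℝ) • t • (ζ' - ζ) = p + t • (2⁻¹ : ℝ) • (ζ + ζ') by module] at h
    rw [show t⁻¹ • (S.F (p + t • ζ) - S.F p) + t⁻¹ • (S.F (p + t • ζ') - S.F p) -
        (2 : ℝ) • t⁻¹ • (S.F (p + t • (2⁻¹ : ℝ) • (ζ + ζ')) - S.F p) =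
        t⁻¹ • (S.F (p + t • ζ) + S.F (p + t • ζ') - (2 : ℝ) • S.F (p + t • (2⁻¹ : ℝ) • (ζ + ζ'))) by
        module, norm_smul, Real.norm_of_nonneg (inv_pos.2 ht).le, mul_left_comm 2, ← mul_add, ← mul_add,
      mul_left_comm 2, ← mul_add, ← mul_add]
    refine mul_le_mul_of_nonneg_left (h.trans (mul_le_mul_of_nonneg_left ?_ C0_pos.le))
      (inv_pos.2 ht).le
    have b1 := hJ.sub_le (t • (2⁻¹ : ℝ) • (ζ + ζ'))
    have b2 := hJ.sub_le (t • (ζ' - ζ))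
    simp only [map_smul, map_add, smul_eq_mul, hp] at b1 b2 ⊢
    linarith [sq_nonneg ‖t • ζ‖, sq_nonneg ‖t • ζ'‖]
  have ha : ∀ ζ ζ', T (ζ + ζ') = T ζ + T ζ' := fun ζ ζ' => by
    rw [hm, ← add_zero (T (ζ + ζ')), ← h0, hm, add_zero]
  let A : X →+ Y := AddMonoidHom.mk' T ha
  refine ⟨A.toRealLinearMap (AddMonoidHomClass.continuous_of_bound A 3 hb), fun c hc => ?_⟩
  refine le_of_tendsto ((hT c).const_sub (S.F (p + c) - S.F p)).norm ?_
  filter_upwards [Ioc_mem_nhdsGT one_pos] with l hl using quot_le S hp hJ hc hl.1 hl.2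

theorem deriv_inv (S : SI X Y) {p : X} {J : X →L[ℝ] ℝ} {J' : Y →L[ℝ] ℝ} (hp : ‖p‖ = 1) (hJ : Nm J p)
    (hJ' : Nm J' (S.F p)) (hs : Sm p) (hs' : Sm (S.F p)) {T : X →L[ℝ] Y} {T' : Y →L[ℝ] X}
    (hT : ∀ c, ‖c‖ ≤ c0 → ‖S.F (p + c) - S.F p - T c‖ ≤ C0 * (‖c‖ ^ 2 + (‖p + c‖ - 1 - J c)))
    (hT' : ∀ c, ‖c‖ ≤ c0 → ‖S.symm.F (S.F p + c) - S.symm.F (S.F p) - T' c‖ ≤
      C0 * (‖c‖ ^ 2 + (‖S.F p + c‖ - 1 - J' c))) (ζ : X) : T' (T ζ) = ζ := by
  have l := ((deriv_err hp hJ hs ζ).const_mul 3).add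
    (deriv_err (by rw [S.norm, hp]) hJ' hs' (T ζ))
  rw [mul_zero, add_zero] at l
  rw [eq_comm, ← sub_eq_zero, ← norm_le_zero_iff]
  refine ge_of_tendsto l ?_
  filter_upwards [self_mem_nhdsWithin, deriv_small ζ c0_pos, deriv_small (T ζ) c0_pos] with
    t (ht : 0 < t) a1 a2
  have b1 := hT _ a1
  have b2 := hT' _ a2
  have b3 := S.symm.lip3 (S.F (p + t • ζ)) (S.F p + t • T ζ)
  simp only [SI.symm_F, Equiv.symm_apply_apply] at b2 b3
  rw [map_smul, sub_sub] at b1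
  have b4 := norm_add_le (p + t • ζ - S.F.symm (S.F p + t • T ζ))
    (S.F.symm (S.F p + t • T ζ) - p - T' (t • T ζ))
  rw [show p + t • ζ - S.F.symm (S.F p + t • T ζ) + (S.F.symm (S.F p + t • T ζ) - p - T' (t • T ζ)) =
    t • (ζ - T' (T ζ)) by rw [map_smul]; module, norm_smul, Real.norm_of_nonneg ht.le] at b4
  rw [mul_left_comm, ← mul_add, le_inv_mul_iff₀ ht]
  linarith

/-- `T` for `S` at `p` and `T'` for `S.symm` at `F p` are inverse to each other (chain rule: both maps are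
`3`-Lipschitz and Gâteaux differentiable); `ContinuousLinearEquiv.equivOfInverse`. -/
theorem exists_BS [CompleteSpace X] [CompleteSpace Y] (S : SI X Y) {p : X} (hp : ‖p‖ = 1) (hs : Sm p)
    (hs' : Sm (S.F p)) : Nonempty (BS S p) := by
  obtain ⟨J, hJ⟩ := exists_nm p
  obtain ⟨J', hJ'⟩ := exists_nm (S.F p)
  have hp' : ‖S.F p‖ = 1 := by rw [S.norm, hp]
  obtain ⟨T, hT⟩ := exists_deriv S hp hJ hs
  obtain ⟨T', hT'⟩ := exists_deriv S.symm hp' hJ' hs'
  have e : S.symm.F (S.F p) = p := S.F.symm_apply_apply p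
  have h1 := deriv_inv S hp hJ hJ' hs hs' hT hT'
  have h2 := deriv_inv S.symm hp' hJ' (e.symm ▸ hJ) hs' (e.symm ▸ hs) hT'
    (T' := T) (by rw [e]; exact fun c hc => by simpa [SI.symm] using hT c hc)
  exact ⟨⟨J, J', ContinuousLinearEquiv.equivOfInverse T T' h1 h2, hp, hJ, hJ', hs, hs', hT,
    fun c hc => by have := hT' c hc; rwa [e] at this⟩⟩

/-- **Mazur.**  For a dense sequence `ζ k` the sets `{x | ∃ t > 0, D2 x (t ζ k) < t / (m+1)}` are open and dense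
(`pigeon_norm` after normalising `ζ k`); their intersection consists of smooth points (`D2_lip_right`). -/
theorem residual_sm [TopologicalSpace.SeparableSpace X] : ∀ᶠ x in residual X, Sm x := by
  have key : ∀ (ζ : X) (m : ℕ), ∀ᶠ x in residual X, ∃ t : ℝ, 0 < t ∧ D2 x (t • ζ) < t / (m + 1) := by
    intro ζ m
    refine residual_of_dense_open ?_ (Metric.dense_iff.2 fun x r hr => ?_)
    · rw [Set.ofPred_exists]
      refine isOpen_iUnion fun t => (isOpen_const (p := 0 < t)).inter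
        (isOpen_lt (f := fun x => D2 x (t • ζ)) (g := fun _ => t / (m + 1)) ?_ continuous_const)
      unfold D2
      fun_prop
    · have hN : 1 ≤ ‖ζ‖ + 1 := le_add_of_nonneg_left (norm_nonneg _)
      set N := ‖ζ‖ + 1 with hN'
      have hM : (1 : ℝ) ≤ m + 1 := le_add_of_nonneg_left m.cast_nonneg
      set M : ℝ := m + 1
      have he : ‖N⁻¹ • ζ‖ ≤ 1 := by
        rw [norm_smul, Real.norm_of_nonneg (by positivity), inv_mul_le_iff₀ (by positivity)]
        linarith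
      obtain ⟨t, t0, t1, h⟩ := pigeon_norm x he (σ := r / (16 * N * M)) (ρ := r / 2) (by positivity) (by
        rw [← mul_div_assoc, div_le_div_iff₀ (by positivity) two_pos]
        nlinarith [one_le_mul_of_one_le_of_one_le hN hM])
      refine ⟨x + t • N⁻¹ • ζ, ?_, r / (16 * N * M) * N⁻¹, by positivity, ?_⟩
      · rw [mem_ball_iff_norm, add_sub_cancel_left, norm_smul, Real.norm_of_nonneg t0]
        nlinarith
      · rw [mul_smul]
        refine h.trans_lt ?_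
        rw [show 4 * (r / (16 * N * M)) ^ 2 / (r / 2) = r / (16 * N * M) * N⁻¹ / M / 2 by
          field_simp; norm_num]
        exact half_lt_self (by positivity)
  have := eventually_countable_forall.2 fun k : ℕ =>
    eventually_countable_forall.2 fun m : ℕ => key (TopologicalSpace.denseSeq X k) m
  filter_upwards [this] with x hx ζ ε hε
  obtain ⟨k, hk⟩ := (TopologicalSpace.denseRange_denseSeq X).exists_dist_lt ζ (show 0 < ε / 4 by linarith)
  obtain ⟨m, hm⟩ := exists_nat_one_div_lt (half_pos hε)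
  obtain ⟨t, ht, h⟩ := hx k m
  refine ⟨t, ht, (D2_lip_right x _ (t • TopologicalSpace.denseSeq X k)).trans ?_⟩
  rw [← smul_sub, norm_smul, Real.norm_of_nonneg ht.le, ← dist_eq_norm]
  rw [← mul_one_div] at h
  nlinarith

/-- Baire in `X`; `F` is a homeomorphism, so `{x | Sm (F x)}` is residual too
(`Homeomorph.residual_map_eq` or `IsOpenMap`/`tendsto_residual_of_isOpenMap`); normalise (`Sm.smul`,
`normalize_sub_le`). -/
theorem dense_BS [CompleteSpace X] [CompleteSpace Y] [TopologicalSpace.SeparableSpace X]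
    [TopologicalSpace.SeparableSpace Y] (S : SI X Y) {p : X} (hp : ‖p‖ = 1) {ε : ℝ} (hε : 0 < ε) :
    ∃ q : X, ‖q - p‖ ≤ ε ∧ Nonempty (BS S q) := by
  let H : X ≃ₜ Y := ⟨S.F, S.continuous, S.symm.continuous⟩
  have h1 : ∀ᶠ x in residual X, Sm (S.F x) := by
    have := residual_sm (X := Y)
    rwa [← H.residual_map_eq] at this
  obtain ⟨x, ⟨a1, a2⟩, hx⟩ := (dense_of_mem_residual (residual_sm.and h1)).exists_dist_lt p
    (lt_min (half_pos hε) one_pos)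
  rw [dist_eq_norm, lt_min_iff] at hx
  have hx0 : x ≠ 0 := by
    rintro rfl
    simp [hp] at hx
  have hn : 0 < ‖x‖⁻¹ := inv_pos.2 (norm_pos_iff.2 hx0)
  refine ⟨‖x‖⁻¹ • x, ?_, exists_BS S (norm_normalize hx0) (a1.smul hn) (S.smul _ _ ▸ a2.smul hn)⟩
  have := normalize_sub_le (x := p) (by rintro rfl; simp at hp) hx0
  rw [hp, inv_one, one_smul, norm_sub_rev] at this
  linarith [hx.1]

end Crest.Agent.R74
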