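import Crest.Agent.R74.Sel
import Crest.Agent.R74.Deriv
import Crest.Agent.R74.BSB

/-!
# Row 74: selection of the far end of the chord
-/

namespace Crest.Agent.R74

open Finset

variable {X Y : Type*} [NormedAddCommGroup X] [NormedSpace ℝ X] [NormedAddCommGroup Y]
  [NormedSpace ℝ Y]

/-- rescaling: if `‖w - s y‖ ≤ η`, `s ≥ 1/2`, then `D2 w (t e) ≤ D2 y (2 t e) / 2 + 4 η` (`D2_lip`, `D2_smul`, `D2_mono`). -/
theorem D2_rescale {w y e : X} {s t η : ℝ} (hs : 1 / 2 ≤ s) (ht : 0 ≤ t) (h : ‖w - s • y‖ ≤ η) :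
    D2 w (t • e) ≤ D2 y ((2 * t) • e) / 2 + 4 * η := by
  have hs0 : 0 < s := by linarith
  have h1 := D2_lip w (s • y) (t • e)
  have h2 : D2 (s • y) (t • e) = s * D2 y ((t / s) • e) := by
    rw [← D2_smul y _ hs0.le, smul_smul, mul_div_cancel₀ _ hs0.ne']
  have h3 : s * D2 y ((t / s) • e) ≤ D2 y ((2 * t) • e) / 2 := by
    rcases ht.eq_or_lt with rfl | ht0
    · simp [D2]
      linarith
    · have hle : t / s ≤ 2 * t := by
        rw [div_le_iff₀ hs0]; nlinarith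
      have h4 := D2_mono y e (div_nonneg ht hs0.le) hle
      refine le_of_mul_le_mul_left ?_ (show 0 < 2 * t / s by positivity)
      calc 2 * t / s * (s * D2 y ((t / s) • e)) = 2 * t * D2 y ((t / s) • e) := by field_simp
        _ ≤ t / s * D2 y ((2 * t) • e) := h4
        _ = 2 * t / s * (D2 y ((2 * t) • e) / 2) := by ring
  linarith

/-- `θ ≤ 1` whenever a robust chord exists.  `ρₛ = min (ρ θ / 8) (θ² / 12)`, `C' = 1400 / ρₛ + 1`,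
`Lₛ = min ρₛ (min (L θ / 32) (θ² / 64))`; `sel` in `Y` for `(ρₛ, Lₛ, γ / 2, m)` with the scales `2 t i` and `w₀ = F q₀ - F p` gives
`L₁' = 2 L₁`, `y₁`.  `exit_near` (base `F p`, `SI.add`): unit `q₁' = F p + s₁ y₁`, `|s₁ - 1| ≤ 1/12`, `‖q₁' - F q₀‖ ≤ min (ρ/2) (θ/3)`;
`dense_BS` at `F⁻¹ q₁'` with error `min (ρ / 2) (L / 4)` gives `q₁`.  For the `y` of `sel` use `exit_near` with `θ / 2`, base
chord `(F p, q₁')`, direction `s₁ y`: unit `q' = F p + s s₁ y`, `s s₁ ≥ 1/2`, `‖q' - q₁'‖ ≤ L / 2`; `dense_BS` at `F⁻¹ q'` with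
error `η ≤ L / 4`, `4 η ≤ (t i)²` for all `i ∈ I`, `4 η ≤ γ L₁ / 2`; `D2_rescale`. -/
theorem select [CompleteSpace X] [CompleteSpace Y] [TopologicalSpace.SeparableSpace X]
    [TopologicalSpace.SeparableSpace Y] (S : SI X Y) {θ ρ : ℝ} (hθ : 0 < θ) (hρ : 0 < ρ) :
    ∃ C' : ℝ, 0 < C' ∧ ∀ (L γ : ℝ) (m : ℕ), 0 < L → 0 < γ → ∃ L₁ τ₀ : ℝ, 0 < L₁ ∧ 0 < τ₀ ∧
      ∀ 𝓕 : Fam Y, 𝓕.Up 8 → ∀ (I : Finset ℤ) (t : ℤ → ℝ), I.Nonempty → (∀ i ∈ I, 0 < t i ∧ t i ≤ τ₀) →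
        ∀ p q₀ : X, ‖p‖ = 1 → ‖q₀‖ = 1 → ‖p + q₀‖ ≤ 2 - 2 * θ →
          ∃ q₁ : X, Nonempty (BS S q₁) ∧ ‖q₁ - q₀‖ ≤ ρ ∧
            ∀ (ι : Type) [Fintype ι], Fintype.card ι ≤ m → ∀ e : ι → Y, (∀ j, ‖e j‖ ≤ 1) →
              ∃ q : X, Nonempty (BS S q) ∧ ‖q - q₁‖ ≤ L ∧
                ∑ i ∈ I, ((t i) ^ 2)⁻¹ * 𝓕.E (fun ω => D2 (S.F q - S.F p) (t i • 𝓕.u ω)) ≤ I.card * C' ∧
                ∀ j, D2 (S.F q - S.F p) (L₁ • e j) ≤ γ * L₁ := by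
  set ρs : ℝ := min (ρ * θ / 8) (θ ^ 2 / 12) with hρs
  have hρs0 : 0 < ρs := lt_min (by positivity) (by positivity)
  have hρs1 : ρs ≤ ρ * θ / 8 := min_le_left _ _
  have hρs2 : ρs ≤ θ ^ 2 / 12 := min_le_right _ _
  refine ⟨1400 / ρs + 1, by positivity, fun L γ m hL hγ => ?_⟩
  set Ls : ℝ := min ρs (min (L * θ / 32) (θ ^ 2 / 64)) with hLs
  have hLs0 : 0 < Ls := lt_min hρs0 (lt_min (by positivity) (by positivity))
  have hLs1 : Ls ≤ L * θ / 32 := (min_le_right _ _).trans (min_le_left _ _)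
  have hLs2 : Ls ≤ θ ^ 2 / 64 := (min_le_right _ _).trans (min_le_right _ _)
  obtain ⟨L', τ', hL', hτ', H⟩ := sel (X := Y) hLs0 (min_le_left _ _) (half_pos hγ) m
  refine ⟨L' / 2, τ' / 2, half_pos hL', half_pos hτ', fun 𝓕 hU I t hI ht p q₀ hp hq₀ hrob => ?_⟩
  have hθ1 : θ ≤ 1 := by linarith [norm_nonneg (p + q₀)]
  have hθ2 : θ ^ 2 ≤ θ := by nlinarith
  obtain ⟨y₁, hy₁, H₁⟩ := H 𝓕 hU I (fun i => 2 * t i) hI
    (fun i hi => ⟨by linarith [(ht i hi).1], by linarith [(ht i hi).2]⟩) (S.F q₀ - S.F p)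
  have hFp : ‖S.F p‖ = 1 := by rw [S.norm, hp]
  have hFq : ‖S.F q₀‖ = 1 := by rw [S.norm, hq₀]
  have hrob' : ‖S.F p + S.F q₀‖ ≤ 2 - 2 * θ := by rw [S.add (by rw [hp, hq₀])]; exact hrob
  obtain ⟨s₁, hs₁, hn₁, hd₁⟩ := exit_near hFp.le hFq hθ hrob' hρs0.le (by linarith) hy₁
  have a1 : ρs / θ ≤ 1 / 12 := by rw [div_le_iff₀ hθ]; linarith
  have a2 : 4 * ρs / θ ≤ ρ / 2 := by rw [div_le_iff₀ hθ]; linarith
  have a3 : 4 * ρs / θ ≤ θ / 3 := by rw [div_le_iff₀ hθ]; nlinarith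
  obtain ⟨hs₁a, hs₁b⟩ := abs_le.1 (hs₁.trans a1)
  set q₁' : Y := S.F p + s₁ • y₁ with hq₁'
  have hP₁ : ‖S.F.symm q₁'‖ = 1 := by rw [← S.norm, Equiv.apply_symm_apply, hn₁]
  obtain ⟨q₁, hq₁, hB₁⟩ := dense_BS S hP₁ (lt_min (half_pos hρ) (show 0 < L / 4 by positivity))
  have hq₁a := hq₁.trans (min_le_left _ _)
  have hq₁b := hq₁.trans (min_le_right _ _)
  refine ⟨q₁, hB₁, ?_, fun ι _ hι e he => ?_⟩
  · have h1 : ‖S.F.symm q₁' - q₀‖ = ‖q₁' - S.F q₀‖ := by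
      rw [← S.dist _ _ (by rw [hP₁, hq₀]), Equiv.apply_symm_apply]
    have h2 := norm_sub_le_norm_sub_add_norm_sub q₁ (S.F.symm q₁') q₀
    linarith
  obtain ⟨y, hy, hsum, hdir⟩ := H₁ ι hι e he
  have hrob2 : ‖S.F p + q₁'‖ ≤ 2 - 2 * (θ / 2) := by
    have h1 := norm_add_le (S.F p + S.F q₀) (q₁' - S.F q₀)
    rw [show S.F p + S.F q₀ + (q₁' - S.F q₀) = S.F p + q₁' by abel] at h1
    linarith
  have hd2 : ‖s₁ • y - (q₁' - S.F p)‖ ≤ 2 * Ls := by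
    rw [hq₁', add_sub_cancel_left, ← smul_sub, norm_smul, Real.norm_of_nonneg (by linarith)]
    exact mul_le_mul (by linarith) hy (norm_nonneg _) (by norm_num)
  obtain ⟨s, hs, hn, hd⟩ := exit_near hFp.le hn₁ (half_pos hθ) hrob2 (by positivity) (by linarith) hd2
  have b1 : 2 * Ls / (θ / 2) ≤ 1 / 16 := by rw [div_le_iff₀ (half_pos hθ)]; linarith
  have b2 : 4 * (2 * Ls) / (θ / 2) ≤ L / 2 := by rw [div_le_iff₀ (half_pos hθ)]; linarith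
  obtain ⟨hsa, hsb⟩ := abs_le.1 (hs.trans b1)
  set q' : Y := S.F p + s • s₁ • y with hq'
  have hP : ‖S.F.symm q'‖ = 1 := by rw [← S.norm, Equiv.apply_symm_apply, hn]
  obtain ⟨i₀, hi₀, hmin⟩ := Finset.exists_min_image I t hI
  have ht₀ := (ht i₀ hi₀).1
  set η : ℝ := min (L / 4) (min (γ * L' / 16) (t i₀ ^ 2 / 4)) with hη
  have hη0 : 0 < η := lt_min (by positivity) (lt_min (by positivity) (by positivity))
  have hη1 : η ≤ L / 4 := min_le_left _ _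
  have hη2 : η ≤ γ * L' / 16 := (min_le_right _ _).trans (min_le_left _ _)
  have hη3 : η ≤ t i₀ ^ 2 / 4 := (min_le_right _ _).trans (min_le_right _ _)
  obtain ⟨q, hq, ⟨B⟩⟩ := dense_BS S hP hη0
  have hw : ‖S.F q - S.F p - (s * s₁) • y‖ ≤ η := by
    have h1 := S.dist q (S.F.symm q') (by rw [B.hp, hP])
    rw [Equiv.apply_symm_apply, hq', smul_smul, ← sub_sub] at h1
    rw [h1]
    rwa [hq', smul_smul] at hq
  have hss : 1 / 2 ≤ s * s₁ := by nlinarith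
  refine ⟨q, ⟨B⟩, ?_, ?_, fun j => ?_⟩
  · have h1 : ‖S.F.symm q' - S.F.symm q₁'‖ = ‖q' - q₁'‖ := by
      rw [← S.dist _ _ (by rw [hP, hP₁]), Equiv.apply_symm_apply, Equiv.apply_symm_apply]
    have h2 := norm_sub_le_norm_sub_add_norm_sub q (S.F.symm q') q₁
    have h3 := norm_sub_le_norm_sub_add_norm_sub (S.F.symm q') (S.F.symm q₁') q₁
    rw [norm_sub_rev] at hq₁b
    linarith
  · have h1 : ∀ i ∈ I, ((t i) ^ 2)⁻¹ * 𝓕.E (fun ω => D2 (S.F q - S.F p) (t i • 𝓕.u ω)) ≤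
        2 * (((2 * t i) ^ 2)⁻¹ * 𝓕.E (fun ω => D2 y ((2 * t i) • 𝓕.u ω))) + 1 := by
      intro i hi
      have hti := (ht i hi).1
      have h2 : 𝓕.E (fun ω => D2 (S.F q - S.F p) (t i • 𝓕.u ω)) ≤
          𝓕.E (fun ω => 1 / 2 * D2 y ((2 * t i) • 𝓕.u ω) + 4 * η) :=
        𝓕.E_mono fun ω => by
          have := D2_rescale (e := 𝓕.u ω) hss hti.le hw
          linarith
      rw [𝓕.E_add, 𝓕.E_mul, 𝓕.E_const] at h2
      have h3 : 4 * η ≤ t i ^ 2 := by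
        have := pow_le_pow_left₀ ht₀.le (hmin i hi) 2
        linarith
      calc ((t i) ^ 2)⁻¹ * 𝓕.E (fun ω => D2 (S.F q - S.F p) (t i • 𝓕.u ω))
          ≤ ((t i) ^ 2)⁻¹ * (1 / 2 * 𝓕.E (fun ω => D2 y ((2 * t i) • 𝓕.u ω)) + t i ^ 2) :=
            mul_le_mul_of_nonneg_left (by linarith) (by positivity)
        _ = _ := by field_simp
    refine (Finset.sum_le_sum h1).trans ?_
    rw [Finset.sum_add_distrib, ← Finset.mul_sum, Finset.sum_const, nsmul_eq_mul, mul_one]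
    have h4 : (I.card : ℝ) * (1400 / ρs + 1) = 2 * (I.card * (700 / ρs)) + I.card := by ring
    rw [h4]
    linarith
  · have h1 := D2_rescale (e := e j) hss (half_pos hL').le hw
    rw [show 2 * (L' / 2) = L' by ring] at h1
    have h2 := hdir j
    linarith

end Crest.Agent.R74
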