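import Crest.Agent.R74.Core
import Crest.Agent.R74.Bessel
import Crest.Agent.R74.Select
import Crest.Agent.R74.R1

/-!
# Row 74: the chain argument
-/

namespace Crest.Agent.R74

open Finset

variable {X Y : Type*} [NormedAddCommGroup X] [NormedSpace ℝ X] [NormedAddCommGroup Y]
  [NormedSpace ℝ Y]

theorem good_pt {S : SI X Y} {δ C θ : ℝ} (c : Ch S δ C θ) (hθ : 0 < θ) (hC : 1 ≤ C) {a a₁ : X}
    {t s Mx N N' y γx γ₁ η L₁ L₂ sm : ℝ} (ha : c.Bp.J a = 0) (ha₁ : c.Bp.J a₁ = 0) (hM : ‖a‖ ≤ Mx)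
    (hN' : ‖a₁‖ ≤ N') (hN : N' ≤ N) (hN0 : 0 < N) (hy : ‖a - a₁‖ ≤ y) (ht : 0 < t) (htM : t * Mx ≤ η)
    (htN : t * N ≤ η) (hηδ : η ≤ δ) (hη1 : η ≤ 1) (hL₁ : 0 < L₁) (h₁ : sm * C * η ≤ L₁) (h₂ : sm * C * η ≤ L₂)
    (hs : |s| ≤ sm) (hγx : 0 ≤ γx) (hγ₁ : 0 ≤ γ₁) (hx : ∀ σ : ℝ, |σ| ≤ L₂ → c.k (σ • c.p) ≤ |σ| * γx)
    (hD : D2 c.w (L₁ • (C * t ^ 2 * N ^ 2)⁻¹ • c.Bp.dY (t • a₁)) ≤ γ₁ * L₁) :
    c.k (s • dX c.p (t • a)) ≤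
        |s| * ((γx * C * Mx ^ 2 + 2 * C * η * Mx ^ 2 + C * N ^ 2 * γ₁ + 2 * C * ((Mx + N') * y)) * t ^ 2) ∧
      c.k' (s • c.Bp.dY (t • a)) ≤
        |s| * ((γx * C * Mx ^ 2 + 2 * C * η * Mx ^ 2 + C * N ^ 2 * γ₁ + 2 * C * ((Mx + N') * y)) * t ^ 2) := by
  have hM0 : 0 ≤ Mx := (norm_nonneg _).trans hM
  have hN'0 : 0 ≤ N' := (norm_nonneg _).trans hN'
  have hy0 : 0 ≤ y := (norm_nonneg _).trans hy
  have hC0 : 0 ≤ C := by linarith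
  have hη0 : 0 ≤ η := le_trans (by positivity) htM
  have hs0 := abs_nonneg s
  have hsm0 : 0 ≤ sm := hs0.trans hs
  have n1 : ‖t • a‖ ≤ t * Mx := by
    rw [norm_smul, Real.norm_of_nonneg ht.le]; gcongr
  have n2 : ‖t • a₁‖ ≤ t * N' := by
    rw [norm_smul, Real.norm_of_nonneg ht.le]; gcongr
  have n3 : ‖t • a - t • a₁‖ ≤ t * y := by
    rw [← smul_sub, norm_smul, Real.norm_of_nonneg ht.le]; gcongr
  have n4 : t * N' ≤ η := le_trans (by gcongr) htN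
  have hJ : c.Bp.J (t • a) = 0 := by rw [map_smul, ha, smul_zero]
  have hJ₁ : c.Bp.J (t • a₁) = 0 := by rw [map_smul, ha₁, smul_zero]
  have hη2 : η ^ 2 ≤ η := by nlinarith
  have p1 : 0 ≤ γx * C * Mx ^ 2 := by positivity
  have p2 : 0 ≤ 2 * C * η * Mx ^ 2 := by positivity
  have p3 : 0 ≤ C * N ^ 2 * γ₁ := by positivity
  have p4 : 0 ≤ 2 * C * ((Mx + N') * y) := by positivity
  have ht2 : 0 ≤ t ^ 2 := by positivity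
  constructor
  · have e1 : |s| * (C * ‖t • a‖ ^ 2) ≤ L₂ := by
      refine le_trans ?_ h₂
      have : ‖t • a‖ ^ 2 ≤ η := le_trans (by gcongr; exact n1.trans htM) hη2
      rw [mul_assoc]
      gcongr
    refine (c.goodX hθ hγx hx hJ (n1.trans (htM.trans hηδ)) e1).trans ?_
    refine mul_le_mul_of_nonneg_left ?_ hs0
    have e2 : γx * (C * ‖t • a‖ ^ 2) ≤ γx * C * Mx ^ 2 * t ^ 2 :=
      calc γx * (C * ‖t • a‖ ^ 2) ≤ γx * (C * (t * Mx) ^ 2) := by gcongr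
        _ = γx * C * Mx ^ 2 * t ^ 2 := by ring
    have e3 : 2 * (C * ‖t • a‖ ^ 3) ≤ 2 * C * η * Mx ^ 2 * t ^ 2 :=
      calc 2 * (C * ‖t • a‖ ^ 3) ≤ 2 * (C * (t * Mx) ^ 3) := by gcongr
        _ = 2 * C * (t * Mx) * Mx ^ 2 * t ^ 2 := by ring
        _ ≤ 2 * C * η * Mx ^ 2 * t ^ 2 := by gcongr
    nlinarith [mul_nonneg p3 ht2, mul_nonneg p4 ht2]
  · have e1 : |s| * (C * t ^ 2 * N ^ 2) ≤ L₁ := by
      refine le_trans ?_ h₁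
      have : (t * N) ^ 2 ≤ η := le_trans (by gcongr) hη2
      calc |s| * (C * t ^ 2 * N ^ 2) = |s| * C * (t * N) ^ 2 := by ring
        _ ≤ sm * C * η := by gcongr
    refine (c.goodY hL₁ (by positivity) hJ hJ₁ (n1.trans (htM.trans hηδ)) (n2.trans (n4.trans hηδ)) hD
      e1).trans ?_
    refine mul_le_mul_of_nonneg_left ?_ hs0
    have e3 : 2 * (C * (‖t • a‖ + ‖t • a₁‖) * ‖t • a - t • a₁‖) ≤ 2 * C * ((Mx + N') * y) * t ^ 2 :=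
      calc 2 * (C * (‖t • a‖ + ‖t • a₁‖) * ‖t • a - t • a₁‖) ≤ 2 * (C * (t * Mx + t * N') * (t * y)) := by
            gcongr
        _ = 2 * C * ((Mx + N') * y) * t ^ 2 := by ring
    nlinarith [mul_nonneg p1 ht2, mul_nonneg p2 ht2]

theorem E_Mx_le (𝓕 : Fam X) (hU : 𝓕.Up 2) {Θ : 𝓕.Ω → ℝ} (hΘ : 𝓕.E (fun ω => Θ ω ^ 2) ≤ 1) :
    𝓕.E (fun ω => (2 * ‖𝓕.u ω‖ + Θ ω) ^ 2) ≤ 100 := by
  have h1 := 𝓕.E_mono (g := fun ω => (2 * ‖𝓕.u ω‖ + Θ ω) ^ 2) (h := fun ω => 8 * ‖𝓕.u ω‖ ^ 2 + 2 * Θ ω ^ 2)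
    fun ω => by nlinarith [sq_nonneg (2 * ‖𝓕.u ω‖ - Θ ω)]
  rw [𝓕.E_add, 𝓕.E_mul, 𝓕.E_mul] at h1
  have := hU.E_sq
  linarith

theorem E_xy_le (𝓕 : Fam X) (hU : 𝓕.Up 2) {Θ : 𝓕.Ω → ℝ} {C₅ κ : ℝ} (hC₅ : 1 ≤ C₅) (hκ : 0 < κ)
    (hκ1 : C₅ * κ ≤ 1) (h0 : ∀ ω, 0 ≤ Θ ω) (hΘ : 𝓕.E (fun ω => Θ ω ^ 2) ≤ (C₅ * κ) ^ 2) :
    𝓕.E (fun ω => (2 * ‖𝓕.u ω‖ + Θ ω + C₅ * ‖𝓕.u ω‖) * (C₅ * κ * ‖𝓕.u ω‖ + Θ ω)) ≤ 25 * κ * C₅ ^ 2 := by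
  have h1 := 𝓕.E_mono
    (g := fun ω => (2 * ‖𝓕.u ω‖ + Θ ω + C₅ * ‖𝓕.u ω‖) * (C₅ * κ * ‖𝓕.u ω‖ + Θ ω))
    (h := fun ω => 10 * κ * C₅ ^ 2 * ‖𝓕.u ω‖ ^ 2 + (κ + κ⁻¹) * Θ ω ^ 2) fun ω => by
      have hu := norm_nonneg (𝓕.u ω)
      have hθ := h0 ω
      set u := ‖𝓕.u ω‖
      set z := Θ ω
      have e1 : 2 * u + z + C₅ * u ≤ 3 * C₅ * u + z := by nlinarith
      have e2 : (2 * u + z + C₅ * u) * (C₅ * κ * u + z) ≤ (3 * C₅ * u + z) * (C₅ * κ * u + z) := by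
        gcongr
      refine e2.trans ?_
      have hz : z = κ * (κ⁻¹ * z) := by field_simp
      have e3 : κ⁻¹ * z ^ 2 = κ * (κ⁻¹ * z) ^ 2 := by field_simp
      have hz' : 0 ≤ κ⁻¹ * z := by positivity
      rw [add_mul κ, e3]
      set z' := κ⁻¹ * z
      set v := C₅ * u
      have e4 : (3 * C₅ * u + z) * (C₅ * κ * u + z) = κ * ((3 * v + z) * (v + z')) := by
        conv_lhs => rw [show C₅ * κ * u + z = κ * (v + z') by rw [mul_add, ← hz]; ring]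
        ring
      have e5 : 10 * κ * C₅ ^ 2 * u ^ 2 + (κ * z ^ 2 + κ * z' ^ 2) = κ * (10 * v ^ 2 + z ^ 2 + z' ^ 2) := by
        ring
      rw [e4, e5]
      refine mul_le_mul_of_nonneg_left ?_ hκ.le
      nlinarith [sq_nonneg (3 * v - z'), sq_nonneg (v - z), sq_nonneg (z - z'), sq_nonneg v]
  rw [𝓕.E_add, 𝓕.E_mul, 𝓕.E_mul] at h1
  have h2 := hU.E_sq
  have h3 : (κ + κ⁻¹) * 𝓕.E (fun ω => Θ ω ^ 2) ≤ (κ + κ⁻¹) * (C₅ * κ) ^ 2 := by gcongr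
  have h4 : (κ + κ⁻¹) * (C₅ * κ) ^ 2 = κ * (C₅ * κ) ^ 2 + κ * C₅ ^ 2 := by field_simp
  have h5 : (C₅ * κ) ^ 2 ≤ 1 := by
    have : 0 ≤ C₅ * κ := by positivity
    nlinarith
  have h6 : 1 ≤ C₅ ^ 2 := by nlinarith
  have h7 : 0 ≤ κ * C₅ ^ 2 := by positivity
  nlinarith

theorem final_avg {S : SI X Y} {δ C θ : ℝ} (c : Ch S δ C θ) (hθ : 0 < θ) (hC : 1 ≤ C) (𝓕 : Fam X) {n : ℕ}
    (hn : 1 ≤ n) {b τ Mu η : ℝ} (hb : 1 < b) (hτ : 0 < τ) (hMu : ∀ ω, ‖𝓕.u ω‖ ≤ Mu)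
    (h : ∀ i ∈ Icc (0 : ℤ) (2 * n), sc τ b i * Mu ≤ η) (hη : η ≤ δ) :
    |c.ψ (DF S 𝓕 n b τ c.p) - HN 𝓕 n b τ c.p * (c.ψ (S.F c.p) - c.φ c.p) -
      Wt n fun i => ((sc τ b i) ^ 2)⁻¹ * 𝓕.E fun ω =>
        c.ψ (c.Bp.dY (sc τ b i • c.Bp.pr (𝓕.u ω)) + c.Bp.dY (-(sc τ b i • c.Bp.pr (𝓕.u ω)))) -
          c.φ (dX c.p (sc τ b i • c.Bp.pr (𝓕.u ω)) + dX c.p (-(sc τ b i • c.Bp.pr (𝓕.u ω))))| ≤
      2 * C * η * Mu ^ 2 := by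
  unfold DF HN
  rw [Wt_clm, mul_comm (Wt _ _), ← Wt_mul, ← Wt_sub, ← Wt_sub]
  refine (Wt_abs_le n _).trans ((Wt_mono n fun i hi => ?_).trans (Wt_const hn _).le)
  have ht0 : 0 < sc τ b i := sc_pos hτ (by linarith) i
  have hi' := h i hi
  set t := sc τ b i
  have hti : 0 < (t ^ 2)⁻¹ := by positivity
  rw [map_smul, smul_eq_mul, 𝓕.E_clm, mul_left_comm, ← 𝓕.E_mul (c.ψ (S.F c.p) - c.φ c.p), ← mul_sub, ← mul_sub, ← 𝓕.E_sub, ← 𝓕.E_sub,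
    abs_mul, abs_of_pos hti]
  have e1 := (𝓕.E_abs_le _).trans (𝓕.E_mono (h := fun _ => 2 * C * η * Mu ^ 2 * t ^ 2) fun ω => by
    have hu := hMu ω
    have n1 : ‖t • 𝓕.u ω‖ ≤ t * Mu := by
      rw [norm_smul, Real.norm_of_nonneg ht0.le]; gcongr
    have f := c.final_id hθ (x := t • 𝓕.u ω) (n1.trans (hi'.trans hη))
    rw [c.Bp.pr_smul, mul_comm (D2 _ _)] at f
    refine f.trans ?_
    have hMu0 : 0 ≤ Mu := (norm_nonneg _).trans hu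
    calc 2 * (C * ‖t • 𝓕.u ω‖ ^ 3) ≤ 2 * (C * (t * Mu) ^ 3) := by gcongr
      _ = 2 * C * (t * Mu) * Mu ^ 2 * t ^ 2 := by ring
      _ ≤ 2 * C * η * Mu ^ 2 * t ^ 2 := by gcongr)
  rw [𝓕.E_const] at e1
  refine (mul_le_mul_of_nonneg_left e1 hti.le).trans (le_of_eq ?_)
  field_simp

/-- **Chain.** -/
theorem chain [CompleteSpace X] [CompleteSpace Y] [TopologicalSpace.SeparableSpace X]
    [TopologicalSpace.SeparableSpace Y] (S : SI X Y) {δ C θ ρ γ : ℝ} (hδ : 0 < δ) (hC : 1 ≤ C) (hθ : 0 < θ)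
    (hρ : 0 < ρ) (hγ : 0 < γ) :
    ∃ (β b : ℝ) (n : ℕ), 0 < β ∧ 1 < b ∧ 1 ≤ n ∧ ∀ 𝓕 : Fam X, 𝓕.Good β → ∃ τ₀ : ℝ, 0 < τ₀ ∧
      ∀ τ : ℝ, 0 < τ → τ ≤ τ₀ → ∀ (p : X) (B : BS S p), TC S p δ C → ∀ q₀ : X, ‖q₀‖ = 1 →
        ‖p + q₀‖ ≤ 2 - 2 * θ → ∃ (q : X) (φ : X →L[ℝ] ℝ) (ψ : Y →L[ℝ] ℝ), ‖q‖ = 1 ∧ ‖q - q₀‖ ≤ ρ ∧
          B.Pair q φ ψ ∧ |ψ (DF S 𝓕 n b τ p) - HN 𝓕 n b τ p * (ψ (S.F p) - φ p)| ≤ γ := by
  classical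
  have hθ' : 0 < θ / 2 := half_pos hθ
  have hC0 : 0 < C := by linarith
  have hρ₁ : 0 < min (ρ / 2) (θ / 2) := by positivity
  obtain ⟨C', hC', hsel⟩ := select S hθ hρ₁
  obtain ⟨K, n, r, b, sm, ε, δ₄, hn, hrn, hb, hsm, hε, hδ₄, hδ₄δ, hcore⟩ :=
    core (X := X) (Y := Y) hδ hC hθ' (C' := 5 * C') (by positivity) (half_pos hγ)
  obtain ⟨C₅, hC₅, hbes⟩ := bessel (X := X) (Y := Y) hθ' K
  have hb0 : 0 < b := by linarith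
  have hC₅0 : 0 < C₅ := by linarith
  obtain ⟨κ, hκ, hκ1, hκ2⟩ : ∃ κ : ℝ, 0 < κ ∧ C₅ * κ ≤ 1 ∧ 2 * C * (25 * κ * C₅ ^ 2) ≤ ε / 4 := by
    refine ⟨min (1 / C₅) (ε / (200 * C * C₅ ^ 2)), by positivity, ?_, ?_⟩
    · have := min_le_left (1 / C₅) (ε / (200 * C * C₅ ^ 2))
      rwa [le_div_iff₀' hC₅0] at this
    · have := min_le_right (1 / C₅) (ε / (200 * C * C₅ ^ 2))
      rw [le_div_iff₀ (by positivity)] at this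
      linarith
  obtain ⟨δT, hδT, hT⟩ := T_unif S hκ
  refine ⟨κ, b, n, hκ, hb, hn, fun 𝓕 hG => ?_⟩
  obtain ⟨Mu, hMu1, hMu⟩ := 𝓕.exists_bound
  have hMu0 : 0 < Mu := by linarith
  -- constants depending on the family
  set N := (C₅ + 4 * 9 ^ K) * Mu with hN
  have hN0 : 0 < N := by positivity
  set γx := ε / (400 * C) with hγx
  have hγx0 : 0 < γx := by positivity
  set D₀ := 5 / (θ / 2) with hD₀
  have hD₀0 : 0 < D₀ := by positivity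
  obtain ⟨γ₁, hγ₁, hγ₁a, hγ₁b⟩ : ∃ γ₁ : ℝ, 0 < γ₁ ∧ γ₁ * D₀ ≤ γx / 3 ∧ C * N ^ 2 * γ₁ ≤ ε / 4 := by
    refine ⟨min (γx / 3 / D₀) (ε / 4 / (C * N ^ 2)), by positivity, ?_, ?_⟩
    · have := min_le_left (γx / 3 / D₀) (ε / 4 / (C * N ^ 2))
      rwa [le_div_iff₀ hD₀0] at this
    · have := min_le_right (γx / 3 / D₀) (ε / 4 / (C * N ^ 2))
      rwa [le_div_iff₀' (by positivity)] at this
  obtain ⟨L, hL, hLa, hLb, hLc⟩ : ∃ L : ℝ, 0 < L ∧ L ≤ δT ∧ L ≤ min (ρ / 2) (θ / 2) ∧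
      4 / (θ / 2) ^ 2 * L ≤ γx / 6 := by
    refine ⟨min (min δT (min (ρ / 2) (θ / 2))) (γx / 6 / (4 / (θ / 2) ^ 2)), by positivity,
      (min_le_left _ _).trans (min_le_left _ _), (min_le_left _ _).trans (min_le_right _ _), ?_⟩
    have := min_le_right (min δT (min (ρ / 2) (θ / 2))) (γx / 6 / (4 / (θ / 2) ^ 2))
    rwa [le_div_iff₀' (by positivity)] at this
  let ι : Type := Option (Fin (K + 1) × Bool × Bool × (Icc (0 : ℤ) (2 * n)) × 𝓕.Ω)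
  obtain ⟨L₁, τ₁, hL₁, hτ₁, hsel'⟩ := hsel L γ₁ (Fintype.card ι) hL hγ₁
  obtain ⟨L₂, hL₂, hxg⟩ := xgood (X := X) (Y := Y) hθ' hL₁ hD₀0 (γ₃ := γx / 3) (by positivity)
  obtain ⟨η, hη, hηa, hηb, hηc, hηd, hηe, hηf, hηg⟩ : ∃ η : ℝ, 0 < η ∧ η ≤ δ₄ ∧ η ≤ 1 ∧ sm * C * η ≤ L₁ ∧
      sm * C * η ≤ L₂ ∧ 2 * C * η * 100 ≤ ε / 4 ∧ η ≤ τ₁ ∧ 2 * C * η * Mu ^ 2 ≤ γ / 2 := by
    refine ⟨min (min (min δ₄ 1) (min (L₁ / (sm * C)) (L₂ / (sm * C))))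
      (min (min (ε / (800 * C)) τ₁) (γ / (4 * C * Mu ^ 2))), by positivity, ?_⟩
    set η := min (min (min δ₄ 1) (min (L₁ / (sm * C)) (L₂ / (sm * C))))
      (min (min (ε / (800 * C)) τ₁) (γ / (4 * C * Mu ^ 2))) with hη
    have h := hη.le
    simp only [le_min_iff] at h
    obtain ⟨⟨⟨f1, f2⟩, f3, f4⟩, ⟨f5, f6⟩, f7⟩ := h
    rw [le_div_iff₀' (by positivity)] at f3 f4 f5 f7
    exact ⟨f1, f2, f3, f4, by linarith, f6, by linarith⟩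
  set Mm := 2 * Mu + 2 * N with hMm
  have hMm1 : 1 ≤ Mm := by linarith
  refine ⟨η / Mm / b ^ (2 * (n : ℤ) + r), by positivity, ?_⟩
  intro τ hτ hτ₀ p B tc q₀ hq₀ hrob
  have htop : ∀ i : ℤ, i ≤ 2 * n + r → sc τ b i * Mm ≤ η := by
    intro i hi
    have e1 := sc_mono hτ.le hb.le hi
    rw [le_div_iff₀ (by positivity), le_div_iff₀ (by positivity)] at hτ₀
    exact le_trans (mul_le_mul_of_nonneg_right e1 (by linarith)) hτ₀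
  have hI : ∀ i ∈ Icc (0 : ℤ) (2 * n), i ≤ 2 * n + r := fun i hi => by
    have := (mem_Icc.1 hi).2; omega
  have hsc : ∀ i : ℤ, i ≤ 2 * n + r → ∀ x : ℝ, x ≤ Mm → sc τ b i * x ≤ η := fun i hi x hx =>
    le_trans (mul_le_mul_of_nonneg_left hx (sc_pos hτ hb0 i).le) (htop i hi)
  obtain ⟨A, hA, hA2⟩ := B.exists_Tpr
  have hUp : (𝓕.map A).Up 8 := by
    have := hG.up.map A (K := 2) (by norm_num) hA2
    norm_num at this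
    exact this
  obtain ⟨q₁, ⟨B₁⟩, hq₁, hsel''⟩ := hsel' (𝓕.map A) hUp (Icc (-(r : ℤ)) (2 * n + r)) (sc τ b)
    ⟨0, by simp only [mem_Icc]; omega⟩
    (fun i hi => ⟨sc_pos hτ hb0 i, by simpa using (hsc i (mem_Icc.1 hi).2 1 hMm1).trans hηf⟩) p q₀ B.hp hq₀ hrob
  have hrob₁ : ‖p + q₁‖ ≤ 2 - 2 * (θ / 2) := by
    have e1 : ‖p + q₁‖ ≤ ‖p + q₀‖ + ‖q₁ - q₀‖ := by
      rw [show p + q₁ = (p + q₀) + (q₁ - q₀) by abel]; exact norm_add_le _ _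
    linarith [min_le_right (ρ / 2) (θ / 2)]
  have hapx : ∀ (sg : Bool) (j : ℕ), j ≤ K → ∀ ω, ‖apx B B₁ sg j (𝓕.u ω)‖ ≤ N := by
    intro sg j hj ω
    refine (apx_le B B₁ sg j _).trans ?_
    have e1 : (9 : ℝ) ^ j ≤ 9 ^ K := pow_le_pow_right₀ (by norm_num) hj
    have := hMu ω
    rw [hN]
    gcongr
    linarith
  let sgn : Bool → X → X := fun pm x => if pm then x else -x
  have hsgn : ∀ pm x, ‖sgn pm x‖ = ‖x‖ := fun pm x => by cases pm <;> simp [sgn]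
  have hsgnJ : ∀ pm x, B.J x = 0 → B.J (sgn pm x) = 0 := fun pm x hx => by cases pm <;> simp [sgn, hx]
  let e : ι → Y := fun o => match o with
    | none => D₀⁻¹ • B.That q₁ p
    | some (j, sg, pm, i, ω) => (C * sc τ b i ^ 2 * N ^ 2)⁻¹ •
        B.dY (sc τ b i • sgn pm (apx B B₁ sg j (𝓕.u ω)))
  have he : ∀ o, ‖e o‖ ≤ 1 := by
    rintro (_ | ⟨j, sg, pm, i, ω⟩)
    · simp only [e]
      rw [norm_smul, norm_inv, Real.norm_of_nonneg hD₀0.le, inv_mul_le_iff₀ hD₀0, mul_one]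
      exact B.That_p_le hθ' B₁.hp hrob₁
    · simp only [e]
      have ht0 := sc_pos hτ hb0 (i : ℤ)
      have n1 : ‖sc τ b i • sgn pm (apx B B₁ sg j (𝓕.u ω))‖ ≤ sc τ b i * N := by
        rw [norm_smul, Real.norm_of_nonneg ht0.le, hsgn]
        exact mul_le_mul_of_nonneg_left (hapx sg j (Nat.lt_succ_iff.1 j.2) ω) ht0.le
      have n2 := tc.dY_le B (sc τ b i • sgn pm (apx B B₁ sg j (𝓕.u ω)))
        (by rw [map_smul, hsgnJ _ _ (apx_J B B₁ _ _ _), smul_zero])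
        (n1.trans ((hsc i (hI i i.2) N (by linarith)).trans (hηa.trans hδ₄δ)))
      rw [norm_smul, norm_inv, Real.norm_of_nonneg (by positivity), inv_mul_le_iff₀ (by positivity), mul_one]
      refine n2.trans ?_
      rw [mul_assoc, ← mul_pow]
      gcongr
  obtain ⟨q, ⟨Bq⟩, hq, hD, hgd⟩ := hsel'' ι le_rfl e he
  have hqq₀ : ‖q - q₀‖ ≤ min (ρ / 2) (θ / 2) + min (ρ / 2) (θ / 2) := by
    have e1 : ‖q - q₀‖ ≤ ‖q - q₁‖ + ‖q₁ - q₀‖ := norm_sub_le_norm_sub_add_norm_sub _ _ _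
    linarith
  have hrob' : ‖p + q‖ ≤ 2 - 2 * (θ / 2) := by
    have e1 : ‖p + q‖ ≤ ‖p + q₀‖ + ‖q - q₀‖ := by
      rw [show p + q = (p + q₀) + (q - q₀) by abel]; exact norm_add_le _ _
    linarith [min_le_right (ρ / 2) (θ / 2)]
  obtain ⟨ψ, hψ⟩ := exists_nm (S.F q - S.F p)
  let c : Ch S δ C (θ / 2) := ⟨p, q, B, Bq, tc, hrob', ψ, hψ⟩
  obtain ⟨hT1, hT2⟩ := hT q q₁ Bq B₁ (hq.trans hLa)
  obtain ⟨ap, am, Θ, hΘ, hΘE, h0, hrel, hbd⟩ := hbes S δ C c q₁ B₁ κ κ hκ.le hT1 hT2 𝓕 hG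
  refine ⟨q, c.φ, ψ, Bq.hp, by linarith [min_le_left (ρ / 2) (θ / 2)], c.pair hθ', ?_⟩
  have hx : ∀ σ : ℝ, |σ| ≤ L₂ → c.k (σ • c.p) ≤ |σ| * γx := by
    intro σ hσ
    have e1 := hxg S δ C c (B.That q₁ p) γ₁ (γx / 6) (hgd none)
      ((B.That_p_lip hθ' Bq.hp B₁.hp hrob' hrob₁).trans (le_trans (by gcongr) hLc)) σ hσ
    refine e1.trans (mul_le_mul_of_nonneg_left (by linarith) (abs_nonneg _))
  have hCu : ∀ ω, C₅ * ‖𝓕.u ω‖ ≤ N := fun ω => by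
    have := hMu ω
    have e1 : (0 : ℝ) < 4 * 9 ^ K := by positivity
    rw [hN]
    gcongr
    linarith
  have hMx : ∀ ω, 2 * ‖𝓕.u ω‖ + Θ ω + N ≤ Mm := fun ω => by
    linarith [hMu ω, hCu ω, (hΘ ω).2]
  have hΘ1 : 𝓕.E (fun ω => Θ ω ^ 2) ≤ 1 := by
    have : 0 ≤ C₅ * κ := by positivity
    nlinarith
  have hEM := E_Mx_le 𝓕 hG.up hΘ1
  have hExy := E_xy_le 𝓕 hG.up hC₅ hκ hκ1 (fun ω => (hΘ ω).1) hΘE
  have hmain := hcore S c 𝓕 τ N ap am (fun ω => 2 * ‖𝓕.u ω‖ + Θ ω)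
    (fun ω => γx * C * (2 * ‖𝓕.u ω‖ + Θ ω) ^ 2 + 2 * C * η * (2 * ‖𝓕.u ω‖ + Θ ω) ^ 2 + C * N ^ 2 * γ₁ +
      2 * C * ((2 * ‖𝓕.u ω‖ + Θ ω + C₅ * ‖𝓕.u ω‖) * (C₅ * κ * ‖𝓕.u ω‖ + Θ ω)))
    hτ hN0.le (fun ω => (h0 ω).2.trans (h0 ω).1.symm)
    (fun j hj ω => ⟨(hrel j hj ω).1.mono (hCu ω), (hrel j hj ω).2.mono (hCu ω)⟩)
    (fun j hj ω => ⟨(hbd j hj ω).1, (hbd j hj ω).2.1, (hbd j hj ω).2.2.1, (hbd j hj ω).2.2.2.1⟩)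
    hEM (fun ω => (hsc _ le_rfl _ (hMx ω)).trans hηa) ?_ (fun ω => ?_) ?_ ?_
  · have hfin := final_avg c hθ' hC 𝓕 hn hb hτ hMu (η := η) (fun i hi => hsc i (hI i hi) Mu (by linarith))
      (hηa.trans hδ₄δ)
    simp only [(h0 _).1] at hmain
    change |ψ (DF S 𝓕 n b τ p) - HN 𝓕 n b τ p * (ψ (S.F p) - c.φ p) - _| ≤ _ at hfin
    rw [abs_le] at hmain hfin ⊢
    constructor <;> linarith [hmain.1, hmain.2, hfin.1, hfin.2]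
  · have e1 : ((Icc (-(r : ℤ)) (2 * n + r)).card : ℝ) ≤ 5 * n := by
      rw [Int.card_Icc]
      have : (2 * (n : ℤ) + r + 1 - -(r : ℤ)).toNat ≤ 5 * n := by omega
      exact_mod_cast this
    simp only [(h0 _).1]
    simp only [Fam.map_u, hA] at hD
    refine le_trans (le_of_eq rfl) (hD.trans ?_)
    nlinarith
  · have := (hΘ ω).1
    positivity
  · rw [𝓕.E_add, 𝓕.E_add, 𝓕.E_add, 𝓕.E_mul, 𝓕.E_mul, 𝓕.E_mul (2 * C), 𝓕.E_const]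
    have e1 : γx * C * 𝓕.E (fun ω => (2 * ‖𝓕.u ω‖ + Θ ω) ^ 2) ≤ γx * C * 100 := by gcongr
    have e2 : 2 * C * η * 𝓕.E (fun ω => (2 * ‖𝓕.u ω‖ + Θ ω) ^ 2) ≤ 2 * C * η * 100 := by gcongr
    have e3 := mul_le_mul_of_nonneg_left hExy (by positivity : 0 ≤ 2 * C)
    have e4 : γx * C * 100 = ε / 4 := by rw [hγx]; field_simp; norm_num
    linarith
  · intro j hj i hi ω a ha s hs
    obtain ⟨b1, b2, b3, b4, b5, b6, b7, b8⟩ := hbd j hj ω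
    have key : ∀ (sg pm : Bool) (x : X), B.J x = 0 → ‖x‖ ≤ 2 * ‖𝓕.u ω‖ + Θ ω →
        ‖x - apx B B₁ sg j (𝓕.u ω)‖ ≤ C₅ * κ * ‖𝓕.u ω‖ + Θ ω → ‖apx B B₁ sg j (𝓕.u ω)‖ ≤ C₅ * ‖𝓕.u ω‖ → _ :=
      fun sg pm x x1 x2 x3 x4 =>
        good_pt c hθ' hC (a := sgn pm x) (a₁ := sgn pm (apx B B₁ sg j (𝓕.u ω))) (s := s)
          (hsgnJ _ _ x1) (hsgnJ _ _ (apx_J B B₁ _ _ _)) ((hsgn _ _).le.trans x2) ((hsgn _ _).le.trans x4)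
          (hCu ω) hN0 (y := C₅ * κ * ‖𝓕.u ω‖ + Θ ω)
          (by cases pm
              · simp only [sgn, Bool.false_eq_true, if_false]
                rwa [neg_sub_neg, norm_sub_rev]
              · simpa only [sgn, if_true] using x3)
          (sc_pos hτ hb0 i) (hsc i (hI i hi) _ (by linarith [hMx ω])) (hsc i (hI i hi) N (by linarith))
          (hηa.trans hδ₄δ) hηb hL₁ hηc hηd hs hγx0.le hγ₁.le hx
          (hgd (some (⟨j, Nat.lt_succ_iff.2 hj⟩, sg, pm, ⟨i, hi⟩, ω)))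
    rcases ha with rfl | rfl | rfl | rfl
    · exact key true true _ b1 b3 b5 b7
    · exact key true false _ b1 b3 b5 b7
    · exact key false true _ b2 b4 b6 b8
    · exact key false false _ b2 b4 b6 b8

end Crest.Agent.R74
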