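import Crest.Agent.R74.Basic

/-!
# Row 74: geometry of chords, norming lemma, pigeonholes
-/

namespace Crest.Agent.R74

open Finset

variable {X Y : Type*} [NormedAddCommGroup X] [NormedSpace ℝ X] [NormedAddCommGroup Y]
  [NormedSpace ℝ Y]

theorem geo_cont (x d : X) : Continuous fun t : ℝ => ‖x + t • d‖ := by fun_prop

theorem geo_comb (u v : X) {a b : ℝ} (ha : 0 ≤ a) (hb : 0 ≤ b) :
    ‖a • u + b • v‖ ≤ a * ‖u‖ + b * ‖v‖ := by
  refine (norm_add_le _ _).trans ?_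
  rw [norm_smul, norm_smul, Real.norm_of_nonneg ha, Real.norm_of_nonneg hb]

/-- **Exit lemma.**  `g t = ‖x + t d‖` is convex and continuous, `g (1/2) ≤ 1 - θ + ρ/2`, `|g 1 - 1| ≤ ρ`;
convexity gives `g (1 - ρ/θ) ≤ 1` and `g (1 + ρ/θ) ≥ 1` (`θ ≤ 1`, `3ρ ≤ θ`), then the intermediate value
theorem. `‖d‖ ≤ 7/3`. -/
theorem exit_near {x q₀ d : X} {θ ρ : ℝ} (hx : ‖x‖ ≤ 1) (hq : ‖q₀‖ = 1) (hθ : 0 < θ)
    (hrob : ‖x + q₀‖ ≤ 2 - 2 * θ) (hρ : 0 ≤ ρ) (hρθ : ρ ≤ θ / 3) (hd : ‖d - (q₀ - x)‖ ≤ ρ) :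
    ∃ s : ℝ, |s - 1| ≤ ρ / θ ∧ ‖x + s • d‖ = 1 ∧ ‖x + s • d - q₀‖ ≤ 4 * ρ / θ := by
  have hθ1 : θ ≤ 1 := by linarith [norm_nonneg (x + q₀)]
  set r := ρ / θ with hr
  have hrθ : r * θ = ρ := div_mul_cancel₀ _ hθ.ne'
  have hr0 : 0 ≤ r := div_nonneg hρ hθ.le
  have hr3 : r ≤ 1 / 3 := by rw [hr, div_le_iff₀ hθ]; linarith
  set e := d - (q₀ - x) with he
  have h1 : ‖x + (1 / 2 : ℝ) • d‖ ≤ 1 - θ + ρ / 2 := by
    have : x + (1 / 2 : ℝ) • d = (1 / 2 : ℝ) • (x + q₀) + (1 / 2 : ℝ) • e := by rw [he]; module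
    rw [this]
    have := geo_comb (x + q₀) e (a := 1 / 2) (b := 1 / 2) (by norm_num) (by norm_num)
    linarith
  have hxd : x + d = q₀ + e := by rw [he]; abel
  have h2 : ‖x + d‖ ≤ 1 + ρ := by rw [hxd]; linarith [norm_add_le q₀ e]
  have h3 : 1 - ρ ≤ ‖x + d‖ := by
    rw [hxd]
    have := norm_sub_le (q₀ + e) e
    rw [add_sub_cancel_right] at this
    linarith
  have h4 : ‖x + (1 - r) • d‖ ≤ 1 := by
    have e1 : x + (1 - r) • d = (2 * r) • (x + (1 / 2 : ℝ) • d) + (1 - 2 * r) • (x + d) := by module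
    rw [e1]
    have := geo_comb (x + (1 / 2 : ℝ) • d) (x + d) (a := 2 * r) (b := 1 - 2 * r) (by linarith)
      (by linarith)
    have a1 : 2 * r * ‖x + (1 / 2 : ℝ) • d‖ ≤ 2 * r * (1 - θ + ρ / 2) := by gcongr
    have a2 : (1 - 2 * r) * ‖x + d‖ ≤ (1 - 2 * r) * (1 + ρ) :=
      mul_le_mul_of_nonneg_left h2 (by linarith)
    nlinarith [mul_nonneg hr0 hρ]
  have h5 : 1 ≤ ‖x + (1 + r) • d‖ := by
    have e1 : (1 + 2 * r) • (x + d) =
        (2 * r) • (x + (1 / 2 : ℝ) • d) + (1 : ℝ) • (x + (1 + r) • d) := by module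
    have := geo_comb (x + (1 / 2 : ℝ) • d) (x + (1 + r) • d) (a := 2 * r) (b := 1) (by linarith)
      zero_le_one
    rw [← e1, norm_smul, Real.norm_of_nonneg (by linarith)] at this
    have a1 : 2 * r * ‖x + (1 / 2 : ℝ) • d‖ ≤ 2 * r * (1 - θ + ρ / 2) := by gcongr
    have a2 : (1 + 2 * r) * (1 - ρ) ≤ (1 + 2 * r) * ‖x + d‖ :=
      mul_le_mul_of_nonneg_left h3 (by linarith)
    nlinarith [mul_nonneg (sub_nonneg.2 hr3) hρ]
  obtain ⟨s, hs, hs1⟩ := intermediate_value_Icc (a := 1 - r) (b := 1 + r) (by linarith)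
    (geo_cont x d).continuousOn (show (1 : ℝ) ∈ _ from ⟨h4, h5⟩)
  have hs' : |s - 1| ≤ r := abs_le.2 ⟨by linarith [hs.1], by linarith [hs.2]⟩
  refine ⟨s, hs', hs1, ?_⟩
  have e2 : x + s • d - q₀ = (s - 1) • d + e := by rw [he]; module
  have hdn : ‖d‖ ≤ 7 / 3 := by
    have : d = e + (q₀ - x) := by rw [he]; abel
    rw [this]
    linarith [norm_add_le e (q₀ - x), norm_sub_le q₀ x]
  rw [e2, mul_div_assoc, ← hr]
  refine (norm_add_le _ _).trans ?_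
  rw [norm_smul, Real.norm_eq_abs]
  have a1 : |s - 1| * ‖d‖ ≤ r * (7 / 3) := by gcongr
  nlinarith [mul_nonneg hr0 (sub_nonneg.2 hθ1)]

theorem exit_ge {x d : X} (hd : d ≠ 0) {t₀ : ℝ} (h : ‖x + t₀ • d‖ ≤ 1) :
    ∃ t : ℝ, t₀ ≤ t ∧ ‖x + t • d‖ = 1 := by
  have hd' : 0 < ‖d‖ := norm_pos_iff.2 hd
  have h1 : 1 ≤ ‖x + (t₀ + 2 / ‖d‖) • d‖ := by
    have e : (2 / ‖d‖) • d = (x + (t₀ + 2 / ‖d‖) • d) - (x + t₀ • d) := by module
    have h2 : ‖(2 / ‖d‖) • d‖ = 2 := by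
      rw [norm_smul, Real.norm_of_nonneg (by positivity), div_mul_cancel₀ _ hd'.ne']
    have := norm_sub_le (x + (t₀ + 2 / ‖d‖) • d) (x + t₀ • d)
    rw [← e, h2] at this
    linarith
  obtain ⟨s, hs, hs1⟩ := intermediate_value_Icc (a := t₀) (b := t₀ + 2 / ‖d‖)
    (le_add_of_nonneg_right (by positivity)) (geo_cont x d).continuousOn
    (show (1 : ℝ) ∈ _ from ⟨h, h1⟩)
  exact ⟨s, hs.1, hs1⟩

/-- at a smooth point an inward direction enters the open ball (`Sm.little`). -/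
theorem exit_lt {y d : X} {J : X →L[ℝ] ℝ} (hy : ‖y‖ = 1) (hs : Sm y) (hJ : Nm J y) (hd : J d < 0)
    {l : ℝ} (hl : 0 < l) (h : 1 < ‖y + l • d‖) : ∃ t : ℝ, 0 < t ∧ t < l ∧ ‖y + t • d‖ = 1 := by
  obtain ⟨t₀, ht₀, hl'⟩ := hs.little hJ d (ε := -J d / 2) (by linarith)
  set t₁ := min t₀ l with ht₁
  have h1 : 0 < t₁ := lt_min ht₀ hl
  have h2 := hl' t₁ (by rw [abs_of_pos h1]; exact min_le_left _ _)
  rw [abs_of_pos h1, hy] at h2
  have h3 : ‖y + t₁ • d‖ ≤ 1 := by nlinarith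
  obtain ⟨s, hs, hs1⟩ := intermediate_value_Icc (a := t₁) (b := l) (min_le_right _ _)
    (geo_cont y d).continuousOn (show (1 : ℝ) ∈ _ from ⟨h3, h.le⟩)
  refine ⟨s, h1.trans_le hs.1, lt_of_le_of_ne hs.2 ?_, hs1⟩
  rintro rfl
  exact h.ne' hs1

/-- the midpoint of a chord has at least half the depth of any of its points. -/
theorem rob_of_depth {p q : X} (hp : ‖p‖ = 1) (hq : ‖q‖ = 1) {t η : ℝ} (h0 : 0 ≤ t) (h1 : t ≤ 1)
    (h : ‖p + t • (q - p)‖ ≤ 1 - η) : ‖p + q‖ ≤ 2 - η := by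
  rcases le_or_gt η 0 with hη | hη
  · linarith [norm_add_le p q]
  rcases le_total t (1 / 2) with ht | ht
  · have e : (1 - t) • (p + q) = (1 : ℝ) • (p + t • (q - p)) + (1 - 2 * t) • q := by module
    have := geo_comb (p + t • (q - p)) q (a := 1) (b := 1 - 2 * t) zero_le_one (by linarith)
    rw [← e, norm_smul, Real.norm_of_nonneg (by linarith), hq] at this
    refine le_of_mul_le_mul_left ?_ (show 0 < 1 - t by linarith)
    nlinarith [mul_nonneg h0 hη.le]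
  · have e : t • (p + q) = (1 : ℝ) • (p + t • (q - p)) + (2 * t - 1) • p := by module
    have := geo_comb (p + t • (q - p)) p (a := 1) (b := 2 * t - 1) zero_le_one (by linarith)
    rw [← e, norm_smul, Real.norm_of_nonneg h0, hp] at this
    refine le_of_mul_le_mul_left ?_ (show 0 < t by linarith)
    nlinarith [mul_nonneg (sub_nonneg.2 h1) hη.le]

theorem geo_nm {w v : X} {ψ : X →L[ℝ] ℝ} {ρ g : ℝ} (hg : 0 ≤ g) (h : ‖w - v‖ ≤ ρ) (hψ : Nm ψ w) :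
    ‖g • v‖ - 2 * g * ρ ≤ ψ (g • v) := by
  have h1 : ψ (w - v) ≤ ρ := (hψ.le _).trans h
  rw [map_sub, hψ.2] at h1
  have h2 : ‖v‖ ≤ ‖w‖ + ρ := by
    have := norm_sub_le w (w - v)
    rw [sub_sub_cancel] at this
    linarith
  rw [norm_smul, Real.norm_of_nonneg hg, map_smul, smul_eq_mul]
  nlinarith

/-- **Norming lemma.**  If `‖y + e‖ ≤ 5/4` pick `κ ∈ [0,1]` with `g := ‖κ y + e‖ = κ + 1/3` (IVT; then
`κ ≥ 1/3`, `g ∈ [2/3, 4/3]`), `s = g⁻¹ (κ y + e)`, `σ = 1`: `s - y = g⁻¹ (e - y/3)`, so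
`ψ e ≥ ‖e - y/3‖ - 2 g ρ - 1/3 ≥ 1/3 - 8ρ/3` (`ρ = 1/40`, `ψ (s - y) ≥ ‖s - y‖ - 2ρ`), and
`g ‖y + s‖ = ‖(e + y) + (κ + g - 1) y‖ ≤ 2g - 1/12`.
If `‖y + e‖ ≥ 5/4` pick `μ ∈ [0,1]` with `μ + g = 17/16`, `g := ‖e + μ y‖` (then `g ≥ μ + 1/4`, `μ ≥ 1/32`,
`g ≤ 33/32`), `s = -g⁻¹ (e + μ y)`, `σ = -1`: `s - y = -g⁻¹ (e + (17/16) y)`, `-ψ e ≥ 1/8 - 2 g ρ`, and
`g ‖y + s‖ = ‖(g - μ) y - e‖ ≤ 2g - 1/16`. -/
theorem nl {y e : X} (hy : ‖y‖ = 1) (he : ‖e‖ = 1) :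
    ∃ (s : X) (σ : ℝ), ‖s‖ = 1 ∧ (σ = 1 ∨ σ = -1) ∧ ‖y + s‖ ≤ 2 - 1 / 20 ∧
      ∀ (w : X) (ψ : X →L[ℝ] ℝ), ‖w - (s - y)‖ ≤ 1 / 40 → Nm ψ w → 1 / 16 ≤ σ * ψ e := by
  rcases le_total ‖y + e‖ (5 / 4) with hc | hc
  · have hcont : Continuous fun κ : ℝ => κ + 1 / 3 - ‖e + κ • y‖ := by fun_prop
    obtain ⟨κ, hκ, hκ1⟩ := intermediate_value_Icc (a := (0 : ℝ)) (b := 1) zero_le_one
      hcont.continuousOn (show (0 : ℝ) ∈ _ from ⟨by simp [he]; norm_num, by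
        simp only [one_smul]; rw [add_comm e y]; linarith⟩)
    simp only at hκ1
    set g := ‖e + κ • y‖ with hg
    have hgκ : g = κ + 1 / 3 := by linarith
    have hκy : ‖κ • y‖ = κ := by rw [norm_smul, Real.norm_of_nonneg hκ.1, hy, mul_one]
    have hκ3 : 1 / 3 ≤ κ := by
      have := norm_sub_le (e + κ • y) (κ • y)
      rw [add_sub_cancel_right, he, hκy, ← hg] at this
      linarith
    have hg0 : 0 < g := by linarith
    have hgs : g • (g⁻¹ • (e + κ • y)) = e + κ • y := by rw [smul_inv_smul₀ hg0.ne']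
    refine ⟨g⁻¹ • (e + κ • y), 1, ?_, Or.inl rfl, ?_, fun w ψ hw hψ => ?_⟩
    · rw [norm_smul, norm_inv, Real.norm_of_nonneg hg0.le, ← hg, inv_mul_cancel₀ hg0.ne']
    · have e1 : g • (y + g⁻¹ • (e + κ • y)) = (1 : ℝ) • (y + e) + (κ + g - 1) • y := by
        rw [smul_add, hgs]; module
      have := geo_comb (y + e) y (a := 1) (b := κ + g - 1) zero_le_one (by linarith)
      rw [← e1, norm_smul, Real.norm_of_nonneg hg0.le, hy] at this
      refine le_of_mul_le_mul_left ?_ hg0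
      nlinarith [hκ.2]
    · have h1 := geo_nm hg0.le hw hψ
      have e1 : g • (g⁻¹ • (e + κ • y) - y) = e - (1 / 3 : ℝ) • y := by
        rw [smul_sub, hgs, hgκ]; module
      rw [e1, map_sub, map_smul, smul_eq_mul] at h1
      have h2 : 2 / 3 ≤ ‖e - (1 / 3 : ℝ) • y‖ := by
        have := norm_sub_norm_le e ((1 / 3 : ℝ) • y)
        rw [norm_smul, he, hy, Real.norm_of_nonneg (by norm_num)] at this
        linarith
      have h3 := (abs_le.1 (hψ.abs_le y)).1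
      rw [hy] at h3
      linarith [hκ.2]
  · have hcont : Continuous fun μ : ℝ => μ + ‖e + μ • y‖ := by fun_prop
    obtain ⟨μ, hμ, hμ1⟩ := intermediate_value_Icc (a := (0 : ℝ)) (b := 1) zero_le_one
      hcont.continuousOn (show (17 / 16 : ℝ) ∈ _ from ⟨by simp [he]; norm_num, by
        simp only [one_smul]; rw [add_comm e y]; linarith⟩)
    simp only at hμ1
    set g := ‖e + μ • y‖ with hg
    have hμy : ‖μ • y‖ = μ := by rw [norm_smul, Real.norm_of_nonneg hμ.1, hy, mul_one]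
    have hg1 : g ≤ 1 + μ := by
      have := norm_add_le e (μ • y)
      rwa [he, hμy, ← hg] at this
    have hg2 : μ + 1 / 4 ≤ g := by
      have e1 : y + e = (1 : ℝ) • (e + μ • y) + (1 - μ) • y := by module
      have := geo_comb (e + μ • y) y (a := 1) (b := 1 - μ) zero_le_one (by linarith [hμ.2])
      rw [← e1, hy, ← hg] at this
      linarith
    have hg0 : 0 < g := by linarith [hμ.1]
    have hgs : g • (g⁻¹ • (e + μ • y)) = e + μ • y := by rw [smul_inv_smul₀ hg0.ne']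
    refine ⟨-(g⁻¹ • (e + μ • y)), -1, ?_, Or.inr rfl, ?_, fun w ψ hw hψ => ?_⟩
    · rw [norm_neg, norm_smul, norm_inv, Real.norm_of_nonneg hg0.le, ← hg, inv_mul_cancel₀ hg0.ne']
    · have e1 : g • (y + -(g⁻¹ • (e + μ • y))) = (g - μ) • y + (1 : ℝ) • (-e) := by
        rw [smul_add, smul_neg, hgs]; module
      have := geo_comb y (-e) (a := g - μ) (b := 1) (by linarith) zero_le_one
      rw [← e1, norm_smul, Real.norm_of_nonneg hg0.le, hy, norm_neg, he] at this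
      refine le_of_mul_le_mul_left ?_ hg0
      nlinarith
    · have h1 := geo_nm hg0.le hw hψ
      have hgμ : g = 17 / 16 - μ := by linarith
      have e1 : g • (-(g⁻¹ • (e + μ • y)) - y) = -(e + (17 / 16 : ℝ) • y) := by
        rw [smul_sub, smul_neg, hgs, hgμ]; module
      rw [e1, norm_neg, map_neg, map_add, map_smul, smul_eq_mul] at h1
      have h2 : 19 / 16 ≤ ‖e + (17 / 16 : ℝ) • y‖ := by
        have e2 : y + e = (1 : ℝ) • (e + (17 / 16 : ℝ) • y) + (1 / 16 : ℝ) • (-y) := by module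
        have := geo_comb (e + (17 / 16 : ℝ) • y) (-y) (a := 1) (b := 1 / 16) zero_le_one
          (by norm_num)
        rw [← e2, norm_neg, hy] at this
        linarith
      have h3 := (abs_le.1 (hψ.abs_le y)).1
      rw [hy] at h3
      linarith

/-- **Pigeonhole on a line.**  With `n = ⌊ρ/σ⌋ ≥ ρ/(2σ)`, the second differences at `t = j σ`, `1 ≤ j ≤ n`,
telescope to at most `2σ`. -/
theorem pigeon {g : X → ℝ} (hg : ∀ x y, |g x - g y| ≤ ‖x - y‖) (x : X) {e : X} (he : ‖e‖ ≤ 1)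
    {σ ρ : ℝ} (hσ : 0 < σ) (hρ : 2 * σ ≤ ρ) :
    ∃ t : ℝ, 0 ≤ t ∧ t ≤ ρ ∧
      g (x + t • e + σ • e) + g (x + t • e - σ • e) - 2 * g (x + t • e) ≤ 4 * σ ^ 2 / ρ := by
  set n := ⌊ρ / σ⌋₊ with hn
  have hρ0 : 0 < ρ := by linarith
  have hn2 : 2 ≤ n := Nat.le_floor (by rw [le_div_iff₀ hσ]; exact_mod_cast hρ)
  have hn2' : (2 : ℝ) ≤ n := by exact_mod_cast hn2
  have hn1 : (n : ℝ) * σ ≤ ρ := by
    rw [← le_div_iff₀ hσ]; exact Nat.floor_le (by positivity)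
  have hn3 : ρ ≤ 2 * n * σ := by
    have := Nat.lt_floor_add_one (ρ / σ)
    rw [← hn, div_lt_iff₀ hσ] at this
    nlinarith
  set a : ℕ → ℝ := fun j => g (x + ((j : ℝ) * σ) • e) with ha
  have hb : ∀ j : ℕ, |a (j + 1) - a j| ≤ σ := by
    intro j
    refine (hg _ _).trans ?_
    have : x + (((j + 1 : ℕ) : ℝ) * σ) • e - (x + ((j : ℝ) * σ) • e) = σ • e := by
      push_cast; module
    rw [this, norm_smul, Real.norm_of_nonneg hσ.le]
    exact mul_le_of_le_one_right hσ.le he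
  have hsum : ∑ j ∈ range n, ((a (j + 1 + 1) - a (j + 1)) - (a (j + 1) - a j)) ≤
      ∑ _j ∈ range n, 4 * σ ^ 2 / ρ := by
    rw [Finset.sum_range_sub (fun j => a (j + 1) - a j), sum_const, card_range, nsmul_eq_mul]
    have h1 := (abs_le.1 (hb n)).2
    have h2 := (abs_le.1 (hb 0)).1
    have h3 : 2 * σ ≤ n * (4 * σ ^ 2 / ρ) := by
      rw [← mul_div_assoc, le_div_iff₀ hρ0]; nlinarith
    linarith
  obtain ⟨j, hj, hj'⟩ := Finset.exists_le_of_sum_le (nonempty_range_iff.2 (by omega)) hsum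
  refine ⟨((j + 1 : ℕ) : ℝ) * σ, by positivity, ?_, ?_⟩
  · refine le_trans ?_ hn1
    have : j + 1 ≤ n := mem_range.1 hj
    gcongr
  · have e1 : x + (((j + 1 : ℕ) : ℝ) * σ) • e + σ • e = x + (((j + 1 + 1 : ℕ) : ℝ) * σ) • e := by
      push_cast; module
    have e2 : x + (((j + 1 : ℕ) : ℝ) * σ) • e - σ • e = x + ((j : ℝ) * σ) • e := by
      push_cast; module
    rw [e1, e2]
    simp only [ha] at hj'
    linarith

theorem pigeon_norm (x : X) {e : X} (he : ‖e‖ ≤ 1) {σ ρ : ℝ} (hσ : 0 < σ) (hρ : 2 * σ ≤ ρ) :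
    ∃ t : ℝ, 0 ≤ t ∧ t ≤ ρ ∧ D2 (x + t • e) (σ • e) ≤ 4 * σ ^ 2 / ρ := by
  exact pigeon (g := fun x => ‖x‖) (fun x y => abs_norm_sub_norm_le x y) x he hσ hρ

theorem geo_conv_scale {g : X → ℝ} (hg : ConvexOn ℝ Set.univ g) (y e : X) {L L' : ℝ} (hL : 0 ≤ L)
    (hL' : 0 < L') (hLL : L ≤ L') :
    g (y + L • e) + g (y - L • e) - 2 * g y ≤
      L / L' * (g (y + L' • e) + g (y - L' • e) - 2 * g y) := by
  have h0 : 0 ≤ L / L' := by positivity
  have h1 : 0 ≤ 1 - L / L' := by rw [sub_nonneg, div_le_one hL']; exact hLL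
  have hm : L / L' * L' = L := div_mul_cancel₀ _ hL'.ne'
  have a1 := hg.2 (Set.mem_univ y) (Set.mem_univ (y + L' • e)) h1 h0 (by ring)
  have a2 := hg.2 (Set.mem_univ y) (Set.mem_univ (y - L' • e)) h1 h0 (by ring)
  have e1 : (1 - L / L') • y + (L / L') • (y + L' • e) = y + L • e := by
    rw [smul_add, smul_smul, hm]; module
  have e2 : (1 - L / L') • y + (L / L') • (y - L' • e) = y - L • e := by
    rw [smul_sub, smul_smul, hm]; module
  rw [e1] at a1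
  rw [e2] at a2
  simp only [smul_eq_mul] at a1 a2
  linarith

theorem geo_mg_aux (m : ℕ) {γ L₀ : ℝ} (hγ : 0 < γ) (hL₀ : 0 < L₀) :
    ∃ L : ℝ, 0 < L ∧ L ≤ L₀ ∧ ∀ g : X → ℝ, ConvexOn ℝ Set.univ g → (∀ x y, |g x - g y| ≤ ‖x - y‖) →
      ∀ s : Finset X, s.card ≤ m → (∀ e ∈ s, ‖e‖ ≤ 1) → ∀ y : X,
        ∃ y', ‖y' - y‖ ≤ L₀ ∧ ∀ e ∈ s, g (y' + L • e) + g (y' - L • e) - 2 * g y' ≤ γ * L := by
  classical
  induction m generalizing γ L₀ with
  | zero =>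
    refine ⟨L₀, hL₀, le_rfl, fun g _ _ s hs _ y => ⟨y, by simp [hL₀.le], fun e he => ?_⟩⟩
    rw [Nat.le_zero, card_eq_zero] at hs
    simp [hs] at he
  | succ m ih =>
    obtain ⟨L', hL', hL'0, H⟩ := ih (γ := γ / 2) (L₀ := L₀ / 2) (by positivity) (by positivity)
    set ρ := min (L₀ / 2) (γ * L' / 8) with hρ
    have hρ0 : 0 < ρ := lt_min (by positivity) (by positivity)
    have hρ1 : ρ ≤ L₀ / 2 := min_le_left _ _
    have hρ2 : ρ ≤ γ * L' / 8 := min_le_right _ _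
    set L := min L' (min (ρ / 2) (γ * ρ / 4)) with hL
    have hL0 : 0 < L := lt_min hL' (lt_min (by positivity) (by positivity))
    have hL1 : L ≤ L' := min_le_left _ _
    have hL2 : L ≤ ρ / 2 := (min_le_right _ _).trans (min_le_left _ _)
    have hL3 : L ≤ γ * ρ / 4 := (min_le_right _ _).trans (min_le_right _ _)
    refine ⟨L, hL0, by linarith, fun g hg hlip s hs hs1 y => ?_⟩
    rcases s.eq_empty_or_nonempty with rfl | ⟨a, ha⟩
    · exact ⟨y, by simp [hL₀.le], by simp⟩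
    obtain ⟨y₁, hy₁, H₁⟩ := H g hg hlip (s.erase a) (by rw [card_erase_of_mem ha]; omega)
      (fun e he => hs1 e (mem_of_mem_erase he)) y
    obtain ⟨t, ht0, ht1, ht⟩ := pigeon hlip y₁ (hs1 a ha) hL0 (ρ := ρ) (by linarith)
    have hta : ‖t • a‖ ≤ ρ := by
      rw [norm_smul, Real.norm_of_nonneg ht0]
      exact (mul_le_of_le_one_right ht0 (hs1 a ha)).trans ht1
    refine ⟨y₁ + t • a, ?_, fun e he => ?_⟩
    · have : y₁ + t • a - y = (y₁ - y) + t • a := by abel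
      rw [this]
      linarith [norm_add_le (y₁ - y) (t • a)]
    · by_cases hea : e = a
      · subst hea
        refine ht.trans ?_
        rw [div_le_iff₀ hρ0]
        nlinarith
      · have h1 := H₁ e (mem_erase.2 ⟨hea, he⟩)
        refine (geo_conv_scale hg _ e hL0.le hL' hL1).trans ?_
        have a1 := (abs_le.1 (hlip (y₁ + t • a + L' • e) (y₁ + L' • e))).2
        have a2 := (abs_le.1 (hlip (y₁ + t • a - L' • e) (y₁ - L' • e))).2
        have a3 := (abs_le.1 (hlip (y₁ + t • a) y₁)).1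
        rw [show y₁ + t • a + L' • e - (y₁ + L' • e) = t • a by abel] at a1
        rw [show y₁ + t • a - L' • e - (y₁ - L' • e) = t • a by abel] at a2
        rw [show y₁ + t • a - y₁ = t • a by abel] at a3
        have h2 : g (y₁ + t • a + L' • e) + g (y₁ + t • a - L' • e) - 2 * g (y₁ + t • a) ≤
            γ * L' := by linarith
        calc _ ≤ L / L' * (γ * L') := by gcongr
          _ = γ * L := by field_simp

/-- **First order goodness along finitely many directions.**  Induction on `m` (for `e : Fin m → X`, then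
transport): get `L'` from the induction hypothesis for `(γ/2, L₀/2)`, move along the new direction by at
most `ρ = min (L₀/2) (γ L'/8)` (`pigeon` with `σ = L` so small that `4 L / ρ ≤ γ`, `2L ≤ ρ`, `L ≤ L'`); the old
second differences at scale `L'` grow by at most `4ρ ≤ γ L'/2`, and for convex `g` the second difference
at scale `L ≤ L'` is at most `L / L'` times the one at scale `L'`. -/
theorem mg (m : ℕ) {γ L₀ : ℝ} (hγ : 0 < γ) (hL₀ : 0 < L₀) :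
    ∃ L : ℝ, 0 < L ∧ L ≤ L₀ ∧ ∀ g : X → ℝ, ConvexOn ℝ Set.univ g → (∀ x y, |g x - g y| ≤ ‖x - y‖) →
      ∀ (ι : Type) [Fintype ι], Fintype.card ι ≤ m → ∀ e : ι → X, (∀ i, ‖e i‖ ≤ 1) → ∀ y : X,
        ∃ y', ‖y' - y‖ ≤ L₀ ∧ ∀ i, g (y' + L • e i) + g (y' - L • e i) - 2 * g y' ≤ γ * L := by
  classical
  obtain ⟨L, hL, hL1, H⟩ := geo_mg_aux (X := X) m hγ hL₀
  refine ⟨L, hL, hL1, fun g hg hlip ι _ hι e he y => ?_⟩
  obtain ⟨y', h1, h2⟩ := H g hg hlip (univ.image e) (card_image_le.trans (by simpa using hι))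
    (by simpa using he) y
  exact ⟨y', h1, fun i => h2 _ (mem_image_of_mem _ (mem_univ i))⟩

theorem mg_norm (m : ℕ) {γ L₀ : ℝ} (hγ : 0 < γ) (hL₀ : 0 < L₀) :
    ∃ L : ℝ, 0 < L ∧ L ≤ L₀ ∧ ∀ (ι : Type) [Fintype ι], Fintype.card ι ≤ m → ∀ e : ι → X,
      (∀ i, ‖e i‖ ≤ 1) → ∀ y : X, ∃ y', ‖y' - y‖ ≤ L₀ ∧ ∀ i, D2 y' (L • e i) ≤ γ * L := by
  obtain ⟨L, hL, hL1, H⟩ := mg (X := X) m hγ hL₀
  exact ⟨L, hL, hL1, fun ι _ hι e he y =>
    H (fun x => ‖x‖) convexOn_univ_norm (fun x y => abs_norm_sub_norm_le x y) ι hι e he y⟩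

end Crest.Agent.R74
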