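import Crest.Agent.R74.Basic
import Crest.Agent.R74.FamB

/-!
# Row 74: gauges and the pointwise chain inequality
-/

namespace Crest.Agent.R74

open Finset

variable {X Y : Type*} [NormedAddCommGroup X] [NormedSpace ℝ X] [NormedAddCommGroup Y]
  [NormedSpace ℝ Y]

namespace Gauge

variable {V : Type*} [AddCommGroup V] [Module ℝ V] {k : V → ℝ}

theorem cvx (h : Gauge k) (x y : V) {a b : ℝ} (ha : 0 ≤ a) (hb : 0 ≤ b) (hab : a + b = 1) :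
    k (a • x + b • y) ≤ a * k x + b * k y :=
  h.conv.2 (Set.mem_univ x) (Set.mem_univ y) ha hb hab

theorem smul_le (h : Gauge k) (x : V) {s : ℝ} (h0 : 0 ≤ s) (h1 : s ≤ 1) : k (s • x) ≤ s * k x := by
  have := h.cvx x 0 h0 (sub_nonneg.2 h1) (by ring)
  rwa [smul_zero, add_zero, h.zero, mul_zero, add_zero] at this

theorem mono (h : Gauge k) (x : V) {s t : ℝ} (h0 : 0 ≤ s) (hst : s ≤ t) : k (s • x) ≤ k (t • x) := by
  rcases (h0.trans hst).eq_or_lt with ht | ht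
  · obtain rfl : s = t := le_antisymm hst (ht ▸ h0)
    exact le_rfl
  · have h1 : s / t ≤ 1 := (div_le_one ht).2 hst
    have := h.smul_le (t • x) (div_nonneg h0 ht.le) h1
    rw [smul_smul, div_mul_cancel₀ _ ht.ne'] at this
    exact this.trans (mul_le_of_le_one_left (h.nonneg _) h1)

theorem mono' (h : Gauge k) (x : V) {s t : ℝ} (h0 : 0 ≤ s) (hst : s ≤ t) (ht : 0 < t) :
    k (s • x) ≤ s / t * k (t • x) := by
  have := h.smul_le (t • x) (div_nonneg h0 ht.le) ((div_le_one ht).2 hst)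
  rwa [smul_smul, div_mul_cancel₀ _ ht.ne'] at this

theorem add_le (h : Gauge k) (x y : V) : k (x + y) ≤ (k ((2 : ℝ) • x) + k ((2 : ℝ) • y)) / 2 := by
  have := h.cvx ((2 : ℝ) • x) ((2 : ℝ) • y) (a := 1 / 2) (b := 1 / 2) (by norm_num) (by norm_num)
    (by norm_num)
  rw [smul_smul, smul_smul, show (1 / 2 * 2 : ℝ) = 1 by norm_num, one_smul, one_smul] at this
  linarith

/-- Jensen (`ConvexOn.map_sum_le`, or induction): the value at a sum of `j` vectors. -/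
theorem sum_le (h : Gauge k) {j : ℕ} (x : ℕ → V) {M : ℝ} (hM0 : 0 ≤ M)
    (hM : ∀ l < j, k ((j : ℝ) • x l) ≤ M) : k (∑ l ∈ range j, x l) ≤ M := by
  rcases Nat.eq_zero_or_pos j with rfl | hj
  · simpa [h.zero] using hM0
  have hj' : (0 : ℝ) < j := by exact_mod_cast hj
  have := h.conv.map_sum_le (t := range j) (w := fun _ => (j : ℝ)⁻¹) (p := fun l => (j : ℝ) • x l)
    (fun _ _ => by positivity) (by simp [hj'.ne']) fun _ _ => Set.mem_univ _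
  simp only [smul_smul, inv_mul_cancel₀ hj'.ne', one_smul, smul_eq_mul] at this
  refine this.trans ((Finset.sum_le_sum fun l hl => mul_le_mul_of_nonneg_left
    (hM l (mem_range.1 hl)) (by positivity)).trans (le_of_eq ?_))
  simp [hj'.ne']

theorem comp {W : Type*} [AddCommGroup W] [Module ℝ W] (h : Gauge k) (A : W →ₗ[ℝ] V) :
    Gauge fun x => k (A x) := by
  exact ⟨h.conv.comp_linearMap A, fun x => h.nonneg _, by simp [h.zero]⟩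

theorem apx1 (h : Gauge k) (c η : V) {ν g : ℝ} (hν : 0 < ν) (hν2 : ν ≤ 1 / 2)
    (hη : k (ν⁻¹ • η) ≤ ν⁻¹ * g) : k (c + η) ≤ k c + ν * k ((2 : ℝ) • c) + g := by
  have h1 := h.cvx c (c + (2 * ν)⁻¹ • η) (a := 1 - 2 * ν) (b := 2 * ν) (by linarith) (by linarith)
    (by ring)
  have e : (1 - 2 * ν) • c + (2 * ν) • (c + (2 * ν)⁻¹ • η) = c + η := by
    rw [smul_add, smul_smul, mul_inv_cancel₀ (by positivity), one_smul]
    module
  have h2 := h.add_le c ((2 * ν)⁻¹ • η)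
  rw [smul_smul, show 2 * (2 * ν)⁻¹ = ν⁻¹ by field_simp] at h2
  rw [e] at h1
  have h3 := mul_le_mul_of_nonneg_left h2 (show 0 ≤ 2 * ν by linarith)
  have h4 := mul_le_mul_of_nonneg_left hη hν.le
  rw [← mul_assoc, mul_inv_cancel₀ hν.ne', one_mul] at h4
  have h5 := mul_nonneg hν.le (h.nonneg c)
  linarith

/-- `c + η = (1 - ν) (c / (1 - ν)) + ν (η / ν)` and `k ((1 + x) c) ≤ (1 - x) k c + x k (2c)`, `x = ν / (1 - ν) ≤ 1`,
give `k (c + η) ≤ k c + ν k (2c) + g`.  Apply this to `(c + η) + (-η)` and use `add_le` for the other direction. -/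
theorem apx (h : Gauge k) {c η : V} {ν g : ℝ} (hν : 0 < ν) (hν2 : ν ≤ 1 / 2) (hg : 0 ≤ g)
    (hη : ∀ s : ℝ, |s| ≤ 4 / ν → k (s • η) ≤ |s| * g) :
    |k (c + η) - k c| ≤ ν * k ((4 : ℝ) • c) + 3 * g := by
  have hi : 0 < ν⁻¹ := inv_pos.2 hν
  have hi4 : ν⁻¹ ≤ 4 / ν := by rw [div_eq_mul_inv]; linarith
  have h1 := h.apx1 c η hν hν2 (by
    have := hη ν⁻¹ (by rwa [abs_of_pos hi])
    rwa [abs_of_pos hi] at this)
  have h2 := h.apx1 (c + η) (-η) hν hν2 (by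
    have := hη (-ν⁻¹) (by rwa [abs_neg, abs_of_pos hi])
    rwa [abs_neg, abs_of_pos hi, neg_smul, ← smul_neg] at this)
  rw [add_neg_cancel_right, smul_add] at h2
  have h3 := h.add_le ((2 : ℝ) • c) ((2 : ℝ) • η)
  rw [smul_smul, smul_smul, show (2 * 2 : ℝ) = 4 by norm_num] at h3
  have h4 := hη 4 (by
    rw [abs_of_pos (by norm_num), le_div_iff₀ hν]; linarith)
  rw [abs_of_pos (by norm_num)] at h4
  have h5 := h.mono c (s := 2) (t := 4) (by norm_num) (by norm_num)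
  have h6 := mul_le_mul_of_nonneg_left h5 hν.le
  have h7 := mul_le_mul_of_nonneg_left h3 hν.le
  have h8 := mul_le_mul_of_nonneg_left h4 hν.le
  have h9 := mul_nonneg hν.le (h.nonneg ((4 : ℝ) • c))
  have h10 := mul_le_mul_of_nonneg_right hν2 hg
  rw [abs_le]
  constructor <;> nlinarith

end Gauge

theorem Gauge.small {V : Type*} [AddCommGroup V] [Module ℝ V] {k : V → ℝ} (h : Gauge k) {δ ε : V}
    {ν t g r : ℝ} (hr : |r| ≤ 1) (hδ : ∀ s : ℝ, |s| ≤ 8 / ν → k (s • δ) ≤ |s| * g)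
    (hε : ∀ s : ℝ, |s| ≤ 8 / ν → k ((s * t) • ε) ≤ 0) (s : ℝ) (hs : |s| ≤ 4 / ν) :
    k (s • (δ + (r * t) • ε)) ≤ |s| * g := by
  have e : |2 * s| = 2 * |s| := by rw [abs_mul, abs_of_pos (by norm_num)]
  have h8 : 8 / ν = 2 * (4 / ν) := by ring
  have h1 := h.add_le (s • δ) (s • (r * t) • ε)
  have h2 := hδ (2 * s) (by rw [e, h8]; linarith)
  have h3 := hε (2 * s * r) (by
    rw [abs_mul, e, h8]
    have := mul_le_of_le_one_right (show 0 ≤ 2 * |s| by positivity) hr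
    linarith)
  rw [smul_smul 2, smul_smul 2, smul_smul (2 * s), ← mul_assoc] at h1
  rw [e] at h2
  rw [smul_add]
  linarith

/-- Multiply `hsec` by `μ t`.  Replace each of the four values by the one without the small vectors (`Gauge.apx`; for
`η = δ₁ - μ t ε₁` use `add_le`: `k (s η) ≤ (k (2 s δ₁) + k (-2 s μ t ε₁)) / 2 ≤ |s| g`), note `t - μ t = t / b` and
`t B + (μ t / κ) D = b⁻¹ (b t B) + μ ((t / κ) D)` (convexity); the error terms are monotone in the scale. -/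
theorem psi {V₁ V₂ : Type*} [AddCommGroup V₁] [Module ℝ V₁] [AddCommGroup V₂] [Module ℝ V₂]
    {k₁ : V₁ → ℝ} {k₂ : V₂ → ℝ} (h₁ : Gauge k₁) (h₂ : Gauge k₂) {A δ₁ ε₁ : V₁} {B D δ₂ ε₂ : V₂}
    {b κ ν t g : ℝ} (hb : 1 < b) (hb2 : b ≤ 2) (hκ : 1 / 2 ≤ κ) (hκ2 : κ ≤ 2) (hν : 0 < ν)
    (hν2 : ν ≤ 1 / 2) (ht : 0 < t) (hg : 0 ≤ g)
    (hsec : (k₁ (t • A + δ₁) - k₁ (t • A + δ₁ - ((1 - 1 / b) * t) • (A + ε₁))) / ((1 - 1 / b) * t) ≤
      (k₂ (t • B + δ₂ + ((1 - 1 / b) * t / κ) • (D + ε₂)) - k₂ (t • B + δ₂)) / ((1 - 1 / b) * t / κ))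
    (hδ₁ : ∀ s : ℝ, |s| ≤ 8 / ν → k₁ (s • δ₁) ≤ |s| * g)
    (hδ₂ : ∀ s : ℝ, |s| ≤ 8 / ν → k₂ (s • δ₂) ≤ |s| * g)
    (hε₁ : ∀ s : ℝ, |s| ≤ 8 / ν → k₁ ((s * t) • ε₁) ≤ 0)
    (hε₂ : ∀ s : ℝ, |s| ≤ 8 / ν → k₂ ((s * t) • ε₂) ≤ 0) :
    PSI k₁ k₂ A B D b κ (4 * ν) t (20 * g) := by
  have hb0 : 0 < b := by linarith
  have hκ0 : 0 < κ := by linarith
  set μ := 1 - 1 / b with hμ
  have hib : 1 / b < 1 := (div_lt_one hb0).2 hb
  have hib' : 1 / 2 ≤ 1 / b := one_div_le_one_div_of_le hb0 hb2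
  have hμ0 : 0 < μ := by linarith
  have hμ2 : μ ≤ 1 / 2 := by linarith
  have hμκ : μ / κ ≤ 1 := (div_le_one hκ0).2 (by linarith)
  have hμκ0 : 0 < μ / κ := div_pos hμ0 hκ0
  have hμt : 0 < μ * t := mul_pos hμ0 ht
  have h48 : ∀ s : ℝ, |s| ≤ 4 / ν → |s| ≤ 8 / ν := fun s hs =>
    hs.trans (div_le_div_of_nonneg_right (by norm_num) hν.le)
  rw [div_div_eq_mul_div, div_le_div_iff_of_pos_right hμt] at hsec
  have e1 : t • A + δ₁ - (μ * t) • (A + ε₁) = (t / b) • A + (δ₁ + (-μ * t) • ε₁) := by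
    have : t / b = t - μ * t := by rw [hμ]; ring
    rw [this]; module
  have e2 : t • B + δ₂ + (μ * t / κ) • (D + ε₂) =
      (t • B + (μ / κ * t) • D) + (δ₂ + (μ / κ * t) • ε₂) := by
    have : μ * t / κ = μ / κ * t := by ring
    rw [this]; module
  rw [e1, e2] at hsec
  have a1 := (abs_le.1 (h₁.apx (c := t • A) hν hν2 hg fun s hs => hδ₁ s (h48 s hs))).1
  have a2 := (abs_le.1 (h₁.apx (c := (t / b) • A) hν hν2 hg
    (h₁.small (r := -μ) (by rw [abs_neg, abs_of_pos hμ0]; linarith) hδ₁ hε₁))).2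
  have a3 := (abs_le.1 (h₂.apx (c := t • B + (μ / κ * t) • D) hν hν2 hg
    (h₂.small (r := μ / κ) (by rwa [abs_of_pos hμκ0]) hδ₂ hε₂))).2
  have a4 := (abs_le.1 (h₂.apx (c := t • B) hν hν2 hg fun s hs => hδ₂ s (h48 s hs))).1
  rw [smul_smul] at a1 a2 a4
  have htb : t / b ≤ t := div_le_self ht.le hb.le
  have b1 := h₁.mono A (s := 4 * t) (t := 16 * t) (by positivity) (by linarith)
  have b2 := h₁.mono A (s := 4 * (t / b)) (t := 16 * t) (by positivity) (by linarith)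
  have b4 := h₂.mono B (s := 4 * t) (t := 16 * t) (by positivity) (by linarith)
  have b5 := h₂.add_le ((4 * t) • B) ((4 * (μ / κ * t)) • D)
  rw [smul_smul, smul_smul] at b5
  have b6 := h₂.mono B (s := 2 * (4 * t)) (t := 16 * t) (by positivity) (by linarith)
  have b7 := h₂.mono D (s := 2 * (4 * (μ / κ * t))) (t := 16 * t) (by positivity) (by nlinarith)
  have b8 := h₂.cvx ((b * t) • B) ((t / κ) • D) (a := 1 / b) (b := μ) (by positivity) hμ0.le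
    (by rw [hμ]; ring)
  rw [smul_smul, smul_smul, show 1 / b * (b * t) = t by field_simp,
    show μ * (t / κ) = μ / κ * t by ring] at b8
  rw [smul_add, smul_smul, smul_smul] at a3
  unfold PSI
  rw [← hμ]
  have n1 := h₁.nonneg ((16 * t) • A)
  have n2 := h₂.nonneg ((16 * t) • B)
  have n3 := h₂.nonneg ((16 * t) • D)
  generalize k₁ ((16 * t) • A) = KA at *
  generalize k₂ ((16 * t) • B) = KB at *
  generalize k₂ ((16 * t) • D) = KD at *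
  have c1 := mul_le_mul_of_nonneg_left b1 hν.le
  have c2 := mul_le_mul_of_nonneg_left b2 hν.le
  have c4 := mul_le_mul_of_nonneg_left b4 hν.le
  have c5 : ν * k₂ ((4 * t) • B + (4 * (μ / κ * t)) • D) ≤ ν * ((KB + KD) / 2) :=
    mul_le_mul_of_nonneg_left (by linarith) hν.le
  have d1 : k₂ (t • B + (μ / κ * t) • D + (δ₂ + (μ / κ * t) • ε₂)) - k₂ (t • B + δ₂) ≤
      (1 / b * k₂ ((b * t) • B) + μ * k₂ ((t / κ) • D) - k₂ (t • B)) +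
        (ν * ((KB + KD) / 2) + ν * KB + 6 * g) := by linarith
  have d2 := mul_le_mul_of_nonneg_right d1 hκ0.le
  have n4 := mul_nonneg hν.le n1
  have n5 := mul_nonneg hν.le n2
  have n6 := mul_nonneg hν.le n3
  have d3 := mul_le_mul_of_nonneg_left hκ2
    (show 0 ≤ ν * ((KB + KD) / 2) + ν * KB + 6 * g by positivity)
  have d4 : (1 / b * k₂ ((b * t) • B) + μ * k₂ ((t / κ) • D) - k₂ (t • B)) * κ =
      κ * (k₂ ((b * t) • B) / b - k₂ (t • B)) + μ * κ * k₂ ((t / κ) • D) := by ring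
  rw [add_mul, d4] at d2
  linarith

theorem sc_pos {τ b : ℝ} (hτ : 0 < τ) (hb : 0 < b) (i : ℤ) : 0 < sc τ b i := by
  exact mul_pos hτ (zpow_pos hb i)

theorem sc_add {τ b : ℝ} (hb : 0 < b) (i m : ℤ) : sc τ b (i + m) = b ^ m * sc τ b i := by
  unfold sc
  rw [zpow_add₀ hb.ne']
  ring

theorem sc_mono {τ b : ℝ} (hτ : 0 ≤ τ) (hb : 1 ≤ b) {i j : ℤ} (h : i ≤ j) : sc τ b i ≤ sc τ b j := by
  exact mul_le_mul_of_nonneg_left (zpow_le_zpow_right₀ hb h) hτ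

theorem gs_nonneg {V : Type*} [AddCommGroup V] [Module ℝ V] (𝓕 : Fam X) {k : V → ℝ} (h : Gauge k)
    (a : 𝓕.Ω → V) (τ b : ℝ) (i : ℤ) : 0 ≤ gs 𝓕 k a τ b i := by
  exact mul_nonneg (by positivity) (𝓕.E_nonneg fun ω => add_nonneg (h.nonneg _) (h.nonneg _))

/-- values at the scale `s t i`, `s ≤ b ^ m₂`, are bounded by `gs` at the index `i + m₂` (`Gauge.mono'`). -/
theorem gs_scale {V : Type*} [AddCommGroup V] [Module ℝ V] (𝓕 : Fam X) {k : V → ℝ} (h : Gauge k)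
    (a : 𝓕.Ω → V) {τ b s : ℝ} (hτ : 0 < τ) (hb : 0 < b) {m₂ : ℕ} (hs0 : 0 ≤ s) (hs : s ≤ b ^ m₂) (i : ℤ) :
    ((sc τ b i) ^ 2)⁻¹ * 𝓕.E (fun ω => k ((s * sc τ b i) • a ω) + k ((s * sc τ b i) • -a ω)) ≤
      s * b ^ m₂ * gs 𝓕 k a τ b (i + m₂) := by
  have ht := sc_pos hτ hb i
  have hB : 0 < b ^ m₂ := pow_pos hb _
  unfold gs
  rw [sc_add hb, zpow_natCast]
  have h1 : ∀ x : V, k ((s * sc τ b i) • x) ≤ s / b ^ m₂ * k ((b ^ m₂ * sc τ b i) • x) := by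
    intro x
    have := h.mono' x (s := s * sc τ b i) (t := b ^ m₂ * sc τ b i) (by positivity)
      (mul_le_mul_of_nonneg_right hs ht.le) (by positivity)
    rwa [mul_div_mul_right _ _ ht.ne'] at this
  have h2 := 𝓕.E_mono (g := fun ω => k ((s * sc τ b i) • a ω) + k ((s * sc τ b i) • -a ω))
    (h := fun ω => s / b ^ m₂ * (k ((b ^ m₂ * sc τ b i) • a ω) + k ((b ^ m₂ * sc τ b i) • -a ω)))
    fun ω => by rw [mul_add]; exact add_le_add (h1 _) (h1 _)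
  rw [𝓕.E_mul] at h2
  refine (mul_le_mul_of_nonneg_left h2 (by positivity)).trans (le_of_eq ?_)
  field_simp

theorem psi_E (𝓕 : Fam X) (f₁ f₂ f₃ f₄ f₅ f₆ f₇ f₈ g : 𝓕.Ω → ℝ) (c₃ c₄ c₅ c₆ c : ℝ)
    (h : ∀ ω, f₁ ω - f₂ ω ≤ c₃ * f₃ ω - c₄ * f₄ ω + c₅ * f₅ ω + c₆ * (f₆ ω + f₇ ω + f₈ ω) + c * g ω) :
    𝓕.E f₁ - 𝓕.E f₂ ≤ c₃ * 𝓕.E f₃ - c₄ * 𝓕.E f₄ + c₅ * 𝓕.E f₅ +
      c₆ * (𝓕.E f₆ + 𝓕.E f₇ + 𝓕.E f₈) + c * 𝓕.E g := by
  have := 𝓕.E_mono h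
  simpa only [Fam.E_add, Fam.E_sub, Fam.E_mul] using this

/-- add `PSI` for `±`, take expectations, divide by `t²`; `t / b`, `b t`, `t / b ^ m` are the scales `i - 1`, `i + 1`,
`i - m` (`sc_add`), and `gs_scale` with `s = 16`. -/
theorem pseq_of_psi {V₁ V₂ : Type*} [AddCommGroup V₁] [Module ℝ V₁] [AddCommGroup V₂] [Module ℝ V₂]
    (𝓕 : Fam X) {k₁ : V₁ → ℝ} {k₂ : V₂ → ℝ} (h₁ : Gauge k₁) (h₂ : Gauge k₂) (A : 𝓕.Ω → V₁)
    (B D : 𝓕.Ω → V₂) (g : 𝓕.Ω → ℝ) {τ b ν : ℝ} (hτ : 0 < τ) (hb : 1 < b) (hν : 0 ≤ ν) (m : ℤ) {m₂ : ℕ}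
    (hm₂ : 16 ≤ b ^ m₂) (hm₂' : b ^ m₂ ≤ 32) (i : ℤ)
    (hp : ∀ ω, PSI k₁ k₂ (A ω) (B ω) (D ω) b (b ^ m) ν (sc τ b i) (g ω * sc τ b i ^ 2))
    (hn : ∀ ω, PSI k₁ k₂ (-A ω) (-B ω) (-D ω) b (b ^ m) ν (sc τ b i) (g ω * sc τ b i ^ 2)) :
    PSeq (gs 𝓕 k₁ A τ b) (gs 𝓕 k₂ B τ b) (gs 𝓕 k₂ D τ b) b m m₂ (512 * ν) (2 * 𝓕.E g) i := by
  have hb0 : 0 < b := by linarith
  have ht := sc_pos hτ hb0 i
  have hκ : 0 < b ^ m := zpow_pos hb0 m
  have s1 : sc τ b (i - 1) = sc τ b i / b := by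
    rw [sub_eq_add_neg, sc_add hb0, zpow_neg_one]; ring
  have s2 : sc τ b (i + 1) = b * sc τ b i := by rw [sc_add hb0, zpow_one]
  have s3 : sc τ b (i - m) = sc τ b i / b ^ m := by
    rw [sub_eq_add_neg, sc_add hb0, zpow_neg]; ring
  have g1 := gs_scale 𝓕 h₁ A hτ hb0 (by norm_num) hm₂ i
  have g2 := gs_scale 𝓕 h₂ B hτ hb0 (by norm_num) hm₂ i
  have g3 := gs_scale 𝓕 h₂ D hτ hb0 (by norm_num) hm₂ i
  have n1 := gs_nonneg 𝓕 h₁ A τ b (i + m₂)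
  have n2 := gs_nonneg 𝓕 h₂ B τ b (i + m₂)
  have n3 := gs_nonneg 𝓕 h₂ D τ b (i + m₂)
  unfold PSeq
  generalize gs 𝓕 k₁ A τ b (i + m₂) = GA at *
  generalize gs 𝓕 k₂ B τ b (i + m₂) = GB at *
  generalize gs 𝓕 k₂ D τ b (i + m₂) = GD at *
  unfold gs
  rw [s1, s2, s3]
  set t := sc τ b i
  have key := psi_E 𝓕 (fun ω => k₁ (t • A ω) + k₁ (t • -A ω))
    (fun ω => k₁ ((t / b) • A ω) + k₁ ((t / b) • -A ω))
    (fun ω => k₂ ((b * t) • B ω) + k₂ ((b * t) • -B ω))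
    (fun ω => k₂ (t • B ω) + k₂ (t • -B ω))
    (fun ω => k₂ ((t / b ^ m) • D ω) + k₂ ((t / b ^ m) • -D ω))
    (fun ω => k₁ ((16 * t) • A ω) + k₁ ((16 * t) • -A ω))
    (fun ω => k₂ ((16 * t) • B ω) + k₂ ((16 * t) • -B ω))
    (fun ω => k₂ ((16 * t) • D ω) + k₂ ((16 * t) • -D ω)) g
    (b ^ m / b) (b ^ m) ((1 - 1 / b) * b ^ m) ν (2 * t ^ 2) fun ω => by
      have p1 := hp ω
      have p2 := hn ω
      unfold PSI at p1 p2
      refine le_trans (le_of_eq ?_) ((add_le_add p1 p2).trans (le_of_eq ?_)) <;> ring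
  generalize 𝓕.E (fun ω => k₁ (t • A ω) + k₁ (t • -A ω)) = e₁ at *
  generalize 𝓕.E (fun ω => k₁ ((t / b) • A ω) + k₁ ((t / b) • -A ω)) = e₂ at *
  generalize 𝓕.E (fun ω => k₂ ((b * t) • B ω) + k₂ ((b * t) • -B ω)) = e₃ at *
  generalize 𝓕.E (fun ω => k₂ (t • B ω) + k₂ (t • -B ω)) = e₄ at *
  generalize 𝓕.E (fun ω => k₂ ((t / b ^ m) • D ω) + k₂ ((t / b ^ m) • -D ω)) = e₅ at *
  generalize 𝓕.E (fun ω => k₁ ((16 * t) • A ω) + k₁ ((16 * t) • -A ω)) = e₆ at *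
  generalize 𝓕.E (fun ω => k₂ ((16 * t) • B ω) + k₂ ((16 * t) • -B ω)) = e₇ at *
  generalize 𝓕.E (fun ω => k₂ ((16 * t) • D ω) + k₂ ((16 * t) • -D ω)) = e₈ at *
  have k2 := mul_le_mul_of_nonneg_left key (show 0 ≤ (t ^ 2)⁻¹ by positivity)
  have q : (t ^ 2)⁻¹ * (e₆ + e₇ + e₈) ≤ 512 * (GA + GB + GD) := by
    have := mul_le_mul_of_nonneg_right hm₂' (add_nonneg (add_nonneg n1 n2) n3)
    linarith
  have q' := mul_le_mul_of_nonneg_left q hν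
  have r1 : (t ^ 2)⁻¹ * e₁ - (b ^ 2)⁻¹ * (((t / b) ^ 2)⁻¹ * e₂) = (t ^ 2)⁻¹ * (e₁ - e₂) := by
    field_simp
  have r2 : (t ^ 2)⁻¹ * (b ^ m / b * e₃ - b ^ m * e₄ + (1 - 1 / b) * b ^ m * e₅ +
      ν * (e₆ + e₇ + e₈) + 2 * t ^ 2 * 𝓕.E g) =
      b ^ m * (b * (((b * t) ^ 2)⁻¹ * e₃) - (t ^ 2)⁻¹ * e₄) +
        (1 - 1 / b) * (b ^ m)⁻¹ * (((t / b ^ m) ^ 2)⁻¹ * e₅) +
        ν * ((t ^ 2)⁻¹ * (e₆ + e₇ + e₈)) + 2 * 𝓕.E g := by
    field_simp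
  rw [r1]
  rw [r2] at k2
  linarith

theorem PSeq.mono {L B D : ℤ → ℝ} {b : ℝ} {m : ℤ} {m₂ : ℕ} {ν ε ε' : ℝ} {i : ℤ}
    (h : PSeq L B D b m m₂ ν ε i) (hε : ε ≤ ε') : PSeq L B D b m m₂ ν ε' i := by
  unfold PSeq at *
  linarith

end Crest.Agent.R74
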