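import Crest.Agent.R74.Pair
import Crest.Agent.R74.Geo
import Crest.Agent.R74.Psi

/-!
# Row 74: robust chords: basic facts, the two ends see the same functional
-/

namespace Crest.Agent.R74

open Finset

variable {X Y : Type*} [NormedAddCommGroup X] [NormedSpace ℝ X] [NormedAddCommGroup Y]
  [NormedSpace ℝ Y]

/-- **Both ends.**  `r = sph p (σ a')`, `s = sph q (σ b)`: `ψ (F s - F r) ≤ ‖F s - F r‖ = ‖s - r‖`, the left side is
`‖w‖ + σ ψ (T_q b - T_p a') + o(σ)`, the right side `(1 - σ α) ‖v‖ + o(σ)` (`sph_little`), for both signs of `σ`. -/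
theorem phi_q {S : SI X Y} {p q : X} (Bp : BS S p) (Bq : BS S q) {ψ : Y →L[ℝ] ℝ}
    (hψ : Nm ψ (S.F q - S.F p)) {a' b : X} {α : ℝ} (ha' : Bp.J a' = 0) (hb : Bq.J b = 0)
    (h : a' = b + α • (q - p)) : ψ (Bq.T b) = ψ (Bp.T a') - α * ‖q - p‖ := by
  have hd : ‖S.F q - S.F p‖ = ‖q - p‖ := S.dist q p (Bq.hp.trans Bp.hp.symm)
  have key : ∀ ε : ℝ, 0 < ε → |ψ (Bq.T b) - (ψ (Bp.T a') - α * ‖q - p‖)| ≤ ε := by
    intro ε hε
    obtain ⟨t₁, ht₁, h₁⟩ := Bp.sph_little ha' (ε := ε / 4) (by positivity)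
    obtain ⟨t₂, ht₂, h₂⟩ := Bq.sph_little hb (ε := ε / 4) (by positivity)
    have hα : 0 < |α| + 1 := by positivity
    have main : ∀ σ : ℝ, |σ| ≤ min (min t₁ t₂) (1 / (|α| + 1)) →
        σ * (ψ (Bq.T b) - (ψ (Bp.T a') - α * ‖q - p‖)) ≤ ε * |σ| := by
      intro σ hσ
      obtain ⟨r1, r2, r3⟩ := h₁ σ (hσ.trans ((min_le_left _ _).trans (min_le_left _ _)))
      obtain ⟨s1, s2, s3⟩ := h₂ σ (hσ.trans ((min_le_left _ _).trans (min_le_right _ _)))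
      have hσα : σ * α ≤ 1 := by
        have h1 := hσ.trans (min_le_right _ _)
        rw [le_div_iff₀ hα] at h1
        have h2 := le_abs_self (σ * α)
        rw [abs_mul] at h2
        nlinarith [abs_nonneg σ]
      set r := sph p (σ • a') with hr
      set s := sph q (σ • b) with hs
      have e1 : s - r = (s - q - σ • b) - (r - p - σ • a') + (1 - σ * α) • (q - p) := by
        rw [h]; module
      have e2 : S.F s - S.F r = (S.F s - S.F q - σ • Bq.T b) - (S.F r - S.F p - σ • Bp.T a') +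
          (S.F q - S.F p) + σ • (Bq.T b - Bp.T a') := by module
      have h3 : ‖s - r‖ ≤ ε / 4 * |σ| + ε / 4 * |σ| + (1 - σ * α) * ‖q - p‖ := by
        rw [e1]
        refine (norm_add_le _ _).trans (add_le_add ((norm_sub_le _ _).trans (add_le_add s2 r2)) ?_)
        rw [norm_smul, Real.norm_of_nonneg (by linarith)]
      have h4 := hψ.le (S.F s - S.F r)
      rw [S.dist s r (s1.trans r1.symm), e2, map_add, map_add, map_sub ψ (_ - _ - _), hψ.2, hd, map_smul,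
        map_sub ψ (Bq.T b), smul_eq_mul] at h4
      have h5 := (abs_le.1 ((hψ.abs_le _).trans s3)).1
      have h6 := (abs_le.1 ((hψ.abs_le _).trans r3)).2
      linarith
    have ht : 0 < min (min t₁ t₂) (1 / (|α| + 1)) := by positivity
    set t := min (min t₁ t₂) (1 / (|α| + 1))
    have m1 := main t (by rw [abs_of_pos ht])
    have m2 := main (-t) (by rw [abs_neg, abs_of_pos ht])
    rw [abs_of_pos ht] at m1
    rw [abs_neg, abs_of_pos ht] at m2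
    rw [abs_le]
    constructor <;> nlinarith
  exact eq_of_abs_sub_nonpos (le_of_forall_pos_le_add fun ε hε => by simpa using key ε hε)

namespace Ch

variable {S : SI X Y} {δ C θ : ℝ} (c : Ch S δ C θ)

include c in
theorem theta_le : θ ≤ 1 := by
  linarith [c.rob, norm_nonneg (c.p + c.q)]

theorem norm_w : ‖c.w‖ = ‖c.v‖ := by
  exact S.dist c.q c.p (c.Bq.hp.trans c.Bp.hp.symm)

theorem norm_v_le : ‖c.v‖ ≤ 2 := by
  have h := norm_sub_le c.q c.p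
  rw [c.Bq.hp, c.Bp.hp] at h
  unfold v
  linarith

theorem Jp_v : c.Bp.J c.v ≤ -(2 * θ) := by
  exact c.Bp.pair_J_le c.rob

theorem Jq_v : 2 * θ ≤ c.Bq.J c.v := by
  have h := c.Bq.pair_J_le (q := c.p) (θ := θ) (by rw [add_comm]; exact c.rob)
  unfold v
  rw [map_sub] at h ⊢
  linarith

theorem Jp_w : c.Bp.J' c.w ≤ -(2 * θ) := by
  exact c.Bp.symm.pair_J_le (q := S.F c.q) (θ := θ)
    (by rw [S.add (c.Bp.hp.trans c.Bq.hp.symm)]; exact c.rob)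

theorem Jq_w : 2 * θ ≤ c.Bq.J' c.w := by
  have h := c.Bq.symm.pair_J_le (q := S.F c.p) (θ := θ)
    (by rw [S.add (c.Bq.hp.trans c.Bp.hp.symm), add_comm]; exact c.rob)
  unfold w
  rw [BS.symm_J, map_sub] at h
  rw [map_sub]
  linarith

theorem pair (hθ : 0 < θ) : c.Bp.Pair c.q c.φ c.ψ := by
  have h := c.Jp_v
  exact c.Bp.pair_That c.Bq.hp (fun h0 => by unfold v at h; linarith) c.hψ

theorem nm_φ (hθ : 0 < θ) : Nm c.φ c.v := (c.pair hθ).1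

theorem nm_ψ : Nm c.ψ c.w := c.hψ

theorem gauge_k (hθ : 0 < θ) : Gauge c.k := kk_gauge (c.nm_φ hθ)

theorem gauge_k' : Gauge c.k' := kk_gauge c.nm_ψ

theorem gauge_k'' : Gauge c.k'' := by
  exact c.gauge_k'.comp (c.Bp.T : X →ₗ[ℝ] Y)

theorem Rel.neg {c : Ch S δ C θ} {a a' : X} {A : ℝ} (h : c.Rel a a' A) : c.Rel (-a) (-a') A := by
  obtain ⟨h1, h2, b, α, α', h3, h4, h5, h6, h7⟩ := h
  refine ⟨by rw [map_neg, h1, neg_zero], by rw [map_neg, h2, neg_zero], -b, -α, -α',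
    by rw [map_neg, h3, neg_zero], ?_, ?_, by rwa [abs_neg], by rwa [abs_neg]⟩
  · rw [map_neg, map_neg, h4]; module
  · rw [h5]; module

theorem Rel.mono {c : Ch S δ C θ} {a a' : X} {A A' : ℝ} (h : c.Rel a a' A) (hA : A ≤ A') : c.Rel a a' A' := by
  obtain ⟨h1, h2, b, α, α', h3, h4, h5, h6, h7⟩ := h
  exact ⟨h1, h2, b, α, α', h3, h4, h5, h6.trans hA, h7.trans hA⟩

/-- write `b = a' - α v` with `α = -J_p b / J_p v`, then `phi_q` and the pairing at `p`. -/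
theorem phi_q' (hθ : 0 < θ) {b : X} (hb : c.Bq.J b = 0) : c.φ b = c.ψ (c.Bq.T b) := by
  have hv : c.Bp.J c.v ≠ 0 := fun h0 => by linarith [c.Jp_v]
  set α : ℝ := -(c.Bp.J b / c.Bp.J c.v) with hα
  have ha : c.Bp.J (b + α • c.v) = 0 := by
    rw [map_add, map_smul, smul_eq_mul, hα, neg_mul, div_mul_cancel₀ _ hv, add_neg_cancel]
  have h1 := phi_q c.Bp c.Bq c.hψ ha hb (α := α) rfl
  have h2 := (c.pair hθ).2.2 _ ha
  rw [map_add c.φ, map_smul, (c.nm_φ hθ).2, smul_eq_mul] at h2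
  rw [h1, ← h2]
  unfold v
  ring

/-- `‖q - r‖ = ‖F q - F r‖` for `r = sph p a`, `r - p = a + dX a`, `F r - F p = T a + dY a`, `φ a = ψ (T a)`. -/
theorem E0 (hθ : 0 < θ) {a : X} (ha : c.Bp.J a = 0) (ha1 : ‖a‖ < 1) :
    c.k (a + dX c.p a) - c.φ (dX c.p a) = c.k' (c.Bp.T a + c.Bp.dY a) - c.ψ (c.Bp.dY a) := by
  have h1 : c.v - (a + dX c.p a) = c.q - sph c.p a := by unfold v dX; abel
  have h2 : c.w - (c.Bp.T a + c.Bp.dY a) = S.F c.q - S.F (sph c.p a) := by unfold w BS.dY; abel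
  have h3 := (c.pair hθ).2.2 a ha
  unfold k k' kk
  rw [h1, h2, S.dist _ _ (c.Bq.hp.trans (norm_sph c.Bp.hp ha1).symm), c.norm_w, map_add, map_add, h3]
  ring

/-- `E0`, `kk_lip`, `dX_le`, `dY_le`. -/
theorem cmp (hθ : 0 < θ) {a : X} (ha : c.Bp.J a = 0) (ha1 : ‖a‖ < 1) (haδ : ‖a‖ ≤ δ) :
    |c.k a - c.k'' a| ≤ 6 * C * ‖a‖ ^ 2 := by
  have h0 := c.E0 hθ ha ha1
  have h1 := kk_lip (c.nm_φ hθ) (a + dX c.p a) a
  have h2 := kk_lip c.nm_ψ (c.Bp.T a + c.Bp.dY a) (c.Bp.T a)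
  rw [add_sub_cancel_left] at h1 h2
  have h3 := (c.nm_φ hθ).abs_le (dX c.p a)
  have h4 := c.nm_ψ.abs_le (c.Bp.dY a)
  have h5 := c.tc.dX_le c.Bp a ha haδ
  have h6 := c.tc.dY_le c.Bp a ha haδ
  unfold k k' at h0
  unfold k'' k k'
  rw [abs_le] at h1 h2 h3 h4 ⊢
  constructor <;> linarith [h1.1, h1.2, h2.1, h2.2, h3.1, h3.2, h4.1, h4.2]

/-- `E0` and `Gauge.apx` twice. -/
theorem E0_apx (hθ : 0 < θ) {a : X} (ha : c.Bp.J a = 0) (ha1 : ‖a‖ < 1) {ν g : ℝ} (hν : 0 < ν)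
    (hν2 : ν ≤ 1 / 2) (hg : 0 ≤ g) (hX : ∀ s : ℝ, |s| ≤ 8 / ν → c.k (s • dX c.p a) ≤ |s| * g)
    (hY : ∀ s : ℝ, |s| ≤ 8 / ν → c.k' (s • c.Bp.dY a) ≤ |s| * g) :
    |c.ψ (c.Bp.dY a) - c.φ (dX c.p a) - (c.k'' a - c.k a)| ≤
      ν * (c.k'' ((4 : ℝ) • a) + c.k ((4 : ℝ) • a)) + 6 * g := by
  have h0 := c.E0 hθ ha ha1
  have h48 : 4 / ν ≤ 8 / ν := by gcongr; norm_num
  have h1 := (c.gauge_k hθ).apx (c := a) hν hν2 hg fun s hs => hX s (hs.trans h48)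
  have h2 := c.gauge_k'.apx (c := c.Bp.T a) hν hν2 hg fun s hs => hY s (hs.trans h48)
  unfold k''
  rw [map_smul]
  rw [abs_le] at h1 h2 ⊢
  constructor <;> linarith [h1.1, h1.2, h2.1, h2.2]

end Ch

end Crest.Agent.R74
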