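import Crest.Agent.R74.Chord1

/-!
# Row 74: the norm of `Y` is quadratically flat at `w` along the differences of a chain
-/

namespace Crest.Agent.R74

open Finset

variable {X Y : Type*} [NormedAddCommGroup X] [NormedSpace ℝ X] [NormedAddCommGroup Y]
  [NormedSpace ℝ Y]

variable {S : SI X Y} {δ C θ : ℝ}

theorem Ch.chord2_alpha (c : Ch S δ C θ) (hθ : 0 < θ) {a' b : X} {α : ℝ}
    (hb : c.Bq.J b = 0) (h₂ : a' = b + α • c.v) : |α| ≤ ‖a'‖ / (2 * θ) := by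
  have h1 : c.Bq.J a' = α * c.Bq.J c.v := by rw [h₂, map_add, map_smul, hb, zero_add, smul_eq_mul]
  have h2 := c.Bq.hJ.abs_le a'
  have h3 := c.Jq_v
  rw [h1, abs_mul, abs_of_nonneg (show 0 ≤ c.Bq.J c.v by linarith)] at h2
  rw [le_div_iff₀ (by positivity)]
  exact (mul_le_mul_of_nonneg_left h3 (abs_nonneg α)).trans h2

/-- `α J_q v = J_q a'`, `α' J'_p w = J'_p (T_q b)`, `‖T_q b‖ = ‖b‖`, `θ ≤ 1`. -/
theorem Ch.rel_bounds (c : Ch S δ C θ) (hθ : 0 < θ) {a a' b : X} {α α' : ℝ} (ha : c.Bp.J a = 0)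
    (hb : c.Bq.J b = 0) (h₁ : c.Bq.T b = c.Bp.T a + α' • c.w) (h₂ : a' = b + α • c.v) :
    |α| ≤ ‖a'‖ / θ ∧ ‖b‖ ≤ 2 * ‖a'‖ / θ ∧ |α'| ≤ ‖a'‖ / θ ^ 2 ∧ ‖a‖ ≤ 4 * ‖a'‖ / θ ^ 2 := by
  have hθ1 := c.theta_le
  have hn := norm_nonneg a'
  have k0 := c.chord2_alpha hθ hb h₂
  have e1 : ‖a'‖ ≤ ‖a'‖ / θ := by rw [le_div_iff₀ hθ]; nlinarith
  have e2 : ‖a'‖ / (2 * θ) = ‖a'‖ / θ / 2 := by field_simp
  have e3 : ‖a'‖ / θ ≤ ‖a'‖ / θ ^ 2 := by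
    rw [pow_two, ← div_div, le_div_iff₀ hθ]
    have : 0 ≤ ‖a'‖ / θ := by positivity
    nlinarith
  have e0 : 0 ≤ ‖a'‖ / θ := by positivity
  have k1 : ‖b‖ ≤ 2 * ‖a'‖ / θ := by
    have : b = a' - α • c.v := by rw [h₂]; abel
    rw [this, mul_div_assoc]
    refine (norm_sub_le _ _).trans ?_
    rw [norm_smul, Real.norm_eq_abs]
    have := mul_le_mul_of_nonneg_left c.norm_v_le (abs_nonneg α)
    linarith
  have k2 : |α'| ≤ ‖a'‖ / θ ^ 2 := by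
    have h1 : c.Bp.J' (c.Bq.T b) = α' * c.Bp.J' c.w := by
      rw [h₁, map_add, map_smul, c.Bp.J'_T, ha, zero_add, smul_eq_mul]
    have h2 := c.Bp.hJ'.abs_le (c.Bq.T b)
    have h3 := c.Jp_w
    rw [h1, abs_mul, abs_of_nonpos (show c.Bp.J' c.w ≤ 0 by linarith), c.Bq.T_iso hb] at h2
    have h4 : |α'| * (2 * θ) ≤ 2 * ‖a'‖ / θ :=
      ((mul_le_mul_of_nonneg_left (by linarith) (abs_nonneg α')).trans h2).trans k1
    rw [le_div_iff₀ hθ] at h4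
    rw [le_div_iff₀ (by positivity)]
    nlinarith
  refine ⟨by linarith, k1, k2, ?_⟩
  have h5 : c.Bp.T a = c.Bq.T b - α' • c.w := by rw [h₁]; abel
  rw [← c.Bp.T_iso ha, h5]
  refine (norm_sub_le _ _).trans ?_
  rw [norm_smul, Real.norm_eq_abs, c.Bq.T_iso hb, c.norm_w, mul_div_assoc]
  have := mul_le_mul_of_nonneg_left c.norm_v_le (abs_nonneg α')
  rw [mul_div_assoc] at k1
  linarith

/-- moving the tame end of the chord from `p` to `r`.  `B_r` from `ex`; `α₂ = -J_r b / J_r (q - r)`, `a₂ = b + α₂ (q - r) ∈ ker J_r`,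
`phi_q` for the chord `(r, q)`: `ψ' (T_q b) = ψ' (T_r a₂) - α₂ ‖q - r‖`.  `J_r (q - r) ≤ -θ`, `lipJ` gives
`|α₂ - α| ≲ C ‖r - p‖ ‖a'‖` (note `α = -J_p b / J_p v`), `a₂ - a' = (α₂ - α)(q - r) + α (p - r)`, `lipT`. -/
theorem move_end (hC : 1 ≤ C) (hθ : 0 < θ) :
    ∃ C₁ : ℝ, 0 < C₁ ∧ ∀ (S : SI X Y) (δ : ℝ) (c : Ch S δ C θ) (a' b r : X) (α : ℝ) (ψ' : Y →L[ℝ] ℝ),
      c.Bp.J a' = 0 → c.Bq.J b = 0 → a' = b + α • c.v → ‖r‖ = 1 → ‖r - c.p‖ ≤ δ → ‖r - c.p‖ ≤ θ →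
      Nm ψ' (S.F c.q - S.F r) →
      |ψ' (c.Bq.T b) - ψ' (c.Bp.T a') + α * ‖c.v‖| ≤ C₁ * ‖r - c.p‖ * ‖a'‖ := by
  refine ⟨8 * ((C + 1 / θ) / θ) + 4 / θ + C, by positivity, ?_⟩
  intro S δ c a' b r α ψ' ha' hb h₂ hr hrδ hrθ hψ'
  obtain ⟨Br⟩ := c.tc.ex r hr hrδ
  set ρ := ‖r - c.p‖ with hρ
  have hρ0 : 0 ≤ ρ := norm_nonneg _
  have hn := norm_nonneg a'
  have hpδ : ‖c.p - c.p‖ ≤ δ := by rw [sub_self, norm_zero]; linarith
  have hJu : Br.J (c.q - r) ≤ -θ := by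
    have h1 : ‖r + c.q‖ ≤ 2 - 2 * (θ / 2) := by
      have : r + c.q = (r - c.p) + (c.p + c.q) := by abel
      rw [this]
      have := norm_add_le (r - c.p) (c.p + c.q)
      have := c.rob
      linarith
    have := Br.pair_J_le h1
    linarith
  set u := c.q - r with hu
  have hu2 : ‖u‖ ≤ 2 := by
    have := norm_sub_le c.q r
    rw [c.Bq.hp, hr] at this
    linarith
  have hJ0 : Br.J u ≠ 0 := by linarith
  set α₂ := -Br.J b / Br.J u with hα₂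
  have ha₂ : Br.J (b + α₂ • u) = 0 := by
    rw [map_add, map_smul, smul_eq_mul, hα₂]; field_simp; ring
  have hphi := phi_q Br c.Bq hψ' ha₂ hb rfl
  have hα : |α| ≤ ‖a'‖ / θ := by
    refine (c.chord2_alpha hθ hb h₂).trans ?_
    gcongr; linarith
  have hdiff : b + α₂ • u - a' = (α₂ - α) • u + α • (c.p - r) := by
    rw [h₂, hu, Ch.v]; module
  have hpr : ‖c.p - r‖ = ρ := norm_sub_rev _ _
  have hαρ : |α| * ρ ≤ 1 / θ * ρ * ‖a'‖ := by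
    calc |α| * ρ ≤ ‖a'‖ / θ * ρ := by gcongr
      _ = _ := by ring
  have hK : |α₂ - α| ≤ (C + 1 / θ) / θ * ρ * ‖a'‖ := by
    have h1 := congrArg Br.J hdiff
    rw [map_sub, ha₂, map_add, map_smul, map_smul, smul_eq_mul, smul_eq_mul] at h1
    have h2 := c.tc.lipJ r c.p Br c.Bp hrδ hpδ a'
    rw [ha', sub_zero] at h2
    have h3 : |α * Br.J (c.p - r)| ≤ |α| * ρ := by
      rw [abs_mul, ← hpr]; exact mul_le_mul_of_nonneg_left (Br.hJ.abs_le _) (abs_nonneg _)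
    have h4 : |(α₂ - α) * Br.J u| ≤ C * ρ * ‖a'‖ + |α| * ρ := by
      have : (α₂ - α) * Br.J u = -Br.J a' - α * Br.J (c.p - r) := by linarith
      rw [this]
      refine (abs_sub _ _).trans ?_
      rw [abs_neg]; linarith
    rw [abs_mul, abs_of_nonpos (show Br.J u ≤ 0 by linarith)] at h4
    have h5 : |α₂ - α| * θ ≤ |α₂ - α| * -Br.J u :=
      mul_le_mul_of_nonneg_left (by linarith) (abs_nonneg _)
    rw [div_mul_eq_mul_div, div_mul_eq_mul_div, le_div_iff₀ hθ]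
    nlinarith
  have hd : ‖b + α₂ • u - a'‖ ≤ 2 * |α₂ - α| + |α| * ρ := by
    rw [hdiff]
    refine (norm_add_le _ _).trans ?_
    rw [norm_smul, norm_smul, Real.norm_eq_abs, Real.norm_eq_abs, hpr]
    have := mul_le_mul_of_nonneg_left hu2 (abs_nonneg (α₂ - α))
    linarith
  have hT : ‖Br.T (b + α₂ • u) - c.Bp.T a'‖ ≤ 3 * (2 * |α₂ - α| + |α| * ρ) + C * ρ * ‖a'‖ := by
    have e : Br.T (b + α₂ • u) - c.Bp.T a' = Br.T (b + α₂ • u - a') + (Br.T a' - c.Bp.T a') := by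
      rw [map_sub]; abel
    rw [e]
    refine (norm_add_le _ _).trans (add_le_add ((Br.T_le _).trans (by linarith)) ?_)
    exact c.tc.lipT r c.p Br c.Bp hrδ hpδ a'
  have hN : |α * ‖c.v‖ - α₂ * ‖u‖| ≤ |α| * ρ + 2 * |α₂ - α| := by
    have e : α * ‖c.v‖ - α₂ * ‖u‖ = α * (‖c.v‖ - ‖u‖) - (α₂ - α) * ‖u‖ := by ring
    rw [e]
    refine (abs_sub _ _).trans ?_
    rw [abs_mul, abs_mul, abs_of_nonneg (norm_nonneg u)]
    have h1 : |‖c.v‖ - ‖u‖| ≤ ρ := by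
      refine (abs_norm_sub_norm_le _ _).trans (le_of_eq ?_)
      rw [hu, Ch.v, hρ]; congr 1; abel
    have := mul_le_mul_of_nonneg_left hu2 (abs_nonneg (α₂ - α))
    have := mul_le_mul_of_nonneg_left h1 (abs_nonneg α)
    linarith
  have e : ψ' (c.Bq.T b) - ψ' (c.Bp.T a') + α * ‖c.v‖ =
      ψ' (Br.T (b + α₂ • u) - c.Bp.T a') + (α * ‖c.v‖ - α₂ * ‖u‖) := by
    rw [hphi, map_sub]; ring
  rw [e]
  refine (abs_add_le _ _).trans ((add_le_add ((hψ'.abs_le _).trans hT) hN).trans ?_)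
  have : (8 * ((C + 1 / θ) / θ) + 4 / θ + C) * ρ * ‖a'‖ =
      8 * ((C + 1 / θ) / θ * ρ * ‖a'‖) + 4 * (1 / θ * ρ * ‖a'‖) + C * ρ * ‖a'‖ := by ring
  rw [this]
  linarith

/-- **Tame lemma.**  `e = T (a - a') = (T_q b - T a') - α' w`, `x = σ e`, `‖e‖ ≤ 5‖a'‖/θ²`, `ψ'` norming `w - x`:
`k' x ≤ ψ x - ψ' x` (`kk_le_sub`).  `exit_near` in `Y` from `F q` in the direction `-(w - x)` gives a unit `F r` with
`‖r - p‖ ≤ 4‖x‖/θ` and `F q - F r = s (w - x)`, `s > 0`.  `move_end` for `(r, ψ')`, `phi_q` for `(p, ψ)`, and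
`0 ≤ ψ w - ψ' w ≤ 2‖x‖`. -/
theorem tame_lemma (hδ : 0 < δ) (hC : 1 ≤ C) (hθ : 0 < θ) :
    ∃ C₂ δ₃ : ℝ, 0 < C₂ ∧ 0 < δ₃ ∧ ∀ (S : SI X Y) (c : Ch S δ C θ) (a a' : X) (A σ : ℝ), c.Rel a a' A →
      |σ| * ‖a'‖ ≤ δ₃ → c.k'' (σ • (a - a')) ≤ C₂ * σ ^ 2 * ‖a'‖ ^ 2 := by
  obtain ⟨C₁, hC₁, hmove⟩ := move_end (X := X) (Y := Y) hC hθ
  have hm : 0 < min δ θ := lt_min hδ hθ
  refine ⟨5 / θ ^ 2 * (4 * C₁ / θ + 2 / θ ^ 2), min δ θ * θ ^ 3 / 20, by positivity, by positivity, ?_⟩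
  rintro S c a a' A σ ⟨ha, ha', b, α, α', hb, h₁, h₂, -, -⟩ hσ
  obtain ⟨-, -, k2, k3⟩ := c.rel_bounds hθ ha hb h₁ h₂
  have hθ1 := c.theta_le
  have hn := norm_nonneg a'
  have hs0 := abs_nonneg σ
  set e := c.Bp.T (a - a') with he
  have he' : e = c.Bq.T b - α' • c.w - c.Bp.T a' := by rw [he, map_sub, h₁]; abel
  have hen : ‖e‖ ≤ 5 / θ ^ 2 * ‖a'‖ := by
    rw [he, c.Bp.T_iso (by rw [map_sub, ha, ha', sub_zero])]
    refine (norm_sub_le _ _).trans ?_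
    have h1 : ‖a'‖ ≤ ‖a'‖ / θ ^ 2 := by
      rw [le_div_iff₀ (by positivity)]
      have : θ ^ 2 ≤ 1 := pow_le_one₀ hθ.le hθ1
      nlinarith
    calc ‖a‖ + ‖a'‖ ≤ 4 * ‖a'‖ / θ ^ 2 + ‖a'‖ / θ ^ 2 := add_le_add k3 h1
      _ = _ := by ring
  set x := σ • e with hx
  set ρ := ‖x‖ with hρ
  have hρ0 : 0 ≤ ρ := norm_nonneg _
  have hρ1 : ρ ≤ 5 / θ ^ 2 * (|σ| * ‖a'‖) := by
    rw [hρ, hx, norm_smul, Real.norm_eq_abs]
    calc |σ| * ‖e‖ ≤ |σ| * (5 / θ ^ 2 * ‖a'‖) := by gcongr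
      _ = _ := by ring
  have hρ2 : 4 * ρ / θ ≤ min δ θ := by
    rw [div_le_iff₀ hθ]
    calc 4 * ρ ≤ 4 * (5 / θ ^ 2 * (min δ θ * θ ^ 3 / 20)) := by
          gcongr; exact hρ1.trans (by gcongr)
      _ = _ := by field_simp; ring
  have hρ3 : ρ ≤ θ / 3 := by
    have := hρ2.trans (min_le_right _ _)
    rw [div_le_iff₀ hθ] at this
    nlinarith
  obtain ⟨ψ', hψ'⟩ := exists_nm (c.w - x)
  have hrob : ‖S.F c.q + S.F c.p‖ ≤ 2 - 2 * θ := by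
    rw [S.add (by rw [c.Bq.hp, c.Bp.hp]), add_comm]; exact c.rob
  obtain ⟨s, hs1, hs2, hs3⟩ := exit_near (d := -(c.w - x)) c.Bq.norm_Fp.le c.Bp.norm_Fp hθ hrob hρ0
    hρ3 (le_of_eq (by rw [hρ, Ch.w]; congr 1; abel))
  have hspos : 0 ≤ s := by
    have h1 : ρ / θ ≤ 1 := by rw [div_le_one hθ]; linarith
    have := (abs_le.1 hs1).1
    linarith
  set r := S.F.symm (S.F c.q + s • -(c.w - x)) with hr
  have hFr : S.F r = S.F c.q + s • -(c.w - x) := S.F.apply_symm_apply _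
  have hr1 : ‖r‖ = 1 := by rw [← S.norm, hFr, hs2]
  have hrp : ‖r - c.p‖ ≤ 4 * ρ / θ := by
    rw [← S.dist _ _ (by rw [hr1, c.Bp.hp]), hFr]; exact hs3
  have hnm : Nm ψ' (S.F c.q - S.F r) := by
    have : S.F c.q - S.F r = s • (c.w - x) := by rw [hFr, smul_neg]; abel
    rw [this]; exact hψ'.smul hspos
  have hE := hmove S δ c a' b r α ψ' ha' hb h₂ hr1 (hrp.trans (hρ2.trans (min_le_left _ _)))
    (hrp.trans (hρ2.trans (min_le_right _ _))) hnm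
  have hphi : c.ψ (c.Bq.T b) = c.ψ (c.Bp.T a') - α * ‖c.v‖ := phi_q c.Bp c.Bq c.hψ ha' hb h₂
  have hw : |c.ψ c.w - ψ' c.w| ≤ 2 * ρ := by
    have h1 : ψ' c.w = ‖c.w - x‖ + ψ' x := by rw [← hψ'.2, map_sub]; ring
    have h2 := hψ'.abs_le x
    have h3 := abs_norm_sub_norm_le c.w (c.w - x)
    rw [sub_sub_cancel] at h3
    rw [c.nm_ψ.2, h1, abs_le] at *
    constructor <;> linarith [h2.1, h2.2, h3.1, h3.2]
  have hdiff : |c.ψ e - ψ' e| ≤ (4 * C₁ / θ + 2 / θ ^ 2) * ρ * ‖a'‖ := by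
    have e1 : c.ψ e - ψ' e = -(ψ' (c.Bq.T b) - ψ' (c.Bp.T a') + α * ‖c.v‖) -
        α' * (c.ψ c.w - ψ' c.w) := by
      rw [he']
      simp only [map_sub, map_smul, smul_eq_mul]
      rw [hphi]; ring
    rw [e1]
    refine (abs_sub _ _).trans ?_
    rw [abs_neg, abs_mul]
    calc _ ≤ C₁ * (4 * ρ / θ) * ‖a'‖ + ‖a'‖ / θ ^ 2 * (2 * ρ) :=
          add_le_add (hE.trans (by gcongr)) (mul_le_mul k2 hw (abs_nonneg _) (by positivity))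
      _ = _ := by ring
  have hk : c.k'' (σ • (a - a')) = kk c.ψ c.w x := by
    rw [Ch.k'', map_smul]; rfl
  rw [hk]
  refine (kk_le_sub hψ').trans ?_
  have e2 : c.ψ x - ψ' x = σ * (c.ψ e - ψ' e) := by
    rw [hx, map_smul, map_smul, smul_eq_mul, smul_eq_mul]; ring
  rw [e2]
  refine (le_abs_self _).trans ?_
  rw [abs_mul]
  calc |σ| * |c.ψ e - ψ' e| ≤ |σ| * ((4 * C₁ / θ + 2 / θ ^ 2) * (5 / θ ^ 2 * (|σ| * ‖a'‖)) * ‖a'‖) := by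
        gcongr; exact hdiff.trans (by gcongr)
    _ = _ := by rw [← sq_abs σ]; ring

end Crest.Agent.R74
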