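import Crest.Agent.R74.Chord1

/-!
# Row 74: secant inequalities at the far end; first order goodness
-/

namespace Crest.Agent.R74

open Finset

variable {X Y : Type*} [NormedAddCommGroup X] [NormedSpace ℝ X] [NormedAddCommGroup Y]
  [NormedSpace ℝ Y]

theorem chord3_conv (u e : X) : ConvexOn ℝ Set.univ fun σ : ℝ => ‖u + σ • e‖ := by
  refine ⟨convex_univ, fun x _ y _ a b ha hb hab => ?_⟩
  have : u + (a • x + b • y) • e = a • (u + x • e) + b • (u + y • e) := by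
    rw [show b = 1 - a by linarith]
    simp only [smul_eq_mul]
    module
  simp only [this]
  exact geo_comb _ _ ha hb

theorem chord3_small {ν t A s α : ℝ} (hν : 0 < ν) (ht : 0 < t) (hA : 8 / ν * (t * A) ≤ 1)
    (hs : |s| ≤ 8 / ν) (hα : |α| ≤ A) : s * t * α ≤ 1 := by
  refine (le_abs_self _).trans (le_trans ?_ hA)
  rw [abs_mul, abs_mul, abs_of_pos ht, mul_assoc]
  exact mul_le_mul hs (mul_le_mul_of_nonneg_left hα ht.le) (by positivity) (by positivity)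

namespace Ch

variable {S : SI X Y} {δ C θ : ℝ} (c : Ch S δ C θ)

theorem k_diff₁ (r b : X) (σ : ℝ) : c.k (r - c.p) - c.k (r - c.p - σ • b) =
    (‖c.q - r‖ - ‖c.q - r + (-σ) • (-b)‖) + σ * c.φ b := by
  simp only [k, kk, v, map_sub, map_smul, smul_eq_mul]
  rw [show c.q - c.p - (r - c.p) = c.q - r by abel,
    show c.q - c.p - (r - c.p - σ • b) = c.q - r + (-σ) • (-b) by module]
  ring

theorem k_diff₂ (r b : X) (σ : ℝ) : c.k (r - c.p + σ • b) - c.k (r - c.p) =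
    (‖c.q - r + σ • (-b)‖ - ‖c.q - r‖) + σ * c.φ b := by
  simp only [k, kk, v, map_sub, map_add, map_smul, smul_eq_mul]
  rw [show c.q - c.p - (r - c.p) = c.q - r by abel,
    show c.q - c.p - (r - c.p + σ • b) = c.q - r + σ • (-b) by module]
  ring

theorem k'_diff₁ (r b : X) (σ : ℝ) :
    c.k' (S.F r - S.F c.p) - c.k' (S.F r - S.F c.p - σ • c.Bq.T b) =
    (‖S.F c.q - S.F r‖ - ‖S.F c.q - S.F r + (-σ) • c.Bq.T (-b)‖) + σ * c.ψ (c.Bq.T b) := by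
  simp only [k', kk, w, map_sub, map_smul, map_neg, smul_eq_mul]
  rw [show S.F c.q - S.F c.p - (S.F r - S.F c.p) = S.F c.q - S.F r by abel,
    show S.F c.q - S.F c.p - (S.F r - S.F c.p - σ • c.Bq.T b) =
      S.F c.q - S.F r + (-σ) • (-c.Bq.T b) by module]
  ring

theorem k'_diff₂ (r b : X) (σ : ℝ) :
    c.k' (S.F r - S.F c.p + σ • c.Bq.T b) - c.k' (S.F r - S.F c.p) =
    (‖S.F c.q - S.F r + σ • c.Bq.T (-b)‖ - ‖S.F c.q - S.F r‖) + σ * c.ψ (c.Bq.T b) := by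
  simp only [k', kk, w, map_sub, map_add, map_smul, map_neg, smul_eq_mul]
  rw [show S.F c.q - S.F c.p - (S.F r - S.F c.p) = S.F c.q - S.F r by abel,
    show S.F c.q - S.F c.p - (S.F r - S.F c.p + σ • c.Bq.T b) =
      S.F c.q - S.F r + σ • (-c.Bq.T b) by module]
  ring

/-- `secant` for `α σ = ‖q - r + σ (-b)‖ = k (x + σ b) + ‖v‖ - φ x - σ φ b`, `x = r - p`, and
`α' σ = ‖F q - F r + σ T_q (-b)‖` (`chord_little` for `Bq`, `α 0 = α' 0`), `phi_q'`. -/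
theorem sec₁ (hθ : 0 < θ) {r b : X} (hr : ‖r‖ = 1) (hb : c.Bq.J b = 0) {σ₁ σ₂ : ℝ} (h₁ : 0 < σ₁) (h₂ : 0 < σ₂) :
    (c.k' (S.F r - S.F c.p) - c.k' (S.F r - S.F c.p - σ₁ • c.Bq.T b)) / σ₁ ≤
      (c.k (r - c.p + σ₂ • b) - c.k (r - c.p)) / σ₂ := by
  have hb' : c.Bq.J (-b) = 0 := by rw [map_neg, hb, neg_zero]
  have h0 : ‖S.F c.q - S.F r‖ = ‖c.q - r‖ := S.dist _ _ (by rw [c.Bq.hp, hr])
  have h := secant (chord3_conv (c.q - r) (-b)) (chord3_conv (S.F c.q - S.F r) (c.Bq.T (-b)))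
    (fun ε hε => by
      obtain ⟨t₀, ht₀, h⟩ := c.Bq.chord_little hb' hε
      refine ⟨t₀, ht₀, fun t ht htt => ?_⟩
      have := h t (by rwa [abs_of_pos ht]) r hr
      rw [abs_of_pos ht] at this
      simp only [zero_smul, add_zero, h0]
      convert this using 2
      ring) h₁ h₂
  simp only [zero_smul, add_zero] at h
  rw [c.k'_diff₁, c.k_diff₂, add_div, add_div, mul_div_cancel_left₀ _ h₁.ne',
    mul_div_cancel_left₀ _ h₂.ne', c.phi_q' hθ hb]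
  linarith

theorem sec₂ (hθ : 0 < θ) {r b : X} (hr : ‖r‖ = 1) (hb : c.Bq.J b = 0) {σ₁ σ₂ : ℝ} (h₁ : 0 < σ₁) (h₂ : 0 < σ₂) :
    (c.k (r - c.p) - c.k (r - c.p - σ₁ • b)) / σ₁ ≤
      (c.k' (S.F r - S.F c.p + σ₂ • c.Bq.T b) - c.k' (S.F r - S.F c.p)) / σ₂ := by
  have hb' : c.Bq.J (-b) = 0 := by rw [map_neg, hb, neg_zero]
  have h0 : ‖S.F c.q - S.F r‖ = ‖c.q - r‖ := S.dist _ _ (by rw [c.Bq.hp, hr])
  have h := secant (chord3_conv (S.F c.q - S.F r) (c.Bq.T (-b))) (chord3_conv (c.q - r) (-b))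
    (fun ε hε => by
      obtain ⟨t₀, ht₀, h⟩ := c.Bq.chord_little hb' hε
      refine ⟨t₀, ht₀, fun t ht htt => ?_⟩
      have := h t (by rwa [abs_of_pos ht]) r hr
      rw [abs_of_pos ht, abs_sub_comm] at this
      simp only [zero_smul, add_zero, h0]
      convert this using 2
      ring) h₁ h₂
  simp only [zero_smul, add_zero] at h
  rw [c.k_diff₁, c.k'_diff₂, add_div, add_div, mul_div_cancel_left₀ _ h₁.ne',
    mul_div_cancel_left₀ _ h₂.ne', c.phi_q' hθ hb]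
  linarith

/-- `psi` with `k₁ = k'`, `A = T a`, `δ₁ = dY (t a)`, `ε₁ = α' w`, `k₂ = k`, `B = a`, `D = a'`, `δ₂ = dX (t a)`, `ε₂ = -α v`,
`sec₁` for `r = sph p (t a)`, `kk_smul_self`. -/
theorem psiF (hθ : 0 < θ) {a a' : X} {A b κ ν t g : ℝ} (h : c.Rel a a' A) (hb : 1 < b) (hb2 : b ≤ 2)
    (hκ : 1 / 2 ≤ κ) (hκ2 : κ ≤ 2) (hν : 0 < ν) (hν2 : ν ≤ 1 / 2) (ht : 0 < t) (hg : 0 ≤ g)
    (hta : ‖t • a‖ < 1) (hA : 8 / ν * (t * A) ≤ 1)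
    (hX : ∀ s : ℝ, |s| ≤ 8 / ν → c.k (s • dX c.p (t • a)) ≤ |s| * g)
    (hY : ∀ s : ℝ, |s| ≤ 8 / ν → c.k' (s • c.Bp.dY (t • a)) ≤ |s| * g) :
    PSI c.k'' c.k a a a' b κ (4 * ν) t (20 * g) := by
  obtain ⟨-, -, b₀, α, α', hb₀, e₁, e₂, hα, hα'⟩ := h
  have hμ : 0 < (1 - 1 / b) * t := by
    have : 1 / b < 1 := (div_lt_one (by linarith)).2 hb
    exact mul_pos (by linarith) ht
  have hsec := c.sec₁ hθ (norm_sph c.Bp.hp hta) hb₀ hμ (div_pos hμ (by linarith : 0 < κ))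
  rw [show S.F (sph c.p (t • a)) - S.F c.p = t • c.Bp.T a + c.Bp.dY (t • a) by
      rw [BS.dY, map_smul]; abel,
    show sph c.p (t • a) - c.p = t • a + dX c.p (t • a) by rw [dX]; abel, e₁,
    show b₀ = a' + (-α) • c.v by rw [e₂]; module] at hsec
  have := psi c.gauge_k' (c.gauge_k hθ) hb hb2 hκ hκ2 hν hν2 ht hg hsec hY hX
    (fun s hs => by
      rw [smul_smul]
      exact (kk_smul_self c.nm_ψ (chord3_small hν ht hA hs hα')).le)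
    (fun s hs => by
      rw [smul_smul]
      exact (kk_smul_self (c.nm_φ hθ) (chord3_small hν ht hA hs (by rwa [abs_neg]))).le)
  simpa only [PSI, k'', map_smul] using this

/-- `psi` with `k₁ = k`, `A = a'`, `δ₁ = dX (t a')`, `ε₁ = -α v`, `k₂ = k'`, `B = T a'`, `D = T a`, `δ₂ = dY (t a')`, `ε₂ = α' w`,
`sec₂` for `r = sph p (t a')`. -/
theorem psiB (hθ : 0 < θ) {a a' : X} {A b κ ν t g : ℝ} (h : c.Rel a a' A) (hb : 1 < b) (hb2 : b ≤ 2)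
    (hκ : 1 / 2 ≤ κ) (hκ2 : κ ≤ 2) (hν : 0 < ν) (hν2 : ν ≤ 1 / 2) (ht : 0 < t) (hg : 0 ≤ g)
    (hta : ‖t • a'‖ < 1) (hA : 8 / ν * (t * A) ≤ 1)
    (hX : ∀ s : ℝ, |s| ≤ 8 / ν → c.k (s • dX c.p (t • a')) ≤ |s| * g)
    (hY : ∀ s : ℝ, |s| ≤ 8 / ν → c.k' (s • c.Bp.dY (t • a')) ≤ |s| * g) :
    PSI c.k c.k'' a' a' a b κ (4 * ν) t (20 * g) := by
  obtain ⟨-, -, b₀, α, α', hb₀, e₁, e₂, hα, hα'⟩ := h
  have hμ : 0 < (1 - 1 / b) * t := by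
    have : 1 / b < 1 := (div_lt_one (by linarith)).2 hb
    exact mul_pos (by linarith) ht
  have hsec := c.sec₂ hθ (norm_sph c.Bp.hp hta) hb₀ hμ (div_pos hμ (by linarith : 0 < κ))
  rw [show S.F (sph c.p (t • a')) - S.F c.p = t • c.Bp.T a' + c.Bp.dY (t • a') by
      rw [BS.dY, map_smul]; abel,
    show sph c.p (t • a') - c.p = t • a' + dX c.p (t • a') by rw [dX]; abel, e₁,
    show b₀ = a' + (-α) • c.v by rw [e₂]; module] at hsec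
  have := psi (c.gauge_k hθ) c.gauge_k' hb hb2 hκ hκ2 hν hν2 ht hg hsec hX hY
    (fun s hs => by
      rw [smul_smul]
      exact (kk_smul_self (c.nm_φ hθ) (chord3_small hν ht hA hs (by rwa [abs_neg]))).le)
    (fun s hs => by
      rw [smul_smul]
      exact (kk_smul_self c.nm_ψ (chord3_small hν ht hA hs hα')).le)
  simpa only [PSI, k'', map_smul] using this

/-- `dX a = -η p + O(C ‖a‖³)` with `0 ≤ η = ‖p + a‖ - 1 ≤ C ‖a‖²` (`dX_cub`, `hX`), `kk_lip`. -/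
theorem goodX (hθ : 0 < θ) {L₂ γ s : ℝ} (hγ : 0 ≤ γ) (hx : ∀ σ : ℝ, |σ| ≤ L₂ → c.k (σ • c.p) ≤ |σ| * γ) {a : X}
    (ha : c.Bp.J a = 0) (haδ : ‖a‖ ≤ δ) (hs : |s| * (C * ‖a‖ ^ 2) ≤ L₂) :
    c.k (s • dX c.p a) ≤ |s| * (γ * (C * ‖a‖ ^ 2) + 2 * (C * ‖a‖ ^ 3)) := by
  have hη0 : 0 ≤ ‖c.p + a‖ - 1 := by
    have := c.Bp.hJ.le (c.p + a)
    rw [map_add, c.Bp.J_p, ha] at this
    linarith
  have hη1 : ‖c.p + a‖ - 1 ≤ C * ‖a‖ ^ 2 := by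
    have := c.tc.hX c.p c.Bp (by rw [sub_self, norm_zero]; exact (norm_nonneg a).trans haδ) a haδ
    rwa [ha, sub_zero] at this
  have h1 := c.tc.dX_cub c.Bp a ha haδ
  set η := ‖c.p + a‖ - 1
  have habs : |-(s * η)| = |s| * η := by rw [abs_neg, abs_mul, abs_of_nonneg hη0]
  have h2 := hx (-(s * η)) (by
    rw [habs]; exact (mul_le_mul_of_nonneg_left hη1 (abs_nonneg s)).trans hs)
  have h3 := (abs_le.1 (kk_lip (c.nm_φ hθ) (s • dX c.p a) ((-(s * η)) • c.p))).2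
  rw [show s • dX c.p a - (-(s * η)) • c.p = s • (dX c.p a + η • c.p) by module, norm_smul,
    Real.norm_eq_abs] at h3
  rw [habs] at h2
  have h4 := mul_le_mul_of_nonneg_left h1 (abs_nonneg s)
  have h5 := mul_le_mul_of_nonneg_left (mul_le_mul_of_nonneg_left hη1 hγ) (abs_nonneg s)
  simp only [k] at h2 ⊢
  nlinarith

/-- `dY_lip`, `kk_lip`, `kk_le_of_D2` with `e = D⁻¹ dY a₁` at the scale `s D`. -/
theorem goodY {L₁ γ D s : ℝ} (hL₁ : 0 < L₁) (hD : 0 < D) {a a₁ : X} (ha : c.Bp.J a = 0) (ha₁ : c.Bp.J a₁ = 0)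
    (haδ : ‖a‖ ≤ δ) (ha₁δ : ‖a₁‖ ≤ δ) (h : D2 c.w (L₁ • D⁻¹ • c.Bp.dY a₁) ≤ γ * L₁) (hs : |s| * D ≤ L₁) :
    c.k' (s • c.Bp.dY a) ≤ |s| * (D * γ + 2 * (C * (‖a‖ + ‖a₁‖) * ‖a - a₁‖)) := by
  have h1 := c.tc.dY_lip c.Bp a a₁ ha ha₁ haδ ha₁δ
  have habs : |s * D| = |s| * D := by rw [abs_mul, abs_of_pos hD]
  have h2 := kk_le_of_D2 c.nm_ψ (D⁻¹ • c.Bp.dY a₁) (s := s * D) hL₁ (by rwa [habs])
  rw [smul_smul, mul_assoc, mul_inv_cancel₀ hD.ne', mul_one, habs] at h2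
  have h3 := (abs_le.1 (kk_lip c.nm_ψ (s • c.Bp.dY a) (s • c.Bp.dY a₁))).2
  rw [← smul_sub, norm_smul, Real.norm_eq_abs] at h3
  have h4 := mul_le_mul_of_nonneg_left h1 (abs_nonneg s)
  have h5 : |s| * D / L₁ * D2 c.w (L₁ • D⁻¹ • c.Bp.dY a₁) ≤ |s| * D / L₁ * (γ * L₁) :=
    mul_le_mul_of_nonneg_left h (by positivity)
  rw [show |s| * D / L₁ * (γ * L₁) = |s| * (D * γ) by field_simp] at h5
  simp only [k']
  nlinarith

/-- `cubF`, `cubX`. -/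
theorem final_id (hθ : 0 < θ) {x : X} (hx : ‖x‖ ≤ δ) :
    |c.ψ (S.F (c.p + x) + S.F (c.p - x) - (2 : ℝ) • S.F c.p) - D2 c.p x * (c.ψ (S.F c.p) - c.φ c.p) -
      (c.ψ (c.Bp.dY (c.Bp.pr x) + c.Bp.dY (-c.Bp.pr x)) -
        c.φ (dX c.p (c.Bp.pr x) + dX c.p (-c.Bp.pr x)))| ≤ 2 * (C * ‖x‖ ^ 3) := by
  have h1 := (c.nm_ψ.abs_le _).trans (c.tc.cubF c.Bp x hx)
  have h2 := ((c.nm_φ hθ).abs_le _).trans (c.tc.cubX c.Bp x hx)
  simp only [map_sub, map_add, map_smul, smul_eq_mul] at h1 h2 ⊢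
  rw [abs_le] at h1 h2 ⊢
  constructor <;> nlinarith [h1.1, h1.2, h2.1, h2.2]

end Ch

/-- first order goodness of `v` along `p`.  `φ'` norming `v - σ p`, `k (σ p) ≤ σ (φ p - φ' p)` (`kk_le_sub`); `exit_near` from `p` in
the direction `v - σ p` gives a unit `q'` with `‖q' - q‖ ≤ 4|σ|/θ ≤ θ` normed by `φ'`; `exists_pair'`, `Pair.eq_That`,
`That_p_lip` (with `θ/2`), `Nm.sub_le_of_D2` for `e = D₀⁻¹ e₀`. -/
theorem xgood {θ L₁ D₀ γ₃ : ℝ} (hθ : 0 < θ) (hL₁ : 0 < L₁) (hD₀ : 0 < D₀) (hγ₃ : 0 < γ₃) :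
    ∃ L₂ : ℝ, 0 < L₂ ∧ ∀ (S : SI X Y) (δ C : ℝ) (c : Ch S δ C θ) (e₀ : Y) (γ₁ γ₂ : ℝ),
      D2 c.w (L₁ • D₀⁻¹ • e₀) ≤ γ₁ * L₁ → ‖c.Bp.That c.q c.p - e₀‖ ≤ γ₂ →
      ∀ σ : ℝ, |σ| ≤ L₂ → c.k (σ • c.p) ≤ |σ| * (γ₁ * D₀ + 2 * γ₂ + γ₃) := by
  set M : ℝ := 64 / θ ^ 3 + 8 * D₀ / (θ * L₁) with hM
  have hM0 : 0 < M := by positivity
  refine ⟨min (θ / 3) (min (θ ^ 2 / 4) (γ₃ / M)), by positivity, ?_⟩
  intro S δ C c e₀ γ₁ γ₂ h₁ h₂ σ hσ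
  have hσ1 : |σ| ≤ θ / 3 := hσ.trans (min_le_left _ _)
  have hσ2 : |σ| ≤ θ ^ 2 / 4 := hσ.trans ((min_le_right _ _).trans (min_le_left _ _))
  have hσ3 : |σ| * M ≤ γ₃ :=
    (le_div_iff₀ hM0).1 (hσ.trans ((min_le_right _ _).trans (min_le_right _ _)))
  obtain ⟨φ', hφ'⟩ := exists_nm (c.v - σ • c.p)
  obtain ⟨s, hs1, hq', hqq⟩ := exit_near (d := c.v - σ • c.p) c.Bp.hp.le c.Bq.hp hθ c.rob
    (abs_nonneg σ) hσ1 (by
      rw [Ch.v, show c.q - c.p - σ • c.p - (c.q - c.p) = (-σ) • c.p by module, norm_smul,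
        c.Bp.hp, Real.norm_eq_abs, abs_neg, mul_one])
  set q' := c.p + s • (c.v - σ • c.p) with hq'def
  have hs0 : 0 ≤ s := by
    have : |σ| / θ ≤ 1 / 3 := by rw [div_le_iff₀ hθ]; linarith
    linarith [(abs_le.1 hs1).1]
  have hN : Nm φ' (q' - c.p) := by
    rw [hq'def, add_sub_cancel_left]; exact hφ'.smul hs0
  obtain ⟨ψ', hP⟩ := c.Bp.exists_pair' hq' hN
  have hqθ : ‖q' - c.q‖ ≤ θ := hqq.trans (by rw [div_le_iff₀ hθ]; nlinarith)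
  have hrob' : ‖c.p + q'‖ ≤ 2 - 2 * (θ / 2) := by
    have := norm_add_le (c.p + c.q) (q' - c.q)
    rw [show c.p + c.q + (q' - c.q) = c.p + q' by abel] at this
    linarith [c.rob]
  have hrob : ‖c.p + c.q‖ ≤ 2 - 2 * (θ / 2) := by linarith [c.rob]
  have hJ : c.Bp.J (q' - c.p) ≠ 0 := by
    have := c.Bp.pair_J_le hrob'
    linarith
  have e1 : φ' c.p = ψ' (c.Bp.That q' c.p) := hP.eq_That hq' hJ c.p
  have e2 : c.φ c.p = c.ψ (c.Bp.That c.q c.p) := rfl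
  have a1 := c.Bp.That_p_lip (half_pos hθ) c.Bq.hp hq' hrob hrob'
  rw [norm_sub_rev c.q q'] at a1
  have a2 := c.nm_ψ.sub_le_of_D2 hP.2.1 (D₀⁻¹ • e₀) hL₁
  rw [show S.F q' - S.F c.p - c.w = S.F q' - S.F c.q by rw [Ch.w]; abel,
    S.dist _ _ (by rw [hq', c.Bq.hp]), map_smul, map_smul, smul_eq_mul, smul_eq_mul, ← mul_sub,
    abs_mul, abs_of_pos (inv_pos.2 hD₀), inv_mul_le_iff₀ hD₀] at a2
  have a3 := (c.nm_ψ.abs_le _).trans h₂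
  have a4 := (hP.2.1.abs_le _).trans h₂
  have a5 := (hP.2.1.abs_le _).trans a1
  have b1 : 4 / (θ / 2) ^ 2 * ‖q' - c.q‖ ≤ |σ| * (64 / θ ^ 3) :=
    (mul_le_mul_of_nonneg_left hqq (by positivity)).trans (le_of_eq (by field_simp; ring))
  have b2 : D₀ * ((D2 c.w (L₁ • D₀⁻¹ • e₀) + 2 * ‖q' - c.q‖) / L₁) ≤
      γ₁ * D₀ + |σ| * (8 * D₀ / (θ * L₁)) := by
    have : (D2 c.w (L₁ • D₀⁻¹ • e₀) + 2 * ‖q' - c.q‖) / L₁ ≤ (γ₁ * L₁ + 2 * (4 * |σ| / θ)) / L₁ := by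
      gcongr
    exact (mul_le_mul_of_nonneg_left this hD₀.le).trans (le_of_eq (by field_simp; ring))
  have key : |c.φ c.p - φ' c.p| ≤ γ₁ * D₀ + 2 * γ₂ + γ₃ := by
    rw [e1, e2]
    simp only [map_sub] at a3 a4 a5
    rw [hM, mul_add] at hσ3
    rw [abs_le] at a2 a3 a4 a5 ⊢
    constructor <;> linarith [a2.1, a2.2, a3.1, a3.2, a4.1, a4.2, a5.1, a5.2]
  have h3 := kk_le_sub (φ := c.φ) hφ'
  rw [map_smul, map_smul, smul_eq_mul, smul_eq_mul, ← mul_sub] at h3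
  refine h3.trans ((le_abs_self _).trans ?_)
  rw [abs_mul]
  exact mul_le_mul_of_nonneg_left key (abs_nonneg σ)

end Crest.Agent.R74
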