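import Crest.Agent.R74.Defs2

/-!
# Row 74: tent averages and the log-convexity argument
-/

namespace Crest.Agent.R74

open Finset

variable {X Y : Type*} [NormedAddCommGroup X] [NormedSpace ℝ X] [NormedAddCommGroup Y]
  [NormedSpace ℝ Y]

theorem tent_nonneg (n : ℕ) (i : ℤ) : 0 ≤ tent n i := by
  exact div_nonneg (le_max_left _ _) (sq_nonneg _)

theorem tent_le {n : ℕ} (hn : 1 ≤ n) (i : ℤ) : tent n i ≤ 1 / n := by
  have h : (0 : ℝ) < n := by exact_mod_cast hn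
  rw [tent, div_le_div_iff₀ (by positivity) h]
  have : max 0 (min (i : ℝ) (2 * n - i)) ≤ n := by
    refine max_le h.le ?_
    linarith [min_le_left (i : ℝ) (2 * n - i), min_le_right (i : ℝ) (2 * n - i)]
  nlinarith

theorem tent_eq_zero {n : ℕ} {i : ℤ} (h : i ∉ Icc (0 : ℤ) (2 * n)) : tent n i = 0 := by
  rw [tent, max_eq_left, zero_div]
  rw [mem_Icc, not_and_or, not_le, not_le] at h
  rcases h with h | h
  · exact (min_le_left _ _).trans (by exact_mod_cast h.le)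
  · exact (min_le_right _ _).trans (sub_nonpos.2 (by exact_mod_cast h.le))

theorem tent_lip (n : ℕ) (i j : ℤ) : |tent n i - tent n j| ≤ |(i : ℝ) - j| / (n : ℝ) ^ 2 := by
  rw [tent, tent, ← sub_div, abs_div, abs_of_nonneg (sq_nonneg (n : ℝ)), max_comm, max_comm 0]
  refine div_le_div_of_nonneg_right ((abs_max_sub_max_le_abs _ _ _).trans
    ((abs_min_sub_min_le_max _ _ _ _).trans (max_le le_rfl ?_))) (sq_nonneg _)
  rw [sub_sub_sub_cancel_left, abs_sub_comm]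

/-- `∑_{i=0}^{2n} min i (2n - i) = n²` (induction on `n`, or split at `n` and use `Finset.sum_range_id_mul_two`). -/
theorem tent_sum {n : ℕ} (hn : 1 ≤ n) : ∑ i ∈ Icc (0 : ℤ) (2 * n), tent n i = 1 := by
  have h : (0 : ℝ) < n := by exact_mod_cast hn
  have h1 : ∀ n : ℕ, ∑ k ∈ range (2 * n + 1), min (k : ℝ) (2 * n - k) = (n : ℝ) ^ 2 := fun n => by
    induction n with
    | zero => simp
    | succ n ih =>
      rw [show 2 * (n + 1) + 1 = 2 * n + 1 + 1 + 1 by ring, sum_range_succ, sum_range_succ',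
        sum_congr rfl (g := fun k : ℕ => min (k : ℝ) (2 * n - k) + 1) fun k _ => by
          rw [← min_add_add_right]; push_cast; congr 1; ring,
        sum_add_distrib, ih, min_eq_left (a := ((0 : ℕ) : ℝ)) (by push_cast; linarith [Nat.cast_nonneg (α := ℝ) n]),
        min_eq_right (by push_cast; linarith)]
      simp only [sum_const, card_range, nsmul_eq_mul]
      push_cast
      ring
  rw [Int.Icc_eq_finset_map, sum_map, show (2 * (n : ℤ) + 1 - 0).toNat = 2 * n + 1 by omega,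
    sum_congr rfl (g := fun k : ℕ => min (k : ℝ) (2 * n - k) / (n : ℝ) ^ 2) fun k hk => ?_,
    ← sum_div, h1, div_self (by positivity)]
  have : (k : ℝ) ≤ 2 * n := by exact_mod_cast Nat.lt_succ_iff.1 (mem_range.1 hk)
  simp only [tent, Function.Embedding.trans_apply, Nat.castEmbedding_apply, addLeftEmbedding_apply,
    zero_add, Int.cast_natCast]
  rw [max_eq_right (le_min (by positivity) (by linarith))]

theorem Wt_add {Z : Type*} [AddCommGroup Z] [Module ℝ Z] (n : ℕ) (G H : ℤ → Z) :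
    Wt n (fun i => G i + H i) = Wt n G + Wt n H := by
  simp only [Wt, smul_add, sum_add_distrib]

theorem Wt_sub {Z : Type*} [AddCommGroup Z] [Module ℝ Z] (n : ℕ) (G H : ℤ → Z) :
    Wt n (fun i => G i - H i) = Wt n G - Wt n H := by
  simp only [Wt, smul_sub, sum_sub_distrib]

theorem Wt_mul (n : ℕ) (c : ℝ) (G : ℤ → ℝ) : Wt n (fun i => c * G i) = c * Wt n G := by
  simp only [Wt, smul_eq_mul, mul_sum, mul_left_comm]

theorem Wt_smul {Z : Type*} [AddCommGroup Z] [Module ℝ Z] (n : ℕ) (c : ℝ) (G : ℤ → Z) :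
    Wt n (fun i => c • G i) = c • Wt n G := by
  simp only [Wt, smul_sum, smul_comm c]

theorem Wt_const {n : ℕ} (hn : 1 ≤ n) (c : ℝ) : Wt n (fun _ => c) = c := by
  simp only [Wt, smul_eq_mul, ← sum_mul, tent_sum hn, one_mul]

theorem Wt_mono (n : ℕ) {G H : ℤ → ℝ} (h : ∀ i ∈ Icc (0 : ℤ) (2 * n), G i ≤ H i) : Wt n G ≤ Wt n H := by
  exact sum_le_sum fun i hi => mul_le_mul_of_nonneg_left (h i hi) (tent_nonneg n i)

theorem Wt_nonneg (n : ℕ) {G : ℤ → ℝ} (h : ∀ i ∈ Icc (0 : ℤ) (2 * n), 0 ≤ G i) : 0 ≤ Wt n G := by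
  exact sum_nonneg fun i hi => mul_nonneg (tent_nonneg n i) (h i hi)

theorem Wt_abs_le (n : ℕ) (G : ℤ → ℝ) : |Wt n G| ≤ Wt n fun i => |G i| := by
  refine (abs_sum_le_sum_abs _ _).trans (le_of_eq (sum_congr rfl fun i _ => ?_))
  rw [smul_eq_mul, smul_eq_mul, abs_mul, abs_of_nonneg (tent_nonneg n i)]

theorem Wt_clm (n : ℕ) (A : X →L[ℝ] Y) (G : ℤ → X) : A (Wt n G) = Wt n fun i => A (G i) := by
  simp only [Wt, map_sum, map_smul]

theorem Wt_shift_eq {n r : ℕ} (G : ℤ → ℝ) {s : ℤ} (hs : |s| ≤ r) :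
    Wt n (fun i => G (i + s)) = ∑ i ∈ Icc (-(r : ℤ)) (2 * n + r), tent n (i - s) * G i := by
  rw [abs_le] at hs
  rw [← sum_subset (s₁ := Icc (0 + s) (2 * n + s)) (Icc_subset_Icc (by omega) (by omega))
    fun i _ hi => by rw [tent_eq_zero (by rw [mem_Icc] at *; omega), zero_mul],
    ← map_add_right_Icc, sum_map]
  simp [Wt]

theorem Wt_shift_le {n r : ℕ} (hn : 1 ≤ n) {G : ℤ → ℝ} (hG : ∀ i, 0 ≤ G i) {s : ℤ} (hs : |s| ≤ r) :
    Wt n (fun i => G (i + s)) ≤ (∑ i ∈ Icc (-(r : ℤ)) (2 * n + r), G i) / n := by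
  rw [Wt_shift_eq G hs, sum_div]
  refine sum_le_sum fun i _ => ?_
  rw [div_eq_inv_mul, ← one_div]
  exact mul_le_mul_of_nonneg_right (tent_le hn _) (hG i)

/-- both sides are sums over `Icc (-r) (2n + r)`, with weights `tent n (i - s)` and `tent n i`; `tent_lip`. -/
theorem Wt_shift {n r : ℕ} (hn : 1 ≤ n) {G : ℤ → ℝ} (hG : ∀ i, 0 ≤ G i) {s : ℤ} (hs : |s| ≤ r) :
    |Wt n (fun i => G (i + s)) - Wt n G| ≤
      |(s : ℝ)| / (n : ℝ) ^ 2 * ∑ i ∈ Icc (-(r : ℤ)) (2 * n + r), G i := by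
  have h0 := Wt_shift_eq (n := n) (r := r) G (s := 0) (by simp)
  simp only [add_zero, sub_zero] at h0
  rw [Wt_shift_eq G hs, h0, ← sum_sub_distrib, mul_sum]
  refine (abs_sum_le_sum_abs _ _).trans (sum_le_sum fun i _ => ?_)
  rw [← sub_mul, abs_mul, abs_of_nonneg (hG i)]
  refine mul_le_mul_of_nonneg_right ((tent_lip n _ _).trans (le_of_eq ?_)) (hG i)
  simp

/-- average `PSeq` with the tent weights, replace the shifted averages by `Wt_shift` (each error is at most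
`(r / n) M` times a coefficient `≤ 4`), divide by `μ = 1 - 1/b ≥ (b - 1)/2`. -/
theorem pseq_avg {L B D : ℤ → ℝ} {n r m₂ : ℕ} {m : ℤ} {b ν ε M : ℝ} (hn : 1 ≤ n) (hb : 1 < b) (hb2 : b ≤ 2)
    (hκ : 1 / 2 ≤ b ^ m) (hκ2 : b ^ m ≤ 2) (hm : |m| ≤ r) (hm₂ : m₂ ≤ r) (hr : 1 ≤ r) (hν : 0 ≤ ν) (hε : 0 ≤ ε)
    (hL : ∀ i, 0 ≤ L i) (hB : ∀ i, 0 ≤ B i) (hD : ∀ i, 0 ≤ D i)
    (sL : ∑ i ∈ Icc (-(r : ℤ)) (2 * n + r), L i ≤ n * M)
    (sB : ∑ i ∈ Icc (-(r : ℤ)) (2 * n + r), B i ≤ n * M)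
    (sD : ∑ i ∈ Icc (-(r : ℤ)) (2 * n + r), D i ≤ n * M)
    (h : ∀ i ∈ Icc (0 : ℤ) (2 * n), PSeq L B D b m m₂ ν ε i) :
    2 * Wt n L ≤ b ^ m * Wt n B + (b ^ m)⁻¹ * Wt n D + 3 * (b - 1) * M +
      2 * (7 * r * M / n + 3 * ν * M + ε) / (b - 1) := by
  have hn' : (0 : ℝ) < n := by exact_mod_cast hn
  have hM : 0 ≤ M := (mul_nonneg_iff_of_pos_left hn').1 ((sum_nonneg fun i _ => hL i).trans sL)
  have k1 : ∀ {G : ℤ → ℝ}, (∀ i, 0 ≤ G i) → ∑ i ∈ Icc (-(r : ℤ)) (2 * n + r), G i ≤ n * M →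
      ∀ s : ℤ, |s| ≤ r → Wt n (fun i => G (i + s)) ≤ M ∧
        Wt n (fun i => G (i + s)) ≤ Wt n G + r * M / n := fun hG sG s hs => by
    refine ⟨(Wt_shift_le hn hG hs).trans (by rwa [div_le_iff₀' hn']), ?_⟩
    have h1 : |(s : ℝ)| ≤ r := by exact_mod_cast hs
    have h2 := mul_le_mul (div_le_div_of_nonneg_right h1 (sq_nonneg (n : ℝ))) sG
      (sum_nonneg fun i _ => hG i) (by positivity)
    rw [show r / (n : ℝ) ^ 2 * (n * M) = r * M / n by field_simp] at h2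
    linarith [(abs_le.1 (Wt_shift hn hG hs)).2]
  have h1 := Wt_mono n h
  have hm2 : |(m₂ : ℤ)| ≤ r := by rw [Nat.abs_cast]; exact_mod_cast hm₂
  have hr1 : |(1 : ℤ)| ≤ r := by rw [abs_one]; exact_mod_cast hr
  simp only [Wt_add, Wt_sub, Wt_mul, Wt_const hn, sub_eq_add_neg (_ : ℤ)] at h1
  have a1 := (k1 hL sL (-1) (by rwa [abs_neg])).2
  have a2 := (k1 hB sB 1 hr1).2
  have a3 := (k1 hD sD (-m) (by rwa [abs_neg])).2
  have a4 := mul_le_mul_of_nonneg_left (add_le_add_three (k1 hL sL _ hm2).1 (k1 hB sB _ hm2).1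
    (k1 hD sD _ hm2).1) hν
  have a5 := (k1 hL sL 0 (by simp)).1
  have a6 := (k1 hB sB 0 (by simp)).1
  simp only [add_zero] at a5 a6
  have a7 := Wt_nonneg n fun i _ => hL i
  rw [mul_assoc 7, mul_div_assoc 7]
  have he : 0 ≤ r * M / n := by positivity
  generalize r * M / n = e at *
  generalize b ^ m = κ at *
  have hκ0 : 0 < κ := by linarith
  have hk : κ⁻¹ ≤ 2 := by rw [inv_le_comm₀ hκ0 two_pos]; linarith
  have hk0 : 0 < κ⁻¹ := by positivity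
  rw [← inv_pow, ← one_div b] at h1
  have hβ : b * (1 / b) = 1 := by field_simp
  have hβ0 : 0 < 1 / b := by positivity
  have hq : 2 * (7 * e + 3 * ν * M + ε) / (b - 1) * (1 - 1 / b) =
      2 * (1 / b) * (7 * e + 3 * ν * M + ε) := by
    have : b - 1 ≠ 0 := by linarith
    field_simp
  generalize 1 / b = β at *
  have hβ1 : β < 1 := by nlinarith
  have hβ2 : 1 ≤ 2 * β := by nlinarith
  have b1 := mul_le_mul_of_nonneg_left a1 (sq_nonneg β)
  have b2 := mul_le_mul_of_nonneg_left a2 (show 0 ≤ κ * b by positivity)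
  have b3 := mul_le_mul_of_nonneg_left a3 (mul_pos (sub_pos.2 hβ1) hk0).le
  have b4 : β ^ 2 * e ≤ 1 * e := mul_le_mul_of_nonneg_right (by nlinarith) he
  have b5 : κ * b * e ≤ 4 * e := mul_le_mul_of_nonneg_right (by nlinarith) he
  have b6 : (1 - β) * κ⁻¹ * e ≤ 2 * e := mul_le_mul_of_nonneg_right (by nlinarith) he
  have b7 : (1 - β) * ((1 - β) * Wt n L) ≤ (1 - β) * ((b - 1) * M) :=
    mul_le_mul_of_nonneg_left (mul_le_mul (by nlinarith) a5 a7 (by linarith)) (by linarith)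
  have b8 : (1 - β) * (b - 1) * (κ * Wt n B) ≤ (1 - β) * (b - 1) * (2 * M) :=
    mul_le_mul_of_nonneg_left (mul_le_mul hκ2 a6 (Wt_nonneg n fun i _ => hB i) zero_le_two)
      (mul_nonneg (by linarith) (by linarith))
  have b9 := mul_le_mul_of_nonneg_right hβ2 (show 0 ≤ 7 * e + 3 * ν * M + ε by positivity)
  have b10 : b * β * (κ * Wt n B) = κ * Wt n B := by rw [hβ, one_mul]
  refine le_of_mul_le_mul_right ?_ (sub_pos.2 hβ1)
  rw [add_mul, hq]
  linarith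

/-- `e j = z (j+1) - λ z j` satisfies `e j ≥ λ e (j-1) - λ E`, so `e j ≥ λ ^ j (e 0 - j E)`, while `e j ≤ z (j+1) ≤ M`. -/
theorem logconv {z : ℕ → ℝ} {N : ℕ} {l E M : ℝ} (hl : 1 ≤ l) (hE : 0 ≤ E) (hz : ∀ j, 0 ≤ z j)
    (hM : z (N + 1) ≤ M) (h : ∀ j < N, 2 * z (j + 1) ≤ l * z j + l⁻¹ * z (j + 2) + E) :
    z 1 ≤ l * z 0 + M / l ^ N + N * E := by
  have hl0 : 0 < l := by linarith
  have h1 : ∀ j ≤ N, l ^ j * (z 1 - l * z 0 - j * E) ≤ z (j + 1) - l * z j := fun j hj => by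
    induction j with
    | zero => simp
    | succ j ih =>
      have a1 := mul_le_mul_of_nonneg_left (ih (by omega)) hl0.le
      have a2 := mul_le_mul_of_nonneg_left (h j (by omega)) hl0.le
      have a3 := mul_le_mul_of_nonneg_right (one_le_pow₀ hl (n := j)) (mul_nonneg hl0.le hE)
      rw [mul_add, mul_add, mul_inv_cancel_left₀ hl0.ne'] at a2
      push_cast
      rw [pow_succ]
      linarith
  have h2 : z 1 - l * z 0 - N * E ≤ M / l ^ N := by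
    rw [le_div_iff₀' (by positivity)]
    linarith [h1 N le_rfl, mul_nonneg hl0.le (hz N)]
  linarith

/-- **The sequence lemma.**  `x = min 1 (γ / (3 Ca))`; `K ≥ 1` with `Ca (1 + 2K)² / (1 + x/2) ^ (2K - 1) ≤ γ / 3`
(`tendsto_pow_const_div_const_pow_of_one_lt`), `M = Ca (1 + 2K)²`; `b = 1 + y` with `y ≤ x / 3`, `6 K y M ≤ γ / 9`; `m` least
with `b ^ m ≥ 1 + x/2` (then `b ^ m ≤ 1 + x`), `m₂` least with `b ^ m₂ ≥ 16`; then `ν`, `ε`, `n` making the last term of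
`pseq_avg` at most `γ / (9 K)`.  For even indices `b ^ (-m) = (b ^ m)⁻¹`; `logconv` with `N = 2K - 1`, `l = b ^ m`. -/
theorem seq {Ca γ : ℝ} (hCa : 1 ≤ Ca) (hγ : 0 < γ) :
    ∃ (K m m₂ n : ℕ) (b ν ε : ℝ), 1 ≤ K ∧ 1 < b ∧ b ≤ 2 ∧ b ^ m ≤ 2 ∧ 16 ≤ b ^ m₂ ∧ b ^ m₂ ≤ 32 ∧
      m + 2 * m₂ + 1 ≤ n ∧ 0 < ν ∧ ν ≤ 1 ∧ ν * Ca ≤ γ ∧ 0 < ε ∧ ε ≤ γ ∧
      ∀ G : ℕ → ℤ → ℝ, (∀ j i, 0 ≤ G j i) →
        (∀ j ≤ 2 * K, ∑ i ∈ Icc (-((m + m₂ + 1 : ℕ) : ℤ)) (2 * n + (m + m₂ + 1 : ℕ)), G j i ≤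
          n * (Ca * (1 + j) ^ 2)) →
        (∀ j < K, ∀ i ∈ Icc (0 : ℤ) (2 * n),
          PSeq (G (2 * j + 1)) (G (2 * j)) (G (2 * j + 2)) b m m₂ ν ε i) →
        (∀ j, j + 1 < K → ∀ i ∈ Icc (0 : ℤ) (2 * n),
          PSeq (G (2 * j + 2)) (G (2 * j + 3)) (G (2 * j + 1)) b (-(m : ℤ)) m₂ ν ε i) →
        Wt n (G 1) ≤ Wt n (G 0) + γ := by
  have sm : ∀ {a b : ℝ}, 0 < a → 0 < b → ∃ y, 0 < y ∧ y ≤ a ∧ y ≤ b := fun ha hb =>
    ⟨_, lt_min ha hb, min_le_left _ _, min_le_right _ _⟩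
  obtain ⟨x, hx, hx1, hx2⟩ := sm one_pos (show 0 < γ / (3 * Ca) by positivity)
  obtain ⟨k, hk⟩ := Filter.eventually_atTop.1 ((tendsto_pow_const_div_const_pow_of_one_lt 2
    (show 1 < 1 + x / 2 by linarith)).eventually_le_const
    (show 0 < γ / 3 / (Ca * (1 + x / 2) ^ 2) by positivity))
  obtain ⟨M, hM⟩ : ∃ M : ℝ, M = Ca * (1 + (2 * (k + 1) : ℕ)) ^ 2 := ⟨_, rfl⟩
  have hM0 : 0 < M := by rw [hM]; positivity
  have hM1 : M / (1 + x / 2) ^ (2 * k + 1) ≤ γ / 3 := by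
    have := hk (2 * k + 1 + 2) (by omega)
    rw [le_div_iff₀ (by positivity)] at this
    refine le_trans (le_of_eq ?_) this
    rw [hM, pow_add _ (2 * k + 1)]
    push_cast
    field_simp
    ring
  obtain ⟨E, hE⟩ : ∃ E : ℝ, E = γ / 3 / (2 * k + 1 : ℕ) := ⟨_, rfl⟩
  have hE0 : 0 < E := by rw [hE]; positivity
  obtain ⟨y, hy, hy1, hy2⟩ := sm (show 0 < x / 3 by positivity) (show 0 < E / (6 * M) by positivity)
  have hb : 1 < 1 + y := by linarith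
  obtain ⟨m, hm1, hm2⟩ := exists_nat_pow_near (show 1 ≤ 1 + x / 2 by linarith) hb
  obtain ⟨m₂, hn1, hn2⟩ := exists_nat_pow_near (show (1 : ℝ) ≤ 16 by norm_num) hb
  have hm3 : (1 + y) ^ (m + 1) ≤ 1 + x := by rw [pow_succ]; nlinarith
  have hn3 : (1 + y) ^ (m₂ + 1) ≤ 32 := by rw [pow_succ]; nlinarith
  generalize m + 1 = m at hm2 hm3
  generalize m₂ + 1 = m₂ at hn2 hn3
  obtain ⟨n₀, hn₀⟩ := exists_nat_ge (7 * (m + m₂ + 1 : ℕ) * M / (y * E / 12))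
  obtain ⟨ν₀, hν₀, hν1, hν2⟩ := sm one_pos (show 0 < γ / Ca by positivity)
  obtain ⟨ν, hν, hν3, hν4⟩ := sm hν₀ (show 0 < y * E / 12 / (3 * M) by positivity)
  obtain ⟨ε, hε, hε1, hε2⟩ := sm hγ (show 0 < y * E / 12 by positivity)
  refine ⟨k + 1, m, m₂, m + 2 * m₂ + 1 + n₀, 1 + y, ν, ε, by omega, hb, by linarith, by linarith,
    hn2.le, hn3, by omega, hν, hν3.trans hν1, (le_div_iff₀ (by positivity)).1 (hν3.trans hν2), hε,
    hε1, ?_⟩
  have hn : 1 ≤ m + 2 * m₂ + 1 + n₀ := by omega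
  have hn' : (n₀ : ℝ) ≤ (m + 2 * m₂ + 1 + n₀ : ℕ) := by exact_mod_cast Nat.le_add_left _ _
  generalize m + 2 * m₂ + 1 + n₀ = n at hn hn'
  intro G hG hs h1 h2
  have hn0 : (0 : ℝ) < n := by exact_mod_cast hn
  have hs' : ∀ j ≤ 2 * (k + 1), ∑ i ∈ Icc (-((m + m₂ + 1 : ℕ) : ℤ)) (2 * n + (m + m₂ + 1 : ℕ)),
      G j i ≤ n * M := fun j hj => (hs j hj).trans (by rw [hM]; gcongr)
  have hW : ∀ j M, ∑ i ∈ Icc (-((m + m₂ + 1 : ℕ) : ℤ)) (2 * n + (m + m₂ + 1 : ℕ)),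
      G j i ≤ n * M → Wt n (G j) ≤ M := fun j M h => by
    have := Wt_shift_le (r := m + m₂ + 1) hn (hG j) (s := 0) (by positivity)
    simp only [add_zero] at this
    exact this.trans (by rwa [div_le_iff₀' hn0])
  have hE1 : 3 * (1 + y - 1) * M +
      2 * (7 * (m + m₂ + 1 : ℕ) * M / n + 3 * ν * M + ε) / (1 + y - 1) ≤ E := by
    rw [add_sub_cancel_left]
    have a1 : 7 * (m + m₂ + 1 : ℕ) * M / n ≤ y * E / 12 := by
      rw [div_le_comm₀ hn0 (by positivity)]; exact hn₀.trans hn'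
    rw [le_div_iff₀ (by positivity)] at hy2 hν4
    have a2 : 2 * (7 * (m + m₂ + 1 : ℕ) * M / n + 3 * ν * M + ε) / y ≤ E / 2 := by
      rw [div_le_iff₀ hy]; linarith
    linarith
  have hl : 1 ≤ (1 + y) ^ m := by linarith
  have h3 := logconv (z := fun j => Wt n (G j)) (N := 2 * k + 1) hl hE0.le
    (fun j => Wt_nonneg n fun i _ => hG j i) (hW _ _ (hs' _ (by omega))) fun j hj => by
      obtain ⟨j, rfl | rfl⟩ := Nat.even_or_odd' j
      · have := pseq_avg hn hb (by linarith) (by rw [zpow_natCast]; linarith)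
          (by rw [zpow_natCast]; linarith) (by rw [Nat.abs_cast]; omega) (by omega) (by omega)
          hν.le hε.le (hG _) (hG _) (hG _) (hs' _ (by omega)) (hs' _ (by omega)) (hs' _ (by omega))
          (h1 j (by omega))
        rw [zpow_natCast] at this
        linarith
      · have := pseq_avg hn hb (by linarith)
          (by rw [zpow_neg, zpow_natCast, le_inv_comm₀ (by norm_num) (by positivity)]; linarith)
          (by rw [zpow_neg, zpow_natCast]; linarith [inv_le_one_of_one_le₀ hl])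
          (by rw [abs_neg, Nat.abs_cast]; omega) (by omega) (by omega)
          hν.le hε.le (hG _) (hG _) (hG _) (hs' _ (by omega)) (hs' _ (by omega)) (hs' _ (by omega))
          (h2 j (by omega))
        rw [zpow_neg, zpow_natCast, inv_inv] at this
        linarith
  have h4 : M / ((1 + y) ^ m) ^ (2 * k + 1) ≤ γ / 3 := le_trans (by gcongr) hM1
  have h5 : (2 * k + 1 : ℕ) * E = γ / 3 := by rw [hE]; field_simp
  have h6 := hW _ _ (hs 0 (by omega))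
  have h7 := mul_le_mul_of_nonneg_right hm3 (Wt_nonneg n fun i _ => hG 0 i)
  rw [le_div_iff₀ (by positivity)] at hx2
  simp only [Nat.cast_zero, add_zero, one_pow, mul_one] at h6
  nlinarith

end Crest.Agent.R74
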