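import Crest.Agent.R74.Chord2
import Crest.Agent.R74.Chord3
import Crest.Agent.R74.Seq

/-!
# Row 74: the chain argument for one chord
-/

namespace Crest.Agent.R74

open Finset

variable {X Y : Type*} [NormedAddCommGroup X] [NormedSpace ℝ X] [NormedAddCommGroup Y]
  [NormedSpace ℝ Y]

variable {S : SI X Y} {δ C θ : ℝ}

/-- a priori bound along a chain: `a j = a 0 + ∑_{l<j} (a (l+1) - a l)`, `Gauge.add_le`, `Gauge.sum_le`. -/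
theorem apriori (c : Ch S δ C θ) {C₂ δ₃ : ℝ} (hC₂ : 0 ≤ C₂) (a : ℕ → X) {j : ℕ} {t M : ℝ} (ht : 0 ≤ t)
    (h : ∀ l < j, ∀ σ : ℝ, |σ| * M ≤ δ₃ → c.k'' (σ • (a (l + 1) - a l)) ≤ C₂ * σ ^ 2 * M ^ 2)
    (hM : 2 * j * t * M ≤ δ₃) :
    c.k'' (t • a j) ≤ c.k'' ((2 * t) • a 0) / 2 + 2 * C₂ * j ^ 2 * t ^ 2 * M ^ 2 := by
  have hg := c.gauge_k''
  have h1 : t • a j = t • a 0 + t • ∑ l ∈ range j, (a (l + 1) - a l) := by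
    rw [Finset.sum_range_sub, ← smul_add]; congr 1; abel
  have h2 := hg.add_le (t • a 0) (t • ∑ l ∈ range j, (a (l + 1) - a l))
  have h3 : (2 : ℝ) • t • ∑ l ∈ range j, (a (l + 1) - a l) =
      ∑ l ∈ range j, (2 * t) • (a (l + 1) - a l) := by
    rw [smul_smul, Finset.smul_sum]
  have h4 : c.k'' (∑ l ∈ range j, (2 * t) • (a (l + 1) - a l)) ≤ C₂ * (2 * j * t) ^ 2 * M ^ 2 := by
    refine hg.sum_le (fun l => (2 * t) • (a (l + 1) - a l)) (by positivity) fun l hl => ?_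
    have := h l hl (2 * j * t) (by rwa [abs_of_nonneg (by positivity)])
    rw [smul_smul]
    convert this using 3
    ring
  rw [h1]
  rw [h3, smul_smul] at h2
  nlinarith

theorem gs_k''_eq (c : Ch S δ C θ) (𝓕 : Fam X) (a : 𝓕.Ω → X) (τ b : ℝ) (i : ℤ) :
    gs 𝓕 c.k'' a τ b i =
      ((sc τ b i) ^ 2)⁻¹ * 𝓕.E (fun ω => D2 c.w (sc τ b i • c.Bp.T (a ω))) := by
  unfold gs
  congr 2
  funext ω
  rw [← kk_add_neg c.ψ]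
  simp only [Ch.k'', Ch.k', map_smul, map_neg, smul_neg]

theorem chain_bounds (c : Ch S δ C θ) (hθ : 0 < θ) (hC : 1 ≤ C) (𝓕 : Fam X) (a : ℕ → 𝓕.Ω → X) {K m₂ : ℕ}
    (Mx : 𝓕.Ω → ℝ) {τ b C₂ δ₃ : ℝ} (hτ : 0 < τ) (hb : 1 < b) (hm₂ : 16 ≤ b ^ m₂) (hm₂' : b ^ m₂ ≤ 32)
    (hC₂ : 0 ≤ C₂)
    (ht : ∀ l < K, ∀ ω, ∀ σ : ℝ, |σ| * Mx ω ≤ δ₃ →
      c.k'' (σ • (a (l + 1) ω - a l ω)) ≤ C₂ * σ ^ 2 * Mx ω ^ 2)
    (hJ : ∀ j ≤ K, ∀ ω, c.Bp.J (a j ω) = 0 ∧ ‖a j ω‖ ≤ Mx ω) (hE : 𝓕.E (fun ω => Mx ω ^ 2) ≤ 100) {i : ℤ}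
    (hi : ∀ ω, 2 * K * sc τ b i * Mx ω ≤ δ₃ ∧ sc τ b i * Mx ω ≤ 1 / 2 ∧ sc τ b i * Mx ω ≤ δ) {j : ℕ}
    (hj : j ≤ K) :
    gs 𝓕 c.k'' (a j) τ b i ≤ 32 * gs 𝓕 c.k'' (a 0) τ b (i + m₂) + 400 * C₂ * j ^ 2 ∧
      gs 𝓕 c.k (a j) τ b i ≤ 32 * gs 𝓕 c.k'' (a 0) τ b (i + m₂) + 400 * C₂ * j ^ 2 + 1200 * C := by
  have hb0 : 0 < b := by linarith
  have ht0 : 0 < sc τ b i := sc_pos hτ hb0 i
  set t := sc τ b i with htdef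
  have hM0 : ∀ ω, 0 ≤ Mx ω := fun ω => (norm_nonneg _).trans (hJ 0 (Nat.zero_le _) ω).2
  have hjK : (j : ℝ) ≤ K := by exact_mod_cast hj
  have hsm : ∀ ω, 2 * j * t * Mx ω ≤ δ₃ := fun ω => by
    refine le_trans ?_ (hi ω).1
    have := hM0 ω
    gcongr
  have h1 : ∀ ω, c.k'' (t • a j ω) + c.k'' (t • -a j ω) ≤
      1 / 2 * (c.k'' ((2 * t) • a 0 ω) + c.k'' ((2 * t) • -a 0 ω)) + 4 * C₂ * j ^ 2 * t ^ 2 * Mx ω ^ 2 := by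
    intro ω
    have e1 := apriori c hC₂ (fun l => a l ω) ht0.le (fun l hl σ hσ => ht l (lt_of_lt_of_le hl hj) ω σ hσ)
      (hsm ω)
    have e2 := apriori c hC₂ (fun l => -a l ω) ht0.le (fun l hl σ hσ => by
      have := ht l (lt_of_lt_of_le hl hj) ω (-σ) (by rwa [abs_neg])
      have e : σ • (-a (l + 1) ω - -a l ω) = (-σ) • (a (l + 1) ω - a l ω) := by
        rw [neg_smul, ← smul_neg]; congr 1; abel
      rw [e]; rwa [neg_sq] at this) (hsm ω)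
    linarith
  have hti : 0 < (t ^ 2)⁻¹ := by positivity
  have h2 : gs 𝓕 c.k'' (a j) τ b i ≤ 32 * gs 𝓕 c.k'' (a 0) τ b (i + m₂) + 400 * C₂ * j ^ 2 := by
    have e1 := 𝓕.E_mono h1
    rw [𝓕.E_add _ (fun ω => 4 * C₂ * j ^ 2 * t ^ 2 * Mx ω ^ 2), 𝓕.E_mul, 𝓕.E_mul] at e1
    have e2 := gs_scale 𝓕 c.gauge_k'' (a 0) (s := 2) hτ hb0 (m₂ := m₂) (by norm_num) (by linarith) i
    have e3 := gs_nonneg 𝓕 c.gauge_k'' (a 0) τ b (i + m₂)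
    have e4 : (t ^ 2)⁻¹ * (4 * C₂ * j ^ 2 * t ^ 2 * 𝓕.E fun ω => Mx ω ^ 2) ≤ 400 * C₂ * j ^ 2 := by
      have : (t ^ 2)⁻¹ * (4 * C₂ * j ^ 2 * t ^ 2 * 𝓕.E fun ω => Mx ω ^ 2) =
          4 * C₂ * j ^ 2 * 𝓕.E fun ω => Mx ω ^ 2 := by field_simp
      rw [this]
      have : 0 ≤ 4 * C₂ * (j : ℝ) ^ 2 := by positivity
      nlinarith
    have e5 := mul_le_mul_of_nonneg_left e1 hti.le
    rw [← htdef] at e2
    have e6 : gs 𝓕 c.k'' (a j) τ b i =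
        (t ^ 2)⁻¹ * 𝓕.E fun ω => c.k'' (t • a j ω) + c.k'' (t • -a j ω) := rfl
    rw [e6]
    nlinarith
  refine ⟨h2, ?_⟩
  have h3 : ∀ ω, c.k (t • a j ω) + c.k (t • -a j ω) ≤
      (c.k'' (t • a j ω) + c.k'' (t • -a j ω)) + 12 * C * t ^ 2 * Mx ω ^ 2 := by
    intro ω
    have hn : ‖t • a j ω‖ ≤ t * Mx ω := by
      rw [norm_smul, Real.norm_of_nonneg ht0.le]
      exact mul_le_mul_of_nonneg_left (hJ j hj ω).2 ht0.le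
    have hn' : ‖t • -a j ω‖ ≤ t * Mx ω := by rwa [smul_neg, norm_neg]
    have e1 := c.cmp hθ (a := t • a j ω) (by rw [map_smul, (hJ j hj ω).1, smul_zero])
      (by linarith [(hi ω).2.1]) (hn.trans (hi ω).2.2)
    have e2 := c.cmp hθ (a := t • -a j ω) (by rw [map_smul, map_neg, (hJ j hj ω).1, neg_zero, smul_zero])
      (by linarith [(hi ω).2.1]) (hn'.trans (hi ω).2.2)
    have e3 : ‖t • a j ω‖ ^ 2 ≤ (t * Mx ω) ^ 2 := by gcongr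
    have e4 : ‖t • -a j ω‖ ^ 2 ≤ (t * Mx ω) ^ 2 := by gcongr
    have e5 := (abs_le.1 e1).2
    have e6 := (abs_le.1 e2).2
    nlinarith
  have e1 := 𝓕.E_mono h3
  rw [𝓕.E_add _ (fun ω => 12 * C * t ^ 2 * Mx ω ^ 2), 𝓕.E_mul] at e1
  have e4 : (t ^ 2)⁻¹ * (12 * C * t ^ 2 * 𝓕.E fun ω => Mx ω ^ 2) ≤ 1200 * C := by
    have : (t ^ 2)⁻¹ * (12 * C * t ^ 2 * 𝓕.E fun ω => Mx ω ^ 2) =
        12 * C * 𝓕.E fun ω => Mx ω ^ 2 := by field_simp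
    rw [this]
    nlinarith
  have e5 := mul_le_mul_of_nonneg_left e1 hti.le
  have e6 : gs 𝓕 c.k'' (a j) τ b i =
      (t ^ 2)⁻¹ * 𝓕.E fun ω => c.k'' (t • a j ω) + c.k'' (t • -a j ω) := rfl
  have e7 : gs 𝓕 c.k (a j) τ b i =
      (t ^ 2)⁻¹ * 𝓕.E fun ω => c.k (t • a j ω) + c.k (t • -a j ω) := rfl
  rw [e7]
  rw [e6] at h2
  nlinarith

theorem sum_shift_le {D G : ℤ → ℝ} (hD : ∀ i, 0 ≤ D i) {n r₀ m₂ r : ℕ} (hr : r₀ + m₂ ≤ r) (hn : 1 ≤ n)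
    (hrn : r ≤ n) {C' c : ℝ} (hc : 0 ≤ c) (hs : ∑ i ∈ Icc (-(r : ℤ)) (2 * n + r), D i ≤ n * C')
    (h : ∀ i ∈ Icc (-(r₀ : ℤ)) (2 * n + r₀), G i ≤ 32 * D (i + m₂) + c) :
    ∑ i ∈ Icc (-(r₀ : ℤ)) (2 * n + r₀), G i ≤ n * (32 * C' + 5 * c) := by
  have h1 := Finset.sum_le_sum h
  rw [Finset.sum_add_distrib, ← Finset.mul_sum, Finset.sum_const, nsmul_eq_mul] at h1
  have h2 : ∑ i ∈ Icc (-(r₀ : ℤ)) (2 * n + r₀), D (i + m₂) ≤ ∑ i ∈ Icc (-(r : ℤ)) (2 * n + r), D i := by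
    rw [← Finset.sum_image (s := Icc (-(r₀ : ℤ)) (2 * n + r₀)) (g := fun i => i + (m₂ : ℤ)) (f := D)
      (fun x _ y _ h => by simpa using h)]
    refine Finset.sum_le_sum_of_subset_of_nonneg ?_ fun i _ _ => hD i
    intro i hi
    simp only [mem_image, mem_Icc] at hi ⊢
    obtain ⟨x, hx, rfl⟩ := hi
    omega
  have h3 : ((Icc (-(r₀ : ℤ)) (2 * n + r₀)).card : ℝ) ≤ 5 * n := by
    rw [Int.card_Icc]
    have : (2 * (n : ℤ) + r₀ + 1 - -(r₀ : ℤ)).toNat ≤ 5 * n := by omega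
    exact_mod_cast this
  nlinarith

theorem half (𝓕 : Fam X) {k₁ k₂ : X → ℝ} (h₁ : Gauge k₁) (h₂ : Gauge k₂) (a : ℕ → 𝓕.Ω → X) (g : 𝓕.Ω → ℝ)
    {K m m₂ n : ℕ} {τ b ν ε Ca γ : ℝ} (hτ : 0 < τ) (hb : 1 < b) (hν : 0 < ν) (hm₂ : 16 ≤ b ^ m₂)
    (hm₂' : b ^ m₂ ≤ 32) (hCa : 0 ≤ Ca) (hg : 40 * 𝓕.E g ≤ ε)
    (hseq : ∀ G : ℕ → ℤ → ℝ, (∀ j i, 0 ≤ G j i) →
        (∀ j ≤ 2 * K, ∑ i ∈ Icc (-((m + m₂ + 1 : ℕ) : ℤ)) (2 * n + (m + m₂ + 1 : ℕ)), G j i ≤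
          n * (Ca * (1 + j) ^ 2)) →
        (∀ j < K, ∀ i ∈ Icc (0 : ℤ) (2 * n),
          PSeq (G (2 * j + 1)) (G (2 * j)) (G (2 * j + 2)) b m m₂ ν ε i) →
        (∀ j, j + 1 < K → ∀ i ∈ Icc (0 : ℤ) (2 * n),
          PSeq (G (2 * j + 2)) (G (2 * j + 3)) (G (2 * j + 1)) b (-(m : ℤ)) m₂ ν ε i) →
        Wt n (G 1) ≤ Wt n (G 0) + γ)
    (hb₁ : ∀ j ≤ K, ∑ i ∈ Icc (-((m + m₂ + 1 : ℕ) : ℤ)) (2 * n + (m + m₂ + 1 : ℕ)), gs 𝓕 k₁ (a j) τ b i ≤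
      n * (Ca * (1 + j) ^ 2))
    (hb₂ : ∀ j ≤ K, ∑ i ∈ Icc (-((m + m₂ + 1 : ℕ) : ℤ)) (2 * n + (m + m₂ + 1 : ℕ)), gs 𝓕 k₂ (a j) τ b i ≤
      n * (Ca * (1 + j) ^ 2))
    (hp₁ : ∀ j < K, ∀ i ∈ Icc (0 : ℤ) (2 * n), ∀ ω,
      PSI k₂ k₁ (a j ω) (a j ω) (a (j + 1) ω) b (b ^ (m : ℤ)) (4 * (ν / 2048)) (sc τ b i)
        (20 * (g ω * sc τ b i ^ 2)) ∧
      PSI k₂ k₁ (-a j ω) (-a j ω) (-a (j + 1) ω) b (b ^ (m : ℤ)) (4 * (ν / 2048)) (sc τ b i)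
        (20 * (g ω * sc τ b i ^ 2)))
    (hp₂ : ∀ j, j + 1 < K → ∀ i ∈ Icc (0 : ℤ) (2 * n), ∀ ω,
      PSI k₁ k₂ (a (j + 1) ω) (a (j + 1) ω) (a j ω) b (b ^ (-(m : ℤ))) (4 * (ν / 2048)) (sc τ b i)
        (20 * (g ω * sc τ b i ^ 2)) ∧
      PSI k₁ k₂ (-a (j + 1) ω) (-a (j + 1) ω) (-a j ω) b (b ^ (-(m : ℤ))) (4 * (ν / 2048)) (sc τ b i)
        (20 * (g ω * sc τ b i ^ 2))) :
    Wt n (gs 𝓕 k₂ (a 0) τ b) ≤ Wt n (gs 𝓕 k₁ (a 0) τ b) + γ := by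
  classical
  let G : ℕ → ℤ → ℝ := fun j => if j % 2 = 0 then gs 𝓕 k₁ (a (j / 2)) τ b else gs 𝓕 k₂ (a (j / 2)) τ b
  have hG0 : ∀ j, G (2 * j) = gs 𝓕 k₁ (a j) τ b := fun j => by
    simp only [G]; rw [if_pos (by omega), show 2 * j / 2 = j by omega]
  have hG1 : ∀ j, G (2 * j + 1) = gs 𝓕 k₂ (a j) τ b := fun j => by
    simp only [G]; rw [if_neg (by omega), show (2 * j + 1) / 2 = j by omega]
  have hν' : 512 * (4 * (ν / 2048)) = ν := by ring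
  have hE : 2 * 𝓕.E (fun ω => 20 * g ω) ≤ ε := by rw [𝓕.E_mul]; linarith
  have key := hseq G (fun j i => ?_) (fun j hj => ?_) (fun j hj i hi => ?_) (fun j hj i hi => ?_)
  · have e0 := hG0 0
    have e1 := hG1 0
    simp only [mul_zero, zero_add] at e0 e1
    rwa [e0, e1] at key
  · simp only [G]
    split_ifs
    · exact gs_nonneg 𝓕 h₁ _ _ _ _
    · exact gs_nonneg 𝓕 h₂ _ _ _ _
  · have hj2 : j / 2 ≤ K := by omega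
    have hle : (n : ℝ) * (Ca * (1 + ((j / 2 : ℕ) : ℝ)) ^ 2) ≤ n * (Ca * (1 + j) ^ 2) := by
      have : ((j / 2 : ℕ) : ℝ) ≤ j := by exact_mod_cast Nat.div_le_self j 2
      gcongr
    simp only [G]
    split_ifs
    · exact (hb₁ _ hj2).trans hle
    · exact (hb₂ _ hj2).trans hle
  · rw [hG1, hG0, show 2 * j + 2 = 2 * (j + 1) by ring, hG0]
    have := pseq_of_psi 𝓕 h₂ h₁ (a j) (a j) (a (j + 1)) (fun ω => 20 * g ω) hτ hb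
      (ν := 4 * (ν / 2048)) (by positivity) (m : ℤ) hm₂ hm₂' i
      (fun ω => by simpa only [mul_assoc] using (hp₁ j hj i hi ω).1)
      (fun ω => by simpa only [mul_assoc] using (hp₁ j hj i hi ω).2)
    rw [hν'] at this
    exact this.mono hE
  · rw [hG1, show 2 * j + 2 = 2 * (j + 1) by ring, hG0, show 2 * j + 3 = 2 * (j + 1) + 1 by ring, hG1]
    have := pseq_of_psi 𝓕 h₁ h₂ (a (j + 1)) (a (j + 1)) (a j) (fun ω => 20 * g ω) hτ hb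
      (ν := 4 * (ν / 2048)) (by positivity) (-(m : ℤ)) hm₂ hm₂' i
      (fun ω => by simpa only [mul_assoc] using (hp₂ j hj i hi ω).1)
      (fun ω => by simpa only [mul_assoc] using (hp₂ j hj i hi ω).2)
    rw [hν'] at this
    exact this.mono hE

/-- the quantity of `core` at one scale is `gs k'' - gs k` up to small errors. -/
theorem scale_apx (c : Ch S δ C θ) (hθ : 0 < θ) (𝓕 : Fam X) (a : 𝓕.Ω → X) (g : 𝓕.Ω → ℝ) {τ b ν : ℝ} {m₂ : ℕ}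
    (hτ : 0 < τ) (hb : 1 < b) (hm₂ : 16 ≤ b ^ m₂) (hm₂' : b ^ m₂ ≤ 32) (hν : 0 < ν) (hν2 : ν ≤ 1 / 2)
    (hg : ∀ ω, 0 ≤ g ω) (i : ℤ) (hJ : ∀ ω, c.Bp.J (a ω) = 0) (h1 : ∀ ω, ‖sc τ b i • a ω‖ < 1)
    (hgood : ∀ ω, ∀ x : X, (x = a ω ∨ x = -a ω) → ∀ s : ℝ, |s| ≤ 8 / ν →
      c.k (s • dX c.p (sc τ b i • x)) ≤ |s| * (g ω * sc τ b i ^ 2) ∧
        c.k' (s • c.Bp.dY (sc τ b i • x)) ≤ |s| * (g ω * sc τ b i ^ 2)) :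
    |(((sc τ b i) ^ 2)⁻¹ * 𝓕.E fun ω =>
        c.ψ (c.Bp.dY (sc τ b i • a ω) + c.Bp.dY (-(sc τ b i • a ω))) -
          c.φ (dX c.p (sc τ b i • a ω) + dX c.p (-(sc τ b i • a ω)))) -
      (gs 𝓕 c.k'' a τ b i - gs 𝓕 c.k a τ b i)| ≤
      128 * ν * (gs 𝓕 c.k'' a τ b (i + m₂) + gs 𝓕 c.k a τ b (i + m₂)) + 12 * 𝓕.E g := by
  have hb0 : 0 < b := by linarith
  have ht0 : 0 < sc τ b i := sc_pos hτ hb0 i
  have e2 := gs_scale 𝓕 c.gauge_k'' a (s := 4) hτ hb0 (m₂ := m₂) (by norm_num) (by linarith) i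
  have e2' := gs_scale 𝓕 (c.gauge_k hθ) a (s := 4) hτ hb0 (m₂ := m₂) (by norm_num) (by linarith) i
  have e3 := gs_nonneg 𝓕 c.gauge_k'' a τ b (i + m₂)
  have e3' := gs_nonneg 𝓕 (c.gauge_k hθ) a τ b (i + m₂)
  set t := sc τ b i with htdef
  have hti : 0 < (t ^ 2)⁻¹ := by positivity
  have hpt : ∀ ω, |(c.ψ (c.Bp.dY (t • a ω) + c.Bp.dY (-(t • a ω))) -
      c.φ (dX c.p (t • a ω) + dX c.p (-(t • a ω)))) -
      ((c.k'' (t • a ω) + c.k'' (t • -a ω)) - (c.k (t • a ω) + c.k (t • -a ω)))| ≤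
      ν * ((c.k'' ((4 * t) • a ω) + c.k'' ((4 * t) • -a ω)) + (c.k ((4 * t) • a ω) + c.k ((4 * t) • -a ω))) +
        12 * t ^ 2 * g ω := by
    intro ω
    have hgt : 0 ≤ g ω * t ^ 2 := mul_nonneg (hg ω) (by positivity)
    have f1 := c.E0_apx hθ (a := t • a ω) (by rw [map_smul, hJ, smul_zero]) (h1 ω) hν hν2 hgt
      (fun s hs => (hgood ω _ (Or.inl rfl) s hs).1) (fun s hs => (hgood ω _ (Or.inl rfl) s hs).2)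
    have f2 := c.E0_apx hθ (a := t • -a ω) (by rw [map_smul, map_neg, hJ, neg_zero, smul_zero])
      (by rw [smul_neg, norm_neg]; exact h1 ω) hν hν2 hgt
      (fun s hs => (hgood ω _ (Or.inr rfl) s hs).1) (fun s hs => (hgood ω _ (Or.inr rfl) s hs).2)
    rw [smul_smul] at f1 f2
    rw [← smul_neg, map_add, map_add]
    rw [abs_le] at f1 f2 ⊢
    constructor <;> nlinarith [f1.1, f1.2, f2.1, f2.2]
  have e6 : gs 𝓕 c.k'' a τ b i = (t ^ 2)⁻¹ * 𝓕.E fun ω => c.k'' (t • a ω) + c.k'' (t • -a ω) := rfl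
  have e7 : gs 𝓕 c.k a τ b i = (t ^ 2)⁻¹ * 𝓕.E fun ω => c.k (t • a ω) + c.k (t • -a ω) := rfl
  rw [e6, e7, ← mul_sub, ← mul_sub, ← 𝓕.E_sub, ← 𝓕.E_sub, abs_mul, abs_of_pos hti]
  have e8 := (𝓕.E_abs_le _).trans (𝓕.E_mono hpt)
  rw [𝓕.E_add, 𝓕.E_mul, 𝓕.E_mul, 𝓕.E_add] at e8
  have e9 := mul_le_mul_of_nonneg_left e8 hti.le
  refine e9.trans ?_
  have e10 : (t ^ 2)⁻¹ * (12 * t ^ 2 * 𝓕.E g) = 12 * 𝓕.E g := by field_simp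
  have e11 : 4 * b ^ m₂ * gs 𝓕 c.k'' a τ b (i + m₂) ≤ 128 * gs 𝓕 c.k'' a τ b (i + m₂) := by nlinarith
  have e12 : 4 * b ^ m₂ * gs 𝓕 c.k a τ b (i + m₂) ≤ 128 * gs 𝓕 c.k a τ b (i + m₂) := by nlinarith
  have e13 := mul_le_mul_of_nonneg_left (add_le_add (e2.trans e11) (e2'.trans e12)) hν.le
  rw [mul_add, e10]
  nlinarith

/-- **Core.** -/
theorem core (hδ : 0 < δ) (hC : 1 ≤ C) (hθ : 0 < θ) {C' γ : ℝ} (hC' : 0 ≤ C') (hγ : 0 < γ) :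
    ∃ (K n r : ℕ) (b sm ε δ₄ : ℝ), 1 ≤ n ∧ r ≤ n ∧ 1 < b ∧ 0 < sm ∧ 0 < ε ∧ 0 < δ₄ ∧ δ₄ ≤ δ ∧
      ∀ (S : SI X Y) (c : Ch S δ C θ) (𝓕 : Fam X) (τ A : ℝ) (ap am : ℕ → 𝓕.Ω → X) (Mx g : 𝓕.Ω → ℝ),
        0 < τ → 0 ≤ A → (∀ ω, am 0 ω = ap 0 ω) →
        (∀ j < K, ∀ ω, c.Rel (ap j ω) (ap (j + 1) ω) A ∧ c.Rel (am (j + 1) ω) (am j ω) A) →
        (∀ j ≤ K, ∀ ω, c.Bp.J (ap j ω) = 0 ∧ c.Bp.J (am j ω) = 0 ∧ ‖ap j ω‖ ≤ Mx ω ∧ ‖am j ω‖ ≤ Mx ω) →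
        𝓕.E (fun ω => Mx ω ^ 2) ≤ 100 →
        (∀ ω, sc τ b (2 * n + r) * (Mx ω + A) ≤ δ₄) →
        ∑ i ∈ Icc (-(r : ℤ)) (2 * n + r), ((sc τ b i) ^ 2)⁻¹ *
          𝓕.E (fun ω => D2 c.w (sc τ b i • c.Bp.T (ap 0 ω))) ≤ n * C' →
        (∀ ω, 0 ≤ g ω) → 𝓕.E g ≤ ε →
        (∀ j ≤ K, ∀ i ∈ Icc (0 : ℤ) (2 * n), ∀ ω, ∀ a : X,
          (a = ap j ω ∨ a = -ap j ω ∨ a = am j ω ∨ a = -am j ω) → ∀ s : ℝ, |s| ≤ sm →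
            c.k (s • dX c.p (sc τ b i • a)) ≤ |s| * (g ω * sc τ b i ^ 2) ∧
            c.k' (s • c.Bp.dY (sc τ b i • a)) ≤ |s| * (g ω * sc τ b i ^ 2)) →
        |Wt n fun i => ((sc τ b i) ^ 2)⁻¹ * 𝓕.E fun ω =>
          c.ψ (c.Bp.dY (sc τ b i • ap 0 ω) + c.Bp.dY (-(sc τ b i • ap 0 ω))) -
            c.φ (dX c.p (sc τ b i • ap 0 ω) + dX c.p (-(sc τ b i • ap 0 ω)))| ≤ γ := by
  obtain ⟨C₂, δ₃, hC₂, hδ₃, tame⟩ := tame_lemma (X := X) (Y := Y) hδ hC hθ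
  set Ca := 32 * C' + 2000 * C₂ + 6000 * C + 1 with hCa
  have hCa1 : 1 ≤ Ca := by rw [hCa]; nlinarith
  obtain ⟨K, m, m₂, n, b, ν, ε, hK, hb, hb2, hbm, hm₂, hm₂', hn, hν, hν1, hνCa, hε, hεγ, hseq⟩ :=
    seq hCa1 (half_pos hγ)
  have hK0 : (0 : ℝ) < K := by exact_mod_cast hK
  have hν₀ : 0 < ν / 2048 := by positivity
  have hν₀' : ν / 2048 ≤ 1 / 2 := by linarith
  have hn1 : 1 ≤ n := by omega
  have hb0 : 0 < b := by linarith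
  refine ⟨K, n, m + 2 * m₂ + 1, b, 8 / (ν / 2048), ε / 40,
    min (min (1 / 2) δ) (min (ν / 2048 / 8) (δ₃ / (2 * K))), hn1, hn, hb, by positivity, by positivity,
    by positivity, (min_le_left _ _).trans (min_le_right _ _), ?_⟩
  intro S c 𝓕 τ A ap am Mx g hτ hA h0 hrel hJ hE hsm hD hg hgE hgood
  have hM0 : ∀ ω, 0 ≤ Mx ω := fun ω => (norm_nonneg _).trans (hJ 0 (Nat.zero_le _) ω).2.2.1
  -- smallness at all scales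
  have hsm' : ∀ i : ℤ, i ≤ 2 * n + (m + 2 * m₂ + 1 : ℕ) → ∀ ω,
      (2 * K * sc τ b i * Mx ω ≤ δ₃ ∧ sc τ b i * Mx ω ≤ 1 / 2 ∧ sc τ b i * Mx ω ≤ δ) ∧
        8 / (ν / 2048) * (sc τ b i * A) ≤ 1 := by
    intro i hi ω
    have e1 := sc_mono hτ.le hb.le hi
    have e2 := sc_pos hτ hb0 i
    have e3 := hsm ω
    have e4 := hM0 ω
    have e5 : sc τ b i * (Mx ω + A) ≤ sc τ b (2 * n + (m + 2 * m₂ + 1 : ℕ)) * (Mx ω + A) := by gcongr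
    have e6 := e5.trans e3
    simp only [le_min_iff] at e6
    obtain ⟨⟨f1, f2⟩, f3, f4⟩ := e6
    have e7 : sc τ b i * Mx ω ≤ sc τ b i * (Mx ω + A) := by nlinarith
    have e8 : sc τ b i * A ≤ sc τ b i * (Mx ω + A) := by nlinarith
    refine ⟨⟨?_, e7.trans f1, e7.trans f2⟩, ?_⟩
    · have := e7.trans f4
      rw [le_div_iff₀ (by positivity)] at this
      linarith
    · have := e8.trans f3
      rw [le_div_iff₀ (by positivity)] at this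
      rw [div_mul_eq_mul_div, div_le_one hν₀]
      linarith
  have hlt : ∀ i : ℤ, i ≤ 2 * n + (m + 2 * m₂ + 1 : ℕ) → ∀ ω, ∀ x : X, ‖x‖ ≤ Mx ω → ‖sc τ b i • x‖ < 1 := by
    intro i hi ω x hx
    have e2 := sc_pos hτ hb0 i
    rw [norm_smul, Real.norm_of_nonneg e2.le]
    have := (hsm' i hi ω).1.2.1
    nlinarith
  -- a priori bounds
  have hbound : ∀ a : ℕ → 𝓕.Ω → X, (∀ ω, a 0 ω = ap 0 ω) →
      (∀ l < K, ∀ ω, ∀ σ : ℝ, |σ| * Mx ω ≤ δ₃ →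
        c.k'' (σ • (a (l + 1) ω - a l ω)) ≤ C₂ * σ ^ 2 * Mx ω ^ 2) →
      (∀ j ≤ K, ∀ ω, c.Bp.J (a j ω) = 0 ∧ ‖a j ω‖ ≤ Mx ω) → ∀ j ≤ K,
      ∑ i ∈ Icc (-((m + m₂ + 1 : ℕ) : ℤ)) (2 * n + (m + m₂ + 1 : ℕ)), gs 𝓕 c.k'' (a j) τ b i ≤
        n * (Ca * (1 + j) ^ 2) ∧
      ∑ i ∈ Icc (-((m + m₂ + 1 : ℕ) : ℤ)) (2 * n + (m + m₂ + 1 : ℕ)), gs 𝓕 c.k (a j) τ b i ≤
        n * (Ca * (1 + j) ^ 2) := by
    intro a ha0 ht hJa j hj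
    have ha0' : a 0 = ap 0 := funext ha0
    have hD' : ∑ i ∈ Icc (-((m + 2 * m₂ + 1 : ℕ) : ℤ)) (2 * n + (m + 2 * m₂ + 1 : ℕ)),
        gs 𝓕 c.k'' (a 0) τ b i ≤ n * C' := by
      rw [ha0']
      simpa only [gs_k''_eq] using hD
    have hcb : ∀ i ∈ Icc (-((m + m₂ + 1 : ℕ) : ℤ)) (2 * n + (m + m₂ + 1 : ℕ)), _ := fun i hi =>
      chain_bounds c hθ hC 𝓕 a Mx hτ hb hm₂ hm₂' hC₂.le ht hJa hE (i := i)
        (fun ω => (hsm' i (by have := (mem_Icc.1 hi).2; omega) ω).1) hj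
    have hj0 : (0 : ℝ) ≤ j := Nat.cast_nonneg j
    have hn0 : (0 : ℝ) ≤ n := Nat.cast_nonneg n
    have s1 := sum_shift_le (gs_nonneg 𝓕 c.gauge_k'' (a 0) τ b) (r₀ := m + m₂ + 1) (m₂ := m₂) (by omega) hn1 hn
      (c := 400 * C₂ * j ^ 2) (by positivity) hD' fun i hi => (hcb i hi).1
    have s2 := sum_shift_le (gs_nonneg 𝓕 c.gauge_k'' (a 0) τ b) (r₀ := m + m₂ + 1) (m₂ := m₂) (by omega) hn1 hn
      (c := 400 * C₂ * j ^ 2 + 1200 * C) (G := gs 𝓕 c.k (a j) τ b) (by positivity) hD' fun i hi => by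
        have := (hcb i hi).2
        linarith
    have hle : 32 * C' + 5 * (400 * C₂ * j ^ 2 + 1200 * C) ≤ Ca * (1 + j) ^ 2 := by
      have q1 : (1 : ℝ) ≤ (1 + j) ^ 2 := by nlinarith
      have q2 : (j : ℝ) ^ 2 ≤ (1 + j) ^ 2 := by nlinarith
      have q3 := mul_le_mul_of_nonneg_left q1 hC'
      have q4 := mul_le_mul_of_nonneg_left q2 hC₂.le
      have q5 := mul_le_mul_of_nonneg_left q1 (by linarith : 0 ≤ C)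
      rw [hCa]
      nlinarith
    refine ⟨s1.trans ?_, s2.trans ?_⟩
    · gcongr
      linarith
    · gcongr
  have bp := hbound ap (fun _ => rfl) (fun l hl ω σ hσ => by
      have e := tame S c _ _ A (-σ) (hrel l hl ω).1 (by
        rw [abs_neg]
        exact le_trans (mul_le_mul_of_nonneg_left (hJ (l + 1) hl ω).2.2.1 (abs_nonneg _)) hσ)
      rw [neg_smul, ← smul_neg, neg_sub, neg_sq] at e
      refine e.trans ?_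
      have := (hJ (l + 1) hl ω).2.2.1
      gcongr)
    fun j hj ω => ⟨(hJ j hj ω).1, (hJ j hj ω).2.2.1⟩
  have bm := hbound am h0 (fun l hl ω σ hσ => by
      have e := tame S c _ _ A σ (hrel l hl ω).2
        (le_trans (mul_le_mul_of_nonneg_left (hJ l hl.le ω).2.2.2 (abs_nonneg _)) hσ)
      refine e.trans ?_
      have := (hJ l hl.le ω).2.2.2
      gcongr)
    fun j hj ω => ⟨(hJ j hj ω).2.1, (hJ j hj ω).2.2.2⟩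
  have hκ1 : (1 : ℝ) ≤ b ^ m := one_le_pow₀ hb.le
  have k1 : 1 / 2 ≤ b ^ (m : ℤ) := by rw [zpow_natCast]; linarith
  have k2 : b ^ (m : ℤ) ≤ 2 := by rwa [zpow_natCast]
  have k3 : 1 / 2 ≤ b ^ (-(m : ℤ)) := by
    rw [zpow_neg, zpow_natCast, one_div]; exact inv_anti₀ (by positivity) hbm
  have k4 : b ^ (-(m : ℤ)) ≤ 2 := by
    rw [zpow_neg, zpow_natCast]; exact (inv_le_one_of_one_le₀ hκ1).trans (by norm_num)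
  have hI : ∀ i ∈ Icc (0 : ℤ) (2 * n), i ≤ 2 * n + (m + 2 * m₂ + 1 : ℕ) := fun i hi => by
    have := (mem_Icc.1 hi).2; omega
  have hgt : ∀ i ω, 0 ≤ g ω * sc τ b i ^ 2 := fun i ω => mul_nonneg (hg ω) (by positivity)
  have hF : ∀ {x x' : X} {κ : ℝ} {j : ℕ} {ω : 𝓕.Ω} {i : ℤ}, c.Rel x x' A → 1 / 2 ≤ κ → κ ≤ 2 → j ≤ K →
      i ∈ Icc (0 : ℤ) (2 * n) → ‖x‖ ≤ Mx ω →
      (x = ap j ω ∨ x = -ap j ω ∨ x = am j ω ∨ x = -am j ω) →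
      PSI c.k'' c.k x x x' b κ (4 * (ν / 2048)) (sc τ b i) (20 * (g ω * sc τ b i ^ 2)) :=
    fun {x x' κ j ω i} h q1 q2 hj hi hx hor =>
      c.psiF hθ h hb hb2 q1 q2 hν₀ hν₀' (sc_pos hτ hb0 i) (hgt i ω) (hlt i (hI i hi) ω x hx)
        (hsm' i (hI i hi) ω).2 (fun s hs => (hgood j hj i hi ω x hor s hs).1)
        (fun s hs => (hgood j hj i hi ω x hor s hs).2)
  have hB : ∀ {x x' : X} {κ : ℝ} {j : ℕ} {ω : 𝓕.Ω} {i : ℤ}, c.Rel x x' A → 1 / 2 ≤ κ → κ ≤ 2 → j ≤ K →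
      i ∈ Icc (0 : ℤ) (2 * n) → ‖x'‖ ≤ Mx ω →
      (x' = ap j ω ∨ x' = -ap j ω ∨ x' = am j ω ∨ x' = -am j ω) →
      PSI c.k c.k'' x' x' x b κ (4 * (ν / 2048)) (sc τ b i) (20 * (g ω * sc τ b i ^ 2)) :=
    fun {x x' κ j ω i} h q1 q2 hj hi hx hor =>
      c.psiB hθ h hb hb2 q1 q2 hν₀ hν₀' (sc_pos hτ hb0 i) (hgt i ω) (hlt i (hI i hi) ω x' hx)
        (hsm' i (hI i hi) ω).2 (fun s hs => (hgood j hj i hi ω x' hor s hs).1)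
        (fun s hs => (hgood j hj i hi ω x' hor s hs).2)
  have hgE' : 40 * 𝓕.E g ≤ ε := by linarith
  have w1 := half 𝓕 (c.gauge_k hθ) c.gauge_k'' ap g hτ hb hν hm₂ hm₂' (by linarith) hgE' hseq
    (fun j hj => (bp j hj).2) (fun j hj => (bp j hj).1)
    (fun j hj i hi ω => ⟨hF (hrel j hj ω).1 k1 k2 hj.le hi (hJ j hj.le ω).2.2.1 (Or.inl rfl),
      hF (hrel j hj ω).1.neg k1 k2 hj.le hi (by rw [norm_neg]; exact (hJ j hj.le ω).2.2.1)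
        (Or.inr (Or.inl rfl))⟩)
    (fun j hj i hi ω => ⟨hB (hrel j (by omega) ω).1 k3 k4 hj.le hi (hJ _ hj.le ω).2.2.1 (Or.inl rfl),
      hB (hrel j (by omega) ω).1.neg k3 k4 hj.le hi (by rw [norm_neg]; exact (hJ _ hj.le ω).2.2.1)
        (Or.inr (Or.inl rfl))⟩)
  have w2 := half 𝓕 c.gauge_k'' (c.gauge_k hθ) am g hτ hb hν hm₂ hm₂' (by linarith) hgE' hseq
    (fun j hj => (bm j hj).1) (fun j hj => (bm j hj).2)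
    (fun j hj i hi ω => ⟨hB (hrel j hj ω).2 k1 k2 hj.le hi (hJ j hj.le ω).2.2.2 (Or.inr (Or.inr (Or.inl rfl))),
      hB (hrel j hj ω).2.neg k1 k2 hj.le hi (by rw [norm_neg]; exact (hJ j hj.le ω).2.2.2)
        (Or.inr (Or.inr (Or.inr rfl)))⟩)
    (fun j hj i hi ω => ⟨hF (hrel j (by omega) ω).2 k3 k4 hj.le hi (hJ _ hj.le ω).2.2.2
        (Or.inr (Or.inr (Or.inl rfl))),
      hF (hrel j (by omega) ω).2.neg k3 k4 hj.le hi (by rw [norm_neg]; exact (hJ _ hj.le ω).2.2.2)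
        (Or.inr (Or.inr (Or.inr rfl)))⟩)
  rw [show am 0 = ap 0 from funext h0] at w2
  -- comparison with the quantity to be bounded
  have hsc : ∀ i ∈ Icc (0 : ℤ) (2 * n), _ := fun i hi =>
    scale_apx c hθ 𝓕 (ap 0) g hτ hb hm₂ hm₂' hν₀ hν₀' hg i (fun ω => (hJ 0 (Nat.zero_le _) ω).1)
      (fun ω => hlt i (hI i hi) ω _ (hJ 0 (Nat.zero_le _) ω).2.2.1)
      (fun ω x hx s hs => hgood 0 (Nat.zero_le _) i hi ω x (by tauto) s hs)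
  have w3 := (Wt_abs_le n _).trans (Wt_mono n hsc)
  rw [Wt_sub, Wt_sub, Wt_add, Wt_mul, Wt_add, Wt_const hn1] at w3
  have hn0 : (0 : ℝ) < n := by exact_mod_cast hn1
  have hs₂ : |(m₂ : ℤ)| ≤ (m + m₂ + 1 : ℕ) := by rw [abs_of_nonneg (by positivity)]; omega
  have w4 := Wt_shift_le hn1 (gs_nonneg 𝓕 c.gauge_k'' (ap 0) τ b) hs₂
  have w5 := Wt_shift_le hn1 (gs_nonneg 𝓕 (c.gauge_k hθ) (ap 0) τ b) hs₂
  have b1 := (bp 0 (Nat.zero_le _)).1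
  have b2 := (bp 0 (Nat.zero_le _)).2
  simp only [Nat.cast_zero, add_zero, one_pow, mul_one] at b1 b2
  have w6 := w4.trans ((div_le_iff₀' hn0).2 b1)
  have w7 := w5.trans ((div_le_iff₀' hn0).2 b2)
  have w8 : 128 * (ν / 2048) * (Wt n (fun i => gs 𝓕 c.k'' (ap 0) τ b (i + m₂)) +
      Wt n fun i => gs 𝓕 c.k (ap 0) τ b (i + m₂)) ≤ 128 * (ν / 2048) * (Ca + Ca) := by gcongr
  rw [abs_le] at w3 ⊢
  constructor <;> nlinarith [w3.1, w3.2]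

end Crest.Agent.R74
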