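import Crest.Agent.R74.TC1

/-!
# Row 74: second and third order consequences of tameness
-/

namespace Crest.Agent.R74

open Finset

variable {X Y : Type*} [NormedAddCommGroup X] [NormedSpace ℝ X] [NormedAddCommGroup Y]
  [NormedSpace ℝ Y]

variable {S : SI X Y} {p : X} {δ C : ℝ}

theorem tc2_setup (h : TC0 S p δ C) {x x' : X} (hx : ‖x‖ ≤ δ / 4) (hx' : ‖x'‖ ≤ δ / 4)
    (hx1 : ‖x'‖ ≤ 1 / 4) : ∃ (n : ℝ) (s c : X), 3 / 4 ≤ n ∧ ‖s‖ = 1 ∧ n • s = p + x' ∧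
      n • (s + c) = p + x ∧ n • c = x - x' ∧ ‖s - p‖ ≤ 2 * ‖x'‖ ∧ ‖s - p‖ ≤ δ ∧ ‖c‖ ≤ δ ∧
      n * ‖c‖ ^ 2 ≤ 2 * (‖x‖ + ‖x'‖) * ‖x - x'‖ := by
  have hp := h.hp
  have h1 : ‖x'‖ < 1 := by linarith
  have hn : 3 / 4 ≤ ‖p + x'‖ := by
    have := norm_sub_le (p + x') x'
    rw [add_sub_cancel_right, hp] at this
    linarith
  have hn0 : 0 < ‖p + x'‖ := by linarith
  have hc : ‖p + x'‖ • (‖p + x'‖⁻¹ • (x - x')) = x - x' := smul_inv_smul₀ hn0.ne' _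
  have hcn : ‖p + x'‖ * ‖‖p + x'‖⁻¹ • (x - x')‖ = ‖x - x'‖ := by
    conv_rhs => rw [← hc, norm_smul, norm_norm]
  have he := norm_sub_le x x'
  have hs := sph_sub_le hp h1
  have h0 := norm_nonneg (‖p + x'‖⁻¹ • (x - x'))
  have h0' := norm_nonneg x'
  have h0'' := norm_nonneg (x - x')
  have hcl : ‖‖p + x'‖⁻¹ • (x - x')‖ ≤ 2 * ‖x - x'‖ := by nlinarith
  refine ⟨‖p + x'‖, sph p x', ‖p + x'‖⁻¹ • (x - x'), hn, norm_sph hp h1, smul_sph hp h1, ?_, hc,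
    hs, by linarith, by linarith, ?_⟩
  · rw [smul_add, smul_sph hp h1, hc]; abel
  · rw [pow_two, ← mul_assoc, hcn]
    nlinarith

/-- the remainder `ρ x = F (p + x) - F p - T x` is Lipschitz with a small constant.  With `z = p + x'`,
`s = ‖z‖⁻¹ z = sph p x'` (a `BS` point by `ex`, `‖s - p‖ ≤ 2‖x'‖`), `e = x - x'`:
`F (z + e) - F z = ‖z‖ (F (s + ‖z‖⁻¹ e) - F s) = T_s e + O(C ‖e‖² / ‖z‖)` (`hF`), `‖T_s e - T e‖ ≤ 2 C ‖x'‖ ‖e‖`. -/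
theorem rF_lip (h : TC0 S p δ C) (hC : 0 ≤ C) (B : BS S p) {x x' : X} (hx : ‖x‖ ≤ δ / 4) (hx' : ‖x'‖ ≤ δ / 4)
    (hx1 : ‖x'‖ ≤ 1 / 4) :
    ‖(S.F (p + x) - S.F p - B.T x) - (S.F (p + x') - S.F p - B.T x')‖ ≤
      4 * C * (‖x‖ + ‖x'‖) * ‖x - x'‖ := by
  obtain ⟨n, s, c, hn, hs1, e1, e2, e3, hsp, hsδ, hcδ, hnc⟩ := tc2_setup h hx hx' hx1
  obtain ⟨Bs⟩ := h.ex s hs1 hsδ
  have hδ : ‖p - p‖ ≤ δ := by rw [sub_self, norm_zero]; linarith [norm_nonneg x]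
  have h1 := h.hF s Bs hsδ c hcδ
  have h2 := h.lipT s p Bs B hsδ hδ (x - x')
  have e : (S.F (p + x) - S.F p - B.T x) - (S.F (p + x') - S.F p - B.T x') =
      n • (S.F (s + c) - S.F s - Bs.T c) + (Bs.T (x - x') - B.T (x - x')) := by
    rw [← e1, ← e2, S.smul, S.smul, smul_sub, smul_sub, ← map_smul Bs.T, e3, map_sub B.T]
    abel
  rw [e]
  refine (norm_add_le _ _).trans ?_
  rw [norm_smul, Real.norm_of_nonneg (by linarith)]
  have h3 : n * ‖S.F (s + c) - S.F s - Bs.T c‖ ≤ C * (2 * (‖x‖ + ‖x'‖) * ‖x - x'‖) :=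
    calc n * ‖S.F (s + c) - S.F s - Bs.T c‖ ≤ n * (C * ‖c‖ ^ 2) := by gcongr
      _ = C * (n * ‖c‖ ^ 2) := by ring
      _ ≤ _ := by gcongr
  have h4 : C * ‖s - p‖ * ‖x - x'‖ ≤ C * (2 * (‖x‖ + ‖x'‖)) * ‖x - x'‖ := by
    gcongr; linarith [norm_nonneg x]
  linarith

/-- the same for `η x = ‖p + x‖ - 1 - J x` (`hX`, `lipJ`, and `0 ≤ ‖s + c‖ - 1 - J_s c`). -/
theorem rN_lip (h : TC0 S p δ C) (hC : 0 ≤ C) (B : BS S p) {x x' : X} (hx : ‖x‖ ≤ δ / 4) (hx' : ‖x'‖ ≤ δ / 4)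
    (hx1 : ‖x'‖ ≤ 1 / 4) :
    |(‖p + x‖ - 1 - B.J x) - (‖p + x'‖ - 1 - B.J x')| ≤ 4 * C * (‖x‖ + ‖x'‖) * ‖x - x'‖ := by
  obtain ⟨n, s, c, hn, hs1, e1, e2, e3, hsp, hsδ, hcδ, hnc⟩ := tc2_setup h hx hx' hx1
  obtain ⟨Bs⟩ := h.ex s hs1 hsδ
  have hδ : ‖p - p‖ ≤ δ := by rw [sub_self, norm_zero]; linarith [norm_nonneg x]
  have h1 := h.hX s Bs hsδ c hcδ
  have h1' : 0 ≤ ‖s + c‖ - 1 - Bs.J c := by
    have := Bs.hJ.sub_le c
    rw [hs1] at this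
    linarith
  have h2 := h.lipJ s p Bs B hsδ hδ (x - x')
  have hn0 : 0 ≤ n := by linarith
  have e : (‖p + x‖ - 1 - B.J x) - (‖p + x'‖ - 1 - B.J x') =
      n * (‖s + c‖ - 1 - Bs.J c) + (Bs.J (x - x') - B.J (x - x')) := by
    have e4 : Bs.J (x - x') = n * Bs.J c := by rw [← e3, map_smul, smul_eq_mul]
    rw [← e1, ← e2, norm_smul, norm_smul, Real.norm_of_nonneg hn0, hs1, e4, map_sub B.J]
    ring
  rw [e]
  refine (abs_add_le _ _).trans ?_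
  rw [abs_of_nonneg (mul_nonneg hn0 h1')]
  have h3 : n * (‖s + c‖ - 1 - Bs.J c) ≤ C * (2 * (‖x‖ + ‖x'‖) * ‖x - x'‖) :=
    calc n * (‖s + c‖ - 1 - Bs.J c) ≤ n * (C * ‖c‖ ^ 2) := by gcongr
      _ = C * (n * ‖c‖ ^ 2) := by ring
      _ ≤ _ := by gcongr
  have h4 : C * ‖s - p‖ * ‖x - x'‖ ≤ C * (2 * (‖x‖ + ‖x'‖)) * ‖x - x'‖ := by
    gcongr; linarith [norm_nonneg x]
  linarith

/-- for `a ∈ ker J`: `dY a = ρ a - η a • F (sph p a)`. -/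
theorem dY_eq (B : BS S p) {a : X} (ha1 : ‖a‖ < 1) :
    B.dY a = (S.F (p + a) - S.F p - B.T a) - (‖p + a‖ - 1) • S.F (sph p a) := by
  have e : S.F (p + a) = ‖p + a‖ • S.F (sph p a) := by rw [← S.smul, smul_sph B.hp ha1]
  rw [BS.dY, sub_smul, ← e, one_smul]
  abel

theorem dX_eq (hp : ‖p‖ = 1) {a : X} (ha1 : ‖a‖ < 1) : dX p a = -(‖p + a‖ - 1) • sph p a := by
  rw [neg_sub, sub_smul, smul_sph hp ha1, one_smul, dX, sub_sub]

/-- homogeneity: with `a = pr c`, `λ = J c`: `p + c = (1 + λ) (p + (1 + λ)⁻¹ a)`, so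
`ρ c = (1 + λ) ρ ((1 + λ)⁻¹ a)` (`T_p`) and `η c = (1 + λ) η ((1 + λ)⁻¹ a)`; then `rF_lip`, `rN_lip`, `hF`, `hX`. -/
theorem r_pr (h : TC0 S p δ C) (hC : 0 ≤ C) (B : BS S p) {c : X} (hc : ‖c‖ ≤ δ / 16) (hc1 : ‖c‖ ≤ 1 / 16) :
    ‖(S.F (p + c) - S.F p - B.T c) - (S.F (p + B.pr c) - S.F p - B.T (B.pr c))‖ ≤ 100 * C * ‖c‖ ^ 3 ∧
      |(‖p + c‖ - 1 - B.J c) - (‖p + B.pr c‖ - 1)| ≤ 100 * C * ‖c‖ ^ 3 := by
  set a := B.pr c with ha
  set l := B.J c with hl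
  have hc0 := norm_nonneg c
  have hl1 : |l| ≤ ‖c‖ := B.hJ.abs_le c
  have hl2 := abs_le.1 hl1
  have hl0 : 0 < 1 + l := by linarith [hl2.1]
  have hJa : B.J a = 0 := B.J_pr c
  have han : ‖a‖ ≤ 2 * ‖c‖ := B.pr_le c
  set a' := (1 + l)⁻¹ • a with ha'
  have e0 : (1 + l) • a' = a := smul_inv_smul₀ hl0.ne' _
  have hca : c = a + l • p := by rw [ha, BS.pr, sub_add_cancel]
  have e1 : p + c = (1 + l) • (p + a') := by
    rw [smul_add, e0, add_smul, one_smul]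
    conv_lhs => rw [hca]
    abel
  have hJa' : B.J a' = 0 := by rw [ha', map_smul, hJa, smul_zero]
  have hn : (1 + l) * ‖a'‖ = ‖a‖ := by
    conv_rhs => rw [← e0, norm_smul, Real.norm_of_nonneg hl0.le]
  have ha'0 := norm_nonneg a'
  have ha'n : ‖a'‖ ≤ 3 * ‖c‖ := by nlinarith [hl2.1]
  have hd : ‖a' - a‖ ≤ 3 * ‖c‖ ^ 2 := by
    have : a' - a = (-l) • a' := by
      conv_lhs => rw [← e0]
      module
    rw [this, norm_smul, Real.norm_eq_abs, abs_neg]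
    calc |l| * ‖a'‖ ≤ ‖c‖ * (3 * ‖c‖) := by gcongr
      _ = _ := by ring
  have hδ : ‖p - p‖ ≤ δ := by rw [sub_self, norm_zero]; linarith
  have k1 : 4 * C * (‖a'‖ + ‖a‖) * ‖a' - a‖ ≤ 60 * C * ‖c‖ ^ 3 :=
    calc 4 * C * (‖a'‖ + ‖a‖) * ‖a' - a‖ ≤ 4 * C * (3 * ‖c‖ + 2 * ‖c‖) * (3 * ‖c‖ ^ 2) := by gcongr
      _ = _ := by ring
  have k2 : |l| * (C * ‖a'‖ ^ 2) ≤ 9 * C * ‖c‖ ^ 3 :=
    calc |l| * (C * ‖a'‖ ^ 2) ≤ ‖c‖ * (C * (3 * ‖c‖) ^ 2) := by gcongr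
      _ = _ := by ring
  have k3 : 0 ≤ C * ‖c‖ ^ 3 := by positivity
  constructor
  · have h1 := rF_lip h hC B (x := a') (x' := a) (by linarith) (by linarith) (by linarith)
    have h2 := h.hF p B hδ a' (by linarith)
    have eT : B.T c = (1 + l) • B.T a' + l • S.F p := by
      rw [← map_smul, e0, ← B.T_p, ← map_smul, ← map_add, ← hca]
    have e : (S.F (p + c) - S.F p - B.T c) - (S.F (p + a) - S.F p - B.T a) =
        l • (S.F (p + a') - S.F p - B.T a') +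
          ((S.F (p + a') - S.F p - B.T a') - (S.F (p + a) - S.F p - B.T a)) := by
      rw [e1, S.smul, eT]
      module
    rw [e]
    refine (norm_add_le _ _).trans ?_
    rw [norm_smul, Real.norm_eq_abs]
    have : |l| * ‖S.F (p + a') - S.F p - B.T a'‖ ≤ |l| * (C * ‖a'‖ ^ 2) := by gcongr
    linarith
  · have h1 := rN_lip h hC B (x := a') (x' := a) (by linarith) (by linarith) (by linarith)
    have h2 := h.hX p B hδ a' (by linarith)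
    have h2' : 0 ≤ ‖p + a'‖ - 1 - B.J a' := by
      have := B.hJ.sub_le a'
      rw [B.hp] at this
      linarith
    have e : (‖p + c‖ - 1 - l) - (‖p + a‖ - 1) = l * (‖p + a'‖ - 1 - B.J a') +
        ((‖p + a'‖ - 1 - B.J a') - (‖p + a‖ - 1 - B.J a)) := by
      rw [e1, norm_smul, Real.norm_of_nonneg hl0.le, hJa, hJa']
      ring
    rw [e]
    refine (abs_add_le _ _).trans ?_
    rw [abs_mul, abs_of_nonneg h2']
    have : |l| * (‖p + a'‖ - 1 - B.J a') ≤ |l| * (C * ‖a'‖ ^ 2) := by gcongr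
    linarith

theorem tc2_eta (h : TC0 S p δ C) (B : BS S p) {a : X} (ha : B.J a = 0) (haδ : ‖a‖ ≤ δ) :
    |‖p + a‖ - 1| ≤ C * ‖a‖ ^ 2 := by
  have hδ : ‖p - p‖ ≤ δ := by rw [sub_self, norm_zero]; linarith [norm_nonneg a]
  have h1 := h.hX p B hδ a haδ
  have h2 := B.hJ.sub_le a
  rw [B.hp, ha] at h2
  rw [ha, sub_zero] at h1
  rwa [abs_of_nonneg h2]

theorem tc2_cub (h : TC0 S p δ C) (hC : 0 ≤ C) (B : BS S p) {a : X} (ha : B.J a = 0)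
    (haδ : ‖a‖ ≤ δ) (ha1 : ‖a‖ < 1) : ‖dX p a + (‖p + a‖ - 1) • p‖ ≤ 2 * C * ‖a‖ ^ 3 := by
  have e : dX p a + (‖p + a‖ - 1) • p = -(‖p + a‖ - 1) • (sph p a - p) := by
    rw [dX_eq B.hp ha1]; module
  rw [e, norm_smul, Real.norm_eq_abs, abs_neg]
  calc |‖p + a‖ - 1| * ‖sph p a - p‖ ≤ (C * ‖a‖ ^ 2) * (2 * ‖a‖) := by
        gcongr
        · exact tc2_eta h B ha haδ
        · exact sph_sub_le B.hp ha1
    _ = _ := by ring

theorem tc2_A (h : TC0 S p δ C) (hC : 0 ≤ C) (B : BS S p) {c : X} (hc : ‖c‖ ≤ δ / 16)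
    (hc1 : ‖c‖ ≤ 1 / 16) :
    ‖S.F (p + c) - S.F p - B.T c - B.dY (B.pr c) - (‖p + c‖ - 1 - B.J c) • S.F p‖ ≤
      216 * C * ‖c‖ ^ 3 := by
  obtain ⟨h1, h2⟩ := r_pr h hC B hc hc1
  have han : ‖B.pr c‖ ≤ 2 * ‖c‖ := B.pr_le c
  have hc0 := norm_nonneg c
  have ha1 : ‖B.pr c‖ < 1 := by linarith
  have h3 := tc2_eta h B (B.J_pr c) (a := B.pr c) (by linarith)
  have h4 : ‖S.F (sph p (B.pr c)) - S.F p‖ ≤ 2 * ‖B.pr c‖ := by
    rw [S.dist _ _ (by rw [norm_sph B.hp ha1, B.hp])]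
    exact sph_sub_le B.hp ha1
  have e : S.F (p + c) - S.F p - B.T c - B.dY (B.pr c) - (‖p + c‖ - 1 - B.J c) • S.F p =
      ((S.F (p + c) - S.F p - B.T c) - (S.F (p + B.pr c) - S.F p - B.T (B.pr c))) +
        (‖p + B.pr c‖ - 1) • (S.F (sph p (B.pr c)) - S.F p) -
        ((‖p + c‖ - 1 - B.J c) - (‖p + B.pr c‖ - 1)) • S.F p := by
    rw [dY_eq B ha1]; module
  rw [e]
  refine (norm_sub_le _ _).trans ?_
  refine (add_le_add_left (norm_add_le _ _) _).trans ?_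
  rw [norm_smul, norm_smul, Real.norm_eq_abs, Real.norm_eq_abs, B.norm_Fp, mul_one]
  have h5 : |‖p + B.pr c‖ - 1| * ‖S.F (sph p (B.pr c)) - S.F p‖ ≤ 16 * C * ‖c‖ ^ 3 :=
    calc |‖p + B.pr c‖ - 1| * ‖S.F (sph p (B.pr c)) - S.F p‖
        ≤ (C * ‖B.pr c‖ ^ 2) * (2 * ‖B.pr c‖) := by gcongr
      _ ≤ (C * (2 * ‖c‖) ^ 2) * (2 * (2 * ‖c‖)) := by gcongr
      _ = _ := by ring
  linarith

theorem tc2_B (h : TC0 S p δ C) (hC : 0 ≤ C) (B : BS S p) {c : X} (hc : ‖c‖ ≤ δ / 16)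
    (hc1 : ‖c‖ ≤ 1 / 16) :
    ‖dX p (B.pr c) + (‖p + c‖ - 1 - B.J c) • p‖ ≤ 116 * C * ‖c‖ ^ 3 := by
  obtain ⟨-, h2⟩ := r_pr h hC B hc hc1
  have han : ‖B.pr c‖ ≤ 2 * ‖c‖ := B.pr_le c
  have hc0 := norm_nonneg c
  have ha1 : ‖B.pr c‖ < 1 := by linarith
  have h3 := tc2_cub h hC B (B.J_pr c) (a := B.pr c) (by linarith) ha1
  have e : dX p (B.pr c) + (‖p + c‖ - 1 - B.J c) • p =
      (dX p (B.pr c) + (‖p + B.pr c‖ - 1) • p) +
        ((‖p + c‖ - 1 - B.J c) - (‖p + B.pr c‖ - 1)) • p := by module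
  rw [e]
  refine (norm_add_le _ _).trans ?_
  rw [norm_smul, Real.norm_eq_abs, B.hp, mul_one]
  have h5 : 2 * C * ‖B.pr c‖ ^ 3 ≤ 16 * C * ‖c‖ ^ 3 :=
    calc 2 * C * ‖B.pr c‖ ^ 3 ≤ 2 * C * (2 * ‖c‖) ^ 3 := by gcongr
      _ = _ := by ring
  linarith

theorem tc2_pr_neg (B : BS S p) (c : X) : B.pr (-c) = -B.pr c := by
  have := B.pr_smul (-1) c
  rwa [neg_one_smul, neg_one_smul] at this

theorem tc2_D2 (B : BS S p) (c : X) :
    D2 p c = (‖p + c‖ - 1 - B.J c) + (‖p + -c‖ - 1 - B.J (-c)) := by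
  rw [D2, B.hp, map_neg, ← sub_eq_add_neg]; ring

theorem tc2_dY_lip (h : TC0 S p δ C) (hC : 0 ≤ C) (B : BS S p) {a a' : X} (ha : B.J a = 0)
    (ha' : B.J a' = 0) (h1 : ‖a‖ ≤ δ / 4) (h1' : ‖a'‖ ≤ δ / 4) (h2 : ‖a‖ ≤ 1 / 4)
    (h2' : ‖a'‖ ≤ 1 / 4) : ‖B.dY a - B.dY a'‖ ≤ 9 * C * (‖a‖ + ‖a'‖) * ‖a - a'‖ := by
  have hF := rF_lip h hC B h1 h1' h2'
  have hN := rN_lip h hC B h1 h1' h2'
  rw [ha, ha', sub_zero, sub_zero] at hN
  have ha1 : ‖a‖ < 1 := by linarith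
  have ha1' : ‖a'‖ < 1 := by linarith
  have h0 := norm_nonneg a
  have h0' := norm_nonneg a'
  have hd0 := norm_nonneg (a - a')
  have hη := tc2_eta h B ha' (a := a') (by linarith)
  have hn : 3 / 4 ≤ ‖p + a‖ := by
    have := norm_sub_le (p + a) a
    rw [add_sub_cancel_right, B.hp] at this
    linarith
  have hs : ‖S.F (sph p a) - S.F (sph p a')‖ ≤ 4 * ‖a - a'‖ := by
    rw [S.dist _ _ (by rw [norm_sph B.hp ha1, norm_sph B.hp ha1'])]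
    have := normalize_sub_le (basic_add_ne B.hp ha1) (basic_add_ne B.hp ha1')
    rw [add_sub_add_left_eq_sub] at this
    refine this.trans ?_
    rw [div_le_iff₀ (by linarith)]
    nlinarith
  have e : B.dY a - B.dY a' =
      ((S.F (p + a) - S.F p - B.T a) - (S.F (p + a') - S.F p - B.T a')) -
        ((‖p + a‖ - 1) - (‖p + a'‖ - 1)) • S.F (sph p a) -
        (‖p + a'‖ - 1) • (S.F (sph p a) - S.F (sph p a')) := by
    rw [dY_eq B ha1, dY_eq B ha1']; module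
  rw [e]
  refine (norm_sub_le _ _).trans ?_
  refine (add_le_add_left (norm_sub_le _ _) _).trans ?_
  rw [norm_smul, norm_smul, Real.norm_eq_abs, Real.norm_eq_abs, S.norm, norm_sph B.hp ha1, mul_one]
  have h5 : |‖p + a'‖ - 1| * ‖S.F (sph p a) - S.F (sph p a')‖ ≤
      C * (‖a‖ + ‖a'‖) * ‖a - a'‖ :=
    calc |‖p + a'‖ - 1| * ‖S.F (sph p a) - S.F (sph p a')‖
        ≤ (C * ‖a'‖ ^ 2) * (4 * ‖a - a'‖) := by gcongr
      _ = C * (‖a'‖ * (4 * ‖a'‖)) * ‖a - a'‖ := by ring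
      _ ≤ C * (‖a‖ + ‖a'‖) * ‖a - a'‖ := by
        gcongr
        nlinarith
  linarith

/-- `δ' = min δ 1 / 16`, `C' = 1000 C`.  `dX_cub`: `dX + η p = η (p - sph p a)`.  `cubF`: the left side is
`ρ c + ρ (-c) - ρ a - ρ (-a) + η a F (sph p a) + η (-a) F (sph p (-a)) - (η c + η (-c)) F p`
(`pr (-c) = -pr c`, `D2 p c = η c + η (-c)`). -/
theorem tc_of_tc0 {δ C : ℝ} (hδ : 0 < δ) (hC : 1 ≤ C) :
    ∃ δ' C' : ℝ, 0 < δ' ∧ δ' ≤ δ ∧ C ≤ C' ∧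
      ∀ (S : SI X Y) (p : X), TC0 S p δ C → TC S p δ' C' := by
  have hC0 : 0 ≤ C := by linarith
  have m1 : min δ 1 / 16 ≤ δ / 16 := by gcongr; exact min_le_left _ _
  have m2 : min δ 1 / 16 ≤ 1 / 16 := by gcongr; exact min_le_right _ _
  refine ⟨min δ 1 / 16, 1000 * C, by positivity, by linarith, by linarith, fun S p h => ?_⟩
  have hδ0 : ‖p - p‖ ≤ δ := by rw [sub_self, norm_zero]; exact hδ.le
  refine ⟨h.mono (by linarith) (by linarith), ?_, ?_, ?_, ?_, ?_, ?_⟩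
  · intro B a ha haδ
    rw [norm_dX B.hp (by linarith)]
    have h1 := tc2_eta h B ha (a := a) (by linarith)
    have : 0 ≤ C * ‖a‖ ^ 2 := by positivity
    linarith
  · intro B a ha haδ
    have ha1 : ‖a‖ < 1 := by linarith
    rw [dY_eq B ha1]
    refine (norm_sub_le _ _).trans ?_
    rw [norm_smul, Real.norm_eq_abs, S.norm, norm_sph B.hp ha1, mul_one]
    have h1 := tc2_eta h B ha (a := a) (by linarith)
    have h2 := h.hF p B hδ0 a (by linarith)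
    have : 0 ≤ C * ‖a‖ ^ 2 := by positivity
    linarith
  · intro B a ha haδ
    have h1 := tc2_cub h hC0 B ha (a := a) (by linarith) (by linarith)
    have : 0 ≤ C * ‖a‖ ^ 3 := by positivity
    linarith
  · intro B a a' ha ha' h1 h1'
    have h2 := tc2_dY_lip h hC0 B ha ha' (by linarith) (by linarith) (by linarith) (by linarith)
    have : 0 ≤ C * (‖a‖ + ‖a'‖) * ‖a - a'‖ := by positivity
    linarith
  · intro B c hc
    have h1 := tc2_A h hC0 B (c := c) (by linarith) (by linarith)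
    have h2 := tc2_A h hC0 B (c := -c) (by rw [norm_neg]; linarith) (by rw [norm_neg]; linarith)
    rw [tc2_pr_neg, norm_neg] at h2
    have e : S.F (p + c) + S.F (p - c) - (2 : ℝ) • S.F p - (B.dY (B.pr c) + B.dY (-B.pr c)) -
        D2 p c • S.F p =
        (S.F (p + c) - S.F p - B.T c - B.dY (B.pr c) - (‖p + c‖ - 1 - B.J c) • S.F p) +
        (S.F (p + -c) - S.F p - B.T (-c) - B.dY (-B.pr c) -
          (‖p + -c‖ - 1 - B.J (-c)) • S.F p) := by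
      rw [tc2_D2 B, map_neg B.T, sub_eq_add_neg p c]; module
    rw [e]
    refine (norm_add_le _ _).trans ?_
    have : 0 ≤ C * ‖c‖ ^ 3 := by positivity
    linarith
  · intro B c hc
    have h1 := tc2_B h hC0 B (c := c) (by linarith) (by linarith)
    have h2 := tc2_B h hC0 B (c := -c) (by rw [norm_neg]; linarith) (by rw [norm_neg]; linarith)
    rw [tc2_pr_neg, norm_neg] at h2
    have e : dX p (B.pr c) + dX p (-B.pr c) + D2 p c • p =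
        (dX p (B.pr c) + (‖p + c‖ - 1 - B.J c) • p) +
        (dX p (-B.pr c) + (‖p + -c‖ - 1 - B.J (-c)) • p) := by
      rw [tc2_D2 B]; module
    rw [e]
    refine (norm_add_le _ _).trans ?_
    have : 0 ≤ C * ‖c‖ ^ 3 := by positivity
    linarith

end Crest.Agent.R74
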