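import Crest.Agent.R74.Chain
import Crest.Agent.R74.LemG
import Crest.Agent.R74.TC2

/-!
# Row 74: curvature alternative at a tame point
-/

namespace Crest.Agent.R74

open Finset

variable {X Y : Type*} [NormedAddCommGroup X] [NormedSpace ℝ X] [NormedAddCommGroup Y]
  [NormedSpace ℝ Y]

/-- an inward direction at a point of bounded curvature spans a robust chord: with `l = min (δ / 2) (θ / (8 C))`, `d = e - θ p`,
`‖p + l d‖ ≤ 1 - l θ + 4 C l² ≤ 1 - l θ / 2`; `exit_ge`, `rob_of_depth`. -/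
theorem inward {δ C θ : ℝ} (hδ : 0 < δ) (hC : 0 < C) (hθ : 0 < θ) (hθ1 : θ ≤ 1 / 2) :
    ∃ l : ℝ, 0 < l ∧ ∀ (p e : X) (J : X →L[ℝ] ℝ), ‖p‖ = 1 → Nm J p →
      (∀ c, ‖c‖ ≤ δ → ‖p + c‖ - 1 - J c ≤ C * ‖c‖ ^ 2) → ‖e‖ = 1 → J e ≤ 0 →
      ∃ t : ℝ, l ≤ t ∧ ‖p + t • (e - θ • p)‖ = 1 ∧ ‖p + (p + t • (e - θ • p))‖ ≤ 2 - l * θ / 2 := by
  refine ⟨min (δ / 2) (θ / (8 * C)), lt_min (by positivity) (by positivity), ?_⟩
  intro p e J hp hJ hcurv he hJe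
  set l := min (δ / 2) (θ / (8 * C)) with hl
  have hl0 : 0 < l := lt_min (by positivity) (by positivity)
  have hl1 : l ≤ δ / 2 := min_le_left _ _
  have hl2 : 8 * C * l ≤ θ := by
    have : l ≤ θ / (8 * C) := min_le_right _ _
    rwa [le_div_iff₀ (by positivity), mul_comm] at this
  have hθp : ‖θ • p‖ = θ := by rw [norm_smul, hp, Real.norm_of_nonneg hθ.le, mul_one]
  have hd1 : ‖e - θ • p‖ ≤ 2 := by
    have := norm_sub_le e (θ • p)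
    linarith
  have hd0 : e - θ • p ≠ 0 := by
    intro h
    rw [sub_eq_zero] at h
    rw [h, hθp] at he
    linarith
  have hJp : J p = 1 := by rw [hJ.2, hp]
  have hld : ‖l • (e - θ • p)‖ ≤ 2 * l := by
    rw [norm_smul, Real.norm_of_nonneg hl0.le]; nlinarith
  have h1 : ‖p + l • (e - θ • p)‖ ≤ 1 - l * θ / 2 := by
    have h2 := hcurv (l • (e - θ • p)) (by linarith)
    rw [map_smul, map_sub, map_smul, hJp, smul_eq_mul, smul_eq_mul, mul_one] at h2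
    have h3 : ‖l • (e - θ • p)‖ ^ 2 ≤ (2 * l) ^ 2 := by gcongr
    have h4 : C * ‖l • (e - θ • p)‖ ^ 2 ≤ C * (2 * l) ^ 2 := by gcongr
    nlinarith
  obtain ⟨t, ht, hq⟩ := exit_ge hd0 (t₀ := l) (x := p) (by nlinarith)
  have ht0 : 0 < t := hl0.trans_le ht
  refine ⟨t, ht, hq, rob_of_depth hp hq (t := l / t) (by positivity) ((div_le_one ht0).2 ht) ?_⟩
  rw [add_sub_cancel_left, smul_smul, div_mul_cancel₀ _ ht0.ne']
  exact h1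

/-- a functional norming a vector close to `t (e - θ p)` almost norms `e`. -/
theorem nm_dir {p e w : X} {ψ : X →L[ℝ] ℝ} {t l θ ρ : ℝ} (hp : ‖p‖ = 1) (he : ‖e‖ = 1) (hl : 0 < l) (ht : l ≤ t)
    (hθ : 0 ≤ θ) (hw : ‖w - t • (e - θ • p)‖ ≤ ρ) (hψ : Nm ψ w) : 1 - 2 * θ - 2 * ρ / l ≤ ψ e := by
  have ht0 : 0 < t := hl.trans_le ht
  have hρ : 0 ≤ ρ := (norm_nonneg _).trans hw
  have hθp : ‖θ • p‖ = θ := by rw [norm_smul, hp, Real.norm_of_nonneg hθ, mul_one]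
  have h1 : 1 - θ ≤ ‖e - θ • p‖ := by
    have := norm_sub_norm_le e (θ • p)
    linarith
  have h2 : t * (1 - θ) ≤ ‖t • (e - θ • p)‖ := by
    rw [norm_smul, Real.norm_of_nonneg ht0.le]; gcongr
  have h3 : ‖t • (e - θ • p)‖ ≤ ‖w‖ + ρ := by
    have := norm_sub_norm_le (t • (e - θ • p)) w
    rw [norm_sub_rev] at this
    linarith
  have h4 := hψ.le (w - t • (e - θ • p))
  rw [map_sub, hψ.2, map_smul, map_sub, map_smul, smul_eq_mul, smul_eq_mul] at h4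
  have h5 : -1 ≤ ψ p := by
    have := hψ.abs_le p
    rw [hp] at this
    exact (abs_le.1 this).1
  have h6 : -(t * θ) ≤ t * θ * ψ p := by nlinarith [mul_nonneg ht0.le hθ]
  have h7 : t * (1 - 2 * θ) - 2 * ρ ≤ t * ψ e := by nlinarith
  have h8 : 2 * ρ ≤ t * (2 * ρ / l) := by
    rw [← mul_div_assoc, le_div_iff₀ hl]; nlinarith
  have h9 : t * (1 - 2 * θ - 2 * ρ / l) ≤ t * ψ e := by nlinarith
  exact le_of_mul_le_mul_left h9 ht0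

/-- `ε'` from `lemG`; small `θ₀`, then `l` from `inward` in `X` and in `Y`, `θ = l θ₀ / 4`, `ρ = θ₀ l`, `ελ = θ₀`.
`ψ (Ta a z) = φ z - (φ p - ψ a) J z` (`Pair.compat`).  Upper bound: WLOG `J z ≤ 0`, `y = Ta a z ≠ 0`, `J' y = J' a J z ≤ 0`, `inward` in
`Y` for `e = ‖y‖⁻¹ y`, `q₀ = F⁻¹ (F p + t (e - θ₀ F p))` (`SI.add`), `nm_dir`.  Lower bound: `inward` in `X` for `e = ‖z‖⁻¹ z`.
Finally `J' a ≠ 0`: otherwise `ζ = T⁻¹ a ∈ ker J` and `Ta a (p - ζ) = 0`, `J (p - ζ) = 1`, contradicting the lower bound. -/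
theorem curv (S : SI X Y) {δ C ε : ℝ} (hδ : 0 < δ) (hC : 0 < C) (hε : 0 < ε) :
    ∃ θ ρ η : ℝ, 0 < θ ∧ 0 < ρ ∧ 0 < η ∧ ∀ (p : X) (B : BS S p) (a : Y),
      (∀ c, ‖c‖ ≤ δ → ‖p + c‖ - 1 - B.J c ≤ C * ‖c‖ ^ 2) →
      (∀ c, ‖c‖ ≤ δ → ‖S.F p + c‖ - 1 - B.J' c ≤ C * ‖c‖ ^ 2) → 0 ≤ B.J' a →
      (∀ q₀ : X, ‖q₀‖ = 1 → ‖p + q₀‖ ≤ 2 - 2 * θ → ∃ (q : X) (φ : X →L[ℝ] ℝ) (ψ : Y →L[ℝ] ℝ),
        ‖q‖ = 1 ∧ ‖q - q₀‖ ≤ ρ ∧ B.Pair q φ ψ ∧ |φ p - ψ a| ≤ η) → B.Good ε := by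
  obtain ⟨ε', hε', hG⟩ := lemG S hε
  set θ₀ := ε' / (5 * (1 + ε')) with hθ₀
  have hθ₀0 : 0 < θ₀ := by positivity
  have hθ₀e : 5 * (1 + ε') * θ₀ = ε' := by rw [hθ₀]; field_simp
  have hθ₀1 : θ₀ ≤ 1 / 5 := by nlinarith
  obtain ⟨l₁, hl₁, hin₁⟩ := inward (X := X) hδ hC hθ₀0 (by linarith)
  obtain ⟨l₂, hl₂, hin₂⟩ := inward (X := Y) hδ hC hθ₀0 (by linarith)
  set l := min l₁ l₂ with hl
  have hl0 : 0 < l := lt_min hl₁ hl₂
  have hll₁ : l ≤ l₁ := min_le_left _ _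
  have hll₂ : l ≤ l₂ := min_le_right _ _
  have hdiv : 2 * (θ₀ * l) / l = 2 * θ₀ := by field_simp
  refine ⟨l * θ₀ / 4, θ₀ * l, θ₀, by positivity, by positivity, hθ₀0, ?_⟩
  intro p B a hX hY ha hq
  have herr : ∀ (u : ℝ) (z : X), |u| ≤ θ₀ → |u * B.J z| ≤ θ₀ * ‖z‖ := by
    intro u z hu
    rw [abs_mul]
    exact mul_le_mul hu (B.hJ.abs_le z) (abs_nonneg _) hθ₀0.le
  have hup : ∀ z, B.J z ≤ 0 → ‖B.Ta a z‖ ≤ (1 + ε') * ‖z‖ := by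
    intro z hz
    by_cases hy : B.Ta a z = 0
    · rw [hy, norm_zero]; positivity
    set y := B.Ta a z with hy'
    have hy0 : 0 < ‖y‖ := norm_pos_iff.2 hy
    have hJe : B.J' (‖y‖⁻¹ • y) ≤ 0 := by
      rw [map_smul, smul_eq_mul, hy', B.J'_Ta]
      exact mul_nonpos_of_nonneg_of_nonpos (by positivity) (mul_nonpos_of_nonneg_of_nonpos ha hz)
    obtain ⟨t, ht, hs1, hs2⟩ := hin₂ (S.F p) _ B.J' B.norm_Fp B.hJ' hY (norm_normalize hy) hJe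
    set s := S.F p + t • (‖y‖⁻¹ • y - θ₀ • S.F p) with hs
    have hFq : S.F (S.F.symm s) = s := S.F.apply_symm_apply s
    have hq₀ : ‖S.F.symm s‖ = 1 := by rw [← S.norm, hFq, hs1]
    obtain ⟨q, φ, ψ, hq1, hq2, hP, hlam⟩ := hq (S.F.symm s) hq₀ (by
      rw [← S.add (by rw [B.hp, hq₀]), hFq]
      nlinarith)
    have hw : ‖S.F q - S.F p - t • (‖y‖⁻¹ • y - θ₀ • S.F p)‖ ≤ θ₀ * l := by
      rw [sub_sub, ← hs, ← hFq, S.dist _ _ (by rw [hq1, hq₀])]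
      exact hq2
    have h1 := nm_dir B.norm_Fp (norm_normalize hy) hl0 (hll₂.trans ht) hθ₀0.le hw hP.2.1
    rw [hdiv, map_smul, smul_eq_mul, le_inv_mul_iff₀ hy0, hy', hP.compat, ← hy'] at h1
    have h2 := (abs_le.1 (herr _ z hlam)).1
    have h3 := hP.1.le z
    have h4 : ‖y‖ * (1 - 4 * θ₀) ≤ (1 + θ₀) * ‖z‖ := by linarith
    have h5 : (1 + θ₀) * ‖z‖ ≤ (1 + ε') * ‖z‖ * (1 - 4 * θ₀) := by
      have : 1 + θ₀ ≤ (1 + ε') * (1 - 4 * θ₀) := by nlinarith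
      nlinarith [norm_nonneg z]
    exact le_of_mul_le_mul_right (h4.trans h5) (by linarith)
  have hlow : ∀ z, B.J z ≤ 0 → ‖z‖ ≤ (1 + ε') * ‖B.Ta a z‖ := by
    intro z hz
    by_cases hz0 : z = 0
    · rw [hz0, norm_zero]; positivity
    have hz1 : 0 < ‖z‖ := norm_pos_iff.2 hz0
    have hJe : B.J (‖z‖⁻¹ • z) ≤ 0 := by
      rw [map_smul, smul_eq_mul]
      exact mul_nonpos_of_nonneg_of_nonpos (by positivity) hz
    obtain ⟨t, ht, hs1, hs2⟩ := hin₁ p _ B.J B.hp B.hJ hX (norm_normalize hz0) hJe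
    obtain ⟨q, φ, ψ, hq1, hq2, hP, hlam⟩ := hq _ hs1 (by nlinarith)
    have hw : ‖q - p - t • (‖z‖⁻¹ • z - θ₀ • p)‖ ≤ θ₀ * l := by
      rw [sub_sub]; exact hq2
    have h1 := nm_dir B.hp (norm_normalize hz0) hl0 (hll₁.trans ht) hθ₀0.le hw hP.1
    rw [hdiv, map_smul, smul_eq_mul, le_inv_mul_iff₀ hz1] at h1
    have h2 := (abs_le.1 (herr _ z hlam)).2
    have h3 := hP.2.1.le (B.Ta a z)
    rw [hP.compat] at h3
    have h4 : (1 - 5 * θ₀) * ‖z‖ ≤ ‖B.Ta a z‖ := by linarith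
    have h5 : (1 + ε') * ((1 - 5 * θ₀) * ‖z‖) = ‖z‖ := by
      linear_combination (-‖z‖) * hθ₀e
    rw [← h5]
    gcongr
  have hup' : ∀ z, ‖B.Ta a z‖ ≤ (1 + ε') * ‖z‖ := by
    intro z
    rcases le_total (B.J z) 0 with h | h
    · exact hup z h
    · simpa using hup (-z) (by simpa using h)
  have hlow' : ∀ z, ‖z‖ ≤ (1 + ε') * ‖B.Ta a z‖ := by
    intro z
    rcases le_total (B.J z) 0 with h | h
    · exact hlow z h
    · simpa using hlow (-z) (by simpa using h)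
  refine (hG p B a (lt_of_le_of_ne ha fun h0 => ?_) hup' hlow').2
  have hζ : B.J (B.T.symm a) = 0 := by rw [B.J_Tsymm, ← h0]
  have h1 : B.Ta a (p - B.T.symm a) = 0 := by
    rw [map_sub, B.Ta_p, B.Ta_apply, hζ]; simp
  have h2 := hlow' (p - B.T.symm a)
  rw [h1, norm_zero, mul_zero, norm_le_zero_iff, sub_eq_zero] at h2
  have h3 := congrArg B.J h2
  rw [B.J_p, hζ] at h3
  exact one_ne_zero h3

theorem HN_nonneg (𝓕 : Fam X) (n : ℕ) (b τ : ℝ) (x : X) : 0 ≤ HN 𝓕 n b τ x := by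
  exact Wt_nonneg n fun i _ =>
    mul_nonneg (inv_nonneg.2 (sq_nonneg _)) (𝓕.E_nonneg fun ω => D2_nonneg _ _)

/-- `J' (F (p ± c)) ≤ ‖p ± c‖`, `Wt_clm`, `E_clm`. -/
theorem J'_DF_le {S : SI X Y} {p : X} (B : BS S p) (𝓕 : Fam X) (n : ℕ) (b τ : ℝ) :
    B.J' (DF S 𝓕 n b τ p) ≤ HN 𝓕 n b τ p := by
  rw [DF, Wt_clm]
  refine Wt_mono n fun i _ => ?_
  rw [map_smul, smul_eq_mul, Fam.E_clm]
  refine mul_le_mul_of_nonneg_left (𝓕.E_mono fun ω => ?_) (inv_nonneg.2 (sq_nonneg _))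
  rw [map_sub, map_add, map_smul, B.J'_Fp, D2, B.hp, smul_eq_mul]
  have h1 := B.hJ'.le (S.F (p + sc τ b i • 𝓕.u ω))
  have h2 := B.hJ'.le (S.F (p - sc τ b i • 𝓕.u ω))
  rw [S.norm] at h1 h2
  linarith

/-- `tc0_of_tame`, `tc_of_tc0`; `θ, ρ, η` from `curv`; `chain` with `min θ (1/40)`, `min ρ (1/40)`,
`γ = min (ε₂ / 32) (η ε₂ / 64)`.  If `H = HN > ε₂ / 64` use `curv` with `a = F p - H⁻¹ DF`:
`φ p - ψ a = (ψ DF - H (ψ (F p) - φ p)) / H`.  Otherwise `nl` at `F p` in the direction of `DF` gives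
`‖DF‖ / 16 ≤ |ψ DF| ≤ γ + 2 H`. -/
theorem hh [CompleteSpace X] [CompleteSpace Y] [TopologicalSpace.SeparableSpace X]
    [TopologicalSpace.SeparableSpace Y] (S : SI X Y) {δ C ε₁ ε₂ : ℝ} (hδ : 0 < δ) (hC : 0 < C) (hε₁ : 0 < ε₁)
    (hε₂ : 0 < ε₂) :
    ∃ (β b : ℝ) (n : ℕ), 0 < β ∧ 1 < b ∧ 1 ≤ n ∧ ∀ 𝓕 : Fam X, 𝓕.Good β → ∃ τ₀ : ℝ, 0 < τ₀ ∧
      ∀ τ : ℝ, 0 < τ → τ ≤ τ₀ → ∀ p : X, ‖p‖ = 1 → Tame S p δ C →
        (∃ B : BS S p, B.Good ε₁) ∨ (‖DF S 𝓕 n b τ p‖ ≤ ε₂ ∧ HN 𝓕 n b τ p ≤ ε₂) := by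
  obtain ⟨δ₁, C₁, hδ₁, -, hC₁, h₁⟩ := tc0_of_tame S hδ hC
  obtain ⟨δ₂, C₂, hδ₂, -, hC₂, h₂⟩ := tc_of_tc0 (X := X) (Y := Y) hδ₁ hC₁
  obtain ⟨θ, ρ, η, hθ, hρ, hη, hcurv⟩ := curv S hδ₂ (C := C₂) (by linarith) hε₁
  obtain ⟨β, b, n, hβ, hb, hn, hch⟩ := chain S hδ₂ (hC₁.trans hC₂) (θ := min θ (1 / 40))
    (ρ := min ρ (1 / 40)) (γ := min (ε₂ / 32) (η * ε₂ / 64)) (lt_min hθ (by norm_num))
    (lt_min hρ (by norm_num)) (lt_min (by positivity) (by positivity))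
  refine ⟨β, b, n, hβ, hb, hn, fun 𝓕 h𝓕 => ?_⟩
  obtain ⟨τ₀, hτ₀, hch⟩ := hch 𝓕 h𝓕
  refine ⟨τ₀, hτ₀, fun τ hτ hττ p hp hT => ?_⟩
  have tc := h₂ S p (h₁ p hp hT)
  have hpp : ‖p - p‖ ≤ δ₂ := by rw [sub_self, norm_zero]; exact hδ₂.le
  obtain ⟨B⟩ := tc.ex p hp hpp
  have hch := hch τ hτ hττ p B tc
  have hJ := J'_DF_le B 𝓕 n b τ
  have hH0 := HN_nonneg 𝓕 n b τ p
  set D := DF S 𝓕 n b τ p
  set H := HN 𝓕 n b τ p
  have m1 := min_le_left θ (1 / 40)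
  have m2 := min_le_right θ (1 / 40)
  have m3 := min_le_left ρ (1 / 40)
  have m4 := min_le_right ρ (1 / 40)
  have m5 := min_le_left (ε₂ / 32) (η * ε₂ / 64)
  have m6 := min_le_right (ε₂ / 32) (η * ε₂ / 64)
  rcases lt_or_ge (ε₂ / 64) H with hH | hH
  · have hH1 : 0 < H := lt_trans (by positivity) hH
    refine Or.inl ⟨B, hcurv p B (S.F p - H⁻¹ • D) (tc.hX p B hpp) (tc.hY p B hpp) ?_ ?_⟩
    · rw [map_sub, map_smul, B.J'_Fp, smul_eq_mul, sub_nonneg, inv_mul_le_iff₀ hH1, mul_one]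
      exact hJ
    · intro q₀ hq₀ hrob
      obtain ⟨q, φ, ψ, hq1, hq2, hP, hest⟩ := hch q₀ hq₀ (by linarith)
      refine ⟨q, φ, ψ, hq1, by linarith, hP, ?_⟩
      have e : φ p - ψ (S.F p - H⁻¹ • D) = (ψ D - H * (ψ (S.F p) - φ p)) / H := by
        rw [map_sub, map_smul, smul_eq_mul]; field_simp; ring
      rw [e, abs_div, abs_of_pos hH1, div_le_iff₀ hH1]
      nlinarith
  · refine Or.inr ⟨?_, by linarith⟩
    by_cases hD : D = 0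
    · rw [hD, norm_zero]; exact hε₂.le
    have hD0 : 0 < ‖D‖ := norm_pos_iff.2 hD
    obtain ⟨s, σ, hs1, hσ, hs2, hnl⟩ := nl B.norm_Fp (norm_normalize hD)
    have hFq : S.F (S.F.symm s) = s := S.F.apply_symm_apply s
    have hq₀ : ‖S.F.symm s‖ = 1 := by rw [← S.norm, hFq, hs1]
    obtain ⟨q, φ, ψ, hq1, hq2, hP, hest⟩ := hch (S.F.symm s) hq₀ (by
      rw [← S.add (by rw [B.hp, hq₀]), hFq]
      linarith)
    have h1 := hnl (S.F q - S.F p) ψ (by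
      rw [sub_sub_sub_cancel_right, ← hFq, S.dist _ _ (by rw [hq1, hq₀])]
      linarith) hP.2.1
    have h2 : σ * ψ (‖D‖⁻¹ • D) ≤ ‖D‖⁻¹ * |ψ D| := by
      rw [map_smul, smul_eq_mul, mul_left_comm]
      refine mul_le_mul_of_nonneg_left ?_ (by positivity)
      rcases hσ with rfl | rfl
      · rw [one_mul]; exact le_abs_self _
      · rw [neg_one_mul]; exact neg_le_abs _
    have h3 := h1.trans h2
    rw [le_inv_mul_iff₀ hD0] at h3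
    have h4 : |H * (ψ (S.F p) - φ p)| ≤ H * 2 := by
      rw [abs_mul, abs_of_nonneg hH0]
      refine mul_le_mul_of_nonneg_left ((abs_sub _ _).trans ?_) hH0
      have a1 := hP.2.1.abs_le (S.F p)
      have a2 := hP.1.abs_le p
      rw [B.norm_Fp] at a1
      rw [hp] at a2
      linarith
    have h5 := abs_sub_abs_le_abs_sub (ψ D) (H * (ψ (S.F p) - φ p))
    linarith

end Crest.Agent.R74
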