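import Crest.Agent.R74.Geo

/-!
# Row 74: the delta-convexity estimate
-/

namespace Crest.Agent.R74

open Finset

variable {X Y : Type*} [NormedAddCommGroup X] [NormedSpace ℝ X] [NormedAddCommGroup Y]
  [NormedSpace ℝ Y]

private theorem DC_conv (v w : X) {a : ℝ} (h0 : 0 ≤ a) (h1 : a ≤ 1) :
    ‖v + a • w‖ ≤ (1 - a) * ‖v‖ + a * ‖v + w‖ := by
  have h : v + a • w = (1 - a) • v + a • (v + w) := by module
  rw [h]
  refine (norm_add_le _ _).trans (le_of_eq ?_)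
  rw [norm_smul, norm_smul, Real.norm_of_nonneg (by linarith), Real.norm_of_nonneg h0]

private theorem DC_tri (s p r : X) {l : ℝ} (h0 : 0 ≤ l) (h1 : l ≤ 1) :
    ‖s - ((1 - l) • p + l • r)‖ ≤ (1 - l) * ‖s - p‖ + l * ‖s - r‖ := by
  have h : s - ((1 - l) • p + l • r) = (1 - l) • (s - p) + l • (s - r) := by module
  rw [h]
  refine (norm_add_le _ _).trans (le_of_eq ?_)
  rw [norm_smul, norm_smul, Real.norm_of_nonneg (by linarith), Real.norm_of_nonneg h0]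

private theorem DC_norm_le {p r : X} (hp : ‖p‖ = 1) (hr : ‖r‖ = 1) {l : ℝ} (h0 : 0 ≤ l)
    (h1 : l ≤ 1) : ‖(1 - l) • p + l • r‖ ≤ 1 := by
  refine (norm_add_le _ _).trans (le_of_eq ?_)
  rw [norm_smul, norm_smul, Real.norm_of_nonneg (by linarith), Real.norm_of_nonneg h0, hp, hr]
  ring

private theorem DC_normalize_sub {m : X} (hm0 : 0 < ‖m‖) (hm1 : ‖m‖ ≤ 1) :
    ‖‖m‖⁻¹ • m - m‖ = 1 - ‖m‖ := by
  have h : ‖m‖⁻¹ • m - m = (‖m‖⁻¹ - 1) • m := by module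
  have h2 : 0 ≤ ‖m‖⁻¹ - 1 := by
    have := (one_le_inv₀ hm0).2 hm1
    linarith
  rw [h, norm_smul, Real.norm_of_nonneg h2]
  field_simp

/-- convexity defect with weights in terms of a symmetric second difference at a larger scale:
`(1-l)(‖v + l s e‖ - ‖v‖) ≤ (1-l) l s (‖v + σ e‖ - ‖v‖)/σ` and
`l (‖v - (1-l) s e‖ - ‖v‖) ≤ l (1-l) s (‖v - σ e‖ - ‖v‖)/σ`. -/
theorem defect_le (v e : X) {l s σ : ℝ} (h0 : 0 ≤ l) (h1 : l ≤ 1) (hs : 0 ≤ s) (hsσ : s ≤ σ)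
    (hσ : 0 < σ) :
    (1 - l) * ‖v + (l * s) • e‖ + l * ‖v - ((1 - l) * s) • e‖ - ‖v‖ ≤ l * s / σ * D2 v (σ • e) := by
  have ha0 : 0 ≤ l * s / σ := by positivity
  have hl' : 0 ≤ 1 - l := by linarith
  have hb0 : 0 ≤ (1 - l) * s / σ := by positivity
  have ha1 : l * s / σ ≤ 1 := by
    rw [div_le_one hσ]; nlinarith
  have hb1 : (1 - l) * s / σ ≤ 1 := by
    rw [div_le_one hσ]; nlinarith
  have e1 : v + (l * s) • e = v + (l * s / σ) • (σ • e) := by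
    rw [smul_smul]; congr 2; field_simp
  have e2 : v - ((1 - l) * s) • e = v + ((1 - l) * s / σ) • (-(σ • e)) := by
    rw [smul_neg, smul_smul, ← sub_eq_add_neg]; congr 2; field_simp
  have k1 := DC_conv v (σ • e) ha0 ha1
  have k2 := DC_conv v (-(σ • e)) hb0 hb1
  rw [← e1] at k1
  rw [← e2, ← sub_eq_add_neg] at k2
  have hD := D2_nonneg v (σ • e)
  have k3 := mul_le_mul_of_nonneg_left k1 hl'
  have k4 := mul_le_mul_of_nonneg_left k2 h0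
  have k5 : (1 - l) * ((1 - l * s / σ) * ‖v‖ + l * s / σ * ‖v + σ • e‖) +
      l * ((1 - (1 - l) * s / σ) * ‖v‖ + (1 - l) * s / σ * ‖v - σ • e‖) - ‖v‖ =
      (1 - l) * (l * s / σ * D2 v (σ • e)) := by
    unfold D2; ring
  have k6 : (1 - l) * (l * s / σ * D2 v (σ • e)) ≤ l * s / σ * D2 v (σ • e) := by
    have : 0 ≤ l * s / σ * D2 v (σ • e) := mul_nonneg ha0 hD
    nlinarith
  linarith

/-- a good test point: near the far end `s₀` of a robust chord there is a unit vector `s` with a small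
weighted defect.  With `m = (1-l) p + l r`, `τ = ‖r - p‖ > 0`, `e = τ⁻¹ (r - p)`: `pigeon_norm` at `s₀ - m` with
`σ = 2τ`, `ρ = 1/10⁴` gives `d = s₀ - m + t e`; `exit_near` (base `m`, `θ = 1/50`) gives `s = m + a d`,
`|a - 1| ≤ 1/200`; `s - p = a (d + l (τ/a) e)`, `s - r = a (d - (1-l)(τ/a) e)`, `defect_le`. -/
theorem good_test {p r s₀ : X} (hp : ‖p‖ = 1) (hr : ‖r‖ = 1) (hs₀ : ‖s₀‖ = 1) {l : ℝ} (h0 : 0 ≤ l)
    (h1 : l ≤ 1) (hτ : ‖r - p‖ ≤ 3 * c0) (hrob : ‖(1 - l) • p + l • r + s₀‖ ≤ 2 - 2 / 50) :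
    ∃ s : X, ‖s‖ = 1 ∧ ‖s - s₀‖ ≤ 1 / 50 ∧
      (1 - l) * ‖s - p‖ + l * ‖s - r‖ - ‖s - ((1 - l) • p + l • r)‖ ≤ 80000 * l * ‖r - p‖ ^ 2 := by
  rcases eq_or_lt_of_le (norm_nonneg (r - p)) with hτ0 | hτ0
  · have hrp : r = p := sub_eq_zero.1 (norm_eq_zero.1 hτ0.symm)
    subst hrp
    refine ⟨s₀, hs₀, by simp, ?_⟩
    have h : (1 - l) • r + l • r = r := by module
    rw [h, sub_self, norm_zero]
    ring_nf
    exact le_rfl
  obtain ⟨τ, hτdef⟩ : ∃ τ, τ = ‖r - p‖ := ⟨_, rfl⟩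
  rw [← hτdef] at hτ hτ0 ⊢
  obtain ⟨e, he⟩ : ∃ e : X, e = τ⁻¹ • (r - p) := ⟨_, rfl⟩
  have hen : ‖e‖ = 1 := by
    rw [he, hτdef]; exact norm_normalize (by rw [← norm_pos_iff, ← hτdef]; exact hτ0)
  have hre : r - p = τ • e := by
    rw [he, smul_smul, mul_inv_cancel₀ hτ0.ne', one_smul]
  have hm1 := DC_norm_le hp hr h0 h1
  obtain ⟨m, hm⟩ : ∃ m : X, m = (1 - l) • p + l • r := ⟨_, rfl⟩
  rw [← hm] at hm1 hrob ⊢
  have hc : c0 = 1 / 10 ^ 7 := rfl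
  obtain ⟨t, ht0, ht1, hD⟩ := pigeon_norm (s₀ - m) hen.le (σ := 2 * τ) (ρ := 1 / 10 ^ 4)
    (by positivity) (by rw [hc] at hτ; norm_num at hτ ⊢; linarith)
  obtain ⟨d, hd⟩ : ∃ d : X, d = s₀ - m + t • e := ⟨_, rfl⟩
  rw [← hd] at hD
  have hdd : ‖d - (s₀ - m)‖ ≤ 1 / 10 ^ 4 := by
    rw [hd, add_sub_cancel_left, norm_smul, hen, Real.norm_of_nonneg ht0]; linarith
  obtain ⟨a, ha, hs1, hs2⟩ := exit_near (θ := 1 / 50) hm1 hs₀ (by norm_num) (by linarith)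
    (by norm_num) (by norm_num) hdd
  have ha' := abs_le.1 ha
  norm_num at ha' hs2
  have ha0 : 0 < a := by linarith [ha'.1]
  refine ⟨m + a • d, hs1, by linarith, ?_⟩
  have hp' : p = m - (l * τ) • e := by
    rw [hm, mul_smul, ← hre]; module
  have hr' : r = m + ((1 - l) * τ) • e := by
    rw [hm, mul_smul, ← hre]; module
  have e1 : m + a • d - p = a • (d + (l * (τ / a)) • e) := by
    rw [hp', smul_add, smul_smul]
    have : a * (l * (τ / a)) = l * τ := by field_simp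
    rw [this]; abel
  have e2 : m + a • d - r = a • (d - ((1 - l) * (τ / a)) • e) := by
    rw [hr', smul_sub, smul_smul]
    have : a * ((1 - l) * (τ / a)) = (1 - l) * τ := by field_simp
    rw [this]; abel
  rw [e1, e2, add_sub_cancel_left, norm_smul, norm_smul, norm_smul, Real.norm_of_nonneg ha0.le]
  have hle : τ / a ≤ 2 * τ := by
    rw [div_le_iff₀ ha0]; nlinarith [ha'.1]
  have k := defect_le d e h0 h1 (s := τ / a) (σ := 2 * τ) (by positivity) hle (by positivity)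
  have k2 := mul_le_mul_of_nonneg_left k ha0.le
  have k3 : a * (l * (τ / a) / (2 * τ) * D2 d ((2 * τ) • e)) = l / 2 * D2 d ((2 * τ) • e) := by
    field_simp
  have k4 : l / 2 * D2 d ((2 * τ) • e) ≤ l / 2 * (4 * (2 * τ) ^ 2 / (1 / 10 ^ 4)) :=
    mul_le_mul_of_nonneg_left hD (by positivity)
  have k5 : l / 2 * (4 * (2 * τ) ^ 2 / (1 / 10 ^ 4)) = 80000 * l * τ ^ 2 := by ring
  linarith

/-- **Sphere version.**  `m = (1-l) p + l r`, `η = 1 - ‖m‖ ≤ τ`, `n' = F (‖m‖⁻¹ m)`, `m' = (1-l) F p + l F r`,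
`δ = ‖n' - m'‖ ≤ 3τ`, `e = δ⁻¹ (n' - m')`.  For a unit `s` put `D_X = (1-l)‖s-p‖ + l‖s-r‖ - ‖s-m‖ ≥ 0`, `D_Y` the same
in `Y`.  Since `F` is isometric on the sphere, `‖F s - m'‖ - ‖F s - n'‖ ≤ D_X + η` and
`‖F s - n'‖ - ‖F s - m'‖ ≤ D_Y + η`.  Take `s₀', σ` from `nl` at `n'`.  If `σ = 1` use `good_test` in `X` (robust by
`SI.add`) and `ψ` norming `F s - n'`: `δ/16 ≤ D_X + η`.  If `σ = -1` use `good_test` in `Y` and `ψ` norming `F s - m'`. -/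
theorem dc_sph (S : SI X Y) {p r : X} (hp : ‖p‖ = 1) (hr : ‖r‖ = 1) (hτ : ‖r - p‖ ≤ 3 * c0) {l : ℝ}
    (h0 : 0 ≤ l) (h1 : l ≤ 1) :
    ‖S.F (‖(1 - l) • p + l • r‖⁻¹ • ((1 - l) • p + l • r)) - ((1 - l) • S.F p + l • S.F r)‖ ≤
      2000000 * (l * ‖r - p‖ ^ 2 + (1 - ‖(1 - l) • p + l • r‖)) := by
  have hc : c0 = 1 / 10 ^ 7 := rfl
  have hm1 := DC_norm_le hp hr h0 h1
  obtain ⟨m, hm⟩ : ∃ m : X, m = (1 - l) • p + l • r := ⟨_, rfl⟩
  obtain ⟨m', hm'⟩ : ∃ m' : Y, m' = (1 - l) • S.F p + l • S.F r := ⟨_, rfl⟩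
  obtain ⟨τ, hτdef⟩ : ∃ τ, τ = ‖r - p‖ := ⟨_, rfl⟩
  have hτ0 : 0 ≤ τ := hτdef ▸ norm_nonneg _
  have hmp : ‖m - p‖ = l * τ := by
    have : m - p = l • (r - p) := by rw [hm]; module
    rw [this, norm_smul, Real.norm_of_nonneg h0, hτdef]
  have hmr : ‖m - r‖ = (1 - l) * τ := by
    have : m - r = (1 - l) • (p - r) := by rw [hm]; module
    rw [this, norm_smul, Real.norm_of_nonneg (by linarith), hτdef, norm_sub_rev]
  rw [← hm] at hm1
  rw [← hτdef, hc] at hτ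
  rw [← hm, ← hm', ← hτdef]
  have hlτ : l * τ ≤ τ := by nlinarith
  have hlτ' : (1 - l) * τ ≤ τ := by nlinarith
  have hη : 1 - ‖m‖ ≤ τ := by
    have := norm_sub_norm_le p m
    rw [norm_sub_rev, hmp, hp] at this
    linarith
  have hm0 : 0 < ‖m‖ := by norm_num at hτ; linarith
  have hnm := DC_normalize_sub hm0 hm1
  have hn1 : ‖‖m‖⁻¹ • m‖ = 1 := norm_normalize (norm_pos_iff.1 hm0)
  obtain ⟨n, hn⟩ : ∃ n : X, n = ‖m‖⁻¹ • m := ⟨_, rfl⟩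
  rw [← hn] at hnm hn1 ⊢
  obtain ⟨η, hηdef⟩ : ∃ η, η = 1 - ‖m‖ := ⟨_, rfl⟩
  rw [← hηdef] at hnm hη ⊢
  have hη0 : 0 ≤ η := by rw [hηdef]; linarith
  have hFp : ‖S.F p‖ = 1 := by rw [S.norm, hp]
  have hFr : ‖S.F r‖ = 1 := by rw [S.norm, hr]
  have hFn : ‖S.F n‖ = 1 := by rw [S.norm, hn1]
  have hFτ : ‖S.F r - S.F p‖ = τ := by rw [S.dist _ _ (by rw [hp, hr]), hτdef]
  have hlt : 0 ≤ l * τ ^ 2 := by positivity
  -- the bound on `δ`
  have hδ3 : ‖S.F n - m'‖ ≤ 3 * τ := by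
    have k1 := DC_tri (S.F n) (S.F p) (S.F r) h0 h1
    rw [← hm', S.dist _ _ (by rw [hp, hn1]), S.dist _ _ (by rw [hr, hn1])] at k1
    have k2 : ‖n - p‖ ≤ η + l * τ := by
      have := norm_add_le (n - m) (m - p)
      rwa [sub_add_sub_cancel, hnm, hmp] at this
    have k3 : ‖n - r‖ ≤ η + (1 - l) * τ := by
      have := norm_add_le (n - m) (m - r)
      rwa [sub_add_sub_cancel, hnm, hmr] at this
    have k4 := mul_le_mul_of_nonneg_left (k2.trans (show η + l * τ ≤ 2 * τ by linarith))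
      (show 0 ≤ 1 - l by linarith)
    have k5 := mul_le_mul_of_nonneg_left (k3.trans (show η + (1 - l) * τ ≤ 2 * τ by linarith)) h0
    nlinarith
  rcases eq_or_lt_of_le (norm_nonneg (S.F n - m')) with hδ0 | hδ0
  · rw [← hδ0]; positivity
  obtain ⟨δ, hδ⟩ : ∃ δ, δ = ‖S.F n - m'‖ := ⟨_, rfl⟩
  obtain ⟨e, he⟩ : ∃ e : Y, e = δ⁻¹ • (S.F n - m') := ⟨_, rfl⟩
  have hen : ‖e‖ = 1 := by
    rw [he, hδ]; exact norm_normalize (norm_pos_iff.1 hδ0)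
  rw [← hδ] at hδ0 hδ3 ⊢
  have hδe : S.F n - m' = δ • e := by
    rw [he, smul_smul, mul_inv_cancel₀ hδ0.ne', one_smul]
  obtain ⟨s₀', σ, hs₀', hσ, hrob, hψ⟩ := nl hFn hen
  suffices h : δ / 16 ≤ 80000 * l * τ ^ 2 + η by nlinarith
  rcases hσ with rfl | rfl
  · obtain ⟨s₀, rfl⟩ := S.F.surjective s₀'
    have hs₀ : ‖s₀‖ = 1 := by rwa [S.norm] at hs₀'
    rw [S.add (by rw [hn1, hs₀])] at hrob
    have hrob' : ‖(1 - l) • p + l • r + s₀‖ ≤ 2 - 2 / 50 := by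
      rw [← hm]
      have := norm_sub_le (n + s₀) (n - m)
      have h2 : n + s₀ - (n - m) = m + s₀ := by abel
      rw [h2, hnm] at this
      norm_num at hτ ⊢
      linarith
    obtain ⟨s, hs, hss, hD⟩ := good_test hp hr hs₀ h0 h1 (by rw [← hτdef, hc]; exact hτ) hrob'
    rw [← hm, ← hτdef] at hD
    obtain ⟨ψ, hψn⟩ := exists_nm (S.F s - S.F n)
    have k1 := hψ _ ψ (by
      rw [sub_sub_sub_cancel_right, S.dist _ _ (by rw [hs, hs₀])]; linarith) hψn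
    have k2 := hψn.sub_le (δ • e)
    have k3 : S.F s - S.F n + δ • e = S.F s - m' := by rw [← hδe]; abel
    rw [k3, map_smul, smul_eq_mul, S.dist _ _ (by rw [hs, hn1])] at k2
    have k4 := DC_tri (S.F s) (S.F p) (S.F r) h0 h1
    rw [← hm', S.dist _ _ (by rw [hp, hs]), S.dist _ _ (by rw [hr, hs])] at k4
    have k5 : ‖s - m‖ ≤ ‖s - n‖ + η := by
      have := norm_add_le (s - n) (n - m)
      rwa [sub_add_sub_cancel, hnm] at this
    have k6 : δ * (1 / 16) ≤ δ * ψ e := mul_le_mul_of_nonneg_left (by linarith) hδ0.le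
    linarith
  · have hrob' : ‖(1 - l) • S.F p + l • S.F r + s₀'‖ ≤ 2 - 2 / 50 := by
      rw [← hm']
      have := norm_sub_le (S.F n + s₀') (S.F n - m')
      have h2 : S.F n + s₀' - (S.F n - m') = m' + s₀' := by abel
      rw [h2, ← hδ] at this
      norm_num at hτ ⊢
      linarith
    obtain ⟨s', hs', hss, hD⟩ := good_test hFp hFr hs₀' h0 h1 (by rw [hFτ, hc]; exact hτ) hrob'
    rw [← hm', hFτ] at hD
    obtain ⟨s, rfl⟩ := S.F.surjective s'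
    have hs : ‖s‖ = 1 := by rwa [S.norm] at hs'
    obtain ⟨ψ, hψn⟩ := exists_nm (S.F s - m')
    have k1 := hψ _ ψ (by
      have h2 : S.F s - m' - (s₀' - S.F n) = (S.F s - s₀') + (S.F n - m') := by abel
      have := norm_add_le (S.F s - s₀') (S.F n - m')
      rw [← h2, ← hδ] at this
      norm_num at hτ ⊢
      linarith) hψn
    have k2 := hψn.sub_le (-(δ • e))
    have k3 : S.F s - m' + -(δ • e) = S.F s - S.F n := by rw [← hδe]; abel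
    rw [k3, map_neg, map_smul, smul_eq_mul, S.dist _ _ (by rw [hs, hn1])] at k2
    have k4 := DC_tri s p r h0 h1
    rw [← hm] at k4
    rw [S.dist _ _ (by rw [hp, hs]), S.dist _ _ (by rw [hr, hs])] at hD
    have k5 : ‖s - n‖ ≤ ‖s - m‖ + η := by
      have := norm_sub_le (s - m) (n - m)
      rwa [sub_sub_sub_cancel_right, hnm] at this
    have k6 : δ * (1 / 16) ≤ δ * (-ψ e) := mul_le_mul_of_nonneg_left (by linarith) hδ0.le
    linarith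

/-- **Delta-convexity of `F`.**  `r = sph x c`, `N₁ = ‖x + c‖`, `Z = 1 - l + l N₁`, `l' = l N₁ / Z ≤ 2 l`:
`x + l c = Z ((1-l') x + l' r)`, `(1-l) F x + l F (x + c) = Z ((1-l') F x + l' F r)`, and the defect of the norm
is `Z (1 - ‖(1-l') x + l' r‖)`; `‖r - x‖ ≤ 2‖c‖`. -/
theorem dc_F (S : SI X Y) {x c : X} (hx : ‖x‖ = 1) (hc : ‖c‖ ≤ c0) {l : ℝ} (h0 : 0 ≤ l) (h1 : l ≤ 1) :
    ‖(1 - l) • S.F x + l • S.F (x + c) - S.F (x + l • c)‖ ≤
      C0 * (l * ‖c‖ ^ 2 + ((1 - l) * ‖x‖ + l * ‖x + c‖ - ‖x + l • c‖)) := by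
  have hc0 : c0 = 1 / 10 ^ 7 := rfl
  have hC0 : C0 = 10 ^ 9 := rfl
  have hc1 : ‖c‖ < 1 := by rw [hc0] at hc; norm_num at hc; linarith
  have hr := norm_sph hx hc1
  have hxr := smul_sph hx hc1
  have hrx := sph_sub_le hx hc1
  obtain ⟨r, hrdef⟩ : ∃ r, r = sph x c := ⟨_, rfl⟩
  rw [← hrdef] at hr hxr hrx
  obtain ⟨N, hN⟩ : ∃ N, N = ‖x + c‖ := ⟨_, rfl⟩
  have hN1 : N ≤ 2 := by
    have := norm_add_le x c
    rw [hN]; linarith
  have hN0 : 1 / 2 ≤ N := by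
    have := norm_sub_le (x + c) c
    rw [add_sub_cancel_right, hx, ← hN] at this
    rw [hc0] at hc; norm_num at hc; linarith
  rw [← hN] at hxr ⊢
  obtain ⟨Z, hZ⟩ : ∃ Z, Z = 1 - l + l * N := ⟨_, rfl⟩
  have hZ0 : 0 < Z := by rw [hZ]; nlinarith
  obtain ⟨l', hl'⟩ : ∃ l', l' = l * N / Z := ⟨_, rfl⟩
  have hZl : Z * l' = l * N := by rw [hl']; field_simp
  have hZl' : Z * (1 - l') = 1 - l := by rw [mul_sub, hZl, hZ]; ring
  have h0' : 0 ≤ l' := by rw [hl']; positivity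
  have h1' : l' ≤ 1 := by rw [hl', div_le_one hZ0, hZ]; linarith
  have key := dc_sph S hx hr (l := l') (by linarith [c0_pos]) h0' h1'
  have hm1 := DC_norm_le hx hr h0' h1'
  have e1 : x + l • c = Z • ((1 - l') • x + l' • r) := by
    rw [smul_add, smul_smul, smul_smul, hZl, hZl', mul_smul, hxr]; module
  have e2 : (1 - l) • S.F x + l • S.F (x + c) = Z • ((1 - l') • S.F x + l' • S.F r) := by
    rw [smul_add, smul_smul, smul_smul, hZl, hZl', mul_smul, ← hxr, S.smul]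
  obtain ⟨m, hm⟩ : ∃ m : X, m = (1 - l') • x + l' • r := ⟨_, rfl⟩
  obtain ⟨m', hm'⟩ : ∃ m' : Y, m' = (1 - l') • S.F x + l' • S.F r := ⟨_, rfl⟩
  have hm0 : 0 < ‖m‖ := by
    have h2 : m - x = l' • (r - x) := by rw [hm]; module
    have h3 := norm_sub_norm_le x m
    rw [norm_sub_rev, h2, norm_smul, Real.norm_of_nonneg h0', hx] at h3
    have h4 : l' * ‖r - x‖ ≤ ‖r - x‖ := by nlinarith [norm_nonneg (r - x)]
    rw [hc0] at hc; norm_num at hc; linarith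
  rw [← hm] at key hm1 e1
  rw [← hm'] at key e2
  have e3 : S.F m = ‖m‖ • S.F (‖m‖⁻¹ • m) := by
    rw [← S.smul, smul_smul, mul_inv_cancel₀ hm0.ne', one_smul]
  have hn1 : ‖S.F (‖m‖⁻¹ • m)‖ = 1 := by rw [S.norm]; exact norm_normalize (norm_pos_iff.1 hm0)
  obtain ⟨n', hn'⟩ : ∃ n' : Y, n' = S.F (‖m‖⁻¹ • m) := ⟨_, rfl⟩
  rw [← hn'] at key e3 hn1
  have e4 : ‖m' - S.F m‖ ≤ ‖n' - m'‖ + (1 - ‖m‖) := by
    have h2 : m' - S.F m = (1 - ‖m‖) • n' - (n' - m') := by rw [e3]; module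
    have h3 := norm_sub_le ((1 - ‖m‖) • n') (n' - m')
    rw [← h2, norm_smul, hn1, Real.norm_of_nonneg (by linarith)] at h3
    linarith
  rw [e2, e1, S.smul, ← smul_sub, norm_smul, norm_smul, Real.norm_of_nonneg hZ0.le, hx, hC0]
  have k1 := mul_le_mul_of_nonneg_left (e4.trans (add_le_add_left key _)) hZ0.le
  have k2 : Z * (l' * ‖r - x‖ ^ 2) ≤ 8 * (l * ‖c‖ ^ 2) := by
    rw [← mul_assoc, hZl]
    have h2 : ‖r - x‖ ^ 2 ≤ (2 * ‖c‖) ^ 2 := pow_le_pow_left₀ (norm_nonneg _) hrx 2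
    calc l * N * ‖r - x‖ ^ 2 ≤ l * 2 * (2 * ‖c‖) ^ 2 := by gcongr
      _ = 8 * (l * ‖c‖ ^ 2) := by ring
  have k3 : 0 ≤ Z * (1 - ‖m‖) := mul_nonneg hZ0.le (by linarith)
  have k4 : 0 ≤ l * ‖c‖ ^ 2 := by positivity
  have k5 : (1 - l) * 1 + l * N - Z * ‖m‖ = Z * (1 - ‖m‖) := by rw [hZ]; ring
  rw [k5]
  nlinarith

end Crest.Agent.R74
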