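import Mathlib

/-! # R74/DR (copy of R114/DR by helper63 and takers) : the Dvoretzky–Rogers lemma. -/

set_option autoImplicit false
open Filter Topology Finset

namespace Crest.Agent.R74

variable {𝕜 : Type} [RCLike 𝕜] {E : Type*} [NormedAddCommGroup E] [NormedSpace 𝕜 E]

/-- Maximal ellipsoid.  Recipe: `H = EuclideanSpace 𝕜 (Fin N)`; `G : H →L E` injective (from `N` linearly independent
vectors), bounded below (`LinearMap.exists_antilipschitzWith`); `𝒦 = {A : H →L H | ∀ v, ‖G (A v)‖ ≤ ‖v‖}` is closed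
and bounded, hence compact (`H →L H` is finite-dimensional), contains `(‖G‖+1)⁻¹ • 1`; maximize `‖det A‖`
(`ContinuousLinearMap.continuous_det`), `u = G ∘ A`.  If `‖u (T v)‖ ≤ r ‖v‖` then `r⁻¹ • (A ∘ T) ∈ 𝒦`
(`LinearMap.det_smul`, `det_comp`). -/
theorem exists_max_ellipsoid (hE : ¬ FiniteDimensional 𝕜 E) (N : ℕ) :
    ∃ u : EuclideanSpace 𝕜 (Fin N) →L[𝕜] E, (∀ v, ‖u v‖ ≤ ‖v‖) ∧
      ∀ (T : EuclideanSpace 𝕜 (Fin N) →ₗ[𝕜] EuclideanSpace 𝕜 (Fin N)) (r : ℝ), 0 < r →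
        (∀ v, ‖u (T v)‖ ≤ r * ‖v‖) → ‖LinearMap.det T‖ ≤ r ^ N := by
  obtain ⟨f, hf⟩ : ∃ f : Fin N → E, LinearIndependent 𝕜 f := by
    refine exists_linearIndependent_of_le_rank ?_
    have : Cardinal.aleph0 ≤ Module.rank 𝕜 E := by
      by_contra h
      exact hE (Module.rank_lt_aleph0_iff.mp (not_le.mp h))
    exact Cardinal.natCast_lt_aleph0.le.trans this
  let G₀ : EuclideanSpace 𝕜 (Fin N) →ₗ[𝕜] E :=
    Fintype.linearCombination 𝕜 f ∘ₗ (WithLp.linearEquiv 2 𝕜 (Fin N → 𝕜)).toLinearMap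
  have hG₀ : LinearMap.ker G₀ = ⊥ := LinearMap.ker_eq_bot.mpr
    ((linearIndependent_iff_injective_fintypeLinearCombination.mp hf).comp
      (WithLp.linearEquiv 2 𝕜 (Fin N → 𝕜)).injective)
  obtain ⟨K, -, hK⟩ := G₀.exists_antilipschitzWith hG₀
  let G : EuclideanSpace 𝕜 (Fin N) →L[𝕜] E := LinearMap.toContinuousLinearMap G₀
  have hKG : ∀ v, ‖v‖ ≤ K * ‖G v‖ := fun v => by
    simpa [G] using hK.le_mul_dist v 0
  let 𝒦 : Set (EuclideanSpace 𝕜 (Fin N) →L[𝕜] EuclideanSpace 𝕜 (Fin N)) :=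
    {A | ∀ v, ‖G (A v)‖ ≤ ‖v‖}
  have hclosed : IsClosed 𝒦 := by
    simp only [𝒦, Set.setOf_forall]
    exact isClosed_iInter fun v => isClosed_le (by fun_prop) continuous_const
  have hbdd : Bornology.IsBounded 𝒦 := by
    refine (Metric.isBounded_closedBall (x := 0) (r := K)).subset fun A hA => ?_
    rw [mem_closedBall_zero_iff]
    exact A.opNorm_le_bound K.2 fun v => (hKG _).trans (by gcongr; exact hA v)
  haveI : ProperSpace (EuclideanSpace 𝕜 (Fin N) →L[𝕜] EuclideanSpace 𝕜 (Fin N)) :=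
    FiniteDimensional.proper_rclike 𝕜 _
  have hcpt : IsCompact 𝒦 := Metric.isCompact_of_isClosed_isBounded hclosed hbdd
  have hpos : (0 : ℝ) < ‖G‖ + 1 := by positivity
  have hmem : (((‖G‖ + 1)⁻¹ : ℝ) : 𝕜) • ContinuousLinearMap.id 𝕜 (EuclideanSpace 𝕜 (Fin N)) ∈ 𝒦 := by
    intro v
    rw [ContinuousLinearMap.smul_apply, ContinuousLinearMap.id_apply, map_smul, norm_smul,
      RCLike.norm_ofReal, abs_of_pos (inv_pos.mpr hpos), inv_mul_le_iff₀ hpos]
    exact (G.le_opNorm v).trans (by gcongr; linarith)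
  obtain ⟨A, hA, hmax⟩ := hcpt.exists_isMaxOn ⟨_, hmem⟩
    (ContinuousLinearMap.continuous_det.norm.continuousOn)
  have hA0 : 0 < ‖A.det‖ := by
    refine lt_of_lt_of_le ?_ (hmax hmem)
    simp only [ContinuousLinearMap.det, ContinuousLinearMap.toLinearMap_smul, LinearMap.det_smul,
      ContinuousLinearMap.coe_id, LinearMap.det_id, mul_one, norm_pow, RCLike.norm_ofReal]
    positivity
  refine ⟨G.comp A, hA, fun T r hr hT => ?_⟩
  have hmem' : ((r⁻¹ : ℝ) : 𝕜) • A.comp (LinearMap.toContinuousLinearMap T) ∈ 𝒦 := by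
    intro v
    rw [ContinuousLinearMap.smul_apply, map_smul, norm_smul, RCLike.norm_ofReal,
      abs_of_pos (inv_pos.mpr hr), inv_mul_le_iff₀ hr]
    exact hT v
  have h1 : ‖(((r⁻¹ : ℝ) : 𝕜) • A.comp (LinearMap.toContinuousLinearMap T)).det‖ ≤ ‖A.det‖ :=
    hmax hmem'
  have hc : (A.comp (LinearMap.toContinuousLinearMap T)).toLinearMap = A.toLinearMap ∘ₗ T := rfl
  simp only [ContinuousLinearMap.det, ContinuousLinearMap.toLinearMap_smul, LinearMap.det_smul, hc,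
    LinearMap.det_comp, norm_mul, norm_pow, RCLike.norm_ofReal, finrank_euclideanSpace,
    Fintype.card_fin, abs_of_pos (inv_pos.mpr hr)] at h1 hA0
  rw [inv_pow, inv_mul_le_iff₀ (by positivity), mul_comm (r ^ N)] at h1
  exact le_of_mul_le_mul_left h1 hA0

/-- `det (1 + P_F) = 2 ^ dim F` for the orthogonal projection onto `F` (e.g. via
`LinearMap.det_eq_det_mul_det`-type block lemmas, `Submodule.prodEquivOfIsCompl` and `LinearMap.det_prodMap`,
or an orthonormal basis adapted to `F`). -/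
theorem det_one_add_starProjection {H : Type*} [NormedAddCommGroup H] [InnerProductSpace 𝕜 H]
    [FiniteDimensional 𝕜 H] (F : Submodule 𝕜 H) :
    LinearMap.det ((LinearMap.id : H →ₗ[𝕜] H) + (F.starProjection : H →ₗ[𝕜] H)) =
      2 ^ Module.finrank 𝕜 F := by
  let e := F.prodEquivOfIsCompl _ F.isCompl_orthogonal
  have : e.symm.toLinearMap ∘ₗ ((LinearMap.id : H →ₗ[𝕜] H) + (F.starProjection : H →ₗ[𝕜] H)) ∘ₗ
      e.symm.symm.toLinearMap =
      LinearMap.prodMap ((2 : 𝕜) • LinearMap.id) LinearMap.id := by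
    refine LinearMap.ext fun x => ?_
    have h1 : F.starProjection (x.1 : H) = x.1 := Submodule.starProjection_eq_self_iff.mpr x.1.2
    have h2 : F.starProjection (x.2 : H) = 0 :=
      (Submodule.starProjection_apply_eq_zero_iff F).mpr x.2.2
    simp only [LinearMap.comp_apply, LinearEquiv.coe_coe, LinearEquiv.symm_symm]
    rw [LinearEquiv.symm_apply_eq]
    simp only [e, Submodule.coe_prodEquivOfIsCompl', LinearMap.add_apply, LinearMap.id_apply,
      ContinuousLinearMap.coe_coe, map_add, h1, h2, LinearMap.prodMap_apply, LinearMap.smul_apply,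
      Submodule.coe_smul, two_smul, Submodule.coe_add]
    abel
  rw [← LinearMap.det_conj _ e.symm, this, LinearMap.det_prodMap, LinearMap.det_smul,
    LinearMap.det_id, LinearMap.det_id, mul_one, mul_one]

/-- Dvoretzky–Rogers.  Recipe: `N = 2n` (or `2n+1`), `u` from `exists_max_ellipsoid`.  Every subspace `F` with
`2 dim F ≥ N > 0` has a unit vector `e` with `‖u e‖ ≥ 1/3`: otherwise `T = 1 + P_F`, `r = 4/3` give
`2^{dim F} ≤ (4/3)^N`, i.e. `2^N ≤ (16/9)^N`.  Choose orthonormal `e₀, …, e_{n-1}` by induction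
(`F` = orthogonal complement of the span of the previous ones; `Fin.snoc`/`Orthonormal` lemmas), `h i = u (e i)`;
Bessel: `ψ ∘ u = ⟪w, ·⟫` with `‖w‖ ≤ ‖ψ‖` (`InnerProductSpace.toDual`), `Orthonormal.sum_inner_products_le`. -/
theorem dvoretzky_rogers (hE : ¬ FiniteDimensional 𝕜 E) (n : ℕ) :
    ∃ h : Fin n → E, (∀ i, 1 / 3 ≤ ‖h i‖) ∧
      ∀ ψ : StrongDual 𝕜 E, ∑ i, ‖ψ (h i)‖ ^ 2 ≤ ‖ψ‖ ^ 2 := by
  obtain ⟨u, hu, hmax⟩ := exists_max_ellipsoid hE (2 * n + 1)
  have key : ∀ F : Submodule 𝕜 (EuclideanSpace 𝕜 (Fin (2 * n + 1))),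
      2 * n + 1 ≤ 2 * Module.finrank 𝕜 F → ∃ e ∈ F, ‖e‖ = 1 ∧ 1 / 3 ≤ ‖u e‖ := by
    intro F hF
    by_contra hcon
    push Not at hcon
    have h1 : ∀ w ∈ F, ‖u w‖ ≤ 1 / 3 * ‖w‖ := by
      intro w hw
      rcases eq_or_ne w 0 with rfl | hw0
      · simp
      · have hn : 0 < ‖w‖ := norm_pos_iff.mpr hw0
        have h2 := hcon (((‖w‖⁻¹ : ℝ) : 𝕜) • w) (F.smul_mem _ hw) (by
          rw [norm_smul, RCLike.norm_ofReal, abs_of_pos (inv_pos.mpr hn), inv_mul_cancel₀ hn.ne'])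
        rw [map_smul, norm_smul, RCLike.norm_ofReal, abs_of_pos (inv_pos.mpr hn),
          inv_mul_lt_iff₀ hn] at h2
        linarith
    have h2 := hmax (LinearMap.id + (F.starProjection : _ →ₗ[𝕜] _)) (4 / 3) (by norm_num) fun v => by
      rw [LinearMap.add_apply, LinearMap.id_apply, map_add, ContinuousLinearMap.coe_coe]
      have a1 := h1 _ (F.starProjection_apply_mem v)
      have a2 := F.norm_starProjection_apply_le v
      linarith [norm_add_le (u v) (u (F.starProjection v)), hu v]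
    rw [det_one_add_starProjection, norm_pow, RCLike.norm_two] at h2
    have h3 : (2 : ℝ) ^ (2 * n + 1) ≤ (16 / 9) ^ (2 * n + 1) :=
      calc (2 : ℝ) ^ (2 * n + 1) ≤ 2 ^ (2 * Module.finrank 𝕜 F) :=
            pow_le_pow_right₀ (by norm_num) hF
        _ = (2 ^ Module.finrank 𝕜 F) ^ 2 := by rw [← pow_mul, mul_comm]
        _ ≤ ((4 / 3) ^ (2 * n + 1)) ^ 2 := by gcongr
        _ = (16 / 9) ^ (2 * n + 1) := by rw [← pow_mul, mul_comm, pow_mul]; norm_num
    exact absurd h3 (not_le.mpr (pow_lt_pow_left₀ (by norm_num) (by norm_num) (by omega)))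
  have hex : ∀ m ≤ n, ∃ e : Fin m → EuclideanSpace 𝕜 (Fin (2 * n + 1)),
      Orthonormal 𝕜 e ∧ ∀ i, 1 / 3 ≤ ‖u (e i)‖ := by
    intro m
    induction m with
    | zero => exact fun _ => ⟨Fin.elim0, orthonormal_iff_ite.mpr fun i => i.elim0, fun i => i.elim0⟩
    | succ m ih =>
      intro hm
      obtain ⟨e, he, he'⟩ := ih (by omega)
      have h1 := Submodule.finrank_add_finrank_orthogonal (Submodule.span 𝕜 (Set.range e))
      have h2 : Module.finrank 𝕜 (Submodule.span 𝕜 (Set.range e)) = m := by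
        rw [finrank_span_eq_card he.linearIndependent, Fintype.card_fin]
      rw [h2, finrank_euclideanSpace, Fintype.card_fin] at h1
      obtain ⟨w, hw, hw1, hw2⟩ := key (Submodule.span 𝕜 (Set.range e))ᗮ (by omega)
      refine ⟨Matrix.vecCons w e, orthonormal_vecCons_iff.mpr ⟨hw1, fun i => ?_, he⟩, fun i => ?_⟩
      · exact Submodule.inner_left_of_mem_orthogonal
          (Submodule.subset_span (Set.mem_range_self i)) hw
      · refine Fin.cases ?_ (fun j => ?_) i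
        · simpa using hw2
        · simpa using he' j
  obtain ⟨e, he, he'⟩ := hex n le_rfl
  refine ⟨fun i => u (e i), he', fun ψ => ?_⟩
  obtain ⟨w, hw⟩ := (InnerProductSpace.toDual 𝕜 (EuclideanSpace 𝕜 (Fin (2 * n + 1)))).surjective
    (ψ.comp u)
  have h1 : ‖w‖ ≤ ‖ψ‖ := by
    rw [← (InnerProductSpace.toDual 𝕜 _).norm_map w, hw]
    exact ContinuousLinearMap.opNorm_le_bound _ (norm_nonneg _) fun v =>
      (ψ.le_opNorm _).trans (by gcongr; exact hu v)
  calc ∑ i, ‖ψ (u (e i))‖ ^ 2 = ∑ i, ‖inner 𝕜 (e i) w‖ ^ 2 := by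
        refine sum_congr rfl fun i _ => ?_
        rw [norm_inner_symm, ← InnerProductSpace.toDual_apply_apply, hw]; rfl
    _ ≤ ‖w‖ ^ 2 := he.sum_inner_products_le w
    _ ≤ ‖ψ‖ ^ 2 := by gcongr

end Crest.Agent.R74
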