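import Mathlib

/-!
# Row 74 (S0099): Tingley's problem -- definitions and plan

`f : S_X → S_Y` a surjective isometry.  `f` is odd (`Odd`), so its radial extension `F` is an `SI X Y`.
Goal: `F` is `1`-Lipschitz (then apply the same to `F⁻¹` and use Mazur-Ulam).

* `Basic`, `Geo`     norming functionals, second differences, exit points of chords, pigeonholes.
* `DC`, `Deriv`      `F` is delta-convex; at a point `p` with `p`, `F p` smooth it has a derivative `T` (`BS`).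
* `Pair`, `LemG`     pairing of norming functionals of a chord and its image; the walking lemma.
* `Long`, `R1`, `R2` superquadratic height at `p` forces `T` to be almost isometric ("good"); `F` is
                     uniformly Fréchet differentiable; away from good points the norms are `C^{1,1}` (`Tame`).
* `TC1`, `TC2`       consequences of tameness.
* `Psi`, `Seq`, `Chord1-3`, `Bessel`, `Sel`, `Core`, `Chain`, `Curv`
                     the chain argument: at a tame point the averaged second difference of `F` along a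
                     weakly small random direction is tiny, or the point is good.
* `John`, `Fam`, `FamEx`  Dvoretzky-Rogers, the random direction.
* `Walk`             a random walk must reach a good point, so `Lip F ≤ 1` (infinite dimension).
* `Fin1-3`           finite dimension (John ellipsoids, McShane, Brouwer, volumes).
* `Sep`              separable reduction.
-/

namespace Crest.Agent.R74

open Finset

variable {X Y : Type*} [NormedAddCommGroup X] [NormedSpace ℝ X] [NormedAddCommGroup Y]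
  [NormedSpace ℝ Y]

/-- the radial extension of an odd surjective isometry of unit spheres. -/
structure SI (X Y : Type*) [NormedAddCommGroup X] [NormedSpace ℝ X] [NormedAddCommGroup Y]
    [NormedSpace ℝ Y] where
  F : X ≃ Y
  smul : ∀ (t : ℝ) (x : X), F (t • x) = t • F x
  norm : ∀ x, ‖F x‖ = ‖x‖
  dist : ∀ x x', ‖x‖ = ‖x'‖ → ‖F x - F x'‖ = ‖x - x'‖

/-- the inverse map. -/
def SI.symm (S : SI X Y) : SI Y X where
  F := S.F.symm
  smul t y := by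
    apply S.F.injective
    rw [S.smul]; simp
  norm y := by rw [← S.norm]; simp
  dist y y' h := by
    rw [← S.dist _ _ (by rw [← S.norm, ← S.norm (S.F.symm y')]; simpa using h)]; simp

@[simp] theorem SI.symm_F (S : SI X Y) : S.symm.F = S.F.symm := rfl

/-- `φ` is a norming functional (subgradient of the norm) at `v`. -/
def Nm (φ : X →L[ℝ] ℝ) (v : X) : Prop := ‖φ‖ ≤ 1 ∧ φ v = ‖v‖

/-- second difference of the norm. -/
def D2 (x c : X) : ℝ := ‖x + c‖ + ‖x - c‖ - 2 * ‖x‖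

/-- the norm is Gâteaux differentiable at `x`. -/
def Sm (x : X) : Prop := ∀ ζ : X, ∀ ε : ℝ, 0 < ε → ∃ t : ℝ, 0 < t ∧ D2 x (t • ζ) ≤ ε * t

/-- the constant of the delta-convexity estimate. -/
noncomputable def C0 : ℝ := 10 ^ 9

/-- the radius of the delta-convexity estimate. -/
noncomputable def c0 : ℝ := 1 / 10 ^ 7

/-- data at a unit vector `p` such that `p` and `F p` are smooth points: the norming functionals and
the derivative `T` of `F`. -/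
structure BS (S : SI X Y) (p : X) where
  J : X →L[ℝ] ℝ
  J' : Y →L[ℝ] ℝ
  T : X ≃L[ℝ] Y
  hp : ‖p‖ = 1
  hJ : Nm J p
  hJ' : Nm J' (S.F p)
  sm : Sm p
  sm' : Sm (S.F p)
  dc : ∀ c, ‖c‖ ≤ c0 →
    ‖S.F (p + c) - S.F p - T c‖ ≤ C0 * (‖c‖ ^ 2 + (‖p + c‖ - 1 - J c))
  dc' : ∀ c, ‖c‖ ≤ c0 →
    ‖S.F.symm (S.F p + c) - p - T.symm c‖ ≤ C0 * (‖c‖ ^ 2 + (‖S.F p + c‖ - 1 - J' c))

namespace BS

variable {S : SI X Y} {p : X}

/-- the same data for the inverse map. -/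
def symm (B : BS S p) : BS S.symm (S.F p) where
  J := B.J'
  J' := B.J
  T := B.T.symm
  hp := by rw [S.norm, B.hp]
  hJ := B.hJ'
  hJ' := by simpa using B.hJ
  sm := B.sm'
  sm' := by simpa using B.sm
  dc c hc := by simpa using B.dc' c hc
  dc' c hc := by simpa using B.dc c hc

@[simp] theorem symm_J (B : BS S p) : B.symm.J = B.J' := rfl
@[simp] theorem symm_J' (B : BS S p) : B.symm.J' = B.J := rfl
@[simp] theorem symm_T (B : BS S p) : B.symm.T = B.T.symm := rfl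

/-- the map equal to `T` on `ker J` and sending `p` to `a`. -/
noncomputable def Ta (B : BS S p) (a : Y) : X →L[ℝ] Y :=
  (B.T : X →L[ℝ] Y) + B.J.smulRight (a - S.F p)

theorem Ta_apply (B : BS S p) (a : Y) (z : X) : B.Ta a z = B.T z + B.J z • (a - S.F p) := rfl

/-- the vector `a` with `Ta a (r - p) = F r - F p` (when `J r ≠ 1`). -/
noncomputable def ar (B : BS S p) (r : X) : Y :=
  S.F p + (1 - B.J r)⁻¹ • (B.T (r - p) - (S.F r - S.F p))

/-- `T` is a `(1 + ε)`-isometry. -/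
def Good (B : BS S p) (ε : ℝ) : Prop :=
  (∀ z, ‖B.T z‖ ≤ (1 + ε) * ‖z‖) ∧ ∀ z, ‖z‖ ≤ (1 + ε) * ‖B.T z‖

/-- `φ`, `ψ` norm the chord `q - p` and its image, and correspond on the tangent space at `p`. -/
def Pair (B : BS S p) (q : X) (φ : X →L[ℝ] ℝ) (ψ : Y →L[ℝ] ℝ) : Prop :=
  Nm φ (q - p) ∧ Nm ψ (S.F q - S.F p) ∧ ∀ ζ, B.J ζ = 0 → φ ζ = ψ (B.T ζ)

/-- projection onto `ker J` along `p`. -/
noncomputable def pr (B : BS S p) (x : X) : X := x - B.J x • p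

end BS

/-- radial projection of `p + a` to the unit sphere. -/
noncomputable def sph (p a : X) : X := ‖p + a‖⁻¹ • (p + a)

/-- second order remainder of `sph`. -/
noncomputable def dX (p a : X) : X := sph p a - p - a

/-- second order remainder of `F ∘ sph`. -/
noncomputable def BS.dY {S : SI X Y} {p : X} (B : BS S p) (a : X) : Y :=
  S.F (sph p a) - S.F p - B.T a

/-- both norms are `C^{1,1}` near `p`, `F p`. -/
def Tame (S : SI X Y) (p : X) (δ C : ℝ) : Prop :=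
  ∀ s, ‖s‖ = 1 → ‖s - p‖ ≤ δ →
    (∀ c, ‖c‖ ≤ δ → D2 s c ≤ C * ‖c‖ ^ 2) ∧ ∀ c, ‖c‖ ≤ δ → D2 (S.F s) c ≤ C * ‖c‖ ^ 2

/-- first order consequences of tameness. -/
structure TC0 (S : SI X Y) (p : X) (δ C : ℝ) : Prop where
  hp : ‖p‖ = 1
  ex : ∀ s, ‖s‖ = 1 → ‖s - p‖ ≤ δ → Nonempty (BS S s)
  hX : ∀ s (B : BS S s), ‖s - p‖ ≤ δ → ∀ c, ‖c‖ ≤ δ → ‖s + c‖ - 1 - B.J c ≤ C * ‖c‖ ^ 2
  hY : ∀ s (B : BS S s), ‖s - p‖ ≤ δ → ∀ c, ‖c‖ ≤ δ → ‖S.F s + c‖ - 1 - B.J' c ≤ C * ‖c‖ ^ 2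
  hF : ∀ s (B : BS S s), ‖s - p‖ ≤ δ → ∀ c, ‖c‖ ≤ δ →
    ‖S.F (s + c) - S.F s - B.T c‖ ≤ C * ‖c‖ ^ 2
  lipJ : ∀ s s' (B : BS S s) (B' : BS S s'), ‖s - p‖ ≤ δ → ‖s' - p‖ ≤ δ →
    ∀ x, |B.J x - B'.J x| ≤ C * ‖s - s'‖ * ‖x‖
  lipT : ∀ s s' (B : BS S s) (B' : BS S s'), ‖s - p‖ ≤ δ → ‖s' - p‖ ≤ δ →
    ∀ x, ‖B.T x - B'.T x‖ ≤ C * ‖s - s'‖ * ‖x‖

/-- all consequences of tameness used by the chain argument. -/
structure TC (S : SI X Y) (p : X) (δ C : ℝ) : Prop extends TC0 S p δ C where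
  dX_le : ∀ (B : BS S p) a, B.J a = 0 → ‖a‖ ≤ δ → ‖dX p a‖ ≤ C * ‖a‖ ^ 2
  dY_le : ∀ (B : BS S p) a, B.J a = 0 → ‖a‖ ≤ δ → ‖B.dY a‖ ≤ C * ‖a‖ ^ 2
  dX_cub : ∀ (B : BS S p) a, B.J a = 0 → ‖a‖ ≤ δ → ‖dX p a + (‖p + a‖ - 1) • p‖ ≤ C * ‖a‖ ^ 3
  dY_lip : ∀ (B : BS S p) a a', B.J a = 0 → B.J a' = 0 → ‖a‖ ≤ δ → ‖a'‖ ≤ δ →
    ‖B.dY a - B.dY a'‖ ≤ C * (‖a‖ + ‖a'‖) * ‖a - a'‖
  cubF : ∀ (B : BS S p) c, ‖c‖ ≤ δ →
    ‖S.F (p + c) + S.F (p - c) - (2 : ℝ) • S.F p - (B.dY (B.pr c) + B.dY (-B.pr c)) -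
      D2 p c • S.F p‖ ≤ C * ‖c‖ ^ 3
  cubX : ∀ (B : BS S p) c, ‖c‖ ≤ δ →
    ‖dX p (B.pr c) + dX p (-B.pr c) + D2 p c • p‖ ≤ C * ‖c‖ ^ 3

/-- a nonnegative convex function vanishing at `0`. -/
structure Gauge {V : Type*} [AddCommGroup V] [Module ℝ V] (k : V → ℝ) : Prop where
  conv : ConvexOn ℝ Set.univ k
  nonneg : ∀ x, 0 ≤ k x
  zero : k 0 = 0

/-- the norm near `v` minus its linearisation. -/
def kk (φ : X →L[ℝ] ℝ) (v c : X) : ℝ := ‖v - c‖ - ‖v‖ + φ c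

/-- a robust chord `(p, q)` starting at a tame point, with a norming functional of its image. -/
structure Ch (S : SI X Y) (δ C θ : ℝ) where
  p : X
  q : X
  Bp : BS S p
  Bq : BS S q
  tc : TC S p δ C
  rob : ‖p + q‖ ≤ 2 - 2 * θ
  ψ : Y →L[ℝ] ℝ
  hψ : Nm ψ (S.F q - S.F p)

/-- the map equal to `T` on `ker J` and sending `q - p` to `F q - F p`. -/
noncomputable def BS.That {S : SI X Y} {p : X} (B : BS S p) (q : X) : X →L[ℝ] Y :=
  (B.T : X →L[ℝ] Y) + B.J.smulRight ((B.J (q - p))⁻¹ • (S.F q - S.F p - B.T (q - p)))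

namespace Ch

variable {S : SI X Y} {δ C θ : ℝ} (c : Ch S δ C θ)

def v : X := c.q - c.p
def w : Y := S.F c.q - S.F c.p
noncomputable def φ : X →L[ℝ] ℝ := c.ψ.comp (c.Bp.That c.q)
noncomputable def k : X → ℝ := kk c.φ c.v
noncomputable def k' : Y → ℝ := kk c.ψ c.w
noncomputable def k'' : X → ℝ := fun x => c.k' (c.Bp.T x)

/-- `a'` is obtained from `a` by sliding along `w` in `Y` to the tangent space at `q` and back along
`v` in `X`; the coefficients are bounded by `A`. -/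
def Rel (a a' : X) (A : ℝ) : Prop :=
  c.Bp.J a = 0 ∧ c.Bp.J a' = 0 ∧ ∃ (b : X) (α α' : ℝ), c.Bq.J b = 0 ∧
    c.Bq.T b = c.Bp.T a + α' • c.w ∧ a' = b + α • c.v ∧ |α| ≤ A ∧ |α'| ≤ A

end Ch

/-- approximate chain vectors, computed from the derivative at a nearby point `q₁`. -/
noncomputable def apx {S : SI X Y} {p q₁ : X} (B : BS S p) (B₁ : BS S q₁) (sg : Bool) (j : ℕ)
    (x : X) : X :=
  B.pr ((fun z => if sg then B₁.T.symm (B.T z) else B.T.symm (B₁.T z))^[j] (B.pr x))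

/-- a symmetric random vector with finitely many equally likely values. -/
structure Fam (X : Type*) [AddCommGroup X] where
  Ω : Type
  [fin : Fintype Ω]
  [ne : Nonempty Ω]
  u : Ω → X
  ng : Ω ≃ Ω
  hng : ∀ ω, u (ng ω) = -u ω

attribute [instance] Fam.fin Fam.ne

namespace Fam

/-- expectation. -/
noncomputable def E {V : Type*} [AddCommGroup V] (𝓕 : Fam V) {Z : Type*} [AddCommGroup Z]
    [Module ℝ Z] (g : 𝓕.Ω → Z) : Z :=
  (Fintype.card 𝓕.Ω : ℝ)⁻¹ • ∑ ω, g ω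

/-- one step of size `τ`. -/
noncomputable def Q (𝓕 : Fam X) (τ : ℝ) (g : X → ℝ) (x : X) : ℝ :=
  𝓕.E fun ω => g (x + τ • 𝓕.u ω)

/-- independent steps of sizes `l`. -/
noncomputable def QL (𝓕 : Fam X) (l : List ℝ) (g : X → ℝ) : X → ℝ := l.foldr 𝓕.Q g

/-- upper bound for weighted sums of independent copies. -/
def Up (𝓕 : Fam X) (c : ℝ) : Prop :=
  ∀ l : List ℝ, 𝓕.QL l (fun x => ‖x‖ ^ 2) 0 ≤ c * (l.map (· ^ 2)).sum

/-- weighted sums of independent copies behave like in a Hilbert space, and the weak variance is at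
most `β²`. -/
structure Good (𝓕 : Fam X) (β : ℝ) : Prop where
  up : 𝓕.Up 2
  low : ∀ l : List ℝ, (l.map (· ^ 2)).sum / 16 ≤ 𝓕.QL l (fun x => ‖x‖ ^ 2) 0
  weak : ∀ φ : X →L[ℝ] ℝ, 𝓕.E (fun ω => φ (𝓕.u ω) ^ 2) ≤ β ^ 2 * ‖φ‖ ^ 2

/-- image under a linear map. -/
def map (𝓕 : Fam X) (A : X →L[ℝ] Y) : Fam Y where
  Ω := 𝓕.Ω
  u ω := A (𝓕.u ω)
  ng := 𝓕.ng
  hng ω := by rw [𝓕.hng, map_neg]

/-- probability weights. -/
def Prob {ι : Type*} (I : Finset ι) (π : ι → ℝ) : Prop := (∀ i ∈ I, 0 ≤ π i) ∧ ∑ i ∈ I, π i = 1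

/-- one step with a random size `t i` chosen with probability `π i`. -/
noncomputable def P {ι : Type*} (𝓕 : Fam X) (I : Finset ι) (π t : ι → ℝ) (g : X → ℝ) (x : X) : ℝ :=
  ∑ i ∈ I, π i * 𝓕.Q (t i) g x

end Fam

/-- the scales. -/
noncomputable def sc (τ b : ℝ) (i : ℤ) : ℝ := τ * b ^ i

/-- tent weights on `[0, 2n]` of total mass one. -/
noncomputable def tent (n : ℕ) (i : ℤ) : ℝ := max 0 (min (i : ℝ) (2 * n - i)) / (n : ℝ) ^ 2

/-- tent average. -/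
noncomputable def Wt {Z : Type*} [AddCommGroup Z] [Module ℝ Z] (n : ℕ) (G : ℤ → Z) : Z :=
  ∑ i ∈ Icc (0 : ℤ) (2 * n), tent n i • G i

/-- averaged second difference of `F` at `x`. -/
noncomputable def DF (S : SI X Y) (𝓕 : Fam X) (n : ℕ) (b τ : ℝ) (x : X) : Y :=
  Wt n fun i => ((sc τ b i) ^ 2)⁻¹ • 𝓕.E fun ω =>
    S.F (x + sc τ b i • 𝓕.u ω) + S.F (x - sc τ b i • 𝓕.u ω) - (2 : ℝ) • S.F x

/-- averaged second difference of the norm at `x`. -/
noncomputable def HN (𝓕 : Fam X) (n : ℕ) (b τ : ℝ) (x : X) : ℝ :=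
  Wt n fun i => ((sc τ b i) ^ 2)⁻¹ * 𝓕.E fun ω => D2 x (sc τ b i • 𝓕.u ω)

/-- normalised symmetrised values of `k` along a random vector, at the scale `i`. -/
noncomputable def gs {V : Type*} [AddCommGroup V] [Module ℝ V] (𝓕 : Fam X) (k : V → ℝ)
    (a : 𝓕.Ω → V) (τ b : ℝ) (i : ℤ) : ℝ :=
  ((sc τ b i) ^ 2)⁻¹ * 𝓕.E fun ω => k (sc τ b i • a ω) + k (sc τ b i • -a ω)

/-- the pointwise chain inequality (output of `psi`). -/
def PSI {V₁ V₂ : Type*} [AddCommGroup V₁] [Module ℝ V₁] [AddCommGroup V₂] [Module ℝ V₂]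
    (k₁ : V₁ → ℝ) (k₂ : V₂ → ℝ) (A : V₁) (B D : V₂) (b κ ν t g : ℝ) : Prop :=
  k₁ (t • A) - k₁ ((t / b) • A) ≤
    κ * (k₂ ((b * t) • B) / b - k₂ (t • B)) + (1 - 1 / b) * κ * k₂ ((t / κ) • D) +
      ν * (k₁ ((16 * t) • A) + k₂ ((16 * t) • B) + k₂ ((16 * t) • D)) + g

/-- the chain inequality for sequences indexed by the scale (`κ = b ^ m`). -/
def PSeq (L B D : ℤ → ℝ) (b : ℝ) (m : ℤ) (m₂ : ℕ) (ν ε : ℝ) (i : ℤ) : Prop :=
  L i - (b ^ 2)⁻¹ * L (i - 1) ≤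
    b ^ m * (b * B (i + 1) - B i) + (1 - 1 / b) * (b ^ m)⁻¹ * D (i - m) +
      ν * (L (i + m₂) + B (i + m₂) + D (i + m₂)) + ε

end Crest.Agent.R74
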