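import Crest.Agent.R74.Defs

/-!
# Row 74: more definitions (Rademacher sums, the random walk, John position)
-/

namespace Crest.Agent.R74

open Finset

variable {X Y : Type*} [NormedAddCommGroup X] [NormedSpace ℝ X] [NormedAddCommGroup Y]
  [NormedSpace ℝ Y]

/-- one Rademacher step. -/
noncomputable def R (y : X) (g : X → ℝ) (x : X) : ℝ := (g (x + y) + g (x - y)) / 2

/-- `RL ys g x` is the expectation of `g (x + ∑ ± y)` over independent signs. -/
noncomputable def RL (ys : List X) (g : X → ℝ) : X → ℝ := ys.foldr R g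

/-- independent copies of the list `ys`, scaled by the entries of `l`. -/
def flat (l : List ℝ) (ys : List X) : List X := l.flatMap fun τ => ys.map (τ • ·)

/-- sum of squares of a list. -/
def sq2 (l : List ℝ) : ℝ := (l.map (· ^ 2)).sum

/-- normalising constant of the random walk; `(Zs n b τ)⁻¹` is the mean square step. -/
noncomputable def Zs (n : ℕ) (b τ : ℝ) : ℝ := Wt n fun i => ((sc τ b i) ^ 2)⁻¹

/-- probability of the scale `i`. -/
noncomputable def pw (n : ℕ) (b τ : ℝ) (i : ℤ) : ℝ := tent n i * ((sc τ b i) ^ 2)⁻¹ / Zs n b τ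

/-- one step of the random walk. -/
noncomputable def PW (𝓕 : Fam X) (n : ℕ) (b τ : ℝ) : (X → ℝ) → X → ℝ :=
  𝓕.P (Icc (0 : ℤ) (2 * n)) (pw n b τ) (sc τ b)

/-- Euclidean space. -/
abbrev Eu (n : ℕ) := EuclideanSpace ℝ (Fin n)

/-- square of the Hilbert-Schmidt norm. -/
noncomputable def HS {n : ℕ} (A : Eu n →L[ℝ] Eu n) : ℝ :=
  ∑ k, ‖A (EuclideanSpace.single k (1 : ℝ))‖ ^ 2

/-- John position: an ellipsoid in the unit ball and a decomposition of the identity. -/
structure JP (n : ℕ) (X : Type*) [NormedAddCommGroup X] [NormedSpace ℝ X] where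
  W : Eu n ≃L[ℝ] X
  le : ∀ v, ‖W v‖ ≤ ‖v‖
  m : ℕ
  c : Fin m → ℝ
  ψ : Fin m → X →L[ℝ] ℝ
  g : Fin m → Eu n
  c_nonneg : ∀ j, 0 ≤ c j
  c_sum : ∑ j, c j = n
  ψ_le : ∀ j, ‖ψ j‖ ≤ 1
  ψ_W : ∀ j v, ψ j (W v) = inner ℝ (g j) v
  dec : ∀ v, ∑ j, (c j * inner ℝ (g j) v) • g j = v

end Crest.Agent.R74
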