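import Crest.Agent.R74.Rad
import Crest.Agent.R74.DR
import Crest.Agent.R74.FamB

/-!
# Row 74: existence of a weakly small random direction
-/

namespace Crest.Agent.R74

open Finset

variable {X Y : Type*} [NormedAddCommGroup X] [NormedSpace ℝ X] [NormedAddCommGroup Y]
  [NormedSpace ℝ Y]

/-- all signs are `+` with probability `2⁻ᵐ`. -/
theorem RL_replicate (m : ℕ) (y : X) {g : X → ℝ} {a : ℝ} (ha : ∀ x, a ≤ g x) (x : X) :
    (1 / 2) ^ m * g (x + (m : ℝ) • y) + (1 - (1 / 2) ^ m) * a ≤ RL (List.replicate m y) g x := by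
  induction m generalizing x with
  | zero => simp
  | succ m ih =>
    rw [List.replicate_succ, RL_cons, R]
    have h1 := ih (x + y)
    have h2 : a ≤ RL (List.replicate m y) g (x - y) := by
      have := RL_mono (List.replicate m y) (g := fun _ => a) (h := g) ha (x - y)
      rwa [RL_const] at this
    have h3 : x + ((m + 1 : ℕ) : ℝ) • y = x + y + (m : ℝ) • y := by
      push_cast
      rw [add_smul, one_smul]
      abel
    rw [h3, pow_succ]
    linarith

theorem famEx_RL_zero_le (zs : List X) (x : X) :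
    RL zs (fun y => ‖y‖ ^ 2) 0 ≤ RL zs (fun y => ‖y‖ ^ 2) x := by
  have hc := RL_convex zs (convexOn_norm_sq (X := X))
  have he : RL zs (fun y => ‖y‖ ^ 2) (-x) = RL zs (fun y => ‖y‖ ^ 2) x := by
    rw [← RL_neg]
    simp only [norm_neg]
  have h := hc.2 (Set.mem_univ x) (Set.mem_univ (-x)) (by norm_num : (0 : ℝ) ≤ 1 / 2)
    (by norm_num : (0 : ℝ) ≤ 1 / 2) (by norm_num)
  rw [he, smul_neg, add_neg_cancel, smul_eq_mul] at h
  linarith

theorem famEx_blocks (m : ℕ) (hm : 0 < m) (hs : List X) (hh : ∀ h ∈ hs, 1 / 3 ≤ ‖h‖) :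
    (m : ℝ) / 9 * (1 - (1 - (1 / 2) ^ m) ^ hs.length) ≤
      RL (hs.flatMap fun h => List.replicate m ((√(m : ℝ))⁻¹ • h)) (fun y => ‖y‖ ^ 2) 0 := by
  induction hs with
  | nil => simp
  | cons h hs ih =>
    have ih' := ih fun h' hh' => hh h' (List.mem_cons_of_mem _ hh')
    rw [List.flatMap_cons, RL_append]
    set zs := hs.flatMap fun h => List.replicate m ((√(m : ℝ))⁻¹ • h) with hzs
    have h1 := RL_replicate m ((√(m : ℝ))⁻¹ • h) (famEx_RL_zero_le zs) 0
    have hm' : (0 : ℝ) < m := by exact_mod_cast hm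
    have hsq : 0 < √(m : ℝ) := Real.sqrt_pos.2 hm'
    have h2 : (m : ℝ) / 9 ≤ RL zs (fun y => ‖y‖ ^ 2) (0 + (m : ℝ) • (√(m : ℝ))⁻¹ • h) := by
      refine le_trans ?_ (le_RL zs convexOn_norm_sq _)
      have e : (m : ℝ) * (√(m : ℝ))⁻¹ = √(m : ℝ) := by
        field_simp
        exact (Real.sq_sqrt hm'.le).symm
      simp only [zero_add, smul_smul, e, norm_smul, Real.norm_eq_abs, abs_of_pos hsq, mul_pow,
        Real.sq_sqrt hm'.le]
      have h3 := hh h List.mem_cons_self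
      have h4 : (1 / 3 : ℝ) ^ 2 ≤ ‖h‖ ^ 2 := by gcongr
      nlinarith
    have hp0 : (0 : ℝ) ≤ (1 / 2) ^ m := by positivity
    have hp1 : (1 / 2 : ℝ) ^ m ≤ 1 := pow_le_one₀ (by norm_num) (by norm_num)
    refine le_trans ?_ h1
    rw [List.length_cons, pow_succ]
    have h5 := mul_le_mul_of_nonneg_left h2 hp0
    have h6 := mul_le_mul_of_nonneg_left ih' (sub_nonneg.2 hp1)
    nlinarith

theorem famEx_blocks_sq (m : ℕ) (hm : 0 < m) (φ : X →L[ℝ] ℝ) (hs : List X) :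
    ((hs.flatMap fun h => List.replicate m ((√(m : ℝ))⁻¹ • h)).map fun y => φ y ^ 2).sum
      = (hs.map fun y => φ y ^ 2).sum := by
  induction hs with
  | nil => simp
  | cons h hs ih =>
    have hm' : (0 : ℝ) < m := by exact_mod_cast hm
    rw [List.flatMap_cons, List.map_append, List.sum_append, ih, List.map_cons, List.sum_cons,
      List.map_replicate, List.sum_replicate, map_smul, smul_eq_mul, mul_pow, inv_pow,
      Real.sq_sqrt hm'.le, nsmul_eq_mul, ← mul_assoc, mul_inv_cancel₀ hm'.ne', one_mul]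

/-- `h i` from `dvoretzky_rogers`, `ys` the concatenation of the blocks `replicate m ((√m)⁻¹ • h i)`.  For a list `zs`,
`g = RL zs ‖·‖²` is convex and even, so `g ≥ g 0`, and `g x ≥ ‖x‖²` (`le_RL`); `RL_replicate` gives
`B (N+1) ≥ p m / 9 + (1 - p) B N` with `p = 2⁻ᵐ`, so `B N ≥ (m / 9) (1 - (1 - p) ^ N)`. -/
theorem exists_big (hX : ¬ FiniteDimensional ℝ X) (M : ℝ) :
    ∃ ys : List X, (∀ φ : X →L[ℝ] ℝ, (ys.map fun y => φ y ^ 2).sum ≤ ‖φ‖ ^ 2) ∧
      M ≤ RL ys (fun y => ‖y‖ ^ 2) 0 := by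
  obtain ⟨m₀, hm₀⟩ := exists_nat_ge (18 * M)
  set m := m₀ + 1 with hm
  have hm0 : 0 < m := Nat.succ_pos _
  have hmM : 18 * M ≤ (m : ℝ) := by
    rw [hm]
    push_cast
    linarith
  have hp0 : (0 : ℝ) < (1 / 2) ^ m := by positivity
  obtain ⟨N, hN⟩ := exists_pow_lt_of_lt_one (x := (1 / 2 : ℝ)) (y := 1 - (1 / 2) ^ m) (by norm_num)
    (by linarith)
  obtain ⟨h, h1, h2⟩ := dvoretzky_rogers (𝕜 := ℝ) hX N
  refine ⟨(List.ofFn h).flatMap fun h => List.replicate m ((√(m : ℝ))⁻¹ • h), fun φ => ?_, ?_⟩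
  · rw [famEx_blocks_sq m hm0, List.map_ofFn, List.sum_ofFn]
    simpa [Real.norm_eq_abs, sq_abs] using h2 φ
  · refine le_trans ?_ (famEx_blocks m hm0 (List.ofFn h) ?_)
    · rw [List.length_ofFn]
      have : (0 : ℝ) ≤ m := Nat.cast_nonneg _
      nlinarith
    · intro y hy
      obtain ⟨i, rfl⟩ := List.mem_ofFn.1 hy
      exact h1 i

/-- induction on `ys`: `Ω = Unit` for `[]`, `Ω = Bool × Ω'` with `u (s, ω) = ± y + u' ω` for `y :: ys`. -/
theorem exists_fam_list (ys : List X) :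
    ∃ 𝓕 : Fam X, ∀ (τ : ℝ) (g : X → ℝ), 𝓕.Q τ g = RL (ys.map (τ • ·)) g := by
  induction ys with
  | nil =>
    refine ⟨{ Ω := Unit, u := fun _ => 0, ng := Equiv.refl _, hng := fun _ => neg_zero.symm },
      fun τ g => ?_⟩
    funext x
    simp [Fam.Q, Fam.E]
  | cons y ys ih =>
    obtain ⟨𝓕, h⟩ := ih
    refine ⟨{ Ω := Bool × 𝓕.Ω
              u := fun p => (if p.1 then y else -y) + 𝓕.u p.2
              ng := Equiv.prodCongr Equiv.boolNot 𝓕.ng
              hng := ?_ }, fun τ g => ?_⟩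
    · rintro ⟨s, ω⟩
      cases s <;> simp [𝓕.hng, add_comm]
    · funext x
      rw [List.map_cons, RL_cons, ← h, R]
      simp only [Fam.Q, Fam.E, Fintype.card_prod, Fintype.card_bool, Fintype.sum_prod_type,
        Fintype.sum_bool, smul_eq_mul, if_true, Bool.false_eq_true, if_false, smul_add, smul_neg,
        ← add_assoc, ← sub_eq_add_neg]
      push_cast
      ring

theorem QL_eq_flat {𝓕 : Fam X} {ys : List X} (h : ∀ (τ : ℝ) (g : X → ℝ), 𝓕.Q τ g = RL (ys.map (τ • ·)) g)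
    (l : List ℝ) (g : X → ℝ) : 𝓕.QL l g = RL (flat l ys) g := by
  induction l with
  | nil => rfl
  | cons τ l ih =>
    have e1 : 𝓕.QL (τ :: l) g = 𝓕.Q τ (𝓕.QL l g) := rfl
    have e2 : flat (τ :: l) ys = ys.map (τ • ·) ++ flat l ys := List.flatMap_cons
    rw [e1, e2, RL_append, ih, h]

theorem flat_flat (l l' : List ℝ) (κ : ℝ) (ys : List X) :
    flat l ((flat l' ys).map (κ • ·)) = flat (l.flatMap fun τ => l'.map fun σ => τ * κ * σ) ys := by
  simp only [flat, List.flatMap_assoc, List.map_flatMap, List.flatMap_map, List.map_map,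
    Function.comp_def, smul_smul, mul_assoc]

theorem sq2_flatMap (l l' : List ℝ) (κ : ℝ) :
    sq2 (l.flatMap fun τ => l'.map fun σ => τ * κ * σ) = sq2 l * κ ^ 2 * sq2 l' := by
  induction l with
  | nil => simp [sq2]
  | cons τ l ih =>
    have e : ((l'.map fun σ => τ * κ * σ).map (· ^ 2)).sum = τ ^ 2 * κ ^ 2 * (l'.map (· ^ 2)).sum := by
      rw [List.map_map, ← List.sum_map_mul_left]
      congr 1
      refine List.map_congr_left fun σ _ => ?_
      simp only [Function.comp]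
      ring
    simp only [sq2] at ih ⊢
    rw [List.flatMap_cons, List.map_append, List.sum_append, ih, e, List.map_cons, List.sum_cons]
    ring

theorem sum_sq_flat (φ : X →L[ℝ] ℝ) (l : List ℝ) (κ : ℝ) (ys : List X) :
    (((flat l ys).map (κ • ·)).map fun y => φ y ^ 2).sum = κ ^ 2 * sq2 l * (ys.map fun y => φ y ^ 2).sum := by
  induction l with
  | nil => simp [sq2, flat]
  | cons τ l ih =>
    have e2 : flat (τ :: l) ys = ys.map (τ • ·) ++ flat l ys := List.flatMap_cons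
    have e : (((ys.map (τ • ·)).map (κ • ·)).map fun y => φ y ^ 2).sum
        = κ ^ 2 * τ ^ 2 * (ys.map fun y => φ y ^ 2).sum := by
      rw [List.map_map, List.map_map, ← List.sum_map_mul_left]
      congr 1
      refine List.map_congr_left fun σ _ => ?_
      simp only [Function.comp, map_smul, smul_eq_mul]
      ring
    rw [e2, List.map_append, List.map_append, List.sum_append, ih, e]
    simp only [sq2, List.map_cons, List.sum_cons]
    ring

/-- `ys` from `exists_big` with `M = 2 / β²`; `V l = RL (flat l ys) ‖·‖² 0`, `U = sSup {V l / sq2 l | sq2 l > 0}` (bounded by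
`exists_up`; `U ≥ V [1] ≥ M`; `V l ≤ U sq2 l` also when `sq2 l = 0`, by `exists_up`).  Pick `l'` with `V l' ≥ (U / 2) sq2 l' > 0`,
`κ = √(2 / (U sq2 l'))`, `zs = (flat l' ys).map (κ • ·)`, `𝓕` from `exists_fam_list zs`.  `up`: `flat_flat`, `sq2_flatMap`;
`low`: `contraction_flat`, `RL_smul_norm_sq`; `weak`: `E (φ u)² = Q 1 φ² 0`, `RL_sq`, `sum_sq_flat`. -/
theorem exists_fam (hX : ¬ FiniteDimensional ℝ X) {β : ℝ} (hβ : 0 < β) : ∃ 𝓕 : Fam X, 𝓕.Good β := by
  obtain ⟨ys, hw, hM⟩ := exists_big hX (2 / β ^ 2)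
  obtain ⟨c, hc⟩ := exists_up ys
  set V : List ℝ → ℝ := fun l => RL (flat l ys) (fun y => ‖y‖ ^ 2) 0 with hV
  set S : Set ℝ := {r | ∃ l, 0 < sq2 l ∧ r = V l / sq2 l} with hS
  have hbdd : BddAbove S := by
    refine ⟨c, ?_⟩
    rintro r ⟨l, hl, rfl⟩
    rw [div_le_iff₀ hl]
    exact hc l
  have hsq1 : sq2 [1] = 1 := by simp [sq2]
  have hV1 : V [1] = RL ys (fun y => ‖y‖ ^ 2) 0 := by simp [hV, flat]
  have hmem : V [1] / sq2 [1] ∈ S := ⟨[1], by rw [hsq1]; exact one_pos, rfl⟩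
  set U := sSup S with hU
  have hMU : 2 / β ^ 2 ≤ U := by
    have := le_csSup hbdd hmem
    rw [hsq1, div_one, hV1] at this
    exact hM.trans this
  have hU0 : 0 < U := lt_of_lt_of_le (by positivity) hMU
  have hVU : ∀ l, V l ≤ U * sq2 l := by
    intro l
    rcases (sq2_nonneg l).eq_or_lt with h0 | h0
    · have := hc l
      rw [← h0, mul_zero] at this ⊢
      exact this
    · rw [← div_le_iff₀ h0]
      exact le_csSup hbdd ⟨l, h0, rfl⟩
  obtain ⟨r, ⟨l', hl', rfl⟩, hr⟩ := exists_lt_of_lt_csSup ⟨_, hmem⟩ (half_lt_self hU0)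
  rw [lt_div_iff₀ hl'] at hr
  set κ := √(2 / (U * sq2 l')) with hκ
  have hκ2 : κ ^ 2 = 2 / (U * sq2 l') := Real.sq_sqrt (by positivity)
  have hκ3 : κ ^ 2 * (U * sq2 l') = 2 := by
    rw [hκ2]
    field_simp
  obtain ⟨𝓕, h⟩ := exists_fam_list ((flat l' ys).map (κ • ·))
  refine ⟨𝓕, fun l => ?_, fun l => ?_, fun φ => ?_⟩
  · rw [QL_eq_flat h, flat_flat]
    refine (hVU _).trans (le_of_eq ?_)
    rw [sq2_flatMap]
    change _ = 2 * sq2 l
    rw [← hκ3]
    ring
  · rw [QL_eq_flat h]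
    refine le_trans ?_ (contraction_flat l _ convexOn_norm_sq 0)
    rw [RL_smul_norm_sq, RL_smul_norm_sq, div_pow, Real.sq_sqrt (sq2_nonneg l)]
    change sq2 l / 16 ≤ sq2 l / 4 ^ 2 * (κ ^ 2 * V l')
    have h1 : 1 ≤ κ ^ 2 * V l' := by
      have := mul_le_mul_of_nonneg_left hr.le (sq_nonneg κ)
      nlinarith
    have h2 := sq2_nonneg l
    nlinarith
  · have e : 𝓕.E (fun ω => φ (𝓕.u ω) ^ 2) = 𝓕.Q 1 (fun y => φ y ^ 2) 0 := by
      simp [Fam.Q]
    rw [e, h, RL_sq, map_zero]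
    simp only [one_smul, List.map_id']
    rw [sum_sq_flat]
    have h1 : κ ^ 2 * sq2 l' ≤ β ^ 2 := by
      have h2 : 2 ≤ U * β ^ 2 := by
        rwa [div_le_iff₀ (by positivity)] at hMU
      have h3 : U * (κ ^ 2 * sq2 l') ≤ U * β ^ 2 := by nlinarith
      exact le_of_mul_le_mul_left h3 hU0
    have h4 := hw φ
    have h5 : 0 ≤ κ ^ 2 * sq2 l' := by positivity
    calc (0 : ℝ) ^ 2 + κ ^ 2 * sq2 l' * (ys.map fun y => φ y ^ 2).sum
        ≤ (0 : ℝ) ^ 2 + κ ^ 2 * sq2 l' * ‖φ‖ ^ 2 := by gcongr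
      _ ≤ β ^ 2 * ‖φ‖ ^ 2 := by
        have := mul_le_mul_of_nonneg_right h1 (sq_nonneg ‖φ‖)
        nlinarith

end Crest.Agent.R74
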