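import Crest.Agent.R74.Defs2

/-!
# Row 74: Euclidean lemmas
-/

namespace Crest.Agent.R74

open Finset

theorem hs_eig {n : ℕ} (A : Eu n →L[ℝ] Eu n) :
    ∃ lam : Fin n → ℝ, (∀ i, 0 ≤ lam i) ∧ ∑ i, lam i = HS A ∧ ∏ i, lam i = A.det ^ 2 ∧
      ((∀ i, lam i = 1) → ∀ v, ‖A v‖ ^ 2 = ‖v‖ ^ 2) := by
  classical
  set b := (EuclideanSpace.basisFun (Fin n) ℝ).toBasis with hb
  set M : Matrix (Fin n) (Fin n) ℝ := LinearMap.toMatrix b b (A : Eu n →ₗ[ℝ] Eu n) with hM
  have hMe : ∀ i k, M i k = A (EuclideanSpace.single k (1 : ℝ)) i := by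
    intro i k
    simp [hM, hb, LinearMap.toMatrix_apply]
  have hdet : M.det = A.det := by
    rw [hM, LinearMap.det_toMatrix]
  have hP : (M.conjTranspose * M).PosSemidef := Matrix.posSemidef_conjTranspose_mul_self M
  refine ⟨hP.1.eigenvalues, hP.eigenvalues_nonneg, ?_, ?_, ?_⟩
  · have := hP.1.trace_eq_sum_eigenvalues
    simp only [RCLike.ofReal_real_eq_id, id] at this
    rw [← this, HS, Matrix.trace]
    refine Finset.sum_congr rfl fun k _ => ?_
    rw [EuclideanSpace.norm_sq_eq]
    simp [Matrix.mul_apply, hMe, sq]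
  · have := hP.1.det_eq_prod_eigenvalues
    simp only [RCLike.ofReal_real_eq_id, id] at this
    rw [← this, Matrix.det_mul, Matrix.det_conjTranspose, hdet]
    simp [sq]
  · intro h1 v
    have hs := hP.1.spectral_theorem
    have hd : Matrix.diagonal (RCLike.ofReal ∘ hP.1.eigenvalues : Fin n → ℝ) = 1 := by
      rw [← Matrix.diagonal_one]
      congr 1
      funext i
      exact h1 i
    rw [hd, map_one] at hs
    have hAv : ∀ i, A v i = ∑ k, M i k * v k := by
      intro i
      have hv : v = ∑ k, v k • EuclideanSpace.single k (1 : ℝ) := by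
        ext j
        simp [Finset.sum_apply, Pi.single_apply]
      conv_lhs => rw [hv]
      simp [map_sum, hMe, mul_comm]
    have hkl : ∀ k l, ∑ i, M i k * M i l = if k = l then 1 else 0 := by
      intro k l
      have := congrFun (congrFun hs k) l
      simpa [Matrix.mul_apply, Matrix.one_apply] using this
    rw [EuclideanSpace.norm_sq_eq, EuclideanSpace.norm_sq_eq]
    simp only [Real.norm_eq_abs, sq_abs, hAv]
    calc ∑ i, (∑ k, M i k * v k) ^ 2 = ∑ i, ∑ k, ∑ l, (v k * v l) * (M i k * M i l) := by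
          refine Finset.sum_congr rfl fun i _ => ?_
          rw [sq, Finset.sum_mul_sum]
          refine Finset.sum_congr rfl fun k _ => Finset.sum_congr rfl fun l _ => by ring
      _ = ∑ k, ∑ l, (v k * v l) * ∑ i, (M i k * M i l) := by
          rw [Finset.sum_comm]
          refine Finset.sum_congr rfl fun k _ => ?_
          rw [Finset.sum_comm]
          refine Finset.sum_congr rfl fun l _ => ?_
          rw [Finset.mul_sum]
      _ = ∑ k, v k ^ 2 := by
          refine Finset.sum_congr rfl fun k _ => ?_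
          simp [hkl, sq]

theorem prod_le_exp {n : ℕ} (lam : Fin n → ℝ) (h0 : ∀ i, 0 ≤ lam i) :
    ∏ i, lam i ≤ Real.exp (∑ i, lam i - n) := by
  have : Real.exp (∑ i, lam i - n) = ∏ i, Real.exp (lam i - 1) := by
    rw [← Real.exp_sum, Finset.sum_sub_distrib]; simp
  rw [this]
  refine Finset.prod_le_prod (fun i _ => h0 i) fun i _ => ?_
  have := Real.add_one_le_exp (lam i - 1)
  linarith

/-- `AᵀA` has eigenvalues `λ i ≥ 0` with `∑ λ = HS A`, `∏ λ = det A ²` (`Matrix.IsHermitian.eigenvalues`,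
`det_eq_prod_eigenvalues`, `trace_eq_sum_eigenvalues`); `∏ λ ≤ exp (∑ (λ - 1)) ≤ 1`. -/
theorem hs_det_le {n : ℕ} (A : Eu n →L[ℝ] Eu n) (h : HS A ≤ n) : |A.det| ≤ 1 := by
  obtain ⟨lam, h0, hs, hp, -⟩ := hs_eig A
  have h1 := prod_le_exp lam h0
  have h2 : Real.exp (∑ i, lam i - n) ≤ 1 := Real.exp_le_one_iff.2 (by linarith)
  rw [← sq_le_one_iff_abs_le_one]
  linarith

/-- equality: `log λ ≤ λ - 1` with equality only for `λ = 1`, so all eigenvalues are `1` and `AᵀA = 1`. -/
theorem hs_iso {n : ℕ} (A : Eu n →L[ℝ] Eu n) (h : HS A ≤ n) (hd : 1 ≤ |A.det|) (v : Eu n) : ‖A v‖ ≤ ‖v‖ := by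
  obtain ⟨lam, h0, hs, hp, hone⟩ := hs_eig A
  have hp1 : 1 ≤ ∏ i, lam i := by
    rw [hp, ← sq_abs]; nlinarith
  have hpos : ∀ i, 0 < lam i := by
    intro i
    rcases (h0 i).lt_or_eq with h' | h'
    · exact h'
    · have : ∏ i, lam i = 0 := Finset.prod_eq_zero (Finset.mem_univ i) h'.symm
      linarith
  have hlog : 0 ≤ ∑ i, Real.log (lam i) := by
    rw [← Real.log_prod (fun i _ => (hpos i).ne')]
    exact Real.log_nonneg hp1
  have hsum : ∑ i, (lam i - 1 - Real.log (lam i)) ≤ 0 := by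
    rw [Finset.sum_sub_distrib, Finset.sum_sub_distrib]
    simp only [Finset.sum_const, Finset.card_univ, Fintype.card_fin, nsmul_eq_mul, mul_one]
    linarith
  have hnn : ∀ i ∈ (Finset.univ : Finset (Fin n)), 0 ≤ lam i - 1 - Real.log (lam i) := fun i _ => by
    have := Real.log_le_sub_one_of_pos (hpos i); linarith
  have hz := (Finset.sum_eq_zero_iff_of_nonneg hnn).1 (le_antisymm hsum (Finset.sum_nonneg hnn))
  have h1 : ∀ i, lam i = 1 := by
    intro i
    by_contra hne
    have := Real.log_lt_sub_one_of_pos (hpos i) hne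
    have := hz i (Finset.mem_univ i)
    linarith
  have := hone h1 v
  exact (pow_left_inj₀ (norm_nonneg _) (norm_nonneg _) two_ne_zero).1 this |>.le

open MeasureTheory in
/-- For `x, y` in the open convex set `U` and a unit `e` put `a s = ∫_{ball x ε} ⟪e, Φ (z + s (y - x))⟫ dz`, with `ε` so small
that the thickened segment lies in `U`.  `hasDerivAt_integral_of_dominated_loc_of_lip` (translation invariance of null
sets) gives `|a' s| ≤ ‖y - x‖ vol (ball)`; mean value inequality (`Convex.norm_image_sub_le_of_norm_hasDerivWithin_le`);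
`a s / vol = ⟪e, Φ (x + s (y - x))⟫ ± K ε`. -/
theorem lip_of_ae {n : ℕ} {Φ : Eu n → Eu n} {K : NNReal} (hΦ : LipschitzWith K Φ) {U : Set (Eu n)}
    (hU : IsOpen U) (hc : Convex ℝ U)
    (h : ∀ᵐ z ∂(MeasureTheory.volume : MeasureTheory.Measure (Eu n)), z ∈ U →
      DifferentiableAt ℝ Φ z ∧ ∀ v, ‖fderiv ℝ Φ z v‖ ≤ ‖v‖)
    {x y : Eu n} (hx : x ∈ U) (hy : y ∈ U) : ‖Φ x - Φ y‖ ≤ ‖x - y‖ := by
  obtain ⟨r1, hr1, hb1⟩ := Metric.isOpen_iff.1 hU x hx
  obtain ⟨r2, hr2, hb2⟩ := Metric.isOpen_iff.1 hU y hy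
  set w := y - x with hw
  have key : ∀ ε : ℝ, 0 < ε → ε ≤ min r1 r2 → ‖Φ x - Φ y‖ ≤ ‖x - y‖ + 2 * K * ε := by
    intro ε hε hεr
    set μ : Measure (Eu n) := volume.restrict (Metric.ball (0 : Eu n) ε) with hμ
    have : IsFiniteMeasure μ := ⟨by
      rw [hμ, Measure.restrict_apply_univ]; exact measure_ball_lt_top⟩
    set V : ℝ := μ.real Set.univ with hV
    have hVpos : 0 < V := by
      rw [hV, Measure.real, hμ, Measure.restrict_apply_univ]
      exact ENNReal.toReal_pos (Metric.measure_ball_pos _ _ hε).ne' measure_ball_lt_top.ne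
    have hmem : ∀ s ∈ Set.Icc (0 : ℝ) 1, ∀ z ∈ Metric.ball (0 : Eu n) ε, z + (x + s • w) ∈ U := by
      intro s hs z hz
      have hz' : ‖z‖ < ε := by simpa using hz
      have h1 : x + z ∈ U := hb1 (by
        rw [mem_ball_iff_norm]; simpa using hz'.trans_le (hεr.trans (min_le_left _ _)))
      have h2 : y + z ∈ U := hb2 (by
        rw [mem_ball_iff_norm]; simpa using hz'.trans_le (hεr.trans (min_le_right _ _)))
      have := hc h1 h2 (sub_nonneg.2 hs.2) hs.1 (by ring)
      convert this using 1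
      rw [hw]; module
    have hint : ∀ s : ℝ, Integrable (fun z => Φ (z + (x + s • w))) μ := by
      intro s
      have hcont : Continuous fun z => Φ (z + (x + s • w)) := hΦ.continuous.comp (by fun_prop)
      exact (hcont.continuousOn.integrableOn_compact (isCompact_closedBall (0 : Eu n) ε)).mono_set
        Metric.ball_subset_closedBall
    have hder : ∀ s ∈ Set.Icc (0 : ℝ) 1, ∃ d : Eu n, ‖d‖ ≤ ‖w‖ * V ∧
        HasDerivAt (fun s : ℝ => ∫ z, Φ (z + (x + s • w)) ∂μ) d s := by
      intro s hs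
      have hae : ∀ᵐ z ∂μ, DifferentiableAt ℝ Φ (z + (x + s • w)) ∧
          ∀ v, ‖fderiv ℝ Φ (z + (x + s • w)) v‖ ≤ ‖v‖ := by
        have h' := (measurePreserving_add_right (volume : Measure (Eu n)) (x + s • w)).quasiMeasurePreserving.ae h
        rw [hμ, ae_restrict_iff' Metric.isOpen_ball.measurableSet]
        filter_upwards [h'] with z hz hzb
        exact hz (hmem s hs z hzb)
      have hd := hasDerivAt_integral_of_dominated_loc_of_lip (μ := μ) (𝕜 := ℝ)
        (F := fun (s : ℝ) z => Φ (z + (x + s • w))) (x₀ := s) (s := Set.univ)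
        (F' := fun z => fderiv ℝ Φ (z + (x + s • w)) w) (bound := fun _ => K * ‖w‖) Filter.univ_mem
        (Filter.Eventually.of_forall fun s => (hint s).aestronglyMeasurable) (hint s)
        (((measurable_fderiv_apply_const ℝ Φ w).comp (measurable_id.add_const _)).aestronglyMeasurable)
        (Filter.Eventually.of_forall fun z => by
          refine LipschitzWith.lipschitzOnWith (LipschitzWith.of_dist_le_mul fun a b => ?_)
          refine (hΦ.dist_le_mul _ _).trans (le_of_eq ?_)
          rw [dist_eq_norm, dist_eq_norm]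
          have : z + (x + a • w) - (z + (x + b • w)) = (a - b) • w := by module
          rw [this, norm_smul, Real.coe_nnabs, abs_of_nonneg (by positivity)]
          ring)
        (integrable_const _)
        (by
          filter_upwards [hae] with z hz
          have h1 : HasDerivAt (fun s : ℝ => z + (x + s • w)) w s := by
            simpa using (((hasDerivAt_id s).smul_const w).const_add x).const_add z
          exact hz.1.hasFDerivAt.comp_hasDerivAt s h1)
      refine ⟨_, ?_, hd.2⟩
      refine norm_integral_le_of_norm_le_const ?_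
      filter_upwards [hae] with z hz
      exact hz.2 w
    choose! d hd1 hd2 using hder
    have hmv := (convex_Icc (0 : ℝ) 1).norm_image_sub_le_of_norm_hasDerivWithin_le
      (f := fun s : ℝ => ∫ z, Φ (z + (x + s • w)) ∂μ) (f' := d) (C := ‖w‖ * V)
      (fun s hs => (hd2 s hs).hasDerivWithinAt) hd1 (Set.left_mem_Icc.2 zero_le_one)
      (Set.right_mem_Icc.2 zero_le_one)
    simp only [one_smul, zero_smul, add_zero, sub_zero, norm_one, mul_one] at hmv
    have hy' : x + w = y := by rw [hw]; abel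
    rw [hy'] at hmv
    have happ : ∀ p : Eu n, Integrable (fun z => Φ (z + p)) μ →
        ‖∫ z, Φ (z + p) ∂μ - V • Φ p‖ ≤ K * ε * V := by
      intro p hp
      have : V • Φ p = ∫ _z, Φ p ∂μ := by rw [integral_const]
      rw [this, ← integral_sub hp (integrable_const _)]
      refine norm_integral_le_of_norm_le_const ?_
      rw [hμ, ae_restrict_iff' Metric.isOpen_ball.measurableSet]
      refine Filter.Eventually.of_forall fun z hz => ?_
      have hz' : ‖z‖ < ε := by simpa using hz
      have := hΦ.dist_le_mul (z + p) p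
      rw [dist_eq_norm, dist_eq_norm, add_sub_cancel_right] at this
      exact this.trans (mul_le_mul_of_nonneg_left hz'.le K.2)
    have ha := happ x (by simpa using hint 0)
    have hb := happ y (by simpa [hy'] using hint 1)
    have hfin : ‖V • (Φ x - Φ y)‖ ≤ (‖x - y‖ + 2 * K * ε) * V := by
      have e : V • (Φ x - Φ y) = -(∫ z, Φ (z + x) ∂μ - V • Φ x) + (∫ z, Φ (z + y) ∂μ - V • Φ y)
          - (∫ z, Φ (z + y) ∂μ - ∫ z, Φ (z + x) ∂μ) := by
        rw [smul_sub]; abel
      rw [e]
      have h3 := norm_sub_le (-(∫ z, Φ (z + x) ∂μ - V • Φ x) + (∫ z, Φ (z + y) ∂μ - V • Φ y))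
        (∫ z, Φ (z + y) ∂μ - ∫ z, Φ (z + x) ∂μ)
      have h4 := norm_add_le (-(∫ z, Φ (z + x) ∂μ - V • Φ x)) (∫ z, Φ (z + y) ∂μ - V • Φ y)
      rw [norm_neg] at h4
      have h5 : ‖w‖ = ‖x - y‖ := by rw [hw, norm_sub_rev]
      rw [h5] at hmv
      nlinarith
    rw [norm_smul, Real.norm_eq_abs, abs_of_pos hVpos, mul_comm] at hfin
    exact le_of_mul_le_mul_right hfin hVpos
  refine le_of_forall_pos_le_add fun δ hδ => ?_
  have hK : (0 : ℝ) ≤ K := K.2
  set ε := min (min r1 r2) (δ / (2 * K + 1)) with hε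
  have hεpos : 0 < ε := lt_min (lt_min hr1 hr2) (by positivity)
  refine (key ε hεpos (min_le_left _ _)).trans ?_
  have h1 : ε ≤ δ / (2 * K + 1) := min_le_right _ _
  rw [le_div_iff₀ (by positivity)] at h1
  nlinarith

open MeasureTheory in
/-- compare with the Hausdorff measure `μH[n]`, a Haar measure (`isAddHaarMeasure_hausdorffMeasure`,
`absolutelyContinuous_isAddHaarMeasure`, `LipschitzWith.hausdorffMeasure_image_le`). -/
theorem lip_null {n : ℕ} {Φ : Eu n → Eu n} {K : NNReal} (hΦ : LipschitzWith K Φ) {s : Set (Eu n)}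
    (hs : MeasureTheory.volume s = 0) : MeasureTheory.volume (Φ '' s) = 0 := by
  set ν : Measure (Eu n) := Measure.hausdorffMeasure (Module.finrank ℝ (Eu n)) with hν
  have h1 : ν ≪ volume := Measure.absolutelyContinuous_isAddHaarMeasure ν volume
  have h2 : volume ≪ ν := Measure.absolutelyContinuous_isAddHaarMeasure volume ν
  refine h2 ?_
  have h3 := hΦ.hausdorffMeasure_image_le (d := (Module.finrank ℝ (Eu n) : ℝ)) (by positivity) s
  have h4 : ν s = 0 := h1 hs
  rw [hν] at h4
  rw [h4, mul_zero] at h3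
  exact le_antisymm h3 (zero_le)

open MeasureTheory in
/-- split `s` into the measurable set where `Φ` is differentiable (`measurableSet_of_differentiableAt`,
`addHaar_image_le_lintegral_abs_det_fderiv`) and a null set (`LipschitzWith.ae_differentiableAt`, `lip_null`). -/
theorem vol_image_le {n : ℕ} {Φ : Eu n → Eu n} {K : NNReal} (hΦ : LipschitzWith K Φ) {s : Set (Eu n)}
    (hs : MeasurableSet s) :
    MeasureTheory.volume (Φ '' s) ≤ ∫⁻ z in s, ENNReal.ofReal |(fderiv ℝ Φ z).det| := by
  set D := {z : Eu n | DifferentiableAt ℝ Φ z} with hD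
  have hDm : MeasurableSet D := measurableSet_of_differentiableAt ℝ Φ
  have hnull : volume Dᶜ = 0 := hΦ.ae_differentiableAt (μ := volume)
  have h1 : Φ '' s ⊆ Φ '' (s ∩ D) ∪ Φ '' Dᶜ := by
    rintro _ ⟨z, hz, rfl⟩
    by_cases hzD : z ∈ D
    · exact Or.inl ⟨z, ⟨hz, hzD⟩, rfl⟩
    · exact Or.inr ⟨z, hzD, rfl⟩
  calc volume (Φ '' s) ≤ volume (Φ '' (s ∩ D)) + volume (Φ '' Dᶜ) :=
        (measure_mono h1).trans (measure_union_le _ _)
    _ = volume (Φ '' (s ∩ D)) := by rw [lip_null hΦ hnull, add_zero]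
    _ ≤ ∫⁻ z in s ∩ D, ENNReal.ofReal |(fderiv ℝ Φ z).det| :=
        addHaar_image_le_lintegral_abs_det_fderiv volume (hs.inter hDm)
          fun z hz => hz.2.hasFDerivAt.hasFDerivWithinAt
    _ ≤ _ := lintegral_mono_set Set.inter_subset_left

end Crest.Agent.R74
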