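import Crest.Agent.R74.Fin1
import Crest.Agent.R74.Basic
import Crest.Agent.Lib.Brouwer.Basic

/-!
# Row 74: the extension of `F` built from a John position
-/

namespace Crest.Agent.R74

open Finset

variable {X Y : Type*} [NormedAddCommGroup X] [NormedSpace ℝ X] [NormedAddCommGroup Y]
  [NormedSpace ℝ Y]

/-- `|∑ c j a j g j|² ≤ ∑ c j (a j)²`: pair with `y` itself, Cauchy-Schwarz, `∑ c j ⟪g j, y⟫² = ‖y‖²` (`dec`). -/
theorem JP.norm_sq_le {n : ℕ} (j : JP n X) (a : Fin j.m → ℝ) :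
    ‖∑ i, (j.c i * a i) • j.g i‖ ^ 2 ≤ ∑ i, j.c i * a i ^ 2 := by
  set y := ∑ i, (j.c i * a i) • j.g i with hy
  have h1 : ‖y‖ ^ 2 = ∑ i, j.c i * a i * inner ℝ (j.g i) y := by
    rw [← real_inner_self_eq_norm_sq]
    conv_lhs => rw [hy, sum_inner]
    simp only [real_inner_smul_left, ← hy]
  have h2 : ‖y‖ ^ 2 = ∑ i, j.c i * inner ℝ (j.g i) y * inner ℝ (j.g i) y := by
    rw [← real_inner_self_eq_norm_sq]
    conv_lhs => enter [2]; rw [← j.dec y]
    rw [sum_inner]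
    simp only [real_inner_smul_left]
  have h3 : 2 * ∑ i, j.c i * a i * inner ℝ (j.g i) y ≤
      ∑ i, j.c i * a i ^ 2 + ∑ i, j.c i * inner ℝ (j.g i) y * inner ℝ (j.g i) y := by
    rw [mul_sum, ← sum_add_distrib]
    refine sum_le_sum fun i _ => ?_
    nlinarith [mul_nonneg (j.c_nonneg i) (sq_nonneg (a i - inner ℝ (j.g i) y))]
  linarith

theorem Fin2_sum_sq_le {n : ℕ} (D : Eu n →L[ℝ] ℝ) (hD : ‖D‖ ≤ 1) :
    ∑ k, D (EuclideanSpace.single k (1 : ℝ)) ^ 2 ≤ 1 := by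
  set u : Eu n := WithLp.toLp 2 fun k => D (EuclideanSpace.single k (1 : ℝ)) with hu
  have h1 : ‖u‖ ^ 2 = ∑ k, D (EuclideanSpace.single k (1 : ℝ)) ^ 2 := by
    rw [EuclideanSpace.real_norm_sq_eq]
  have h2 : u = ∑ k, D (EuclideanSpace.single k (1 : ℝ)) • EuclideanSpace.single k (1 : ℝ) := by
    ext i
    simp [hu, Finset.sum_apply, Pi.single_apply]
  have h3 : D u = ‖u‖ ^ 2 := by
    rw [h1]
    conv_lhs => rw [h2, map_sum]
    simp only [map_smul, smul_eq_mul, sq]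
  have h4 : D u ≤ ‖u‖ := by
    have := D.le_opNorm u
    rw [Real.norm_eq_abs] at this
    exact (le_abs_self _).trans (this.trans (mul_le_of_le_one_left (norm_nonneg _) hD))
  rw [← h1]
  nlinarith [norm_nonneg u]

/-- `h i` a `1`-Lipschitz extension to `X` of `ψ i ∘ F` on the unit sphere (`LipschitzOnWith.extend_real`),
`Φ v = ∑ c i h i (W v) g i`.  `h i ∘ W` is `1`-Lipschitz, a.e. differentiable with `‖fderiv‖ ≤ 1`
(`norm_fderiv_le_of_lipschitz`), and `∑_k (D e_k)² = ‖D‖²` for a functional `D` on `Eu n`. -/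
theorem exists_Phi (S : SI X Y) {n : ℕ} (jX : JP n X) (jY : JP n Y) :
    ∃ (Φ : Eu n → Eu n) (K : NNReal), LipschitzWith K Φ ∧
      (∀ v, ‖jX.W v‖ = 1 → jY.W (Φ v) = S.F (jX.W v)) ∧
      ∀ᵐ z ∂(MeasureTheory.volume : MeasureTheory.Measure (Eu n)),
        DifferentiableAt ℝ Φ z ∧ HS (fderiv ℝ Φ z) ≤ n := by
  have hex : ∀ i : Fin jY.m, ∃ h : X → ℝ, LipschitzWith 1 h ∧
      Set.EqOn (fun x => jY.ψ i (S.F x)) h {x | ‖x‖ = 1} := by
    intro i
    refine LipschitzOnWith.extend_real (LipschitzOnWith.of_dist_le_mul fun x hx x' hx' => ?_)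
    rw [dist_eq_norm, dist_eq_norm, ← map_sub, NNReal.coe_one, one_mul,
      ← S.dist x x' (hx.trans hx'.symm)]
    exact ((jY.ψ i).le_opNorm _).trans (mul_le_of_le_one_left (norm_nonneg _) (jY.ψ_le i))
  choose h hL hE using hex
  have hW : LipschitzWith 1 fun v : Eu n => jX.W v :=
    LipschitzWith.of_dist_le_mul fun v v' => by
      rw [dist_eq_norm, dist_eq_norm, ← map_sub, NNReal.coe_one, one_mul]
      exact jX.le _
  have hL' : ∀ i, LipschitzWith 1 fun v : Eu n => h i (jX.W v) := fun i => by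
    have := (hL i).comp hW
    rwa [one_mul] at this
  refine ⟨fun v => ∑ i, (jY.c i * h i (jX.W v)) • jY.g i, n + 1, ?_, ?_, ?_⟩
  · refine LipschitzWith.of_dist_le_mul fun v v' => ?_
    rw [dist_eq_norm, ← sum_sub_distrib]
    simp only [← sub_smul, ← mul_sub]
    refine le_of_sq_le_sq ((jY.norm_sq_le _).trans ?_) (by positivity)
    have h1 : ∑ i, jY.c i * (h i (jX.W v) - h i (jX.W v')) ^ 2 ≤ ∑ i, jY.c i * dist v v' ^ 2 := by
      refine sum_le_sum fun i _ => mul_le_mul_of_nonneg_left ?_ (jY.c_nonneg i)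
      have := (hL' i).dist_le_mul v v'
      rw [NNReal.coe_one, one_mul, Real.dist_eq] at this
      rw [← sq_abs]
      exact pow_le_pow_left₀ (abs_nonneg _) this 2
    rw [← sum_mul, jY.c_sum] at h1
    refine h1.trans ?_
    push_cast
    rw [mul_pow]
    have h2 : (0 : ℝ) ≤ n := Nat.cast_nonneg n
    exact mul_le_mul_of_nonneg_right (by nlinarith) (sq_nonneg _)
  · intro v hv
    have h1 : ∀ i, h i (jX.W v) = inner ℝ (jY.g i) (jY.W.symm (S.F (jX.W v))) := fun i => by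
      rw [← hE i hv, ← jY.ψ_W]
      simp
    simp only [h1]
    rw [jY.dec]
    simp
  · have hae : ∀ᵐ z ∂(MeasureTheory.volume : MeasureTheory.Measure (Eu n)),
        ∀ i, DifferentiableAt ℝ (fun v : Eu n => h i (jX.W v)) z :=
      MeasureTheory.ae_all_iff.2 fun i => (hL' i).ae_differentiableAt
    filter_upwards [hae] with z hz
    have hd : HasFDerivAt (fun v => ∑ i, (jY.c i * h i (jX.W v)) • jY.g i)
        (∑ i, (jY.c i • fderiv ℝ (fun v : Eu n => h i (jX.W v)) z).smulRight (jY.g i)) z :=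
      HasFDerivAt.fun_sum fun i _ => ((hz i).hasFDerivAt.const_mul (jY.c i)).smul_const (jY.g i)
    refine ⟨hd.differentiableAt, ?_⟩
    rw [hd.fderiv, HS]
    simp only [_root_.sum_apply, ContinuousLinearMap.smulRight_apply,
      _root_.smul_apply, smul_eq_mul]
    refine (sum_le_sum fun k _ => jY.norm_sq_le _).trans ?_
    rw [sum_comm, ← jY.c_sum]
    refine sum_le_sum fun i _ => ?_
    rw [← mul_sum]
    exact mul_le_of_le_one_right (jY.c_nonneg i)
      (Fin2_sum_sq_le _ (by simpa using norm_fderiv_le_of_lipschitz ℝ (x₀ := z) (hL' i)))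

/-- fixed point of `x ↦ P (x - G x + x₀)`, `P z = (max 1 ‖z‖)⁻¹ • z` (`Lib.Brouwer.exists_fixedPoint_closedBall`). -/
theorem surj_of_id [FiniteDimensional ℝ X] {G : X → X} (hG : Continuous G) (h : ∀ x, ‖x‖ = 1 → G x = x)
    {x₀ : X} (hx₀ : ‖x₀‖ ≤ 1) : ∃ x, ‖x‖ ≤ 1 ∧ G x = x₀ := by
  have hpos : ∀ z : X, 0 < max 1 ‖z‖ := fun z => lt_of_lt_of_le one_pos (le_max_left _ _)
  have hz : Continuous fun x => x - G x + x₀ := by fun_prop
  obtain ⟨x, hx, hfix⟩ := Crest.Agent.Lib.Brouwer.exists_fixedPoint_closedBall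
    (fun x => (max 1 ‖x - G x + x₀‖)⁻¹ • (x - G x + x₀))
    (((continuous_const.max hz.norm).inv₀ fun x => (hpos _).ne').smul hz).continuousOn
    (fun x _ => by
      rw [mem_closedBall_zero_iff, norm_smul, norm_inv, Real.norm_eq_abs, abs_of_pos (hpos _),
        inv_mul_le_iff₀ (hpos _), mul_one]
      exact le_max_right _ _)
  refine ⟨x, mem_closedBall_zero_iff.1 hx, ?_⟩
  by_cases h1 : ‖x - G x + x₀‖ ≤ 1
  · rw [max_eq_left h1, inv_one, one_smul] at hfix
    have h2 : G x - x₀ = x - (x - G x + x₀) := by abel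
    rw [hfix, sub_self] at h2
    exact sub_eq_zero.1 h2
  · exfalso
    push Not at h1
    rw [max_eq_right h1.le] at hfix
    have h2 : ‖x‖ = 1 := by
      rw [← hfix, norm_smul, norm_inv, norm_norm, inv_mul_cancel₀ (by linarith)]
    rw [h x h2, sub_self, zero_add] at h1
    linarith

/-- `surj_of_id` for `G = F⁻¹ ∘ W_Y ∘ Φ ∘ W_X⁻¹`. -/
theorem Phi_surj [FiniteDimensional ℝ X] (S : SI X Y) {n : ℕ} (jX : JP n X) (jY : JP n Y) {Φ : Eu n → Eu n}
    (hΦ : Continuous Φ) (h : ∀ v, ‖jX.W v‖ = 1 → jY.W (Φ v) = S.F (jX.W v)) :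
    {v | ‖jY.W v‖ ≤ 1} ⊆ Φ '' {v | ‖jX.W v‖ ≤ 1} := by
  intro v hv
  obtain ⟨x, hx, hG⟩ := surj_of_id (G := fun x => S.F.symm (jY.W (Φ (jX.W.symm x))))
    (S.symm.continuous.comp (jY.W.continuous.comp (hΦ.comp jX.W.symm.continuous)))
    (fun x hx => by
      rw [h _ (by simpa using hx)]
      simp)
    (x₀ := S.F.symm (jY.W v)) (by rw [← S.symm_F, S.symm.norm]; exact hv)
  exact ⟨jX.W.symm x, by simpa using hx, jY.W.injective (S.F.symm.injective hG)⟩

end Crest.Agent.R74
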