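import Crest.Agent.R74.Defs2

/-!
# Row 74: John's theorem
-/

namespace Crest.Agent.R74

open Finset

variable {X Y : Type*} [NormedAddCommGroup X] [NormedSpace ℝ X] [NormedAddCommGroup Y]
  [NormedSpace ℝ Y]

/-- as `exists_max_ellipsoid` in `R74/DR.lean` (copy the proof) with `G` a linear equivalence
(`ContinuousLinearEquiv.ofFinrankEq`); the maximiser `A` has nonzero determinant, so `G ∘ A` is an equivalence
(`ContinuousLinearMap.toContinuousLinearEquivOfDetNeZero`). -/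
theorem exists_max [FiniteDimensional ℝ X] {n : ℕ} (hn : Module.finrank ℝ X = n) :
    ∃ W : Eu n ≃L[ℝ] X, (∀ v, ‖W v‖ ≤ ‖v‖) ∧ ∀ (T : Eu n →ₗ[ℝ] Eu n) (r : ℝ), 0 < r →
      (∀ v, ‖W (T v)‖ ≤ r * ‖v‖) → |LinearMap.det T| ≤ r ^ n := by
  let G : Eu n ≃L[ℝ] X := ContinuousLinearEquiv.ofFinrankEq (by simp [hn])
  let 𝒦 : Set (Eu n →L[ℝ] Eu n) := {A | ∀ v, ‖G (A v)‖ ≤ ‖v‖}
  have hclosed : IsClosed 𝒦 := by
    simp only [𝒦, Set.ofPred_forall]
    exact isClosed_iInter fun v => isClosed_le (by fun_prop) continuous_const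
  have hbdd : Bornology.IsBounded 𝒦 := by
    refine (Metric.isBounded_closedBall (x := 0) (r := ‖(G.symm : X →L[ℝ] Eu n)‖)).subset
      fun A hA => mem_closedBall_zero_iff.2 (A.opNorm_le_bound (norm_nonneg _) fun v => ?_)
    simpa using (G.symm : X →L[ℝ] Eu n).le_opNorm_of_le (hA v)
  have hpos : (0 : ℝ) < ‖(G : Eu n →L[ℝ] X)‖ + 1 := by positivity
  have hmem : (‖(G : Eu n →L[ℝ] X)‖ + 1)⁻¹ • ContinuousLinearMap.id ℝ (Eu n) ∈ 𝒦 := fun v => by
    rw [ContinuousLinearMap.smul_apply, ContinuousLinearMap.id_apply, map_smul, norm_smul,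
      Real.norm_of_nonneg (inv_pos.mpr hpos).le, inv_mul_le_iff₀ hpos]
    exact ((G : Eu n →L[ℝ] X).le_opNorm v).trans (by gcongr; linarith)
  obtain ⟨A, hA, hmax⟩ := (Metric.isCompact_of_isClosed_isBounded hclosed hbdd).exists_isMaxOn
    ⟨_, hmem⟩ (ContinuousLinearMap.continuous_det.abs.continuousOn)
  have hA0 : 0 < |A.det| := by
    refine lt_of_lt_of_le ?_ (hmax hmem)
    simp only [ContinuousLinearMap.det, ContinuousLinearMap.toLinearMap_smul, LinearMap.det_smul,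
      ContinuousLinearMap.coe_id, LinearMap.det_id, mul_one]
    positivity
  refine ⟨(A.toContinuousLinearEquivOfDetNeZero (abs_pos.1 hA0)).trans G, hA, fun T r hr hT => ?_⟩
  have hmem' : r⁻¹ • A.comp (LinearMap.toContinuousLinearMap T) ∈ 𝒦 := fun v => by
    rw [ContinuousLinearMap.smul_apply, map_smul, norm_smul,
      Real.norm_of_nonneg (inv_pos.mpr hr).le, inv_mul_le_iff₀ hr]
    exact hT v
  have h1 : |(r⁻¹ • A.comp (LinearMap.toContinuousLinearMap T)).det| ≤ |A.det| := hmax hmem'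
  have hc : (A.comp (LinearMap.toContinuousLinearMap T)).toLinearMap = A.toLinearMap ∘ₗ T := rfl
  simp only [ContinuousLinearMap.det, ContinuousLinearMap.toLinearMap_smul, LinearMap.det_smul, hc,
    LinearMap.det_comp, abs_mul, abs_pow, finrank_euclideanSpace,
    Fintype.card_fin, abs_of_pos (inv_pos.mpr hr)] at h1 hA0
  rw [inv_pow, inv_mul_le_iff₀ (by positivity), mul_comm (r ^ n)] at h1
  exact le_of_mul_le_mul_left h1 hA0

/-- `det (1 + t H) = 1 + t tr H + O(t²)` (`Matrix.det_one_add_smul`), `(1 + c t²) ^ n = 1 + O(t²)`. -/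
theorem trace_nonpos {n : ℕ} (H : Matrix (Fin n) (Fin n) ℝ) {c : ℝ} (hc : 0 ≤ c)
    (h : ∀ t : ℝ, 0 < t → t ≤ 1 → (1 + t • H).det ≤ (1 + c * t ^ 2) ^ n) : H.trace ≤ 0 := by
  obtain ⟨p, hp⟩ : ∃ p : Polynomial ℝ, ∀ t : ℝ, (1 + t • H).det = 1 + H.trace * t + p.eval t * t ^ 2 :=
    ⟨_, fun t => Matrix.det_one_add_smul t H⟩
  have h1 : Continuous fun t : ℝ => ((∑ i ∈ range n, (1 + c * t ^ 2) ^ i) * c - p.eval t) * t := by
    fun_prop
  have h2 := (h1.tendsto 0).mono_left (nhdsWithin_le_nhds (s := Set.Ioi 0))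
  rw [mul_zero] at h2
  refine ge_of_tendsto h2 ?_
  filter_upwards [Ioc_mem_nhdsGT one_pos] with t ht
  have h3 := h t ht.1 ht.2
  have h4 := geom_sum_mul (1 + c * t ^ 2) n
  rw [hp] at h3
  refine le_of_mul_le_mul_right ?_ ht.1
  linarith

theorem john_norm_le {n : ℕ} {W : Eu n ≃L[ℝ] X} (hW : ∀ v, ‖W v‖ ≤ ‖v‖) {g : Eu n}
    {ψ : X →L[ℝ] ℝ} (hψ : ‖ψ‖ ≤ 1) (h : ∀ v, ψ (W v) = inner ℝ g v) : ‖g‖ ≤ 1 := by
  have h1 := (le_abs_self _).trans (ψ.le_of_opNorm_le_of_le hψ (hW g))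
  rw [h, real_inner_self_eq_norm_sq] at h1
  nlinarith [norm_nonneg g]

/-- the vector representing `ψ ∘ W` -/
noncomputable def johnG {n : ℕ} (W : Eu n ≃L[ℝ] X) (ψ : X →L[ℝ] ℝ) : Eu n :=
  (InnerProductSpace.toDual ℝ (Eu n)).symm (ψ.comp (W : Eu n →L[ℝ] X))

theorem johnG_inner {n : ℕ} (W : Eu n ≃L[ℝ] X) (ψ : X →L[ℝ] ℝ) (v : Eu n) :
    ψ (W v) = inner ℝ (johnG W ψ) v := by
  rw [johnG, InnerProductSpace.toDual_symm_apply]; rfl

/-- Let `𝒢 = {g | ∃ ψ, ‖ψ‖ ≤ 1, ψ ∘ W = ⟪g, ·⟫}`; its elements have `‖g‖ ≤ 1`.  If `gᵀ H g ≤ 1` on `𝒢` put `H' = H - 1`,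
`A = 1 + t H'` (`0 < t ≤ 1/2` suffices after rescaling): `‖A g‖² = (1 - 2t)‖g‖² + 2 t gᵀ H g + t² ‖H' g‖² ≤ 1 + c t²`, so
`‖W (Aᵀ v)‖ = ψ (W Aᵀ v) = ⟪A g, v⟫ ≤ (1 + c t²) ‖v‖` (Hahn-Banach, `exists_dual_vector''`), and maximality gives
`det A ≤ (1 + c t²) ^ n`; `trace_nonpos` for `H' / 2`. -/
theorem trace_le {n : ℕ} (W : Eu n ≃L[ℝ] X) (hW : ∀ v, ‖W v‖ ≤ ‖v‖)
    (hmax : ∀ (T : Eu n →ₗ[ℝ] Eu n) (r : ℝ), 0 < r → (∀ v, ‖W (T v)‖ ≤ r * ‖v‖) → |LinearMap.det T| ≤ r ^ n)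
    (H : Matrix (Fin n) (Fin n) ℝ)
    (hH : ∀ (g : Eu n) (ψ : X →L[ℝ] ℝ), ‖ψ‖ ≤ 1 → (∀ v, ψ (W v) = inner ℝ g v) →
      ∑ i, ∑ j, H i j * (g i * g j) ≤ 1) : H.trace ≤ n := by
  let M : Matrix (Fin n) (Fin n) ℝ := (1 / 2 : ℝ) • (H - 1)
  let L : Eu n →L[ℝ] Eu n := LinearMap.toContinuousLinearMap (Matrix.toEuclideanLin M).adjoint
  have h1 : ∀ g v, inner ℝ (L g) v = inner ℝ g (Matrix.toEuclideanLin M v) :=
    fun g v => LinearMap.adjoint_inner_left _ _ _
  have h2 : ∀ g : Eu n, 2 * inner ℝ g (L g) = ∑ i, ∑ j, H i j * (g i * g j) - ‖g‖ ^ 2 := fun g => by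
    rw [real_inner_comm, h1, ← real_inner_self_eq_norm_sq, map_smul, map_sub, Matrix.toLpLin_one,
      LinearMap.smul_apply, LinearMap.sub_apply, inner_smul_right, inner_sub_right,
      LinearMap.id_apply, ← mul_assoc, mul_one_div_cancel two_ne_zero, one_mul, PiLp.inner_apply]
    refine congrArg (· - _) (sum_congr rfl fun i _ => ?_)
    simp only [Matrix.toLpLin_apply, Matrix.mulVec, dotProduct, RCLike.inner_apply, conj_trivial,
      mul_sum, sum_mul]
    exact sum_congr rfl fun j _ => by ring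
  have h3 := trace_nonpos M (sq_nonneg ‖L‖) fun t ht ht1 => by
    rw [← LinearMap.det_toLpLin 2]
    refine (le_abs_self _).trans (hmax _ _ (by positivity) fun v => ?_)
    obtain ⟨ψ, hψ, hψ'⟩ := exists_dual_vector'' ℝ (W (Matrix.toLpLin 2 2 (1 + t • M) v))
    have h4 := john_norm_le hW hψ (johnG_inner W ψ)
    have h5 := hH _ ψ hψ (johnG_inner W ψ)
    rw [RCLike.ofReal_real_eq_id, id, johnG_inner] at hψ'
    rw [← hψ', map_add, map_smul, Matrix.toLpLin_one, LinearMap.add_apply, LinearMap.smul_apply,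
      LinearMap.id_apply, inner_add_right, inner_smul_right, ← h1, ← real_inner_smul_left,
      ← inner_add_left]
    refine (real_inner_le_norm _ _).trans (mul_le_mul_of_nonneg_right
      ((sq_le_sq₀ (norm_nonneg _) (by positivity)).1 ?_) (norm_nonneg _))
    have h6 := pow_le_pow_left₀ (norm_nonneg _) (L.le_opNorm_of_le h4) 2
    have h7 := pow_le_pow_left₀ (norm_nonneg _) h4 2
    rw [norm_add_sq_real, inner_smul_right, norm_smul, Real.norm_of_nonneg ht.le, mul_left_comm, h2]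
    nlinarith [mul_le_mul_of_nonneg_left h5 ht.le, mul_le_mul_of_nonneg_left h6 (sq_nonneg t),
      mul_le_mul_of_nonneg_left h7 (sub_nonneg.2 ht1), sq_nonneg (‖L‖ * t),
      sq_nonneg (‖L‖ ^ 2 * t ^ 2)]
  rw [Matrix.trace_smul, Matrix.trace_sub, Matrix.trace_one, Fintype.card_fin, smul_eq_mul] at h3
  linarith

/-- Carathéodory (`eq_pos_convex_span_of_mem_convexHull`, `AffineIndependent.card_le_finrank_succ`): the convex hull is the
image of the compact set `stdSimplex ℝ (Fin (d+1)) ×ˢ (Fin (d+1) → s)` (pad with zero weights). -/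
theorem isCompact_convexHull {E : Type*} [NormedAddCommGroup E] [NormedSpace ℝ E] [FiniteDimensional ℝ E]
    {s : Set E} (hs : IsCompact s) : IsCompact (convexHull ℝ s) := by
  have : convexHull ℝ s = ⋃ k ∈ Set.Iic (Module.finrank ℝ E + 1),
      (fun x : (Fin k → ℝ) × (Fin k → E) => ∑ i, x.1 i • x.2 i) ''
        (stdSimplex ℝ (Fin k) ×ˢ Set.univ.pi fun _ => s) := by
    refine Set.Subset.antisymm (fun x hx => ?_) (Set.iUnion₂_subset fun k _ => ?_)
    · obtain ⟨ι, _, z, w, h1, h2, h3, h4, rfl⟩ := eq_pos_convex_span_of_mem_convexHull hx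
      let e := (Fintype.equivFin ι).symm
      exact Set.mem_biUnion (x := Fintype.card ι)
        (h2.card_le_finrank_succ.trans (Nat.succ_le_succ (Submodule.finrank_le _)))
        ⟨(w ∘ e, z ∘ e), ⟨⟨fun i => (h3 _).le, (e.sum_comp w).trans h4⟩,
          fun i _ => h1 ⟨_, rfl⟩⟩, e.sum_comp fun i => w i • z i⟩
    · rintro _ ⟨x, ⟨h1, h2⟩, rfl⟩
      exact mem_convexHull_of_exists_fintype x.1 x.2 h1.1 h1.2 (fun i => h2 i trivial) rfl
  rw [this]
  exact (Set.finite_Iic _).isCompact_biUnion fun k _ =>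
    ((isCompact_stdSimplex ℝ _).prod (isCompact_univ_pi fun _ => hs)).image (by fun_prop)

/-- `n = 0`: empty family.  Otherwise work in `Fin n → Fin n → ℝ`: `s = {fun i j => g i * g j | g ∈ 𝒢}` is compact (image of the
unit ball of the dual), and `n⁻¹ • 1 ∈ convexHull s`: otherwise `geometric_hahn_banach_closed_point` gives a matrix `H` and
`u` with `gᵀ H g < u < tr H / n` on `𝒢`; `u > 0` (`g = 0`), and `trace_le` for `u⁻¹ H` is a contradiction.
`mem_convexHull_iff_exists_fintype`, `Fintype.equivFin`. -/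
theorem exists_JP [FiniteDimensional ℝ X] {n : ℕ} (hn : Module.finrank ℝ X = n) : Nonempty (JP n X) := by
  obtain ⟨W, hW, hmax⟩ := exists_max hn
  let Φ : (X →L[ℝ] ℝ) → Fin n × Fin n → ℝ := fun ψ a => johnG W ψ a.1 * johnG W ψ a.2
  have hΦ : Continuous Φ := by
    have : Continuous (johnG W) := (InnerProductSpace.toDual ℝ (Eu n)).symm.continuous.comp
      (continuous_id.clm_comp continuous_const)
    fun_prop
  have := FiniteDimensional.proper_real (X →L[ℝ] ℝ)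
  have h1 : (fun a : Fin n × Fin n => if a.1 = a.2 then (n : ℝ)⁻¹ else 0) ∈
      convexHull ℝ (Φ '' Metric.closedBall 0 1) := by
    by_contra hc
    obtain ⟨f, u, h1, h2⟩ := geometric_hahn_banach_closed_point (convex_convexHull ℝ _)
      (isCompact_convexHull ((isCompact_closedBall _ _).image hΦ)).isClosed hc
    obtain ⟨H, hH⟩ : ∃ H : Fin n × Fin n → ℝ, ∀ x, f x = ∑ i, ∑ j, x (i, j) * H (i, j) :=
      ⟨fun a => f fun j => if a = j then 1 else 0, fun x =>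
        (f.toLinearMap.pi_apply_eq_sum_univ x).trans (Fintype.sum_prod_type _)⟩
    have h3 : ∀ ψ : X →L[ℝ] ℝ, ‖ψ‖ ≤ 1 → f (Φ ψ) < u := fun ψ hψ =>
      h1 _ (subset_convexHull ℝ _ ⟨ψ, mem_closedBall_zero_iff.2 hψ, rfl⟩)
    have hu : 0 < u := by simpa [hH, Φ, johnG] using h3 0 (by simp)
    have h4 := trace_le W hW hmax (Matrix.of fun i j => u⁻¹ * H (i, j)) fun g ψ hψ hg => by
      obtain rfl : g = johnG W ψ :=
        ext_inner_right ℝ fun v => (hg v).symm.trans (johnG_inner W ψ v)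
      have h5 := h3 ψ hψ
      simp only [Matrix.of_apply, mul_assoc, ← mul_sum, mul_comm (H _)]
      rw [inv_mul_le_iff₀ hu, mul_one]
      simpa only [hH, Φ, mul_assoc, ← mul_sum] using h5.le
    simp only [hH, ite_mul, zero_mul, sum_ite_eq, mem_univ, if_true, ← mul_sum] at h2
    simp only [Matrix.trace, Matrix.diag, Matrix.of_apply, ← mul_sum] at h4
    rw [inv_mul_le_iff₀' hu] at h4
    have h5 := mul_le_mul_of_nonneg_left h4 (show 0 ≤ (n : ℝ)⁻¹ by positivity)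
    have h6 := mul_le_mul_of_nonneg_right (inv_mul_le_one (a := (n : ℝ))) hu.le
    linarith
  obtain ⟨ι, _, w, z, h2, h3, h4, h5⟩ := mem_convexHull_iff_exists_fintype.1 h1
  choose ψ hψ hz using h4
  let e := (Fintype.equivFin ι).symm
  refine ⟨⟨W, hW, _, fun j => n * w (e j), fun j => ψ (e j), fun j => johnG W (ψ (e j)),
    fun j => mul_nonneg (Nat.cast_nonneg n) (h2 _), by rw [← mul_sum, e.sum_comp w, h3, mul_one],
    fun j => mem_closedBall_zero_iff.1 (hψ _), fun j => johnG_inner W _, fun v => ?_⟩⟩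
  rw [e.sum_comp fun j => (n * w j * inner ℝ (johnG W (ψ j)) v) • johnG W (ψ j)]
  ext i
  have hn0 : (n : ℝ) ≠ 0 := by exact_mod_cast i.pos.ne'
  have h6 : ∀ k, ∑ j, w j * (johnG W (ψ j) i * johnG W (ψ j) k) =
      if i = k then (n : ℝ)⁻¹ else 0 := fun k => by
    simpa [← hz, Φ] using congrFun h5 (i, k)
  have h7 : ∑ k, n * v k * ∑ j, w j * (johnG W (ψ j) i * johnG W (ψ j) k) = v i := by
    simp only [h6, mul_ite, mul_zero, sum_ite_eq, mem_univ, if_true]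
    field_simp
  rw [← h7]
  simp only [WithLp.ofLp_sum, Finset.sum_apply, PiLp.smul_apply, smul_eq_mul, PiLp.inner_apply,
    RCLike.inner_apply, conj_trivial, mul_sum, sum_mul]
  rw [sum_comm]
  exact sum_congr rfl fun k _ => sum_congr rfl fun j _ => by ring

end Crest.Agent.R74
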