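import Crest.Agent.R74.Fin2
import Crest.Agent.R74.John
import Crest.Agent.R74.Deriv

/-!
# Row 74: the finite dimensional case
-/

namespace Crest.Agent.R74

open Finset

variable {X Y : Type*} [NormedAddCommGroup X] [NormedSpace ℝ X] [NormedAddCommGroup Y]
  [NormedSpace ℝ Y]

open MeasureTheory

theorem JP.measurableSet_body {n : ℕ} (j : JP n X) : MeasurableSet {v | ‖j.W v‖ ≤ 1} :=
  (isClosed_le (by fun_prop) continuous_const).measurableSet

theorem JP.vol_body_lt_top {n : ℕ} (j : JP n X) : volume {v | ‖j.W v‖ ≤ 1} < ⊤ := by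
  refine Bornology.IsBounded.measure_lt_top (isBounded_iff_forall_norm_le.2
    ⟨‖(j.W.symm : X →L[ℝ] Eu n)‖, fun v (hv : ‖j.W v‖ ≤ 1) => ?_⟩)
  have := (j.W.symm : X →L[ℝ] Eu n).le_opNorm (j.W v)
  simp only [ContinuousLinearEquiv.coe_coe, ContinuousLinearEquiv.symm_apply_apply] at this
  exact this.trans (mul_le_of_le_one_right (norm_nonneg _) hv)

theorem det_ae_le {n : ℕ} {Φ : Eu n → Eu n}
    (h : ∀ᵐ z ∂(volume : Measure (Eu n)), DifferentiableAt ℝ Φ z ∧ HS (fderiv ℝ Φ z) ≤ n)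
    (s : Set (Eu n)) :
    (fun z => ENNReal.ofReal |(fderiv ℝ Φ z).det|) ≤ᵐ[volume.restrict s] fun _ => 1 := by
  filter_upwards [ae_restrict_of_ae h] with z hz
  exact ENNReal.ofReal_le_one.2 (hs_det_le _ hz.2)

theorem vol_le [FiniteDimensional ℝ X] (S : SI X Y) {n : ℕ} (jX : JP n X) (jY : JP n Y) :
    volume {v | ‖jY.W v‖ ≤ 1} ≤ volume {v | ‖jX.W v‖ ≤ 1} := by
  obtain ⟨Φ, K, hK, hΦ, hae⟩ := exists_Phi S jX jY
  refine (measure_mono (Phi_surj S jX jY hK.continuous hΦ)).trans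
    ((vol_image_le hK jX.measurableSet_body).trans ((lintegral_mono_ae (det_ae_le hae _)).trans ?_))
  simp

/-- `vol K_X ≤ vol K_Y ≤ ∫_{K_X} |det| ≤ vol K_X < ∞` forces `|det| = 1` a.e. on `K_X` (`ae_eq_of_ae_le_of_lintegral_le`);
`hs_iso`, `lip_of_ae` on `U = {‖W v‖ < 1}`, continuity (`r u → u` as `r ↑ 1`). -/
theorem euclid_lip [FiniteDimensional ℝ X] (S : SI X Y) {n : ℕ} (jX : JP n X) (jY : JP n Y)
    (h : volume {v | ‖jX.W v‖ ≤ 1} ≤ volume {v | ‖jY.W v‖ ≤ 1}) {x y : X} (hx : ‖x‖ = 1) (hy : ‖y‖ = 1) :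
    ‖jY.W.symm (S.F x) - jY.W.symm (S.F y)‖ ≤ ‖jX.W.symm x - jX.W.symm y‖ := by
  obtain ⟨Φ, K, hK, hΦ, hae⟩ := exists_Phi S jX jY
  have h1 := det_ae_le hae {v | ‖jX.W v‖ ≤ 1}
  have h2 : ∫⁻ z in {v | ‖jX.W v‖ ≤ 1}, ENNReal.ofReal |(fderiv ℝ Φ z).det| ≠ ⊤ :=
    ((lintegral_mono_ae h1).trans_lt (by simpa using jX.vol_body_lt_top)).ne
  have h3 := ae_eq_of_ae_le_of_lintegral_le h1 h2 aemeasurable_const (by
    simpa using h.trans ((measure_mono (Phi_surj S jX jY hK.continuous hΦ)).trans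
      (vol_image_le hK jX.measurableSet_body)))
  have h4 := (ae_restrict_iff' jX.measurableSet_body).1 h3
  have hU : IsOpen {v | ‖jX.W v‖ < 1} := isOpen_lt (by fun_prop) continuous_const
  have hc : Convex ℝ {v | ‖jX.W v‖ < 1} := by
    have := (convex_ball (0 : X) 1).linear_preimage (jX.W : Eu n →L[ℝ] X).toLinearMap
    have e : {v | ‖jX.W v‖ < 1} = (jX.W : Eu n →L[ℝ] X).toLinearMap ⁻¹' Metric.ball 0 1 := by
      ext v; simp
    rwa [e]
  have h5 : ∀ {u v : Eu n}, ‖jX.W u‖ < 1 → ‖jX.W v‖ < 1 → ‖Φ u - Φ v‖ ≤ ‖u - v‖ := by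
    intro u v hu hv
    refine lip_of_ae hK hU hc ?_ hu hv
    filter_upwards [hae, h4] with z hz hz' hzU
    refine ⟨hz.1, hs_iso _ hz.2 ?_⟩
    have := hz' (le_of_lt hzU)
    exact ENNReal.one_le_ofReal.1 this.ge
  have hin : ∀ {x : X}, ‖x‖ = 1 → ∀ r ∈ Set.Ioo (0 : ℝ) 1, ‖jX.W (r • jX.W.symm x)‖ < 1 := by
    intro x hx r hr
    rw [map_smul, jX.W.apply_symm_apply, norm_smul, hx, mul_one, Real.norm_of_nonneg hr.1.le]
    exact hr.2
  have hval : ∀ {x : X}, ‖x‖ = 1 → jY.W.symm (S.F x) = Φ (jX.W.symm x) := by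
    intro x hx
    have := hΦ (jX.W.symm x) (by rwa [jX.W.apply_symm_apply])
    rw [jX.W.apply_symm_apply] at this
    rw [← this, jY.W.symm_apply_apply]
  rw [hval hx, hval hy]
  have hcΦ := hK.continuous
  have t1 : Continuous fun r : ℝ => ‖Φ (r • jX.W.symm x) - Φ (r • jX.W.symm y)‖ := by fun_prop
  have t2 : Continuous fun r : ℝ => ‖r • jX.W.symm x - r • jX.W.symm y‖ := by fun_prop
  have := le_of_tendsto_of_tendsto ((t1.tendsto 1).mono_left (nhdsWithin_le_nhds (s := Set.Iio 1)))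
    ((t2.tendsto 1).mono_left nhdsWithin_le_nhds) (by
      filter_upwards [Ioo_mem_nhdsLT (zero_lt_one' ℝ)] with r hr using h5 (hin hx r hr) (hin hy r hr))
  simpa only [one_smul] using this

/-- a map of Euclidean space preserving inner products is additive (`‖f (u + v) - f u - f v‖² = 0`). -/
theorem add_of_inner {n : ℕ} {f : Eu n → Eu n} (h : ∀ u v, inner ℝ (f u) (f v) = inner ℝ u v) (u v : Eu n) :
    f (u - v) = f u - f v := by
  rw [← sub_eq_zero, ← inner_self_eq_zero (𝕜 := ℝ)]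
  simp only [inner_sub_left, inner_sub_right, h]
  ring

/-- `X` trivial: clear.  Otherwise `Y` is separable (continuous image), `dense_BS` gives `T : X ≃L Y`, so `Y` has the same
finite dimension.  `vol_le`, `euclid_lip` for `S` and `S.symm`: `f = W_Y⁻¹ F W_X` preserves Euclidean distances on
`{‖W v‖ = 1}`, norms (oddness), hence inner products, everywhere by homogeneity; `add_of_inner`, `S.norm`. -/
theorem fin_lip [FiniteDimensional ℝ X] [CompleteSpace Y] (S : SI X Y) (x y : X) :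
    ‖S.F x - S.F y‖ ≤ ‖x - y‖ := by
  rcases subsingleton_or_nontrivial X with hX | hX
  · rw [Subsingleton.elim x y]; simp
  have : CompleteSpace X := FiniteDimensional.complete ℝ X
  have : TopologicalSpace.SeparableSpace Y := S.F.surjective.denseRange.separableSpace S.continuous
  obtain ⟨p, hp⟩ := exists_norm_eq X zero_le_one
  obtain ⟨q, -, ⟨B⟩⟩ := dense_BS S hp one_pos
  have : FiniteDimensional ℝ Y := B.T.toLinearEquiv.finiteDimensional
  obtain ⟨jX⟩ := exists_JP (X := X) rfl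
  obtain ⟨jY⟩ := exists_JP (X := Y) B.T.toLinearEquiv.finrank_eq.symm
  set f : Eu (Module.finrank ℝ X) → Eu (Module.finrank ℝ X) :=
    fun v => jY.W.symm (S.F (jX.W v)) with hf
  have hsm : ∀ (t : ℝ) v, f (t • v) = t • f v := fun t v => by
    simp only [hf, map_smul, S.smul]
  have hd : ∀ u v, ‖jX.W u‖ = 1 → ‖jX.W v‖ = 1 → ‖f u - f v‖ = ‖u - v‖ := by
    intro u v hu hv
    have h1 := euclid_lip S jX jY (vol_le S.symm jY jX) hu hv
    have h2 := euclid_lip S.symm jY jX (vol_le S jX jY) (x := S.F (jX.W u)) (y := S.F (jX.W v))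
      (by rw [S.norm, hu]) (by rw [S.norm, hv])
    simp only [SI.symm_F, Equiv.symm_apply_apply, ContinuousLinearEquiv.symm_apply_apply] at h1 h2
    exact le_antisymm h1 h2
  have hn : ∀ u, ‖jX.W u‖ = 1 → ‖f u‖ = ‖u‖ := by
    intro u hu
    have h1 := hd u ((-1 : ℝ) • u) hu (by simpa using hu)
    rw [hsm, show f u - (-1 : ℝ) • f u = (2 : ℝ) • f u by module,
      show u - (-1 : ℝ) • u = (2 : ℝ) • u by module, norm_smul, norm_smul] at h1
    simpa using h1
  have hi : ∀ u v, ‖jX.W u‖ = 1 → ‖jX.W v‖ = 1 → inner ℝ (f u) (f v) = inner ℝ u v := by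
    intro u v hu hv
    have h1 := norm_sub_sq_real (f u) (f v)
    have h2 := norm_sub_sq_real u v
    rw [hd u v hu hv, hn u hu, hn v hv] at h1
    linarith
  have hdec : ∀ u, ∃ (t : ℝ) (u₀ : Eu (Module.finrank ℝ X)), ‖jX.W u₀‖ = 1 ∧ u = t • u₀ := by
    intro u
    by_cases hu : jX.W u = 0
    · refine ⟨0, jX.W.symm p, by simpa using hp, ?_⟩
      simpa using hu
    · refine ⟨‖jX.W u‖, ‖jX.W u‖⁻¹ • u, by rw [map_smul]; exact norm_normalize hu, ?_⟩
      rw [smul_inv_smul₀ (norm_ne_zero_iff.2 hu)]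
  have hall : ∀ u v, inner ℝ (f u) (f v) = inner ℝ u v := by
    intro u v
    obtain ⟨s, u₀, hu, rfl⟩ := hdec u
    obtain ⟨t, v₀, hv, rfl⟩ := hdec v
    simp only [hsm, real_inner_smul_left, real_inner_smul_right, hi u₀ v₀ hu hv]
  have h := add_of_inner hall (jX.W.symm x) (jX.W.symm y)
  simp only [hf, map_sub, ContinuousLinearEquiv.apply_symm_apply] at h
  rw [← map_sub] at h
  rw [← jY.W.symm.injective h, S.norm]

end Crest.Agent.R74
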