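import Crest.Agent.R74.Basic

/-!
# Row 74: a surjective isometry of unit spheres is odd; the radial extension
-/

namespace Crest.Agent.R74

open Finset

variable {X Y : Type*} [NormedAddCommGroup X] [NormedSpace ℝ X] [NormedAddCommGroup Y]
  [NormedSpace ℝ Y]

theorem nm_two {φ : X →L[ℝ] ℝ} {a b : X} (h : Nm φ (a + b)) (ha : ‖a‖ = 1) (hb : ‖b‖ = 1)
    (hab : ‖a + b‖ = 2) : φ a = 1 ∧ φ b = 1 := by
  have h1 := h.2
  have h2 := h.le a
  have h3 := h.le b
  rw [map_add, hab] at h1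
  constructor <;> linarith

/-- a maximal convex subset `C` of the unit sphere through `x` (Zorn, `zorn_subset_nonempty`) is invariant under
`τ`: for `y, x₀ ∈ C` and `x_t = (1 - t) y + t x₀ ∈ C` a functional norming `x_t + τ x_t` is `1` at `x₀` and at
`τ x_t`, so `‖x₀ + τ x_t‖ = 2`, and `‖x₀ + τ y‖ = 2` as `t → 0`.  Hence all segments from `τ y` to points of
`C` lie in the sphere (a functional norming `x₀ + τ y` is `1` on the segment); their union
(`convexJoin`, or `convexHull_insert`) is convex and contains `C`, so `τ y ∈ C` by maximality. -/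
theorem exists_inv_convex (τ : X → X) (h1 : ∀ x, ‖x‖ = 1 → ‖τ x‖ = 1)
    (h2 : ∀ x y, ‖x‖ = 1 → ‖y‖ = 1 → ‖τ x - τ y‖ = ‖x - y‖) (h3 : ∀ x, ‖x‖ = 1 → ‖x + τ x‖ = 2)
    {x : X} (hx : ‖x‖ = 1) :
    ∃ C : Set X, x ∈ C ∧ Convex ℝ C ∧ (∀ y ∈ C, ‖y‖ = 1) ∧ ∀ y ∈ C, τ y ∈ C := by
  obtain ⟨C, hxC, hmax⟩ := zorn_subset_nonempty
    {C : Set X | Convex ℝ C ∧ ∀ y ∈ C, ‖y‖ = 1} (by
      intro c hc hchain _
      refine ⟨⋃₀ c, ⟨?_, ?_⟩, fun s hs => Set.subset_sUnion_of_mem hs⟩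
      · exact hchain.directedOn.convex_sUnion fun s hs => (hc hs).1
      · rintro y ⟨s, hs, hy⟩
        exact (hc hs).2 y hy) {x} ⟨convex_singleton x, by simpa using hx⟩
  obtain ⟨hconv, hsph⟩ := hmax.prop
  refine ⟨C, hxC rfl, hconv, hsph, fun y hy => ?_⟩
  have key : ∀ x₀ ∈ C, ‖x₀ + τ y‖ = 2 := by
    intro x₀ hx₀
    have hle : ‖x₀ + τ y‖ ≤ 2 := by
      have := norm_add_le x₀ (τ y)
      rw [hsph x₀ hx₀, h1 y (hsph y hy)] at this
      linarith
    refine le_antisymm hle (le_of_forall_pos_le_add fun ε hε => ?_)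
    obtain ⟨t, ht0, ht1, htε⟩ : ∃ t : ℝ, 0 < t ∧ t ≤ 1 ∧ 2 * t ≤ ε :=
      ⟨min 1 (ε / 2), lt_min one_pos (by linarith), min_le_left _ _, by
        have := min_le_right 1 (ε / 2); linarith⟩
    have hz : (1 - t) • y + t • x₀ ∈ C := hconv hy hx₀ (by linarith) ht0.le (by ring)
    set z := (1 - t) • y + t • x₀ with hzdef
    have hz1 := hsph z hz
    obtain ⟨φ, hφ⟩ := exists_nm (z + τ z)
    obtain ⟨e1, e2⟩ := nm_two hφ hz1 (h1 z hz1) (h3 z hz1)
    have hy1 : φ y ≤ 1 := (hφ.le y).trans (hsph y hy).le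
    have hx1 : φ x₀ ≤ 1 := (hφ.le x₀).trans (hsph x₀ hx₀).le
    have e3 : φ z = (1 - t) * φ y + t * φ x₀ := by simp [hzdef]
    have e4 : φ x₀ = 1 := by
      refine le_antisymm hx1 (le_of_mul_le_mul_left ?_ ht0)
      nlinarith
    have e5 : 2 ≤ ‖x₀ + τ z‖ := by
      have := hφ.le (x₀ + τ z)
      rw [map_add, e4, e2] at this
      linarith
    have e6 : ‖τ z - τ y‖ ≤ 2 * t := by
      rw [h2 z y hz1 (hsph y hy)]
      have : z - y = t • (x₀ - y) := by rw [hzdef]; module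
      rw [this, norm_smul, Real.norm_of_nonneg ht0.le]
      have := norm_sub_le x₀ y
      rw [hsph x₀ hx₀, hsph y hy] at this
      nlinarith
    have e7 : ‖x₀ + τ z‖ ≤ ‖x₀ + τ y‖ + ‖τ z - τ y‖ := by
      have : x₀ + τ z = (x₀ + τ y) + (τ z - τ y) := by abel
      rw [this]; exact norm_add_le _ _
    linarith
  have hsub : C ⊆ convexJoin ℝ {τ y} C := subset_convexJoin_right (Set.singleton_nonempty _)
  have hmem : convexJoin ℝ {τ y} C ∈ {C : Set X | Convex ℝ C ∧ ∀ y ∈ C, ‖y‖ = 1} := by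
    refine ⟨(convex_singleton _).convexJoin hconv, fun z hz => ?_⟩
    rw [mem_convexJoin] at hz
    obtain ⟨a, ha, c, hc, s, t, hs, ht, hst, rfl⟩ := hz
    rw [Set.mem_singleton_iff] at ha
    subst ha
    obtain ⟨φ, hφ⟩ := exists_nm (c + τ y)
    obtain ⟨e1, e2⟩ := nm_two hφ (hsph c hc) (h1 y (hsph y hy)) (key c hc)
    refine le_antisymm ?_ ?_
    · refine (norm_add_le _ _).trans ?_
      rw [norm_smul, norm_smul, Real.norm_of_nonneg hs, Real.norm_of_nonneg ht,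
        h1 y (hsph y hy), hsph c hc]
      linarith
    · have := hφ.le (s • τ y + t • c)
      rw [map_add, map_smul, map_smul, e1, e2] at this
      simp only [smul_eq_mul] at this
      linarith
  exact hmax.le_of_ge hmem hsub (subset_convexJoin_left ⟨y, hy⟩ rfl)

/-- **τ-lemma.**  Suppose `v = τ p - p ≠ 0`.  Let `t₀ = sup {t ≥ 0 | ‖p - t v‖ ≤ 1}` (closed bounded set,
`‖p - t₀ v‖ ≤ 1`), `y = p - (t₀ + 1/2) v`, `η = ‖y‖ - 1 > 0`, `x = ‖y‖⁻¹ y`, `C` from `exists_inv_convex`,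
`h s = infDist (p + s v) C` (convex: `Convex.convexOn_infDist`-style or by hand).  Then
`h (-t₀ - 1/2) ≤ ‖y - x‖ = η`, `h 1 ≤ h 0` (`τ C ⊆ C`, isometry), so convexity gives `h 0 ≤ η`, `h 1 ≤ η`.
For `c ∈ C` a functional `ψ` norming `x + c` (norm `2` since the midpoint is in `C`) has `ψ x = ψ c = 1`, so
`ψ y = 1 + η`, `ψ (p - t₀ v) ≤ 1`, `-ψ v ≥ 2η`, `ψ (τ p) ≤ 1 - 2η`, `‖τ p - c‖ ≥ 2η`.  So `h 1 ≥ 2η`: contradiction. -/
theorem tau_id (τ : X → X) (h1 : ∀ x, ‖x‖ = 1 → ‖τ x‖ = 1)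
    (h2 : ∀ x y, ‖x‖ = 1 → ‖y‖ = 1 → ‖τ x - τ y‖ = ‖x - y‖) (h3 : ∀ x, ‖x‖ = 1 → ‖x + τ x‖ = 2)
    {p : X} (hp : ‖p‖ = 1) : τ p = p := by
  by_contra hne
  set v := τ p - p with hv
  have hv0 : 0 < ‖v‖ := norm_pos_iff.2 (sub_ne_zero.2 hne)
  obtain ⟨t₀, ht₀, hA, hB⟩ : ∃ t₀ : ℝ, 0 ≤ t₀ ∧ ‖p - t₀ • v‖ ≤ 1 ∧ 1 < ‖p - (t₀ + 1 / 2) • v‖ := by
    by_contra hcon
    push Not at hcon
    have hn : ∀ n : ℕ, ‖p - ((n : ℝ) / 2) • v‖ ≤ 1 := by
      intro n
      induction n with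
      | zero => simp [hp]
      | succ n ih =>
        have := hcon _ (by positivity) ih
        have e : ((n + 1 : ℕ) : ℝ) / 2 = (n : ℝ) / 2 + 1 / 2 := by push_cast; ring
        rw [e]; exact this
    obtain ⟨n, hn'⟩ := exists_nat_gt (4 / ‖v‖)
    have h4 : 4 < n * ‖v‖ := by rwa [div_lt_iff₀ hv0] at hn'
    have h5 := norm_sub_le p (p - ((n : ℝ) / 2) • v)
    rw [sub_sub_cancel, norm_smul, Real.norm_of_nonneg (by positivity), hp] at h5
    have := hn n
    linarith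
  set y := p - (t₀ + 1 / 2) • v with hy
  have hy0 : y ≠ 0 := by
    intro h; rw [h, norm_zero] at hB; linarith
  have hypos : 0 < ‖y‖ := by linarith
  set x := ‖y‖⁻¹ • y with hx
  have hx1 : ‖x‖ = 1 := norm_normalize hy0
  have hyx : y = ‖y‖ • x := by rw [hx, smul_smul, mul_inv_cancel₀ hypos.ne', one_smul]
  set η := ‖y‖ - 1 with hη
  have hη0 : 0 < η := by linarith
  have hyx' : ‖y - x‖ = η := by
    have : y - x = η • x := by rw [hη, sub_smul, one_smul, ← hyx]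
    rw [this, norm_smul, hx1, mul_one, Real.norm_of_nonneg hη0.le]
  obtain ⟨C, hxC, hconv, hsph, hinv⟩ := exists_inv_convex τ h1 h2 h3 hx1
  have far : ∀ c ∈ C, 2 * η ≤ ‖τ p - c‖ := by
    intro c hc
    have hm : (1 / 2 : ℝ) • x + (1 / 2 : ℝ) • c ∈ C :=
      hconv hxC hc (by norm_num) (by norm_num) (by norm_num)
    have h2' : ‖x + c‖ = 2 := by
      have := hsph _ hm
      rw [← smul_add, norm_smul, Real.norm_of_nonneg (by norm_num)] at this
      linarith
    obtain ⟨ψ, hψ⟩ := exists_nm (x + c)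
    obtain ⟨e1, e2⟩ := nm_two hψ hx1 (hsph c hc) h2'
    have e3 : ψ y = ‖y‖ := by
      conv_lhs => rw [hyx]
      rw [map_smul, e1, smul_eq_mul, mul_one]
    have e4 : ψ p - t₀ * ψ v ≤ 1 := by
      have := (hψ.le (p - t₀ • v)).trans hA
      rwa [map_sub, map_smul, smul_eq_mul] at this
    have e5 : ψ y = ψ p - (t₀ + 1 / 2) * ψ v := by
      rw [hy, map_sub, map_smul, smul_eq_mul]
    have e6 : ψ v = ψ (τ p) - ψ p := by rw [hv, map_sub]
    have e7 : ψ p ≤ 1 := (hψ.le p).trans hp.le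
    have e8 := hψ.le (c - τ p)
    rw [map_sub, e2, norm_sub_rev] at e8
    linarith
  have hCne : C.Nonempty := ⟨x, hxC⟩
  set d := Metric.infDist p C with hd
  have hd2 : 2 * η ≤ d := by
    rw [hd, Metric.le_infDist hCne]
    intro c hc
    rw [dist_eq_norm, ← h2 p c hp (hsph c hc)]
    exact far _ (hinv c hc)
  set l : ℝ := (t₀ + 3 / 2)⁻¹ with hl
  have hl0 : 0 < l := by positivity
  have hl1 : l * (t₀ + 3 / 2) = 1 := inv_mul_cancel₀ (by positivity)
  have hl2 : l ≤ 1 := by nlinarith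
  obtain ⟨c, hc, hcd⟩ := (Metric.infDist_lt_iff hCne).1
    (show Metric.infDist p C < d + l * η / 2 by rw [← hd]; have := mul_pos hl0 hη0; linarith)
  rw [dist_eq_norm, ← h2 p c hp (hsph c hc)] at hcd
  have hm : l • x + (1 - l) • τ c ∈ C := hconv hxC (hinv c hc) hl0.le (by linarith) (by ring)
  have h9 := Metric.infDist_le_dist_of_mem (x := p) hm
  rw [← hd, dist_eq_norm] at h9
  have e : p - (l • x + (1 - l) • τ c) = l • (y - x) + (1 - l) • (τ p - τ c) := by
    have e1 : τ p = p + v := by rw [hv]; abel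
    have e2 : (l * (t₀ + 3 / 2)) • v = v := by rw [hl1, one_smul]
    rw [e1, hy]
    linear_combination (norm := module) e2
  rw [e] at h9
  have h10 := h9.trans (norm_add_le _ _)
  rw [norm_smul, norm_smul, Real.norm_of_nonneg hl0.le, Real.norm_of_nonneg (by linarith),
    hyx'] at h10
  have h11 : (1 - l) * ‖τ p - τ c‖ ≤ (1 - l) * (d + l * η / 2) :=
    mul_le_mul_of_nonneg_left hcd.le (by linarith)
  have h12 : l * (2 * η) ≤ l * d := mul_le_mul_of_nonneg_left hd2 hl0.le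
  have h13 := mul_pos hl0 hη0
  have h14 := mul_pos hl0 h13
  nlinarith

open Classical in
/-- radial extension. -/
noncomputable def rad (f : Metric.sphere (0 : X) 1 → Metric.sphere (0 : Y) 1) (x : X) : Y :=
  if h : x = 0 then 0 else ‖x‖ • (f ⟨‖x‖⁻¹ • x, by simpa using norm_normalize h⟩ : Y)

theorem rad_zero (f : Metric.sphere (0 : X) 1 → Metric.sphere (0 : Y) 1) : rad f 0 = 0 :=
  dif_pos rfl

theorem rad_smul_pos (f : Metric.sphere (0 : X) 1 → Metric.sphere (0 : Y) 1) {t : ℝ} (ht : 0 < t)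
    (u : Metric.sphere (0 : X) 1) : rad f (t • (u : X)) = t • (f u : Y) := by
  have hn : ‖t • (u : X)‖ = t := by
    rw [norm_smul, norm_eq_of_mem_sphere, mul_one, Real.norm_of_nonneg ht.le]
  have h0 : t • (u : X) ≠ 0 := by
    rw [← norm_pos_iff, hn]; exact ht
  unfold rad
  rw [dif_neg h0]
  have : (⟨‖t • (u : X)‖⁻¹ • t • (u : X), by simpa using norm_normalize h0⟩ :
      Metric.sphere (0 : X) 1) = u := by
    apply Subtype.ext
    change ‖t • (u : X)‖⁻¹ • t • (u : X) = u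
    rw [hn, smul_smul, inv_mul_cancel₀ ht.ne', one_smul]
  rw [this, hn]

theorem rad_smul (f : Metric.sphere (0 : X) 1 → Metric.sphere (0 : Y) 1)
    (hodd : ∀ x, f (-x) = -f x) (t : ℝ) (u : Metric.sphere (0 : X) 1) :
    rad f (t • (u : X)) = t • (f u : Y) := by
  rcases lt_trichotomy t 0 with ht | rfl | ht
  · have := rad_smul_pos f (neg_pos.2 ht) (-u)
    rwa [hodd, coe_neg_sphere, coe_neg_sphere, neg_smul_neg, neg_smul_neg] at this
  · rw [zero_smul, zero_smul, rad_zero]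
  · exact rad_smul_pos f ht u

theorem zero_or_sphere (x : X) : x = 0 ∨ ∃ u : Metric.sphere (0 : X) 1, x = ‖x‖ • (u : X) := by
  by_cases h : x = 0
  · exact Or.inl h
  · refine Or.inr ⟨⟨‖x‖⁻¹ • x, by simpa using norm_normalize h⟩, ?_⟩
    change x = ‖x‖ • ‖x‖⁻¹ • x
    rw [smul_smul, mul_inv_cancel₀ (norm_ne_zero_iff.2 h), one_smul]

/-- `f (-x) = -f x` by `tau_id` for `τ x = -f⁻¹ (-f x)` (extended by `id` off the sphere); then
`F x = ‖x‖ • f (‖x‖⁻¹ x)`, `F 0 = 0`, with inverse the same construction for `f⁻¹`. -/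
theorem exists_SI (f : Metric.sphere (0 : X) 1 → Metric.sphere (0 : Y) 1) (hf₁ : Isometry f)
    (hf₂ : Function.Surjective f) :
    ∃ S : SI X Y, ∀ x : Metric.sphere (0 : X) 1, S.F x = f x := by
  let e : Metric.sphere (0 : X) 1 ≃ Metric.sphere (0 : Y) 1 :=
    Equiv.ofBijective f ⟨hf₁.injective, hf₂⟩
  have he : ∀ x, e x = f x := fun _ => rfl
  have hfd : ∀ x x', ‖(e x : Y) - e x'‖ = ‖(x : X) - x'‖ := by
    intro x x'
    have := hf₁.dist_eq x x'
    rw [Subtype.dist_eq, Subtype.dist_eq, dist_eq_norm, dist_eq_norm] at this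
    exact this
  have hgd : ∀ y y', ‖(e.symm y : X) - e.symm y'‖ = ‖(y : Y) - y'‖ := by
    intro y y'
    rw [← hfd]; simp
  have hodd : ∀ x, e (-x) = -e x := by
    classical
    let τ : X → X := fun x =>
      if h : ‖x‖ = 1 then -(e.symm (-e ⟨x, by simpa using h⟩) : X) else x
    have hτ : ∀ x (h : ‖x‖ = 1), τ x = -(e.symm (-e ⟨x, by simpa using h⟩) : X) :=
      fun x h => dif_pos h
    have h1 : ∀ x, ‖x‖ = 1 → ‖τ x‖ = 1 := by
      intro x h
      rw [hτ x h, norm_neg, norm_eq_of_mem_sphere]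
    have h2 : ∀ x y, ‖x‖ = 1 → ‖y‖ = 1 → ‖τ x - τ y‖ = ‖x - y‖ := by
      intro x y hx hy
      rw [hτ x hx, hτ y hy, neg_sub_neg, hgd, coe_neg_sphere, coe_neg_sphere, neg_sub_neg, hfd]
    have h3 : ∀ x, ‖x‖ = 1 → ‖x + τ x‖ = 2 := by
      intro x hx
      rw [hτ x hx, ← sub_eq_add_neg]
      have := hgd (e ⟨x, by simpa using hx⟩) (-e ⟨x, by simpa using hx⟩)
      rw [e.symm_apply_apply, coe_neg_sphere, sub_neg_eq_add, ← two_smul ℝ, norm_smul,
        norm_eq_of_mem_sphere] at this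
      simpa using this
    intro x
    have hx : ‖(x : X)‖ = 1 := norm_eq_of_mem_sphere x
    have := tau_id τ h1 h2 h3 hx
    rw [hτ _ hx, neg_eq_iff_eq_neg] at this
    have h4 : e.symm (-e x) = -x := Subtype.ext (by rw [coe_neg_sphere]; exact this)
    rw [← h4, e.apply_symm_apply]
  have hodd' : ∀ y, e.symm (-y) = -e.symm y := by
    intro y
    apply e.injective
    rw [hodd]; simp
  refine ⟨⟨⟨rad e, rad e.symm, fun x => ?_, fun y => ?_⟩, fun t x => ?_, fun x => ?_,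
    fun x x' h => ?_⟩, fun x => ?_⟩
  · rcases zero_or_sphere x with rfl | ⟨u, hu⟩
    · rw [rad_zero, rad_zero]
    · conv_lhs => rw [hu]
      rw [rad_smul _ hodd, rad_smul _ hodd', e.symm_apply_apply, ← hu]
  · rcases zero_or_sphere y with rfl | ⟨u, hu⟩
    · rw [rad_zero, rad_zero]
    · conv_lhs => rw [hu]
      rw [rad_smul _ hodd', rad_smul _ hodd, e.apply_symm_apply, ← hu]
  · change rad e (t • x) = t • rad e x
    rcases zero_or_sphere x with rfl | ⟨u, hu⟩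
    · rw [smul_zero, rad_zero, smul_zero]
    · rw [hu, smul_smul, rad_smul _ hodd, rad_smul _ hodd, smul_smul]
  · change ‖rad e x‖ = ‖x‖
    rcases zero_or_sphere x with rfl | ⟨u, hu⟩
    · rw [rad_zero, norm_zero, norm_zero]
    · conv_lhs => rw [hu]
      rw [rad_smul _ hodd, norm_smul, norm_eq_of_mem_sphere, norm_norm, mul_one]
  · change ‖rad e x - rad e x'‖ = ‖x - x'‖
    rcases zero_or_sphere x with rfl | ⟨u, hu⟩
    · have : x' = 0 := by rw [← norm_eq_zero, ← h, norm_zero]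
      rw [this, sub_self, sub_self, norm_zero, norm_zero]
    · rcases zero_or_sphere x' with rfl | ⟨u', hu'⟩
      · have : x = 0 := by rw [← norm_eq_zero, h, norm_zero]
        rw [this, sub_self, sub_self, norm_zero, norm_zero]
      · rw [← h] at hu'
        generalize ‖x‖ = r at hu hu'
        rw [hu, hu', rad_smul _ hodd, rad_smul _ hodd, ← smul_sub, ← smul_sub, norm_smul,
          norm_smul, hfd]
  · change rad e x = f x
    have := rad_smul _ hodd 1 x
    rwa [one_smul, one_smul] at this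

end Crest.Agent.R74
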