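import Crest.Agent.R74.Basic

/-!
# Row 74: separable reduction
-/

namespace Crest.Agent.R74

open Finset

variable {X Y : Type*} [NormedAddCommGroup X] [NormedSpace ℝ X] [NormedAddCommGroup Y]
  [NormedSpace ℝ Y]

/-- `s 0 = {x, y}`, `s (k+1) = span (s k ∪ F⁻¹ '' span (F '' s k))` are separable (`IsSeparable.span`, `.image`, `.union`);
`X₀` = closure of their (directed) union, `Y₀ = F '' X₀` is a closed subspace: the closure of the directed union of the
`span (F '' s k)` (`F` is a homeomorphism). -/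
theorem exists_sep (S : SI X Y) (x y : X) :
    ∃ (X₀ : Submodule ℝ X) (Y₀ : Submodule ℝ Y), x ∈ X₀ ∧ y ∈ X₀ ∧ IsClosed (X₀ : Set X) ∧ IsClosed (Y₀ : Set Y) ∧
      TopologicalSpace.IsSeparable (X₀ : Set X) ∧ TopologicalSpace.IsSeparable (Y₀ : Set Y) ∧
      ∀ z, z ∈ X₀ ↔ S.F z ∈ Y₀ := by
  let step : Submodule ℝ X × Submodule ℝ Y → Submodule ℝ X × Submodule ℝ Y := fun P =>
    (Submodule.span ℝ ((P.1 : Set X) ∪ S.F.symm '' (P.2 : Set Y)),
      Submodule.span ℝ ((P.2 : Set Y) ∪ S.F '' (P.1 : Set X)))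
  let P : ℕ → Submodule ℝ X × Submodule ℝ Y := fun k =>
    step^[k] (Submodule.span ℝ {x, y}, ⊥)
  have hP : ∀ k, P (k + 1) = step (P k) := fun k => Function.iterate_succ_apply' _ _ _
  have hc : Continuous S.F := S.continuous
  have hc' : Continuous S.F.symm := S.symm.continuous
  have hsep : ∀ k, TopologicalSpace.IsSeparable ((P k).1 : Set X) ∧
      TopologicalSpace.IsSeparable ((P k).2 : Set Y) := by
    intro k
    induction k with
    | zero =>
      refine ⟨(Set.toFinite ({x, y} : Set X)).isSeparable.span, ?_⟩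
      show TopologicalSpace.IsSeparable ((⊥ : Submodule ℝ Y) : Set Y)
      rw [Submodule.bot_coe]
      exact (Set.finite_singleton _).isSeparable
    | succ k ih =>
      rw [hP]
      exact ⟨(ih.1.union (ih.2.image hc')).span, (ih.2.union (ih.1.image hc)).span⟩
  have m1 : Monotone fun k => (P k).1 := monotone_nat_of_le_succ fun k z hz => by
    rw [hP]; exact Submodule.subset_span (Or.inl hz)
  have m2 : Monotone fun k => (P k).2 := monotone_nat_of_le_succ fun k z hz => by
    rw [hP]; exact Submodule.subset_span (Or.inl hz)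
  have e1 : ((⨆ k, (P k).1 : Submodule ℝ X) : Set X) = ⋃ k, ((P k).1 : Set X) :=
    Submodule.coe_iSup_of_directed _ m1.directed_le
  have e2 : ((⨆ k, (P k).2 : Submodule ℝ Y) : Set Y) = ⋃ k, ((P k).2 : Set Y) :=
    Submodule.coe_iSup_of_directed _ m2.directed_le
  have f1 : Set.MapsTo S.F (⋃ k, ((P k).1 : Set X)) (⋃ k, ((P k).2 : Set Y)) := by
    intro z hz
    obtain ⟨k, hk⟩ := Set.mem_iUnion.1 hz
    refine Set.mem_iUnion.2 ⟨k + 1, ?_⟩
    rw [hP]
    exact Submodule.subset_span (Or.inr ⟨z, hk, rfl⟩)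
  have f2 : Set.MapsTo S.F.symm (⋃ k, ((P k).2 : Set Y)) (⋃ k, ((P k).1 : Set X)) := by
    intro z hz
    obtain ⟨k, hk⟩ := Set.mem_iUnion.1 hz
    refine Set.mem_iUnion.2 ⟨k + 1, ?_⟩
    rw [hP]
    exact Submodule.subset_span (Or.inr ⟨z, hk, rfl⟩)
  have hxy : ({x, y} : Set X) ⊆ (⨆ k, (P k).1 : Submodule ℝ X).topologicalClosure := by
    intro z hz
    refine Submodule.le_topologicalClosure _ ?_
    exact (le_iSup (fun k => (P k).1) 0) (Submodule.subset_span hz)
  refine ⟨(⨆ k, (P k).1).topologicalClosure, (⨆ k, (P k).2).topologicalClosure,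
    hxy (by simp), hxy (by simp), Submodule.isClosed_topologicalClosure _,
    Submodule.isClosed_topologicalClosure _, ?_, ?_, fun z => ⟨fun hz => ?_, fun hz => ?_⟩⟩
  · rw [Submodule.topologicalClosure_coe, e1]
    exact (TopologicalSpace.IsSeparable.iUnion fun k => (hsep k).1).closure
  · rw [Submodule.topologicalClosure_coe, e2]
    exact (TopologicalSpace.IsSeparable.iUnion fun k => (hsep k).2).closure
  · rw [← SetLike.mem_coe, Submodule.topologicalClosure_coe] at hz ⊢
    rw [e1] at hz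
    rw [e2]
    exact f1.closure hc hz
  · rw [← SetLike.mem_coe, Submodule.topologicalClosure_coe] at hz ⊢
    rw [e2] at hz
    rw [e1]
    simpa using f2.closure hc' hz

/-- restriction of an `SI` (`Equiv.subtypeEquiv`). -/
theorem exists_restrict (S : SI X Y) (X₀ : Submodule ℝ X) (Y₀ : Submodule ℝ Y) (h : ∀ z, z ∈ X₀ ↔ S.F z ∈ Y₀) :
    ∃ S₀ : SI X₀ Y₀, ∀ z : X₀, (S₀.F z : Y) = S.F z := by
  refine ⟨⟨S.F.subtypeEquiv h, fun t z => Subtype.ext ?_, fun z => ?_, fun z z' hz => ?_⟩,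
    fun z => rfl⟩
  · exact S.smul t z
  · exact S.norm z
  · exact S.dist z z' hz

end Crest.Agent.R74
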