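import Crest.Agent.R74.Walk
import Crest.Agent.R74.Fin3
import Crest.Agent.R74.Sep
import Crest.Agent.R74.Odd

/-!
# Row 74: final assembly
-/

namespace Crest.Agent.R74

open Finset

variable {X Y : Type*} [NormedAddCommGroup X] [NormedSpace ℝ X] [NormedAddCommGroup Y]
  [NormedSpace ℝ Y]

theorem SI.lip [CompleteSpace X] [CompleteSpace Y] (S : SI X Y) (x y : X) : ‖S.F x - S.F y‖ ≤ ‖x - y‖ := by
  obtain ⟨X₀, Y₀, hx, hy, hc, hc', hs, hs', h⟩ := exists_sep S x y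
  obtain ⟨S₀, hS₀⟩ := exists_restrict S X₀ Y₀ h
  have : CompleteSpace X₀ := hc.completeSpace_coe
  have : CompleteSpace Y₀ := hc'.completeSpace_coe
  have : TopologicalSpace.SeparableSpace X₀ := hs.separableSpace
  have : TopologicalSpace.SeparableSpace Y₀ := hs'.separableSpace
  have key : ‖S₀.F ⟨x, hx⟩ - S₀.F ⟨y, hy⟩‖ ≤ ‖(⟨x, hx⟩ : X₀) - ⟨y, hy⟩‖ := by
    by_cases hX : FiniteDimensional ℝ X₀
    · exact fin_lip S₀ _ _
    · exact inf_lip S₀ hX _ _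
  have h1 : ‖S₀.F ⟨x, hx⟩ - S₀.F ⟨y, hy⟩‖ = ‖S.F x - S.F y‖ := by
    rw [← Submodule.norm_coe, Submodule.coe_sub, hS₀, hS₀]
  have h2 : ‖(⟨x, hx⟩ : X₀) - ⟨y, hy⟩‖ = ‖x - y‖ := by
    rw [← Submodule.norm_coe, Submodule.coe_sub]
  rwa [h1, h2] at key

theorem SI.isometry [CompleteSpace X] [CompleteSpace Y] (S : SI X Y) : Isometry S.F := by
  refine Isometry.of_dist_eq fun x y => ?_
  rw [dist_eq_norm, dist_eq_norm]
  refine le_antisymm (S.lip x y) ?_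
  simpa using S.symm.lip (S.F x) (S.F y)

theorem tingley [CompleteSpace X] [CompleteSpace Y]
    (f : Metric.sphere (0 : X) 1 → Metric.sphere (0 : Y) 1) (hf₁ : Isometry f)
    (hf₂ : Function.Surjective f) :
    ∃ T : X ≃ₗᵢ[ℝ] Y, (∀ x : Metric.sphere (0 : X) 1, T x = f x) ∧
      ∀ T' : X →ₗ[ℝ] Y, (∀ x : Metric.sphere (0 : X) 1, T' x = f x) → ∀ x : X, T' x = T x := by
  obtain ⟨S, hS⟩ := exists_SI f hf₁ hf₂
  let e : X ≃ᵢ Y := ⟨S.F, S.isometry⟩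
  have he : e 0 = 0 := S.map_zero
  refine ⟨e.toRealLinearIsometryEquivOfMapZero he, fun x => hS x, fun T' hT' x => ?_⟩
  rcases eq_or_ne x 0 with rfl | hx
  · rw [map_zero, map_zero]
  · have hu : ‖x‖⁻¹ • x ∈ Metric.sphere (0 : X) 1 := by
      rw [mem_sphere_zero_iff_norm]; exact norm_normalize hx
    have h1 := hT' ⟨_, hu⟩
    have h2 : e.toRealLinearIsometryEquivOfMapZero he (‖x‖⁻¹ • x) = f ⟨_, hu⟩ := hS ⟨_, hu⟩
    have h3 : T' (‖x‖⁻¹ • x) = e.toRealLinearIsometryEquivOfMapZero he (‖x‖⁻¹ • x) := h1.trans h2.symm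
    rw [map_smul, map_smul] at h3
    exact smul_right_injective Y (inv_ne_zero (norm_ne_zero_iff.2 hx)) h3

end Crest.Agent.R74
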