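import Crest.Agent.R74.Pair
import Crest.Agent.R74.Geo

/-!
# Row 74: upper bound along a long chord; uniqueness of `ar`
-/

namespace Crest.Agent.R74

open Finset

variable {X Y : Type*} [NormedAddCommGroup X] [NormedSpace ℝ X] [NormedAddCommGroup Y]
  [NormedSpace ℝ Y]

variable {S : SI X Y} {p : X}

/-- one sided estimate: for a pair `(φ, ψ)` of the chord to `q`, since `‖q - r‖ = ‖F q - F r‖`,
`(φ p - ψ (ar r)) (1 - J r) = kk ψ w (F r - F p) - kk φ v (r - p)` (`Pair.compat`, `Ta_ar`). -/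
theorem lam_eq (B : BS S p) {q r : X} (hq : ‖q‖ = 1) (hr : ‖r‖ = 1) (hJ : B.J r ≠ 1)
    {φ : X →L[ℝ] ℝ} {ψ : Y →L[ℝ] ℝ} (hP : B.Pair q φ ψ) :
    (φ p - ψ (B.ar r)) * (1 - B.J r) =
      kk ψ (S.F q - S.F p) (S.F r - S.F p) - kk φ (q - p) (r - p) := by
  have h1 := hP.compat (B.ar r) (r - p)
  rw [B.Ta_ar hJ, map_sub B.J, B.J_p] at h1
  have h2 : S.F q - S.F p - (S.F r - S.F p) = S.F q - S.F r := by abel
  have h3 : q - p - (r - p) = q - r := by abel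
  unfold kk
  rw [h2, h3, S.dist q r (by rw [hq, hr]), S.dist q p (by rw [hq, B.hp]), h1]
  ring

/-- **Long chord.**  `τ = ‖r - p‖ > 0`, `ŵ = ‖y‖⁻¹ y` (`y = Ta (ar r) z`, `J' ŵ ≤ 0` by `J'_Ta`, `J'_ar`),
`ê = -τ⁻¹ (F r - F p)`, `σ₀ = 2τ/l`.  `pigeon_norm` at `ŵ - 2θ F p` (`ρ = θ`) gives `d = ŵ - 2θ F p + t ê` with
`D2 d (σ₀ ê) ≤ 4σ₀²/θ`.  With `t₀ = l/(1 + θ l) ≥ l/2` (`l ≤ 3`):
`F p + t₀ d = (1 - t₀ θ)(F p + l (ŵ - θ F p)) + t₀ t ê` has norm `≤ 1`; `exit_ge` gives `t₁ ≥ t₀`, `F q = F p + t₁ d`.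
For `ψ` norming `d`: `kk ψ (t₁ d) (F r - F p) ≤ 8τ²/(θ l)` (`kk_le_of_D2`, `D2_smul`), so by `lam_eq`
`λ = φ p - ψ (ar r) ≤ 8τ²/(θ l (1 - J r))`; `ψ y = φ z - λ J z`, `ψ ŵ ≥ 1 - 6θ`. -/
theorem long (B : BS S p) {r z : X} (hr : ‖r‖ = 1) (hJ : B.J r < 1) (hz : B.J z ≤ 0)
    (hy : B.Ta (B.ar r) z ≠ 0) {θ l : ℝ} (hθ : 0 < θ) (hθ1 : θ ≤ 1 / 8) (hl : 0 < l)
    (hin : ‖S.F p + l • (‖B.Ta (B.ar r) z‖⁻¹ • B.Ta (B.ar r) z - θ • S.F p)‖ ≤ 1)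
    (hτ : 4 * ‖r - p‖ ≤ θ * l) :
    ‖B.Ta (B.ar r) z‖ * (1 - 6 * θ) ≤ ‖z‖ * (1 + 8 * ‖r - p‖ ^ 2 / (θ * l * (1 - B.J r))) := by
  set y := B.Ta (B.ar r) z with hy_def
  set τ := ‖r - p‖ with hτ_def
  have hh : 0 < 1 - B.J r := by linarith
  have hτ0 : 0 < τ := lt_of_lt_of_le hh (B.height_le r)
  have hy0 : 0 < ‖y‖ := norm_pos_iff.2 hy
  set w : Y := ‖y‖⁻¹ • y with hw
  have hw1 : ‖w‖ = 1 := norm_normalize hy
  have hFp : ‖S.F p‖ = 1 := B.norm_Fp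
  have hFr : ‖S.F r - S.F p‖ = τ := S.dist r p (by rw [hr, B.hp])
  set e : Y := (-τ⁻¹) • (S.F r - S.F p) with he
  have he1 : ‖e‖ = 1 := by
    rw [he, norm_smul, norm_neg, norm_inv, Real.norm_of_nonneg hτ0.le, hFr, inv_mul_cancel₀ hτ0.ne']
  have hθFp : ‖θ • S.F p‖ = θ := by rw [norm_smul, hFp, mul_one, Real.norm_of_nonneg hθ.le]
  have hl3 : l ≤ 3 := by
    have h1 : ‖l • (w - θ • S.F p)‖ ≤ 2 := by
      have h2 := norm_sub_le (S.F p + l • (w - θ • S.F p)) (S.F p)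
      rw [add_sub_cancel_left] at h2
      linarith
    rw [norm_smul, Real.norm_of_nonneg hl.le] at h1
    have h2 := norm_sub_norm_le w (θ • S.F p)
    rw [hw1, hθFp] at h2
    have h3 : l * (7 / 8) ≤ l * ‖w - θ • S.F p‖ := mul_le_mul_of_nonneg_left (by linarith) hl.le
    linarith
  set σ : ℝ := 2 * τ / l with hσ
  have hσ0 : 0 < σ := by positivity
  have hσθ : 2 * σ ≤ θ := by
    rw [hσ, ← mul_div_assoc, div_le_iff₀ hl]
    linarith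
  obtain ⟨t, ht0, ht1, hD⟩ := pigeon_norm (w - (2 * θ) • S.F p) he1.le hσ0 hσθ
  set d : Y := w - (2 * θ) • S.F p + t • e with hd
  have hdw : ‖w - d‖ ≤ 3 * θ := by
    have h1 : w - d = (2 * θ) • S.F p - t • e := by rw [hd]; abel
    rw [h1]
    refine (norm_sub_le _ _).trans ?_
    rw [norm_smul, norm_smul, hFp, he1, Real.norm_of_nonneg (by positivity), Real.norm_of_nonneg ht0]
    linarith
  have hdn : 1 - 3 * θ ≤ ‖d‖ := by
    have := norm_sub_norm_le w d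
    linarith
  have hd0 : d ≠ 0 := norm_pos_iff.1 (by linarith)
  have hθl : 0 < 1 + θ * l := by positivity
  set t₀ : ℝ := l / (1 + θ * l) with ht₀
  have ht₀0 : 0 < t₀ := by positivity
  have ht₀l : l / 2 ≤ t₀ := by
    rw [ht₀]
    apply div_le_div_of_nonneg_left hl.le hθl
    nlinarith
  have hc : 1 - t₀ * θ = (1 + θ * l)⁻¹ := by
    rw [ht₀]
    field_simp
    ring
  have hin₀ : ‖S.F p + t₀ • d‖ ≤ 1 := by
    have h1 : S.F p + t₀ • d =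
        (1 + θ * l)⁻¹ • (S.F p + l • (w - θ • S.F p)) + (t₀ * t) • e := by
      rw [hd, ht₀]
      match_scalars <;> field_simp <;> ring
    rw [h1]
    refine (norm_add_le _ _).trans ?_
    rw [norm_smul, norm_smul, he1, Real.norm_of_nonneg (by positivity),
      Real.norm_of_nonneg (by positivity), ← hc]
    have h2 : 0 ≤ 1 - t₀ * θ := by rw [hc]; positivity
    have h3 := mul_le_mul_of_nonneg_left hin h2
    have h4 : t₀ * t ≤ t₀ * θ := mul_le_mul_of_nonneg_left ht1 ht₀0.le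
    linarith
  obtain ⟨t₁, ht₁, hq₁⟩ := exit_ge hd0 hin₀
  have ht₁0 : 0 < t₁ := lt_of_lt_of_le ht₀0 ht₁
  set q : X := S.F.symm (S.F p + t₁ • d) with hq_def
  have hFq : S.F q = S.F p + t₁ • d := by rw [hq_def, Equiv.apply_symm_apply]
  have hq : ‖q‖ = 1 := by rw [← S.norm, hFq, hq₁]
  have hv : S.F q - S.F p = t₁ • d := by rw [hFq, add_sub_cancel_left]
  obtain ⟨ψ, hψ⟩ := exists_nm d
  have hψ' : Nm ψ (S.F q - S.F p) := by
    rw [hv]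
    exact hψ.smul ht₁0.le
  obtain ⟨φ, hP⟩ := B.exists_pair hq hψ'
  have hL0 : 0 < t₁ * σ := by positivity
  have hτL : |(-τ)| ≤ t₁ * σ := by
    rw [abs_neg, abs_of_pos hτ0]
    have h1 : l / 2 * σ = τ := by rw [hσ]; field_simp
    have h2 : l / 2 * σ ≤ t₁ * σ := mul_le_mul_of_nonneg_right (ht₀l.trans ht₁) hσ0.le
    linarith
  have hk := kk_le_of_D2 hψ' e hL0 hτL
  have he' : (-τ) • e = S.F r - S.F p := by
    rw [he, smul_smul, neg_mul_neg, mul_inv_cancel₀ hτ0.ne', one_smul]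
  rw [he', abs_neg, abs_of_pos hτ0] at hk
  have hD' : D2 (S.F q - S.F p) ((t₁ * σ) • e) = t₁ * D2 d (σ • e) := by
    rw [hv, mul_smul, D2_smul _ _ ht₁0.le]
  rw [hD'] at hk
  have hk2 : τ / (t₁ * σ) * (t₁ * D2 d (σ • e)) ≤ 8 * τ ^ 2 / (θ * l) := by
    have h1 : τ / (t₁ * σ) * (t₁ * D2 d (σ • e)) = τ / σ * D2 d (σ • e) := by field_simp
    have h2 : τ / σ * (4 * σ ^ 2 / θ) = 8 * τ ^ 2 / (θ * l) := by
      rw [hσ]
      field_simp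
      ring
    rw [h1, ← h2]
    exact mul_le_mul_of_nonneg_left hD (by positivity)
  have hlam := lam_eq B hq hr hJ.ne hP
  have hk0 := (kk_gauge hP.1).nonneg (r - p)
  set Λ : ℝ := 8 * τ ^ 2 / (θ * l * (1 - B.J r)) with hΛ
  have hΛ0 : 0 ≤ Λ := by positivity
  have hlam' : φ p - ψ (B.ar r) ≤ Λ := by
    rw [hΛ, ← div_div, le_div_iff₀ hh]
    linarith
  have hψy := hP.compat (B.ar r) z
  rw [← hy_def] at hψy
  have hφz := hP.1.le z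
  have hJz := (abs_le.1 (B.hJ.abs_le z)).1
  have h1 : (φ p - ψ (B.ar r)) * (-B.J z) ≤ Λ * (-B.J z) :=
    mul_le_mul_of_nonneg_right hlam' (by linarith)
  have h2 : Λ * (-B.J z) ≤ Λ * ‖z‖ := mul_le_mul_of_nonneg_left (by linarith) hΛ0
  have hψw : 1 - 6 * θ ≤ ψ w := by
    have h3 := (abs_le.1 (hψ.abs_le (w - d))).1
    rw [map_sub, hψ.2] at h3
    linarith
  have hyw : ψ y = ‖y‖ * ψ w := by
    rw [hw, map_smul, smul_eq_mul, ← mul_assoc, mul_inv_cancel₀ hy0.ne', one_mul]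
  have h3 : ‖y‖ * (1 - 6 * θ) ≤ ‖y‖ * ψ w := mul_le_mul_of_nonneg_left hψw hy0.le
  nlinarith

/-- first order goodness passes to smaller scales. -/
theorem D2_down {x e : X} {γ L t : ℝ} (hL : 0 < L) (hLt : L ≤ t) (h : D2 x (t • e) ≤ γ * t) :
    D2 x (L • e) ≤ γ * L := by
  have ht : 0 < t := lt_of_lt_of_le hL hLt
  have h1 := D2_mono x e hL.le hLt
  have h2 := mul_le_mul_of_nonneg_left h hL.le
  refine le_of_mul_le_mul_left (h1.trans (h2.trans (le_of_eq ?_))) ht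
  ring

/-- chords that are first order good in `X` and in `Y` along two directions each.  `mg_norm 2` in `X` with
`L₀ = ρ₁ = 1/10⁴` gives `L`, `d`, and `exit_near` (`θ = 1/40`) a unit `q₁ = p + s d`; `mg_norm 2` in `Y` with a much
smaller `L₀' ≤ γ L / 10⁴` at `F q₁ - F p`, `exit_near` in `Y` (`θ = 1/50`, `SI.add`) gives `q`; the `X`-estimate at
scale `s L` survives (`D2_smul`, `D2_lip`), pass to a common smaller scale with `D2_mono`. -/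
theorem both_good (S : SI X Y) {γ : ℝ} (hγ : 0 < γ) :
    ∃ L : ℝ, 0 < L ∧ ∀ p q₀ : X, ‖p‖ = 1 → ‖q₀‖ = 1 → ‖p + q₀‖ ≤ 2 - 1 / 20 →
      ∀ (e₁ e₂ : X) (e₁' e₂' : Y), ‖e₁‖ ≤ 1 → ‖e₂‖ ≤ 1 → ‖e₁'‖ ≤ 1 → ‖e₂'‖ ≤ 1 →
        ∃ q : X, ‖q‖ = 1 ∧ ‖q - q₀‖ ≤ 1 / 40 ∧ D2 (q - p) (L • e₁) ≤ γ * L ∧ D2 (q - p) (L • e₂) ≤ γ * L ∧
          D2 (S.F q - S.F p) (L • e₁') ≤ γ * L ∧ D2 (S.F q - S.F p) (L • e₂') ≤ γ * L := by
  obtain ⟨L₁, hL₁, hL₁', h₁⟩ := mg_norm (X := X) 2 (show 0 < γ / 2 by positivity)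
    (show (0 : ℝ) < 1 / 10 ^ 4 by norm_num)
  set ρ : ℝ := min (1 / 10 ^ 5) (γ * L₁ / 10 ^ 4) with hρ
  have hρ0 : 0 < ρ := lt_min (by norm_num) (by positivity)
  have hρ1 : ρ ≤ 1 / 10 ^ 5 := min_le_left _ _
  have hρ2 : ρ ≤ γ * L₁ / 10 ^ 4 := min_le_right _ _
  obtain ⟨L₂, hL₂, -, h₂⟩ := mg_norm (X := Y) 2 hγ hρ0
  refine ⟨min L₁ L₂ / 2, by positivity, fun p q₀ hp hq₀ hrob e₁ e₂ e₁' e₂' he₁ he₂ he₁' he₂' => ?_⟩
  set L : ℝ := min L₁ L₂ / 2 with hL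
  have hL0 : 0 < L := by positivity
  have hLa : L ≤ L₁ / 2 := by
    have := min_le_left L₁ L₂
    linarith
  have hLb : L ≤ L₂ / 2 := by
    have := min_le_right L₁ L₂
    linarith
  obtain ⟨d, hd, hD⟩ := h₁ Bool (by simp) (fun b => if b then e₁ else e₂)
    (fun b => by cases b <;> simpa) (q₀ - p)
  obtain ⟨s, hs, hq₁, hq₁'⟩ := exit_near (θ := 1 / 40) (ρ := 1 / 10 ^ 4) hp.le hq₀ (by norm_num)
    (by linarith) (by norm_num) (by norm_num) hd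
  set q₁ : X := p + s • d with hq₁_def
  have hs' : 1 / 2 ≤ s := by
    have := (abs_le.1 hs).1
    norm_num at this
    linarith
  have hq₁'' : ‖q₁ - q₀‖ ≤ 16 / 1000 := hq₁'.trans (by norm_num)
  have hrob₁ : ‖S.F p + S.F q₁‖ ≤ 2 - 2 * (1 / 100) := by
    rw [S.add (by rw [hp, hq₁])]
    have h1 : p + q₁ = p + q₀ + (q₁ - q₀) := by abel
    have h2 := norm_add_le (p + q₀) (q₁ - q₀)
    rw [← h1] at h2
    linarith
  obtain ⟨d', hd', hD'⟩ := h₂ Bool (by simp) (fun b => if b then e₁' else e₂')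
    (fun b => by cases b <;> simpa) (S.F q₁ - S.F p)
  obtain ⟨s', hs₂, hq₂, hq₂'⟩ := exit_near (x := S.F p) (q₀ := S.F q₁) (θ := 1 / 100) (ρ := ρ)
    (by rw [S.norm, hp]) (by rw [S.norm, hq₁]) (by norm_num) hrob₁ hρ0.le (by linarith) hd'
  have hs₂' : 1 / 2 ≤ s' := by
    have h1 := (abs_le.1 hs₂).1
    have h2 : ρ / (1 / 100) = 100 * ρ := by ring
    rw [h2] at h1
    linarith
  set q : X := S.F.symm (S.F p + s' • d') with hq_def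
  have hFq : S.F q = S.F p + s' • d' := by rw [hq_def, Equiv.apply_symm_apply]
  have hq : ‖q‖ = 1 := by rw [← S.norm, hFq, hq₂]
  have hqq : ‖q - q₁‖ ≤ 400 * ρ := by
    rw [← S.dist q q₁ (by rw [hq, hq₁]), hFq]
    refine hq₂'.trans (le_of_eq ?_)
    ring
  have hX : ∀ e : X, D2 d (L₁ • e) ≤ γ / 2 * L₁ → D2 (q - p) (L • e) ≤ γ * L := by
    intro e he
    have h1 : D2 (q₁ - p) ((s * L₁) • e) = s * D2 d (L₁ • e) := by
      rw [hq₁_def, add_sub_cancel_left, mul_smul, D2_smul _ _ (by linarith)]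
    have h2 := D2_lip (q - p) (q₁ - p) ((s * L₁) • e)
    rw [sub_sub_sub_cancel_right, h1] at h2
    have h3 : s * D2 d (L₁ • e) ≤ s * (γ / 2 * L₁) := mul_le_mul_of_nonneg_left he (by linarith)
    have h4 : 0 < γ * L₁ := by positivity
    have h5 : 1 / 2 * (γ * L₁) ≤ s * (γ * L₁) := mul_le_mul_of_nonneg_right hs' h4.le
    refine D2_down hL0 ?_ (t := s * L₁) (by nlinarith)
    have h6 : 1 / 2 * L₁ ≤ s * L₁ := mul_le_mul_of_nonneg_right hs' hL₁.le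
    linarith
  have hY : ∀ e : Y, D2 d' (L₂ • e) ≤ γ * L₂ → D2 (S.F q - S.F p) (L • e) ≤ γ * L := by
    intro e he
    have h1 : D2 (S.F q - S.F p) ((s' * L₂) • e) = s' * D2 d' (L₂ • e) := by
      rw [hFq, add_sub_cancel_left, mul_smul, D2_smul _ _ (by linarith)]
    have h3 : s' * D2 d' (L₂ • e) ≤ s' * (γ * L₂) := mul_le_mul_of_nonneg_left he (by linarith)
    refine D2_down hL0 ?_ (t := s' * L₂) (by rw [h1]; linarith)
    have h6 : 1 / 2 * L₂ ≤ s' * L₂ := mul_le_mul_of_nonneg_right hs₂' hL₂.le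
    linarith
  refine ⟨q, hq, ?_, hX _ (by simpa using hD true), hX _ (by simpa using hD false),
    hY _ (by simpa using hD' true), hY _ (by simpa using hD' false)⟩
  have h1 : q - q₀ = q - q₁ + (q₁ - q₀) := by abel
  have h2 := norm_add_le (q - q₁) (q₁ - q₀)
  rw [← h1] at h2
  linarith

/-- along a chord that is first order good in the directions of `r - p`, `F r - F p`, the defect `λ` is small. -/
theorem lam_abs_le (B : BS S p) {q r : X} (hq : ‖q‖ = 1) (hr : ‖r‖ = 1) (hrp : r ≠ p)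
    {φ : X →L[ℝ] ℝ} {ψ : Y →L[ℝ] ℝ} (hP : B.Pair q φ ψ) {γ γ₁ L : ℝ} (hγ : 0 < γ) (hL : 0 < L)
    (hτ : ‖r - p‖ ≤ L) (hh : γ * ‖r - p‖ ≤ 1 - B.J r)
    (hD : D2 (q - p) (L • (‖r - p‖⁻¹ • (r - p))) ≤ γ₁ * L)
    (hD' : D2 (S.F q - S.F p) (L • (‖r - p‖⁻¹ • (S.F r - S.F p))) ≤ γ₁ * L) :
    |φ p - ψ (B.ar r)| ≤ γ₁ / γ := by
  set τ := ‖r - p‖ with hτ_def
  have hτ0 : 0 < τ := norm_pos_iff.2 (sub_ne_zero.2 hrp)
  have hγτ : 0 < γ * τ := by positivity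
  have hJ : 0 < 1 - B.J r := lt_of_lt_of_le hγτ hh
  have hτL : |τ| ≤ L := by rwa [abs_of_pos hτ0]
  have h1 := kk_le_of_D2 hP.1 (τ⁻¹ • (r - p)) hL hτL
  have h2 := kk_le_of_D2 hP.2.1 (τ⁻¹ • (S.F r - S.F p)) hL hτL
  rw [smul_smul τ, mul_inv_cancel₀ hτ0.ne', one_smul, abs_of_pos hτ0] at h1 h2
  have h3 : τ / L * (γ₁ * L) = γ₁ * τ := by field_simp
  have h4 := mul_le_mul_of_nonneg_left hD (show 0 ≤ τ / L by positivity)
  have h5 := mul_le_mul_of_nonneg_left hD' (show 0 ≤ τ / L by positivity)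
  have h6 := (kk_gauge hP.1).nonneg (r - p)
  have h7 := (kk_gauge hP.2.1).nonneg (S.F r - S.F p)
  have h8 := lam_eq B hq hr (by linarith) hP
  have h9 : |(φ p - ψ (B.ar r)) * (1 - B.J r)| ≤ γ₁ * τ := by
    rw [h8, abs_le]
    constructor <;> linarith
  rw [abs_mul, abs_of_pos hJ] at h9
  have h10 : |φ p - ψ (B.ar r)| * (γ * τ) ≤ |φ p - ψ (B.ar r)| * (1 - B.J r) :=
    mul_le_mul_of_nonneg_left hh (abs_nonneg _)
  rw [le_div_iff₀ hγ]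
  refine le_of_mul_le_mul_right ?_ hτ0
  linarith

/-- `nl` at `F p` for the direction of `ar r - ar r'`, `both_good` with slack `γ₁ = γ ε / 64` along the directions of
`r - p`, `r' - p`, `F r - F p`, `F r' - F p`; `lam_eq` and `kk_le_of_D2` give `|φ p - ψ (ar r)| ≤ γ₁ / γ`, same for
`r'`. -/
theorem aa (S : SI X Y) {γ ε : ℝ} (hγ : 0 < γ) (hε : 0 < ε) :
    ∃ τ₁ : ℝ, 0 < τ₁ ∧ ∀ (p : X) (B : BS S p) (r r' : X), ‖r‖ = 1 → ‖r'‖ = 1 → r ≠ p → r' ≠ p →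
      ‖r - p‖ ≤ τ₁ → ‖r' - p‖ ≤ τ₁ → γ * ‖r - p‖ ≤ 1 - B.J r → γ * ‖r' - p‖ ≤ 1 - B.J r' →
      ‖B.ar r - B.ar r'‖ ≤ ε := by
  obtain ⟨L, hL, hg⟩ := both_good S (show 0 < γ * ε / 64 by positivity)
  refine ⟨L, hL, fun p B r r' hr hr' hrp hrp' hτ hτ' hh hh' => ?_⟩
  by_cases h0 : B.ar r - B.ar r' = 0
  · rw [h0, norm_zero]
    exact hε.le
  have hn0 : 0 < ‖B.ar r - B.ar r'‖ := norm_pos_iff.2 h0
  obtain ⟨s, σ, hs, hσ, hrob, hnl⟩ := nl B.norm_Fp (norm_normalize h0)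
  set q₀ : X := S.F.symm s with hq₀_def
  have hFq₀ : S.F q₀ = s := by rw [hq₀_def, Equiv.apply_symm_apply]
  have hq₀ : ‖q₀‖ = 1 := by rw [← S.norm, hFq₀, hs]
  have hrob' : ‖p + q₀‖ ≤ 2 - 1 / 20 := by
    rw [← S.add (by rw [B.hp, hq₀]), hFq₀]
    exact hrob
  have hF : ∀ {u : X}, ‖u‖ = 1 → u ≠ p → ‖‖u - p‖⁻¹ • (S.F u - S.F p)‖ ≤ 1 := by
    intro u hu hup
    have h1 : ‖S.F u - S.F p‖ = ‖u - p‖ := S.dist u p (by rw [hu, B.hp])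
    have h2 : S.F u - S.F p ≠ 0 := by
      rw [← norm_pos_iff, h1]
      exact norm_pos_iff.2 (sub_ne_zero.2 hup)
    rw [← h1]
    exact (norm_normalize h2).le
  obtain ⟨q, hq, hqq, hD₁, hD₂, hD₁', hD₂'⟩ := hg p q₀ B.hp hq₀ hrob' _ _ _ _
    (norm_normalize (sub_ne_zero.2 hrp)).le (norm_normalize (sub_ne_zero.2 hrp')).le
    (hF hr hrp) (hF hr' hrp')
  obtain ⟨ψ, hψ⟩ := exists_nm (S.F q - S.F p)
  obtain ⟨φ, hP⟩ := B.exists_pair hq hψ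
  have hw : ‖S.F q - S.F p - (s - S.F p)‖ ≤ 1 / 40 := by
    rw [sub_sub_sub_cancel_right, ← hFq₀, S.dist q q₀ (by rw [hq, hq₀])]
    exact hqq
  have h1 := hnl _ ψ hw hψ
  have h2 := lam_abs_le B hq hr hrp hP hγ hL hτ hh hD₁ hD₁'
  have h3 := lam_abs_le B hq hr' hrp' hP hγ hL hτ' hh' hD₂ hD₂'
  have h4 : γ * ε / 64 / γ = ε / 64 := by field_simp
  rw [h4] at h2 h3
  rw [map_smul, smul_eq_mul, map_sub] at h1
  have h5 : σ * (ψ (B.ar r) - ψ (B.ar r')) ≤ ε / 32 := by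
    have a1 := abs_le.1 h2
    have a2 := abs_le.1 h3
    rcases hσ with h | h <;> rw [h] <;> linarith [a1.1, a1.2, a2.1, a2.2]
  have h6 : σ * (‖B.ar r - B.ar r'‖⁻¹ * (ψ (B.ar r) - ψ (B.ar r'))) =
      σ * (ψ (B.ar r) - ψ (B.ar r')) / ‖B.ar r - B.ar r'‖ := by ring
  rw [h6, le_div_iff₀ hn0] at h1
  linarith

end Crest.Agent.R74
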