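import Crest.Agent.R74.BSB

/-!
# Row 74: pairing of norming functionals
-/

namespace Crest.Agent.R74

open Finset

variable {X Y : Type*} [NormedAddCommGroup X] [NormedSpace ℝ X] [NormedAddCommGroup Y]
  [NormedSpace ℝ Y]

/-- if two convex functions agree to first order at `0+`, a backward slope of one is at most a forward slope of
the other (`ConvexOn.slope_mono_adjacent`, `ConvexOn.secant_mono`). -/
theorem secant {α α' : ℝ → ℝ} (hα : ConvexOn ℝ Set.univ α) (hα' : ConvexOn ℝ Set.univ α')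
    (h : ∀ ε : ℝ, 0 < ε → ∃ t₀ : ℝ, 0 < t₀ ∧ ∀ t, 0 < t → t ≤ t₀ →
      |α t - α 0 - (α' t - α' 0)| ≤ ε * t)
    {σ₁ σ₂ : ℝ} (h₁ : 0 < σ₁) (h₂ : 0 < σ₂) : (α' 0 - α' (-σ₁)) / σ₁ ≤ (α σ₂ - α 0) / σ₂ := by
  refine le_of_forall_pos_le_add fun ε hε => ?_
  obtain ⟨t₀, ht₀, H⟩ := h ε hε
  have ht : 0 < min t₀ σ₂ := lt_min ht₀ h₂
  set t := min t₀ σ₂ with htd
  have e1 := hα'.slope_mono_adjacent (x := -σ₁) (y := 0) (z := t) trivial trivial (by linarith) ht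
  have e2 := hα.secant_mono (a := 0) (x := t) (y := σ₂) trivial trivial trivial ht.ne' h₂.ne'
    (min_le_right _ _)
  have e3 := (abs_le.1 (H t ht (min_le_left _ _))).1
  simp only [sub_zero, zero_sub, neg_neg] at e1 e2
  have e4 : (α' t - α' 0) / t ≤ (α t - α 0) / t + ε := by
    rw [div_add' _ _ _ ht.ne', div_le_div_iff_of_pos_right ht]
    linarith
  linarith

namespace BS

variable {S : SI X Y} {p : X}

/-- moving the end point `p` of a chord along a tangent vector, uniformly in the other end point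
(`sph_little`, `‖sph p (t b) - s‖ = ‖F (sph p (t b)) - F s‖`). -/
theorem chord_little (B : BS S p) {b : X} (hb : B.J b = 0) {ε : ℝ} (hε : 0 < ε) :
    ∃ t₀ : ℝ, 0 < t₀ ∧ ∀ t : ℝ, |t| ≤ t₀ → ∀ s : X, ‖s‖ = 1 →
      |‖p - s + t • b‖ - ‖S.F p - S.F s + t • B.T b‖| ≤ ε * |t| := by
  obtain ⟨t₀, ht₀, H⟩ := B.sph_little hb (half_pos hε)
  refine ⟨t₀, ht₀, fun t ht s hs => ?_⟩
  obtain ⟨h1, h2, h3⟩ := H t ht
  have e := S.dist (sph p (t • b)) s (h1.trans hs.symm)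
  have a1 := abs_norm_sub_norm_le (sph p (t • b) - s) (p - s + t • b)
  have a2 := abs_norm_sub_norm_le (S.F (sph p (t • b)) - S.F s) (S.F p - S.F s + t • B.T b)
  have b1 : sph p (t • b) - s - (p - s + t • b) = sph p (t • b) - p - t • b := by abel
  have b2 : S.F (sph p (t • b)) - S.F s - (S.F p - S.F s + t • B.T b) =
      S.F (sph p (t • b)) - S.F p - t • B.T b := by abel
  rw [b1] at a1
  rw [b2, e] at a2
  rw [abs_le] at a1 a2 ⊢
  constructor <;> linarith [a1.1, a1.2, a2.1, a2.2]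

/-- `t ψ (T ζ) ≤ ‖w + t T ζ‖ - ‖w‖ = ‖v + t ζ‖ - ‖v‖ + o(t) ≤ t (‖v + ζ‖ - ‖v‖) + o(t)`. -/
theorem pair_le (B : BS S p) {q : X} (hq : ‖q‖ = 1) {ψ : Y →L[ℝ] ℝ} (hψ : Nm ψ (S.F q - S.F p))
    {ζ : X} (hζ : B.J ζ = 0) : ψ (B.T ζ) ≤ ‖q - p + ζ‖ - ‖q - p‖ := by
  refine le_of_forall_pos_le_add fun ε hε => ?_
  obtain ⟨t₀, ht₀, H⟩ := B.chord_little hζ hε
  have ht : 0 < min t₀ 1 := lt_min ht₀ one_pos
  set t := min t₀ 1 with htd
  have ht1 : t ≤ 1 := min_le_right _ _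
  have h1 := H (-t) (by rw [abs_neg, abs_of_pos ht]; exact min_le_left _ _) q hq
  have b1 : ‖p - q + (-t) • ζ‖ = ‖q - p + t • ζ‖ := by
    rw [← norm_neg]; congr 1; rw [neg_smul]; abel
  have b2 : ‖S.F p - S.F q + (-t) • B.T ζ‖ = ‖S.F q - S.F p + t • B.T ζ‖ := by
    rw [← norm_neg]; congr 1; rw [neg_smul]; abel
  rw [b1, b2, abs_neg, abs_of_pos ht] at h1
  have h2 := hψ.sub_le (t • B.T ζ)
  rw [map_smul, smul_eq_mul, S.dist q p (hq.trans B.hp.symm)] at h2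
  have h3 : ‖q - p + t • ζ‖ ≤ t * ‖q - p + ζ‖ + (1 - t) * ‖q - p‖ := by
    have e : q - p + t • ζ = t • (q - p + ζ) + (1 - t) • (q - p) := by module
    rw [e]
    refine (norm_add_le _ _).trans (le_of_eq ?_)
    rw [norm_smul, norm_smul, Real.norm_of_nonneg ht.le, Real.norm_of_nonneg (by linarith)]
  have h4 := (abs_le.1 h1).1
  have h5 : t * ψ (B.T ζ) ≤ t * (‖q - p + ζ‖ - ‖q - p‖ + ε) := by linarith
  exact le_of_mul_le_mul_left h5 ht

/-- for all real `α`: apply `pair_le` to `t ζ` with small `t > 0` and write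
`v + t ζ = t (ζ + α v) + (1 - t α) v`. -/
theorem pair_le' (B : BS S p) {q : X} (hq : ‖q‖ = 1) {ψ : Y →L[ℝ] ℝ} (hψ : Nm ψ (S.F q - S.F p))
    {ζ : X} (hζ : B.J ζ = 0) (α : ℝ) : ψ (B.T ζ) + α * ‖q - p‖ ≤ ‖ζ + α • (q - p)‖ := by
  have ha : 0 < |α| + 1 := by positivity
  set t : ℝ := 1 / (|α| + 1) with htd
  have ht : 0 < t := by positivity
  have hta : t * α ≤ 1 := by
    rw [htd, one_div_mul_eq_div, div_le_one ha]
    linarith [le_abs_self α]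
  have h1 := B.pair_le hq hψ (ζ := t • ζ) (by rw [map_smul, hζ, smul_zero])
  rw [map_smul, map_smul, smul_eq_mul] at h1
  have h3 : ‖q - p + t • ζ‖ ≤ t * ‖ζ + α • (q - p)‖ + (1 - t * α) * ‖q - p‖ := by
    have e : q - p + t • ζ = t • (ζ + α • (q - p)) + (1 - t * α) • (q - p) := by module
    rw [e]
    refine (norm_add_le _ _).trans (le_of_eq ?_)
    rw [norm_smul, norm_smul, Real.norm_of_nonneg ht.le, Real.norm_of_nonneg (by linarith)]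
  have h5 : t * (ψ (B.T ζ) + α * ‖q - p‖) ≤ t * ‖ζ + α • (q - p)‖ := by linarith
  exact le_of_mul_le_mul_left h5 ht

theorem pair_That_apply (B : BS S p) (q x : X) :
    B.That q x = B.T x + B.J x • ((B.J (q - p))⁻¹ • (S.F q - S.F p - B.T (q - p))) := rfl

theorem That_ker (B : BS S p) (q : X) {ζ : X} (hζ : B.J ζ = 0) : B.That q ζ = B.T ζ := by
  rw [pair_That_apply, hζ, zero_smul, add_zero]

theorem That_v (B : BS S p) {q : X} (h : B.J (q - p) ≠ 0) : B.That q (q - p) = S.F q - S.F p := by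
  rw [pair_That_apply, smul_smul, mul_inv_cancel₀ h, one_smul]
  abel

theorem pair_decomp (B : BS S p) {q : X} (h : B.J (q - p) ≠ 0) (x : X) :
    ∃ (ζ : X) (α : ℝ), B.J ζ = 0 ∧ x = ζ + α • (q - p) := by
  refine ⟨x - (B.J x / B.J (q - p)) • (q - p), B.J x / B.J (q - p), ?_, by abel⟩
  rw [map_sub B.J x, map_smul, smul_eq_mul, div_mul_cancel₀ _ h, sub_self]

theorem pair_That (B : BS S p) {q : X} (hq : ‖q‖ = 1) (h : B.J (q - p) ≠ 0) {ψ : Y →L[ℝ] ℝ}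
    (hψ : Nm ψ (S.F q - S.F p)) : B.Pair q (ψ.comp (B.That q)) ψ := by
  have hd := S.dist q p (hq.trans B.hp.symm)
  have key : ∀ x, ψ (B.That q x) ≤ ‖x‖ := by
    intro x
    obtain ⟨ζ, α, hζ, rfl⟩ := B.pair_decomp h x
    rw [map_add, map_smul, B.That_ker q hζ, B.That_v h, map_add, map_smul, hψ.2, hd, smul_eq_mul]
    exact B.pair_le' hq hψ hζ α
  refine ⟨⟨?_, ?_⟩, hψ, fun ζ hζ => ?_⟩
  · refine ContinuousLinearMap.opNorm_le_bound _ zero_le_one fun x => ?_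
    have h1 := key x
    have h2 := key (-x)
    rw [map_neg, map_neg, norm_neg] at h2
    rw [one_mul, ContinuousLinearMap.comp_apply, Real.norm_eq_abs, abs_le]
    constructor <;> linarith
  · rw [ContinuousLinearMap.comp_apply, B.That_v h, hψ.2, hd]
  · rw [ContinuousLinearMap.comp_apply, B.That_ker q hζ]

theorem Pair.eq_That {B : BS S p} {q : X} (hq : ‖q‖ = 1) (h : B.J (q - p) ≠ 0) {φ : X →L[ℝ] ℝ}
    {ψ : Y →L[ℝ] ℝ} (hP : B.Pair q φ ψ) (x : X) : φ x = ψ (B.That q x) := by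
  have hd := S.dist q p (hq.trans B.hp.symm)
  obtain ⟨ζ, α, hζ, rfl⟩ := B.pair_decomp h x
  rw [map_add, map_smul, map_add, map_smul, B.That_ker q hζ, B.That_v h, map_add, map_smul, hP.2.1.2,
    hP.1.2, hd, hP.2.2 ζ hζ]

/-- if `J (q - p) ≠ 0` use `pair_That`; otherwise `ψ ∘ T` has norm `≤ 1` on `ker J ∋ q - p` (`pair_le'` with
`α = 0`), takes the value `‖q - p‖` at `q - p` (`pair_le` with `ζ = p - q`), extend by Hahn-Banach
(`exists_extension_norm_eq`). -/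
theorem exists_pair (B : BS S p) {q : X} (hq : ‖q‖ = 1) {ψ : Y →L[ℝ] ℝ}
    (hψ : Nm ψ (S.F q - S.F p)) : ∃ φ, B.Pair q φ ψ := by
  by_cases h : B.J (q - p) = 0
  swap
  · exact ⟨_, B.pair_That hq h hψ⟩
  let K : Submodule ℝ X := LinearMap.ker (B.J : X →ₗ[ℝ] ℝ)
  let g : K →L[ℝ] ℝ := (ψ.comp (B.T : X →L[ℝ] Y)).comp K.subtypeL
  have hg : ‖g‖ ≤ 1 := by
    refine ContinuousLinearMap.opNorm_le_bound _ zero_le_one fun x => ?_
    have h1 := hψ.abs_le (B.T x)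
    rw [B.T_iso x.2] at h1
    rw [one_mul]
    exact h1
  obtain ⟨φ, hφ, hn⟩ := exists_extension_norm_eq K g
  have hφ' : ∀ ζ, B.J ζ = 0 → φ ζ = ψ (B.T ζ) := fun ζ hζ => hφ ⟨ζ, hζ⟩
  refine ⟨φ, ⟨hn.le.trans hg, ?_⟩, hψ, hφ'⟩
  rw [hφ' _ h]
  have h1 := hψ.le (B.T (q - p))
  rw [B.T_iso h] at h1
  have h2 := B.pair_le hq hψ (ζ := -(q - p)) (by rw [map_neg, h, neg_zero])
  rw [map_neg, map_neg, add_neg_cancel, norm_zero] at h2
  linarith

/-- `exists_pair` for `B.symm`. -/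
theorem exists_pair' (B : BS S p) {q : X} (hq : ‖q‖ = 1) {φ : X →L[ℝ] ℝ} (hφ : Nm φ (q - p)) :
    ∃ ψ, B.Pair q φ ψ := by
  obtain ⟨ψ, h1, -, h3⟩ := B.symm.exists_pair (q := S.F q) (by rw [S.norm, hq]) (ψ := φ)
    (by simpa using hφ)
  refine ⟨ψ, hφ, h1, fun ζ hζ => ?_⟩
  have := h3 (B.T ζ) (by rw [symm_J, B.J'_T, hζ])
  simpa using this.symm

theorem Pair.compat {B : BS S p} {q : X} {φ : X →L[ℝ] ℝ} {ψ : Y →L[ℝ] ℝ} (hP : B.Pair q φ ψ) (a : Y)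
    (z : X) : ψ (B.Ta a z) = φ z - (φ p - ψ a) * B.J z := by
  have h1 := hP.2.2 (z - B.J z • p) (by rw [map_sub, map_smul, B.J_p, smul_eq_mul, mul_one, sub_self])
  rw [map_sub, map_smul, map_sub, map_smul, B.T_p, map_sub, map_smul, smul_eq_mul, smul_eq_mul] at h1
  rw [Ta_apply, map_add, map_smul, map_sub, smul_eq_mul]
  linarith

theorem pair_That_p (B : BS S p) (q : X) :
    B.That q p = S.F p + (B.J (q - p))⁻¹ • (S.F q - S.F p - B.T (q - p)) := by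
  rw [pair_That_apply, B.J_p, one_smul, B.T_p]

theorem pair_J_le (B : BS S p) {q : X} {θ : ℝ} (hrob : ‖p + q‖ ≤ 2 - 2 * θ) :
    B.J (q - p) ≤ -(2 * θ) := by
  have := B.J_le_add q
  rw [map_sub, B.J_p]
  linarith

theorem pair_err_le (B : BS S p) {q q₁ : X} (h : ‖q‖ = ‖q₁‖) :
    ‖S.F q - S.F q₁ - B.T (q - q₁)‖ ≤ 4 * ‖q - q₁‖ := by
  have h1 := norm_sub_le (S.F q - S.F q₁) (B.T (q - q₁))
  have h2 := B.T_le (q - q₁)
  rw [S.dist q q₁ h] at h1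
  linarith

theorem pair_err_le' (B : BS S p) {q : X} (hq : ‖q‖ = 1) :
    ‖S.F q - S.F p - B.T (q - p)‖ ≤ 8 := by
  have h1 := B.pair_err_le (hq.trans B.hp.symm)
  have h2 := norm_sub_le q p
  rw [hq, B.hp] at h2
  linarith

theorem pair_inv_le (B : BS S p) {q : X} {θ : ℝ} (hθ : 0 < θ) (hrob : ‖p + q‖ ≤ 2 - 2 * θ) :
    |(B.J (q - p))⁻¹| ≤ 1 / (2 * θ) := by
  have h := B.pair_J_le hrob
  rw [abs_inv, one_div]
  refine inv_anti₀ (by positivity) ?_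
  rw [abs_of_neg (by linarith)]
  linarith

theorem That_p_le (B : BS S p) {q : X} {θ : ℝ} (hθ : 0 < θ) (hq : ‖q‖ = 1)
    (hrob : ‖p + q‖ ≤ 2 - 2 * θ) : ‖B.That q p‖ ≤ 5 / θ := by
  have hθ1 : θ ≤ 1 := by linarith [norm_nonneg (p + q)]
  rw [pair_That_p]
  refine (norm_add_le _ _).trans ?_
  rw [B.norm_Fp, norm_smul, Real.norm_eq_abs]
  have h1 := mul_le_mul (B.pair_inv_le hθ hrob) (B.pair_err_le' hq) (norm_nonneg _) (by positivity)
  have h2 : 1 ≤ 1 / θ := by rw [le_div_iff₀ hθ]; linarith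
  have h3 : 1 / (2 * θ) * 8 = 4 * (1 / θ) := by field_simp; norm_num
  have h4 : 5 / θ = 5 * (1 / θ) := by field_simp
  linarith

/-- `That q p = F p + (J v)⁻¹ (w - T v)`, `|J v| ≥ 2θ`, `‖w - T v‖ ≤ 8`, `θ ≤ 1`. -/
theorem That_p_lip (B : BS S p) {q q₁ : X} {θ : ℝ} (hθ : 0 < θ) (hq : ‖q‖ = 1) (hq₁ : ‖q₁‖ = 1)
    (hrob : ‖p + q‖ ≤ 2 - 2 * θ) (hrob₁ : ‖p + q₁‖ ≤ 2 - 2 * θ) :
    ‖B.That q p - B.That q₁ p‖ ≤ 4 / θ ^ 2 * ‖q - q₁‖ := by
  have hθ1 : θ ≤ 1 := by linarith [norm_nonneg (p + q)]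
  have ha := B.pair_J_le hrob
  have ha₁ := B.pair_J_le hrob₁
  have ha0 : B.J (q - p) ≠ 0 := by linarith
  have ha0₁ : B.J (q₁ - p) ≠ 0 := by linarith
  have e : B.That q p - B.That q₁ p =
      (B.J (q - p))⁻¹ • (S.F q - S.F q₁ - B.T (q - q₁)) +
        ((B.J (q - p))⁻¹ - (B.J (q₁ - p))⁻¹) • (S.F q₁ - S.F p - B.T (q₁ - p)) := by
    rw [pair_That_p, pair_That_p]
    simp only [map_sub B.T]
    module
  have e2 : (B.J (q - p))⁻¹ - (B.J (q₁ - p))⁻¹ =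
      -((B.J (q - p))⁻¹ * (B.J (q₁ - p))⁻¹ * B.J (q - q₁)) := by
    have : B.J (q - q₁) = B.J (q - p) - B.J (q₁ - p) := by
      rw [← map_sub]; congr 1; abel
    rw [this]
    field_simp
    ring
  have i1 := B.pair_inv_le hθ hrob
  have i2 := B.pair_inv_le hθ hrob₁
  have h0 := norm_nonneg (q - q₁)
  have h1 : |(B.J (q - p))⁻¹ - (B.J (q₁ - p))⁻¹| ≤ 1 / (2 * θ) * (1 / (2 * θ)) * ‖q - q₁‖ := by
    rw [e2, abs_neg, abs_mul, abs_mul]
    exact mul_le_mul (mul_le_mul i1 i2 (abs_nonneg _) (by positivity)) (B.hJ.abs_le _)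
      (abs_nonneg _) (by positivity)
  rw [e]
  refine (norm_add_le _ _).trans ?_
  rw [norm_smul, norm_smul, Real.norm_eq_abs, Real.norm_eq_abs]
  have h2 := mul_le_mul i1 (B.pair_err_le (hq.trans hq₁.symm)) (norm_nonneg _) (by positivity)
  have h3 := mul_le_mul h1 (B.pair_err_le' hq₁) (norm_nonneg _) (by positivity)
  have h4 : 1 / (2 * θ) * (4 * ‖q - q₁‖) ≤ 2 / θ ^ 2 * ‖q - q₁‖ := by
    have : 1 / (2 * θ) * (4 * ‖q - q₁‖) = 2 / θ * ‖q - q₁‖ := by field_simp; norm_num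
    rw [this]
    refine mul_le_mul_of_nonneg_right ?_ h0
    refine div_le_div_of_nonneg_left (by norm_num) (by positivity) ?_
    nlinarith
  have h5 : 1 / (2 * θ) * (1 / (2 * θ)) * ‖q - q₁‖ * 8 = 2 / θ ^ 2 * ‖q - q₁‖ := by
    ring
  have h6 : 4 / θ ^ 2 * ‖q - q₁‖ = 2 / θ ^ 2 * ‖q - q₁‖ + 2 / θ ^ 2 * ‖q - q₁‖ := by ring
  linarith

end BS

end Crest.Agent.R74
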