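import Crest.Agent.R74.R1
import Crest.Agent.R74.Deriv

/-!
# Row 74: superquadratic height forces goodness; tameness away from good points
-/

namespace Crest.Agent.R74

open Finset

variable {X Y : Type*} [NormedAddCommGroup X] [NormedSpace ℝ X] [NormedAddCommGroup Y]
  [NormedSpace ℝ Y]

/-- As in `r1_upper` with a fixed length `l`: let `τ₂` come from `r1` for `S.symm` with `γ = θ/2` and `ε`, `l = τ₂/2`.
If `‖F p + l d‖ ≤ 1`, `long` applies (`4τ ≤ θ l`, error `8/(θ l M)`).  Otherwise `exit_lt` produces a unit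
`y' = F p + t d` with `1 - J' y' ≥ θ t ≥ (θ/2) ‖y' - F p‖`, so `B.symm` is good. -/
theorem r2_upper (S : SI X Y) {ε ε' : ℝ} (hε : 0 < ε) (hε' : 0 < ε') :
    ∃ M τ₁ : ℝ, 0 < M ∧ 0 < τ₁ ∧ ∀ (p : X) (B : BS S p) (r : X), ‖r‖ = 1 → r ≠ p → ‖r - p‖ ≤ τ₁ →
      M * ‖r - p‖ ^ 2 ≤ 1 - B.J r → B.Good ε ∨ ∀ z, ‖B.Ta (B.ar r) z‖ ≤ (1 + ε') * ‖z‖ := by
  set e : ℝ := min ε' 1 with he
  have he0 : 0 < e := lt_min hε' one_pos
  have he1 : e ≤ 1 := min_le_right _ _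
  have he2 : e ≤ ε' := min_le_left _ _
  set θ : ℝ := e / 24 with hθ
  have hθ0 : 0 < θ := by positivity
  obtain ⟨τ₂, hτ₂, H⟩ := r1 S.symm (half_pos hθ0) hε
  set l : ℝ := τ₂ / 2 with hl
  have hl0 : 0 < l := by positivity
  refine ⟨32 / (θ * l * e), θ * l / 4, by positivity, by positivity, ?_⟩
  intro p B r hr hrp hτ hM
  by_cases hG : B.Good ε
  · exact Or.inl hG
  right
  have hτ0 : 0 < ‖r - p‖ := norm_pos_iff.2 (sub_ne_zero.2 hrp)
  have hh : 0 < 1 - B.J r := lt_of_lt_of_le (by positivity) hM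
  have hJ : B.J r < 1 := by linarith
  have hFr : ‖S.F r‖ = 1 := by rw [S.norm, hr]
  have har : 0 ≤ B.J' (B.ar r) := by
    rw [B.J'_ar hJ.ne]
    have : B.J' (S.F r) ≤ 1 := B.symm.J_le_one hFr
    exact div_nonneg (by linarith) hh.le
  have key : ∀ z, B.J z ≤ 0 → ‖B.Ta (B.ar r) z‖ ≤ (1 + ε') * ‖z‖ := by
    intro z hz
    by_cases hy : B.Ta (B.ar r) z = 0
    · rw [hy, norm_zero]; positivity
    by_cases hin : ‖S.F p + l • (‖B.Ta (B.ar r) z‖⁻¹ • B.Ta (B.ar r) z - θ • S.F p)‖ ≤ 1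
    · have h1 := long B hr hJ hz hy hθ0 (by linarith) hl0 hin (by linarith)
      have h2 : 8 * ‖r - p‖ ^ 2 / (θ * l * (1 - B.J r)) ≤ e / 4 := by
        rw [div_le_iff₀ (by positivity)]
        rw [div_mul_eq_mul_div, div_le_iff₀ (by positivity)] at hM
        linarith
      have h3 := mul_le_mul_of_nonneg_left (add_le_add_left h2 1) (norm_nonneg z)
      have h4 := norm_nonneg z
      have h5 : ‖B.Ta (B.ar r) z‖ * (1 - e / 4) ≤ (1 + e) * ‖z‖ * (1 - e / 4) := by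
        have : 0 ≤ ‖z‖ * (e * (2 - e)) := mul_nonneg h4 (mul_nonneg he0.le (by linarith))
        rw [hθ] at h1
        nlinarith
      have h6 := le_of_mul_le_mul_right h5 (by linarith)
      nlinarith
    · exfalso
      push Not at hin
      set y := B.Ta (B.ar r) z with hyd
      set d := ‖y‖⁻¹ • y - θ • S.F p with hd
      have hJy : B.J' y ≤ 0 := by
        rw [hyd, B.J'_Ta]; exact mul_nonpos_of_nonneg_of_nonpos har hz
      have hJd : B.J' d ≤ -θ := by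
        rw [hd, map_sub, map_smul, map_smul, B.J'_Fp, smul_eq_mul, smul_eq_mul]
        have := mul_nonpos_of_nonneg_of_nonpos (inv_nonneg.2 (norm_nonneg y)) hJy
        linarith
      have hdn : ‖d‖ ≤ 2 := by
        have h1 := norm_sub_le (‖y‖⁻¹ • y) (θ • S.F p)
        rw [norm_normalize hy, norm_smul, B.norm_Fp, Real.norm_of_nonneg hθ0.le] at h1
        linarith
      obtain ⟨t, ht0, htl, hu⟩ := exit_lt B.norm_Fp B.sm' B.hJ' (by linarith) hl0 hin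
      have hJ1 : B.J' (S.F p + t • d) = 1 + t * B.J' d := by
        rw [map_add, map_smul, B.J'_Fp, smul_eq_mul]
      have hn : ‖S.F p + t • d - S.F p‖ ≤ 2 * t := by
        rw [add_sub_cancel_left, norm_smul, Real.norm_of_nonneg ht0.le]
        nlinarith
      have h7 : t * B.J' d ≤ t * -θ := mul_le_mul_of_nonneg_left hJd ht0.le
      have h8 : 0 < t * θ := mul_pos ht0 hθ0
      refine hG (BS.Good.of_symm (H (S.F p) B.symm (S.F p + t • d) hu ?_ (by linarith) ?_).2)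
      · intro h
        rw [h, B.J'_Fp] at hJ1
        linarith
      · rw [BS.symm_J, hJ1]
        nlinarith
  intro z
  rcases le_total (B.J z) 0 with hz | hz
  · exact key z hz
  · have := key (-z) (by rw [map_neg]; linarith)
    rwa [map_neg, norm_neg, norm_neg] at this

/-- `r2_upper` for `S` and `S.symm` (`height_cmp`: `1 - J' (F r) ≥ (M/(C0+1) - 1) τ²`), `Ta_ar_inv`, `lemG`. -/
theorem r2 (S : SI X Y) {ε : ℝ} (hε : 0 < ε) :
    ∃ M τ₁ : ℝ, 0 < M ∧ 0 < τ₁ ∧ ∀ (p : X) (B : BS S p) (r : X), ‖r‖ = 1 → r ≠ p → ‖r - p‖ ≤ τ₁ →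
      M * ‖r - p‖ ^ 2 ≤ 1 - B.J r → B.Good ε := by
  obtain ⟨ε', hε', HG⟩ := lemG S hε
  obtain ⟨M₁, τ₁, hM₁, hτ₁, H₁⟩ := r2_upper S hε hε'
  obtain ⟨M₂, τ₂, hM₂, hτ₂, H₂⟩ := r2_upper S.symm hε hε'
  have hC := C0_pos
  refine ⟨max M₁ ((C0 + 1) * (M₂ + 1)), min τ₁ (min τ₂ c0), lt_max_of_lt_left hM₁,
    lt_min hτ₁ (lt_min hτ₂ c0_pos), ?_⟩
  intro p B r hr hrp hτ hM
  have hτ0 : 0 < ‖r - p‖ ^ 2 := pow_pos (norm_pos_iff.2 (sub_ne_zero.2 hrp)) 2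
  have h1 : M₁ * ‖r - p‖ ^ 2 ≤ 1 - B.J r :=
    (mul_le_mul_of_nonneg_right (le_max_left _ _) hτ0.le).trans hM
  have h2 : (C0 + 1) * (M₂ + 1) * ‖r - p‖ ^ 2 ≤ 1 - B.J r :=
    (mul_le_mul_of_nonneg_right (le_max_right _ _) hτ0.le).trans hM
  have h3 := B.height_cmp hr (hτ.trans ((min_le_right _ _).trans (min_le_right _ _)))
  have h4 : M₂ * ‖r - p‖ ^ 2 ≤ 1 - B.J' (S.F r) := by
    have : (C0 + 1) * ((M₂ + 1) * ‖r - p‖ ^ 2) ≤
        (C0 + 1) * (‖r - p‖ ^ 2 + (1 - B.J' (S.F r))) := by linarith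
    have := le_of_mul_le_mul_left this (by linarith)
    linarith
  have hd : ‖S.F r - S.F p‖ = ‖r - p‖ := S.dist r p (by rw [hr, B.hp])
  have hJ : 0 < 1 - B.J r := lt_of_lt_of_le (by positivity) h1
  have hJ' : 0 < 1 - B.J' (S.F r) := lt_of_lt_of_le (by positivity) h4
  rcases H₁ p B r hr hrp (hτ.trans (min_le_left _ _)) h1 with h | hu
  · exact h
  rcases H₂ (S.F p) B.symm (S.F r) (by rw [S.norm, hr]) (fun h => hrp (S.F.injective h))
    (hd ▸ hτ.trans ((min_le_right _ _).trans (min_le_left _ _))) (by rw [hd]; exact h4) with h | hl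
  · exact h.of_symm
  refine (HG p B (B.ar r) ?_ hu fun z => ?_).2
  · rw [B.J'_ar (by linarith)]
    exact div_pos hJ' hJ
  · have := hl (B.Ta (B.ar r) z)
    rwa [B.Ta_ar_inv (by linarith) (by linarith)] at this

theorem D2_le_of_not_good_aux (S : SI X Y) {ε : ℝ} (hε : 0 < ε) :
    ∃ C δ : ℝ, 0 < C ∧ 0 < δ ∧ ∀ (p : X) (B : BS S p), ¬ B.Good ε →
      ∀ c, ‖c‖ ≤ δ → D2 p c ≤ C * ‖c‖ ^ 2 := by
  obtain ⟨M, τ₁, hM, hτ₁, H⟩ := r2 S hε
  refine ⟨16 * M, min (τ₁ / 2) (1 / 2), by positivity, lt_min (half_pos hτ₁) (by norm_num), ?_⟩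
  intro p B hG
  have key : ∀ c, ‖c‖ ≤ min (τ₁ / 2) (1 / 2) → ‖p + c‖ - 1 - B.J c ≤ 8 * M * ‖c‖ ^ 2 := by
    intro c hc
    have hc1 : ‖c‖ < 1 := lt_of_le_of_lt (hc.trans (min_le_right _ _)) (by norm_num)
    have hc2 : ‖c‖ ≤ τ₁ / 2 := hc.trans (min_le_left _ _)
    have h1 := sph_sub_le B.hp hc1
    have h2 : 1 - B.J (sph p c) ≤ 4 * M * ‖c‖ ^ 2 := by
      by_cases h : sph p c = p
      · rw [h, B.J_p, sub_self]; positivity
      · by_contra h3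
        push Not at h3
        refine hG (H p B (sph p c) (norm_sph B.hp hc1) h (by linarith) ?_)
        have h4 : ‖sph p c - p‖ ^ 2 ≤ (2 * ‖c‖) ^ 2 := pow_le_pow_left₀ (norm_nonneg _) h1 2
        nlinarith
    have h5 : ‖p + c‖ ≤ 2 := by
      have := norm_add_le p c
      rw [B.hp] at this
      linarith
    rw [B.height_eq hc1]
    have h6 := mul_le_mul_of_nonneg_left h2 (norm_nonneg (p + c))
    have h7 : 0 ≤ 4 * M * ‖c‖ ^ 2 := by positivity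
    nlinarith
  intro c hc
  have h1 := key c hc
  have h2 := key (-c) (by rwa [norm_neg])
  rw [map_neg, norm_neg, ← sub_eq_add_neg] at h2
  unfold D2
  rw [B.hp]
  linarith

/-- at a point that is not good: `height_eq`, `sph_sub_le`, contrapositive of `r2`;
`D2 p c = h c + h (-c)` with `h c = ‖p + c‖ - 1 - J c ≤ 8 M ‖c‖²`. -/
theorem D2_le_of_not_good (S : SI X Y) {ε : ℝ} (hε : 0 < ε) :
    ∃ C δ : ℝ, 0 < C ∧ 0 < δ ∧ ∀ (p : X) (B : BS S p), ¬ B.Good ε →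
      (∀ c, ‖c‖ ≤ δ → D2 p c ≤ C * ‖c‖ ^ 2) ∧ ∀ c, ‖c‖ ≤ δ → D2 (S.F p) c ≤ C * ‖c‖ ^ 2 := by
  obtain ⟨C₁, δ₁, hC₁, hδ₁, H₁⟩ := D2_le_of_not_good_aux S hε
  obtain ⟨C₂, δ₂, hC₂, hδ₂, H₂⟩ := D2_le_of_not_good_aux S.symm hε
  refine ⟨max C₁ C₂, min δ₁ δ₂, lt_max_of_lt_left hC₁, lt_min hδ₁ hδ₂, fun p B hG => ⟨?_, ?_⟩⟩
  · intro c hc
    exact (H₁ p B hG c (hc.trans (min_le_left _ _))).trans
      (mul_le_mul_of_nonneg_right (le_max_left _ _) (sq_nonneg _))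
  · intro c hc
    exact (H₂ (S.F p) B.symm (fun h => hG h.of_symm) c (hc.trans (min_le_right _ _))).trans
      (mul_le_mul_of_nonneg_right (le_max_right _ _) (sq_nonneg _))

/-- approximate a unit `s` by points with a `BS` (`dense_BS`, `D2_lip`). -/
theorem tame_of_not_good [CompleteSpace X] [CompleteSpace Y] [TopologicalSpace.SeparableSpace X]
    [TopologicalSpace.SeparableSpace Y] (S : SI X Y) {ε : ℝ} (hε : 0 < ε) :
    ∃ C δ₀ : ℝ, 0 < C ∧ 0 < δ₀ ∧ ∀ (p₀ : X) (R : ℝ), 0 < R →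
      (∀ (p : X) (B : BS S p), ‖p - p₀‖ ≤ R → ¬ B.Good ε) →
      ∀ p : X, ‖p - p₀‖ ≤ R / 2 → Tame S p (min δ₀ (R / 4)) C := by
  obtain ⟨C, δ, hC, hδ, H⟩ := D2_le_of_not_good S hε
  refine ⟨C, δ, hC, hδ, fun p₀ R hR hG p hp s hs hsp => ?_⟩
  have key : ∀ η : ℝ, 0 < η → ∃ q : X, ‖q - s‖ ≤ η ∧ ‖q‖ = 1 ∧
      (∀ c, ‖c‖ ≤ δ → D2 q c ≤ C * ‖c‖ ^ 2) ∧ ∀ c, ‖c‖ ≤ δ → D2 (S.F q) c ≤ C * ‖c‖ ^ 2 := by
    intro η hη
    obtain ⟨q, hq, ⟨B⟩⟩ := dense_BS S hs (lt_min hη (show 0 < R / 4 by positivity))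
    refine ⟨q, hq.trans (min_le_left _ _), B.hp, H q B (hG q B ?_)⟩
    have h1 : ‖q - p₀‖ ≤ ‖q - s‖ + ‖s - p‖ + ‖p - p₀‖ := by
      have := norm_add₃_le (a := q - s) (b := s - p) (c := p - p₀)
      rwa [sub_add_sub_cancel, sub_add_sub_cancel] at this
    have h2 := hq.trans (min_le_right _ _)
    have h3 := hsp.trans (min_le_right _ _)
    linarith
  constructor
  · intro c hc
    refine le_of_forall_pos_le_add fun η hη => ?_
    obtain ⟨q, hq, -, h1, -⟩ := key (η / 4) (by positivity)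
    have h2 := D2_lip s q c
    rw [norm_sub_rev] at h2
    have h3 := h1 c (hc.trans (min_le_left _ _))
    linarith
  · intro c hc
    refine le_of_forall_pos_le_add fun η hη => ?_
    obtain ⟨q, hq, hq1, -, h1⟩ := key (η / 4) (by positivity)
    have h2 := D2_lip (S.F s) (S.F q) c
    rw [S.dist s q (by rw [hs, hq1]), norm_sub_rev] at h2
    have h3 := h1 c (hc.trans (min_le_left _ _))
    linarith

end Crest.Agent.R74
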