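import Crest.Agent.R74.Defs2

/-!
# Row 74: Rademacher sums over lists
-/

set_option linter.unusedSectionVars false

namespace Crest.Agent.R74

open Finset

variable {X Y : Type*} [NormedAddCommGroup X] [NormedSpace ℝ X] [NormedAddCommGroup Y]
  [NormedSpace ℝ Y]

@[simp] theorem RL_nil (g : X → ℝ) : RL ([] : List X) g = g := rfl

@[simp] theorem RL_cons (y : X) (ys : List X) (g : X → ℝ) : RL (y :: ys) g = R y (RL ys g) := rfl

theorem RL_append (ys zs : List X) (g : X → ℝ) : RL (ys ++ zs) g = RL ys (RL zs g) := by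
  simp only [RL, List.foldr_append]

theorem RL_mono (ys : List X) {g h : X → ℝ} (hgh : ∀ x, g x ≤ h x) (x : X) : RL ys g x ≤ RL ys h x := by
  induction ys generalizing x with
  | nil => exact hgh x
  | cons y ys ih =>
    simp only [RL_cons, R]
    linarith [ih (x + y), ih (x - y)]

theorem RL_add (ys : List X) (g h : X → ℝ) (x : X) :
    RL ys (fun y => g y + h y) x = RL ys g x + RL ys h x := by
  induction ys generalizing x with
  | nil => rfl
  | cons y ys ih =>
    simp only [RL_cons, R, ih]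
    ring

theorem RL_mul (ys : List X) (c : ℝ) (g : X → ℝ) (x : X) : RL ys (fun y => c * g y) x = c * RL ys g x := by
  induction ys generalizing x with
  | nil => rfl
  | cons y ys ih =>
    simp only [RL_cons, R, ih]
    ring

theorem RL_const (ys : List X) (c : ℝ) (x : X) : RL ys (fun _ => c) x = c := by
  induction ys generalizing x with
  | nil => rfl
  | cons y ys ih =>
    simp only [RL_cons, R, ih]
    ring

theorem RL_translate (ys : List X) (g : X → ℝ) (a x : X) :
    RL ys (fun y => g (y + a)) x = RL ys g (x + a) := by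
  induction ys generalizing x with
  | nil => rfl
  | cons y ys ih =>
    simp only [RL_cons, R, ih]
    rw [add_right_comm x y a, sub_add_eq_add_sub]

/-- the operators `R y` commute (`List.Perm` induction). -/
theorem RL_perm {ys zs : List X} (h : ys.Perm zs) (g : X → ℝ) : RL ys g = RL zs g := by
  induction h with
  | nil => rfl
  | cons y _ ih => rw [RL_cons, RL_cons, ih]
  | swap y z l =>
    funext x
    simp only [RL_cons, R]
    rw [add_right_comm x z y, sub_add_eq_add_sub x z y, ← sub_add_eq_add_sub x y z,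
      sub_right_comm x z y]
    ring
  | trans _ _ ih ih' => exact ih.trans ih' 

theorem RL_convex (ys : List X) {g : X → ℝ} (hg : ConvexOn ℝ Set.univ g) : ConvexOn ℝ Set.univ (RL ys g) := by
  induction ys with
  | nil => exact hg
  | cons y ys ih =>
    refine ⟨convex_univ, fun u _ v _ a b ha hb hab => ?_⟩
    have h1 := ih.2 (Set.mem_univ (u + y)) (Set.mem_univ (v + y)) ha hb hab
    have h2 := ih.2 (Set.mem_univ (u - y)) (Set.mem_univ (v - y)) ha hb hab
    have e1 : a • (u + y) + b • (v + y) = a • u + b • v + y := by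
      rw [smul_add, smul_add, add_add_add_comm, ← add_smul, hab, one_smul]
    have e2 : a • (u - y) + b • (v - y) = a • u + b • v - y := by
      rw [smul_sub, smul_sub, sub_add_sub_comm, ← add_smul, hab, one_smul]
    rw [e1] at h1
    rw [e2] at h2
    simp only [RL_cons, R, smul_eq_mul] at h1 h2 ⊢
    linarith

theorem le_RL (ys : List X) {g : X → ℝ} (hg : ConvexOn ℝ Set.univ g) (x : X) : g x ≤ RL ys g x := by
  induction ys generalizing x with
  | nil => exact le_rfl
  | cons y ys ih =>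
    have h := hg.2 (Set.mem_univ (x + y)) (Set.mem_univ (x - y))
      (show (0 : ℝ) ≤ 1 / 2 by norm_num) (show (0 : ℝ) ≤ 1 / 2 by norm_num) (by norm_num)
    have e : (1 / 2 : ℝ) • (x + y) + (1 / 2 : ℝ) • (x - y) = x := by module
    rw [e] at h
    simp only [RL_cons, R, smul_eq_mul] at h ⊢
    linarith [ih (x + y), ih (x - y)]

theorem RL_neg (ys : List X) (g : X → ℝ) (x : X) : RL ys (fun y => g (-y)) x = RL ys g (-x) := by
  induction ys generalizing x with
  | nil => rfl
  | cons y ys ih =>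
    simp only [RL_cons, R, ih]
    rw [neg_add', neg_sub', sub_neg_eq_add, add_comm]

theorem RL_map (A : X →L[ℝ] Y) (ys : List X) (g : Y → ℝ) (y₀ : Y) (x : X) :
    RL (ys.map A) g (y₀ + A x) = RL ys (fun z => g (y₀ + A z)) x := by
  induction ys generalizing x with
  | nil => rfl
  | cons y ys ih =>
    simp only [List.map_cons, RL_cons, R, ← ih, map_add, map_sub]
    rw [add_assoc, add_sub_assoc]

theorem RL_sq (φ : X →L[ℝ] ℝ) (ys : List X) (x : X) :
    RL ys (fun y => φ y ^ 2) x = φ x ^ 2 + (ys.map fun y => φ y ^ 2).sum := by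
  induction ys generalizing x with
  | nil => simp
  | cons y ys ih =>
    simp only [List.map_cons, List.sum_cons, RL_cons, R, ih, map_add, map_sub]
    ring

theorem sq2_nonneg (l : List ℝ) : 0 ≤ sq2 l := by
  refine List.sum_nonneg fun a ha => ?_
  obtain ⟨b, -, rfl⟩ := List.mem_map.1 ha
  positivity

theorem RL_four (l : List ℝ) (x : ℝ) :
    RL l (fun s => s ^ 4) x ≤ x ^ 4 + 6 * x ^ 2 * sq2 l + 3 * sq2 l ^ 2 := by
  induction l generalizing x with
  | nil => simp [sq2]
  | cons y l ih =>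
    have e : sq2 (y :: l) = y ^ 2 + sq2 l := by simp [sq2]
    simp only [RL_cons, R, e]
    have h1 := ih (x + y)
    have h2 := ih (x - y)
    nlinarith [sq_nonneg (y ^ 2)]

/-- **Khintchine.**  With `V = √(sq2 l) > 0`: `|s| ≥ s² / V - s⁴ / (4 V³)`. -/
theorem khin (l : List ℝ) : √(sq2 l) / 4 ≤ RL l (fun s => |s|) 0 := by
  have hV2 := Real.sq_sqrt (sq2_nonneg l)
  rcases (Real.sqrt_nonneg (sq2 l)).eq_or_lt with h0 | hV
  · rw [← h0, zero_div]
    exact (RL_const l 0 0).symm.le.trans (RL_mono l (fun s => abs_nonneg s) 0)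
  set V := √(sq2 l) with hVdef
  have key : ∀ s : ℝ, 4 * V ^ 2 * s ^ 2 + (-1) * s ^ 4 ≤ 4 * V ^ 3 * |s| := by
    intro s
    have ha := abs_nonneg s
    have e4 : s ^ 4 = |s| ^ 4 := by rw [show 4 = 2 * 2 from rfl, pow_mul, pow_mul, sq_abs]
    rw [e4, ← sq_abs s]
    generalize |s| = a at ha
    have h1 : 0 ≤ a ^ 3 - 4 * V ^ 2 * a + 4 * V ^ 3 := by
      have := mul_nonneg (sq_nonneg (a - 6 / 5 * V)) (show 0 ≤ a + 12 / 5 * V by positivity)
      have h2 : 0 ≤ V ^ 2 * a := by positivity
      have h3 : 0 ≤ V ^ 3 := by positivity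
      nlinarith
    nlinarith [mul_nonneg ha h1]
  have h1 := RL_mono l key 0
  rw [RL_add, RL_mul, RL_mul, RL_mul] at h1
  have h2 := RL_sq (ContinuousLinearMap.id ℝ ℝ) l 0
  simp only [ContinuousLinearMap.id_apply] at h2
  have h3 := RL_four l 0
  have e : (l.map fun y => y ^ 2).sum = V ^ 2 := hV2.symm
  rw [h2, e] at h1
  rw [← hV2] at h3
  have h4 : 4 * V ^ 3 * (V / 4) ≤ 4 * V ^ 3 * RL l (fun s => |s|) 0 := by nlinarith
  exact le_of_mul_le_mul_left h4 (by positivity)

theorem exists_subgrad {ρ : ℝ → ℝ} (hρ : ConvexOn ℝ Set.univ ρ) (s₀ : ℝ) :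
    ∃ κ, ∀ s, ρ s₀ + κ * (s - s₀) ≤ ρ s := by
  have hi : s₀ ∈ interior (Set.univ : Set ℝ) := by simp
  refine ⟨derivWithin ρ (Set.Ioi s₀) s₀, fun s => ?_⟩
  rcases lt_trichotomy s s₀ with h | rfl | h
  · have h1 := (hρ.slope_le_leftDeriv_of_mem_interior (Set.mem_univ s) hi h).trans
      (hρ.leftDeriv_le_rightDeriv_of_mem_interior hi)
    rw [slope_def_field, div_le_iff₀ (sub_pos.2 h)] at h1
    linarith
  · simp
  · have h1 := hρ.rightDeriv_le_slope_of_mem_interior hi (Set.mem_univ s) h
    rw [slope_def_field, le_div_iff₀ (sub_pos.2 h)] at h1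
    linarith

/-- **Contraction.**  `h s = g (x + s y)`, `ρ s = (h s + h (-s)) / 2` is convex and even; the right side is
`RL l h 0 = RL l ρ 0` (`RL_map` with `A = toSpanSingleton`, `RL_neg`).  With `s₀ = √(sq2 l) / 4 > 0` there is a slope `κ ≥ 0`
with `ρ s ≥ ρ s₀ + κ (|s| - s₀)` for all `s` (e.g. `κ = sSup` of the backward slopes at `s₀`, or the right derivative,
`ConvexOn.rightDeriv_le_slope`, `ConvexOn.slope_le_rightDeriv`-type lemmas); use `khin`. -/
theorem contraction (l : List ℝ) (y : X) {g : X → ℝ} (hg : ConvexOn ℝ Set.univ g) (x : X) :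
    R ((√(sq2 l) / 4) • y) g x ≤ RL (l.map (· • y)) g x := by
  have hk := khin l
  have h0 : 0 ≤ √(sq2 l) / 4 := by positivity
  generalize √(sq2 l) / 4 = s₀ at hk h0
  rcases h0.eq_or_lt with rfl | h0
  · have := le_RL (l.map (· • y)) hg x
    simpa [R] using this
  have e1 : RL (l.map (· • y)) g x = RL l (fun s : ℝ => g (x + s • y)) 0 := by
    have := RL_map (ContinuousLinearMap.toSpanSingleton ℝ y) l g x 0
    rw [map_zero, add_zero] at this
    exact this
  have e2 : RL l (fun s : ℝ => g (x - s • y)) 0 = RL l (fun s : ℝ => g (x + s • y)) 0 := by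
    have := RL_neg l (fun s : ℝ => g (x + s • y)) 0
    simpa [sub_eq_add_neg] using this
  have hρ : ConvexOn ℝ Set.univ fun s : ℝ => R (s • y) g x := by
    refine ⟨convex_univ, fun u _ v _ a b ha hb hab => ?_⟩
    have h1 := hg.2 (Set.mem_univ (x + u • y)) (Set.mem_univ (x + v • y)) ha hb hab
    have h2 := hg.2 (Set.mem_univ (x - u • y)) (Set.mem_univ (x - v • y)) ha hb hab
    have f1 : a • (x + u • y) + b • (x + v • y) = x + (a * u + b * v) • y := by
      rw [smul_add, smul_add, add_add_add_comm, ← add_smul, hab, one_smul, smul_smul, smul_smul,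
        add_smul]
    have f2 : a • (x - u • y) + b • (x - v • y) = x - (a * u + b * v) • y := by
      rw [smul_sub, smul_sub, sub_add_sub_comm, ← add_smul, hab, one_smul, smul_smul, smul_smul,
        add_smul]
    rw [f1] at h1
    rw [f2] at h2
    simp only [R, smul_eq_mul] at h1 h2 ⊢
    linarith
  have hev : ∀ s : ℝ, R ((-s) • y) g x = R (s • y) g x := by
    intro s
    simp only [R, neg_smul, sub_neg_eq_add, ← sub_eq_add_neg]
    ring
  obtain ⟨κ, hκ⟩ := exists_subgrad hρ s₀
  have hκ0 : 0 ≤ κ := by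
    have := hκ (-s₀)
    rw [hev] at this
    nlinarith
  have key : ∀ s : ℝ, (R (s₀ • y) g x - κ * s₀) + κ * |s| ≤
      (1 / 2) * g (x + s • y) + (1 / 2) * g (x - s • y) := by
    intro s
    have h1 := hκ |s|
    have h2 : R (|s| • y) g x = R (s • y) g x := by
      rcases abs_choice s with h | h
      · rw [h]
      · rw [h, hev]
    rw [h2] at h1
    simp only [R] at h1 ⊢
    linarith
  have h := RL_mono l key 0
  rw [RL_add, RL_add, RL_const, RL_mul, RL_mul, RL_mul, e2] at h
  rw [e1]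
  nlinarith [mul_le_mul_of_nonneg_left hk hκ0]

theorem flat_nil (l : List ℝ) : flat l ([] : List X) = [] := by
  simp [flat]

theorem flat_cons_perm (l : List ℝ) (y : X) (ys : List X) :
    (flat l (y :: ys)).Perm (l.map (· • y) ++ flat l ys) := by
  induction l with
  | nil => simp [flat]
  | cons τ l ih =>
    simp only [flat, List.flatMap_cons, List.map_cons, List.cons_append] at ih ⊢
    refine List.Perm.cons _ ((ih.append_left _).trans ?_)
    exact List.perm_append_comm_assoc _ _ _

/-- induction on `ys` (`flat_cons_perm`, `contraction`, `RL_convex`, `RL_mono`). -/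
theorem contraction_flat (l : List ℝ) (ys : List X) {g : X → ℝ} (hg : ConvexOn ℝ Set.univ g) (x : X) :
    RL (ys.map ((√(sq2 l) / 4) • ·)) g x ≤ RL (flat l ys) g x := by
  induction ys generalizing x with
  | nil => simp [flat_nil]
  | cons y ys ih =>
    rw [RL_perm (flat_cons_perm l y ys), RL_append, List.map_cons, RL_cons]
    refine le_trans ?_ (contraction l y (RL_convex _ hg) x)
    simp only [R]
    linarith [ih (x + (√(sq2 l) / 4) • y), ih (x - (√(sq2 l) / 4) • y)]

theorem RL_norm_sq_le (zs : List X) (x : X) :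
    RL zs (fun y => ‖y‖ ^ 2) x ≤ 2 * ‖x‖ ^ 2 + 2 * RL zs (fun y => ‖y‖ ^ 2) 0 := by
  have h := RL_translate zs (fun y => ‖y‖ ^ 2) x 0
  rw [zero_add] at h
  rw [← h, ← RL_mul, ← RL_const zs (2 * ‖x‖ ^ 2) 0, ← RL_add]
  refine RL_mono zs (fun y => ?_) 0
  have h1 := pow_le_pow_left₀ (norm_nonneg _) (norm_add_le y x) 2
  nlinarith [sq_nonneg (‖y‖ - ‖x‖)]

/-- induction on `ys` with `c (y :: ys) = 2‖y‖² + 2 c ys`; `RL (l.map (· • y)) ‖·‖² 0 = ‖y‖² sq2 l`. -/
theorem exists_up (ys : List X) :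
    ∃ c : ℝ, ∀ l : List ℝ, RL (flat l ys) (fun y => ‖y‖ ^ 2) 0 ≤ c * sq2 l := by
  induction ys with
  | nil => exact ⟨0, fun l => by simp [flat_nil]⟩
  | cons y ys ih =>
    obtain ⟨c, hc⟩ := ih
    refine ⟨2 * ‖y‖ ^ 2 + 2 * c, fun l => ?_⟩
    rw [RL_perm (flat_cons_perm l y ys), RL_append]
    refine (RL_mono _ (RL_norm_sq_le (flat l ys)) 0).trans ?_
    rw [RL_add, RL_mul, RL_const]
    have e1 : RL (l.map (· • y)) (fun z => ‖z‖ ^ 2) 0 =
        RL l (fun s : ℝ => ‖y‖ ^ 2 * s ^ 2) 0 := by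
      have := RL_map (ContinuousLinearMap.toSpanSingleton ℝ y) l (fun z => ‖z‖ ^ 2) 0 0
      rw [map_zero, add_zero] at this
      refine this.trans ?_
      simp [ContinuousLinearMap.toSpanSingleton_apply, norm_smul, mul_pow, mul_comm]
    have h2 := RL_sq (ContinuousLinearMap.id ℝ ℝ) l 0
    simp only [ContinuousLinearMap.id_apply] at h2
    have e : (l.map fun y => y ^ 2).sum = sq2 l := rfl
    rw [e1, RL_mul, h2, e]
    nlinarith [hc l]

theorem convexOn_norm_sq : ConvexOn ℝ Set.univ fun y : X => ‖y‖ ^ 2 := by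
  exact convexOn_univ_norm.pow (fun _ _ => norm_nonneg _) 2

theorem RL_smul_norm_sq (c : ℝ) (zs : List X) :
    RL (zs.map (c • ·)) (fun y => ‖y‖ ^ 2) 0 = c ^ 2 * RL zs (fun y => ‖y‖ ^ 2) 0 := by
  have := RL_map (c • ContinuousLinearMap.id ℝ X) zs (fun z => ‖z‖ ^ 2) 0 0
  rw [map_zero, add_zero] at this
  rw [← RL_mul]
  refine this.trans ?_
  simp [norm_smul, mul_pow]

end Crest.Agent.R74
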