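import Crest.Agent.R74.Geo
import Crest.Agent.R74.FamB

/-!
# Row 74: selection of a point that is second order good on average and first order good along finitely many directions
-/

namespace Crest.Agent.R74

open Finset

variable {X Y : Type*} [NormedAddCommGroup X] [NormedSpace ℝ X] [NormedAddCommGroup Y]
  [NormedSpace ℝ Y]

section Aux

variable {ι : Type*} {I : Finset ι} {π t : ι → ℝ}

private theorem sel_tele (𝓕 : Fam X) (g : X → ℝ) (k J : ℕ) (w : X) :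
    ∑ j ∈ range J, (𝓕.P I π t)^[j * k] (fun y => (𝓕.P I π t)^[k] g y - g y) w =
      (𝓕.P I π t)^[J * k] g w - g w := by
  have h := Finset.sum_range_sub (fun j => (𝓕.P I π t)^[j * k] g w) J
  simp only [zero_mul, Function.iterate_zero, id_eq] at h
  rw [← h]
  refine Finset.sum_congr rfl fun j _ => ?_
  rw [𝓕.P_iter_sub, add_mul, one_mul, Function.iterate_add_apply]

private theorem sel_tele1 (𝓕 : Fam X) (g : X → ℝ) (J : ℕ) (w : X) :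
    ∑ j ∈ range J, (𝓕.P I π t)^[j] (fun y => 𝓕.P I π t g y - g y) w =
      (𝓕.P I π t)^[J] g w - g w := by
  simpa using sel_tele (I := I) (π := π) (t := t) 𝓕 g 1 J w

private theorem sel_nonneg (𝓕 : Fam X) (hP : Fam.Prob I π) (k : ℕ) {g : X → ℝ} (hg : ∀ y, 0 ≤ g y)
    (x : X) : 0 ≤ (𝓕.P I π t)^[k] g x := by
  have h := 𝓕.P_iter_mono (t := t) hP k (g := fun _ => 0) (h := g) hg x
  rwa [𝓕.P_iter_const hP] at h

private theorem sel_D2 (𝓕 : Fam X) (k : ℕ) (c y : X) :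
    (𝓕.P I π t)^[k] (fun z => D2 z c) y =
      (𝓕.P I π t)^[k] (fun z => ‖z‖) (y + c) + (𝓕.P I π t)^[k] (fun z => ‖z‖) (y - c) -
        2 * (𝓕.P I π t)^[k] (fun z => ‖z‖) y := by
  have h1 := 𝓕.P_iter_translate (I := I) (π := π) (t := t) k (fun z => ‖z‖) c y
  have h2 := 𝓕.P_iter_translate (I := I) (π := π) (t := t) k (fun z => ‖z‖) (-c) y
  simp only [← sub_eq_add_neg] at h2
  rw [← h1, ← h2, ← 𝓕.P_iter_mul, ← 𝓕.P_iter_add, ← 𝓕.P_iter_sub]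
  rfl

private theorem sel_ceil {a b : ℝ} (ha : 0 < a) (hab : a ≤ b) :
    ∃ k : ℕ, 0 < k ∧ b ≤ k * a ∧ k * a ≤ 2 * b := by
  have hb : 0 < b := ha.trans_le hab
  refine ⟨⌈b / a⌉₊, Nat.ceil_pos.2 (div_pos hb ha), ?_, ?_⟩
  · have := Nat.le_ceil (b / a)
    rwa [div_le_iff₀ ha] at this
  · have h := (Nat.ceil_lt_add_one (div_pos hb ha).le).le
    have h2 := mul_le_mul_of_nonneg_right h ha.le
    rw [add_mul, div_mul_cancel₀ _ ha.ne', one_mul] at h2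
    linarith

private theorem sel_pigeon (𝓕 : Fam X) (hP : Fam.Prob I π) (g : X → ℝ) (w : X) {J : ℕ} (hJ : 0 < J)
    (n : ℕ → ℕ) (h : ∑ j ∈ range J, (𝓕.P I π t)^[n j] g w ≤ J) : ∃ y, g y ≤ 1 := by
  have h' : ∑ j ∈ range J, (𝓕.P I π t)^[n j] g w ≤ ∑ _j ∈ range J, (1 : ℝ) := by simpa using h
  obtain ⟨j, -, hj⟩ := Finset.exists_le_of_sum_le (Finset.nonempty_range_iff.2 hJ.ne') h'
  obtain ⟨y, hy⟩ := 𝓕.exists_le_P_iter (t := t) hP (n j) g w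
  exact ⟨y, hy.trans hj⟩

/-- first pigeonhole. -/
private theorem sel_first (𝓕 : Fam X) (hP : Fam.Prob I π) (hU : 𝓕.Up 8) {ρ σ : ℝ} (hρ : 0 < ρ)
    (hσ : ∑ i ∈ I, π i * t i ^ 2 = σ) (hσ0 : 0 < σ) {k : ℕ} (hk : 0 < k) (hkσ : k * σ ≤ ρ ^ 2 / 32)
    (hG : ∀ y, 0 ≤ (𝓕.P I π t)^[k] (fun z => ‖z‖) y - ‖y‖) (w : X) :
    ∃ y, ‖y - w‖ ≤ ρ ∧ (𝓕.P I π t)^[k] (fun z => ‖z‖) y - ‖y‖ ≤ 48 * (k * σ) / ρ := by
  have hk' : (0 : ℝ) < k := Nat.cast_pos.2 hk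
  set a : ℝ := k * σ with ha
  have ha0 : 0 < a := by positivity
  obtain ⟨J, hJ, hJ1, hJ2⟩ := sel_ceil ha0 hkσ
  have hJ' : (0 : ℝ) < J := Nat.cast_pos.2 hJ
  obtain ⟨y, hy⟩ := sel_pigeon (t := t) 𝓕 hP
    (fun y => ρ / (48 * a) * ((𝓕.P I π t)^[k] (fun z => ‖z‖) y - ‖y‖) + (ρ ^ 2)⁻¹ * ‖y - w‖ ^ 2)
    w hJ (fun j => j * k) (by
      simp only [𝓕.P_iter_add, 𝓕.P_iter_mul, Finset.sum_add_distrib, ← Finset.mul_sum]
      rw [sel_tele 𝓕 (fun z => ‖z‖) k J w]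
      have h1 := 𝓕.P_iter_norm_le (t := t) hP hU (J * k) w (s := ρ / 2) (by positivity)
      rw [hσ] at h1
      have e1 : ((J * k : ℕ) : ℝ) * σ = J * a := by rw [ha]; push_cast; ring
      rw [e1] at h1
      have h2 : 8 * (J * a) / (2 * (ρ / 2)) ≤ ρ / 2 := by
        rw [div_le_iff₀ (by positivity)]; nlinarith
      have h3 : ρ / (48 * a) * ((𝓕.P I π t)^[J * k] (fun z => ‖z‖) w - ‖w‖) ≤ J / 2 := by
        refine (mul_le_mul_of_nonneg_left (show _ ≤ 3 * ρ / 4 by linarith) (by positivity)).trans ?_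
        rw [div_mul_eq_mul_div, div_le_iff₀ (by positivity)]
        nlinarith
      have h4 : ∑ j ∈ range J, (𝓕.P I π t)^[j * k] (fun y => ‖y - w‖ ^ 2) w ≤
          ∑ _j ∈ range J, ρ ^ 2 / 2 := by
        refine Finset.sum_le_sum fun j hj => ?_
        have h5 := 𝓕.P_iter_up (t := t) hP hU (j * k) w
        rw [hσ] at h5
        have e2 : ((j * k : ℕ) : ℝ) * σ = j * a := by rw [ha]; push_cast; ring
        rw [e2] at h5
        have h6 : (j : ℝ) ≤ J := Nat.cast_le.2 (Finset.mem_range.1 hj).le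
        nlinarith
      rw [Finset.sum_const, Finset.card_range, nsmul_eq_mul] at h4
      have h7 : (ρ ^ 2)⁻¹ * ∑ j ∈ range J, (𝓕.P I π t)^[j * k] (fun y => ‖y - w‖ ^ 2) w ≤ J / 2 := by
        refine (mul_le_mul_of_nonneg_left h4 (by positivity)).trans (le_of_eq ?_)
        field_simp
      linarith)
  have h1 : 0 ≤ ρ / (48 * a) * ((𝓕.P I π t)^[k] (fun z => ‖z‖) y - ‖y‖) :=
    mul_nonneg (by positivity) (hG y)
  have h2 : 0 ≤ (ρ ^ 2)⁻¹ * ‖y - w‖ ^ 2 := by positivity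
  refine ⟨y, ?_, ?_⟩
  · have h3 : (ρ ^ 2)⁻¹ * ‖y - w‖ ^ 2 ≤ 1 := by linarith
    rw [inv_mul_le_iff₀ (by positivity), mul_one] at h3
    exact (pow_le_pow_iff_left₀ (norm_nonneg _) hρ.le two_ne_zero).1 h3
  · have h3 : ρ / (48 * a) * ((𝓕.P I π t)^[k] (fun z => ‖z‖) y - ‖y‖) ≤ 1 := by linarith
    rw [div_mul_eq_mul_div, div_le_one (by positivity)] at h3
    rw [le_div_iff₀ hρ]
    linarith

/-- second pigeonhole. -/
private theorem sel_second (𝓕 : Fam X) (hP : Fam.Prob I π) (hU : 𝓕.Up 8) {ρ σ L A : ℝ} (hρ : 0 < ρ)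
    (hL : 0 < L) (hA : 0 < A) (hσ : ∑ i ∈ I, π i * t i ^ 2 = σ) (hσ0 : 0 < σ) {k : ℕ} (hk : 0 < k)
    (hkσ : k * σ ≤ L ^ 2 / 96) (hG : ∀ y, 0 ≤ 𝓕.P I π t (fun z => ‖z‖) y - ‖y‖) (w : X)
    (hw : (𝓕.P I π t)^[k] (fun z => ‖z‖) w - ‖w‖ ≤ 80 * (k * σ) / ρ) {κ : Type} [Fintype κ]
    (c : κ → X) (hc : ∑ j, ∑ l ∈ range k, (𝓕.P I π t)^[l] (fun z => D2 z (c j)) w ≤ k * (A / 3)) :
    ∃ y, ‖y - w‖ ≤ L / 2 ∧ 𝓕.P I π t (fun z => ‖z‖) y - ‖y‖ ≤ 240 * σ / ρ ∧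
      ∀ j, D2 y (c j) ≤ A := by
  have hk' : (0 : ℝ) < k := Nat.cast_pos.2 hk
  obtain ⟨y, hy⟩ := sel_pigeon (t := t) 𝓕 hP
    (fun y => ρ / (240 * σ) * (𝓕.P I π t (fun z => ‖z‖) y - ‖y‖) + 4 / L ^ 2 * ‖y - w‖ ^ 2 +
      A⁻¹ * ∑ j, D2 y (c j)) w hk (fun j => j) (by
      simp only [𝓕.P_iter_add, 𝓕.P_iter_mul, 𝓕.P_iter_sum, Finset.sum_add_distrib, ← Finset.mul_sum]
      rw [sel_tele1 𝓕 (fun z => ‖z‖) k w, Finset.sum_comm]
      have h3 : ρ / (240 * σ) * ((𝓕.P I π t)^[k] (fun z => ‖z‖) w - ‖w‖) ≤ k / 3 := by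
        refine (mul_le_mul_of_nonneg_left hw (by positivity)).trans (le_of_eq ?_)
        field_simp
        norm_num
      have h4 : ∑ j ∈ range k, (𝓕.P I π t)^[j] (fun y => ‖y - w‖ ^ 2) w ≤
          ∑ _j ∈ range k, L ^ 2 / 12 := by
        refine Finset.sum_le_sum fun j hj => ?_
        have h5 := 𝓕.P_iter_up (t := t) hP hU j w
        rw [hσ] at h5
        have h6 : (j : ℝ) ≤ k := Nat.cast_le.2 (Finset.mem_range.1 hj).le
        nlinarith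
      rw [Finset.sum_const, Finset.card_range, nsmul_eq_mul] at h4
      have h7 : 4 / L ^ 2 * ∑ j ∈ range k, (𝓕.P I π t)^[j] (fun y => ‖y - w‖ ^ 2) w ≤ k / 3 := by
        refine (mul_le_mul_of_nonneg_left h4 (by positivity)).trans (le_of_eq ?_)
        field_simp
        norm_num
      have h8 : A⁻¹ * ∑ j, ∑ l ∈ range k, (𝓕.P I π t)^[l] (fun z => D2 z (c j)) w ≤ k / 3 := by
        refine (mul_le_mul_of_nonneg_left hc (by positivity)).trans (le_of_eq ?_)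
        field_simp
      linarith)
  have h1 : 0 ≤ ρ / (240 * σ) * (𝓕.P I π t (fun z => ‖z‖) y - ‖y‖) :=
    mul_nonneg (by positivity) (hG y)
  have h2 : 0 ≤ 4 / L ^ 2 * ‖y - w‖ ^ 2 := by positivity
  have h0 : 0 ≤ A⁻¹ * ∑ j, D2 y (c j) :=
    mul_nonneg (by positivity) (Finset.sum_nonneg fun j _ => D2_nonneg _ _)
  refine ⟨y, ?_, ?_, fun j => ?_⟩
  · have h3 : 4 / L ^ 2 * ‖y - w‖ ^ 2 ≤ 1 := by linarith
    rw [div_mul_eq_mul_div, div_le_one (by positivity)] at h3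
    refine (pow_le_pow_iff_left₀ (norm_nonneg _) (by positivity) two_ne_zero).1 ?_
    linarith
  · have h3 : ρ / (240 * σ) * (𝓕.P I π t (fun z => ‖z‖) y - ‖y‖) ≤ 1 := by linarith
    rw [div_mul_eq_mul_div, div_le_one (by positivity)] at h3
    rw [le_div_iff₀ hρ]
    linarith
  · have h3 : A⁻¹ * ∑ j, D2 y (c j) ≤ 1 := by linarith
    rw [inv_mul_le_iff₀ hA, mul_one] at h3
    exact (Finset.single_le_sum (f := fun j => D2 y (c j)) (fun j _ => D2_nonneg _ _)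
      (Finset.mem_univ j)).trans h3

/-- the Cesàro mean of the iterates of the norm is convex and `1`-Lipschitz. -/
private theorem sel_ces (𝓕 : Fam X) (hP : Fam.Prob I π) {k : ℕ} (hk : 0 < k) :
    ConvexOn ℝ Set.univ (fun y => (k : ℝ)⁻¹ * ∑ l ∈ range k, (𝓕.P I π t)^[l] (fun z => ‖z‖) y) ∧
      ∀ x y, |(k : ℝ)⁻¹ * ∑ l ∈ range k, (𝓕.P I π t)^[l] (fun z => ‖z‖) x -
        (k : ℝ)⁻¹ * ∑ l ∈ range k, (𝓕.P I π t)^[l] (fun z => ‖z‖) y| ≤ ‖x - y‖ := by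
  have hk' : (0 : ℝ) < k := Nat.cast_pos.2 hk
  refine ⟨⟨convex_univ, fun x _ y _ a b ha hb hab => ?_⟩, fun x y => ?_⟩
  · have h : ∑ l ∈ range k, (𝓕.P I π t)^[l] (fun z => ‖z‖) (a • x + b • y) ≤
        ∑ l ∈ range k, (a * (𝓕.P I π t)^[l] (fun z => ‖z‖) x +
          b * (𝓕.P I π t)^[l] (fun z => ‖z‖) y) :=
      Finset.sum_le_sum fun l _ =>
        (𝓕.P_iter_convex (t := t) hP l convexOn_univ_norm).2 (Set.mem_univ x) (Set.mem_univ y) ha hb hab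
    rw [Finset.sum_add_distrib, ← Finset.mul_sum, ← Finset.mul_sum] at h
    have h2 := mul_le_mul_of_nonneg_left h (inv_pos.2 hk').le
    simp only [smul_eq_mul]
    linarith
  · rw [← mul_sub, ← Finset.sum_sub_distrib, abs_mul, abs_of_pos (inv_pos.2 hk'),
      inv_mul_le_iff₀ hk']
    refine (Finset.abs_sum_le_sum_abs _ _).trans ?_
    refine (Finset.sum_le_sum fun l _ =>
      𝓕.P_iter_lip (t := t) hP l (fun x y => abs_norm_sub_norm_le x y) x y).trans ?_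
    simp

end Aux

/-- **Selection.**  `π i = (t i)⁻² / Z`, `Z = ∑ (t i)⁻²`, `σ = ∑ π t² = card I / Z ≤ τ₀²`, `P = 𝓕.P I π t`, `N = ‖·‖`,
`H y = (card I)⁻¹ ∑ (t i)⁻² E D2 y (t i u) ≥ 0`, so that `P N - N = (σ / 2) H` (`P_sub`).  Take `k₁ ≥ 1` with
`k₁ σ ∈ [L²/192, L²/96]` (`τ₀ = L / 14`) and `J ≥ 1` with `J k₁ σ ∈ [ρ²/32, ρ²/16]`.
`Hb y = k₁⁻¹ ∑_{k<k₁} P^[k] H y = 2 (P^[k₁] N y - N y) / (k₁ σ)` (telescoping) is `4 / (k₁ σ)`-Lipschitz.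
*First pigeonhole*: `J⁻¹ ∑_{j<J} P^[j k₁] Hb w₀ = 2 (P^[J k₁] N w₀ - N w₀) / (J k₁ σ) ≤ 48 / ρ` (`P_iter_norm_le`, `s = ρ/2`
or so) and `P^[j k₁] ‖· - w₀‖² w₀ ≤ ρ² / 2`; so for some `j`, and then (`exists_le_P_iter`) some `y₁`,
`Hb y₁ ρ / 96 + ‖y₁ - w₀‖² / ρ² ≤ 1`.  *Directions*: `mg m` with `γ' = γ / (3 (m + 1))`, `L₀ = min (L / 2) (L² / (12 ρ))` gives
`L₁` (this is chosen first); apply it to `ḡ = k₁⁻¹ ∑_{k<k₁} P^[k] N` (convex, `1`-Lipschitz) at `y₁` to get `y'`; the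
second difference of `ḡ` is the Cesàro mean of `P^[k] (D2 · (L₁ e j)) y'` (`P_iter_translate`); `Hb y' ≤ 160 / ρ`,
`P^[k] ‖· - y'‖² y' ≤ L² / 12`.  *Second pigeonhole* for
`H y ρ / 480 + 4‖y - y'‖² / L² + ∑_j D2 y (L₁ e j) / (3 γ' (m + 1) L₁)`, each term of Cesàro mean `≤ 1/3`. -/
theorem sel {ρ L γ : ℝ} (hL : 0 < L) (hLρ : L ≤ ρ) (hγ : 0 < γ) (m : ℕ) :
    ∃ L₁ τ₀ : ℝ, 0 < L₁ ∧ 0 < τ₀ ∧ ∀ 𝓕 : Fam X, 𝓕.Up 8 → ∀ (I : Finset ℤ) (t : ℤ → ℝ), I.Nonempty →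
      (∀ i ∈ I, 0 < t i ∧ t i ≤ τ₀) → ∀ w₀ : X, ∃ y₁, ‖y₁ - w₀‖ ≤ ρ ∧
        ∀ (ι : Type) [Fintype ι], Fintype.card ι ≤ m → ∀ e : ι → X, (∀ j, ‖e j‖ ≤ 1) →
          ∃ y, ‖y - y₁‖ ≤ L ∧
            ∑ i ∈ I, ((t i) ^ 2)⁻¹ * 𝓕.E (fun ω => D2 y (t i • 𝓕.u ω)) ≤ I.card * (700 / ρ) ∧
            ∀ j, D2 y (L₁ • e j) ≤ γ * L₁ := by
  have hρ : 0 < ρ := hL.trans_le hLρ
  have hm : (0 : ℝ) < m + 1 := by positivity
  obtain ⟨L₁, hL₁, -, H⟩ := mg (X := X) m (γ := γ / (3 * (m + 1)))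
    (L₀ := min (L / 2) (L ^ 2 / (12 * ρ))) (by positivity) (by positivity)
  refine ⟨L₁, L / 14, hL₁, by positivity, fun 𝓕 hU I t hI ht w₀ => ?_⟩
  set Z : ℝ := ∑ i ∈ I, ((t i) ^ 2)⁻¹ with hZ
  have hc0 : (0 : ℝ) < I.card := Nat.cast_pos.2 hI.card_pos
  have hZ0 : 0 < Z := Finset.sum_pos (fun i hi => by have := (ht i hi).1; positivity) hI
  set π : ℤ → ℝ := fun i => ((t i) ^ 2)⁻¹ / Z with hπ
  have hP : Fam.Prob I π := by
    refine ⟨fun i _ => by simp only [hπ]; positivity, ?_⟩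
    simp only [hπ]
    rw [← Finset.sum_div, ← hZ, div_self hZ0.ne']
  set σ : ℝ := I.card / Z with hσd
  have hσ0 : 0 < σ := by positivity
  have hσ : ∑ i ∈ I, π i * t i ^ 2 = σ := by
    rw [Finset.sum_congr rfl (g := fun _ => Z⁻¹) fun i hi => by
      have := (ht i hi).1
      simp only [hπ]
      field_simp]
    rw [Finset.sum_const, nsmul_eq_mul, hσd, div_eq_mul_inv]
  have hσL : σ ≤ L ^ 2 / 192 := by
    rw [← hσ]
    have h1 : ∑ i ∈ I, π i * t i ^ 2 ≤ ∑ i ∈ I, π i * (L / 14) ^ 2 :=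
      Finset.sum_le_sum fun i hi => mul_le_mul_of_nonneg_left
        (pow_le_pow_left₀ (ht i hi).1.le (ht i hi).2 2) (hP.1 i hi)
    rw [← Finset.sum_mul, hP.2, one_mul] at h1
    nlinarith [sq_nonneg L]
  have hG' : ∀ y, 𝓕.P I π t (fun z => ‖z‖) y - ‖y‖ =
      (2 * Z)⁻¹ * ∑ i ∈ I, ((t i) ^ 2)⁻¹ * 𝓕.E (fun ω => D2 y (t i • 𝓕.u ω)) := fun y => by
    rw [𝓕.P_sub hP (fun z => ‖z‖) y, Finset.mul_sum]
    refine Finset.sum_congr rfl fun i _ => ?_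
    simp only [hπ, D2]
    ring
  have hG : ∀ y, 0 ≤ 𝓕.P I π t (fun z => ‖z‖) y - ‖y‖ := fun y => by
    rw [hG']
    exact mul_nonneg (by positivity) (Finset.sum_nonneg fun i _ =>
      mul_nonneg (by positivity) (𝓕.E_nonneg fun ω => D2_nonneg _ _))
  obtain ⟨k, hk, hk1, hk2⟩ := sel_ceil hσ0 hσL
  have hk' : (0 : ℝ) < k := Nat.cast_pos.2 hk
  have hGb : ∀ y, 0 ≤ (𝓕.P I π t)^[k] (fun z => ‖z‖) y - ‖y‖ := fun y => by
    rw [← sel_tele1 𝓕 (fun z => ‖z‖) k y]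
    exact Finset.sum_nonneg fun l _ => sel_nonneg 𝓕 hP l hG y
  have hLρ2 : L ^ 2 ≤ ρ ^ 2 := pow_le_pow_left₀ hL.le hLρ 2
  obtain ⟨y₁, hy₁, hy₁'⟩ := sel_first 𝓕 hP hU hρ hσ hσ0 hk (by nlinarith [sq_nonneg ρ]) hGb w₀
  refine ⟨y₁, hy₁, fun ι _ hι e he => ?_⟩
  obtain ⟨hcv, hlip⟩ := sel_ces (t := t) 𝓕 hP hk
  obtain ⟨y', hy', hy''⟩ := H _ hcv hlip ι hι e he y₁
  have hw : (𝓕.P I π t)^[k] (fun z => ‖z‖) y' - ‖y'‖ ≤ 80 * (k * σ) / ρ := by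
    have h1 := (abs_le.1 (𝓕.P_iter_lip (t := t) hP k (fun x y => abs_norm_sub_norm_le x y) y' y₁)).2
    have h2 := (abs_le.1 (abs_norm_sub_norm_le y' y₁)).1
    have h3 : ‖y' - y₁‖ ≤ 16 * (k * σ) / ρ := by
      refine (hy'.trans (min_le_right _ _)).trans ?_
      rw [div_le_div_iff₀ (by positivity) hρ]
      nlinarith
    have e : 80 * (k * σ) / ρ = 48 * (k * σ) / ρ + 2 * (16 * (k * σ) / ρ) := by ring
    linarith
  obtain ⟨y, hy1, hy2, hy3⟩ := sel_second 𝓕 hP hU hρ hL (A := γ * L₁) (by positivity) hσ hσ0 hk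
    (by linarith) hG y' hw (fun j => L₁ • e j) (by
      have h1 : ∀ j, ∑ l ∈ range k, (𝓕.P I π t)^[l] (fun z => D2 z (L₁ • e j)) y' ≤
          k * (γ / (3 * (m + 1)) * L₁) := fun j => by
        have h2 := hy'' j
        simp only [sel_D2, Finset.sum_sub_distrib, Finset.sum_add_distrib, ← Finset.mul_sum]
        rw [← inv_mul_le_iff₀ hk']
        linarith
      refine (Finset.sum_le_sum fun j _ => h1 j).trans ?_
      rw [Finset.sum_const, Finset.card_univ, nsmul_eq_mul]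
      have h3 : (Fintype.card ι : ℝ) ≤ m + 1 := by
        have : (Fintype.card ι : ℝ) ≤ m := Nat.cast_le.2 hι
        linarith
      refine (mul_le_mul_of_nonneg_right h3 (by positivity)).trans (le_of_eq ?_)
      field_simp)
  refine ⟨y, ?_, ?_, hy3⟩
  · have h1 := norm_sub_le_norm_sub_add_norm_sub y y' y₁
    have h2 := hy'.trans (min_le_left _ _)
    linarith
  · rw [hG', inv_mul_le_iff₀ (by positivity)] at hy2
    refine hy2.trans ?_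
    have e : 2 * Z * (240 * σ / ρ) = I.card * (480 / ρ) := by
      rw [hσd]; field_simp; norm_num
    rw [e]
    gcongr
    norm_num

end Crest.Agent.R74
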