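import Crest.Agent.R74.Deriv
import Crest.Agent.R74.BSB

/-!
# Row 74: first order consequences of tameness
-/

namespace Crest.Agent.R74

open Finset

variable {X Y : Type*} [NormedAddCommGroup X] [NormedSpace ℝ X] [NormedAddCommGroup Y]
  [NormedSpace ℝ Y]

theorem TC0.mono {S : SI X Y} {p : X} {δ C δ' C' : ℝ} (h : TC0 S p δ C) (hδ : δ' ≤ δ) (hC : C ≤ C') :
    TC0 S p δ' C' := by
  refine ⟨h.hp, fun s hs hsp => h.ex s hs (hsp.trans hδ), fun s B hs c hc => ?_,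
    fun s B hs c hc => ?_, fun s B hs c hc => ?_, fun s s' B B' hs hs' x => ?_,
    fun s s' B B' hs hs' x => ?_⟩
  · exact (h.hX s B (hs.trans hδ) c (hc.trans hδ)).trans (by gcongr)
  · exact (h.hY s B (hs.trans hδ) c (hc.trans hδ)).trans (by gcongr)
  · exact (h.hF s B (hs.trans hδ) c (hc.trans hδ)).trans (by gcongr)
  · exact (h.lipJ s s' B B' (hs.trans hδ) (hs'.trans hδ) x).trans (by gcongr)
  · exact (h.lipT s s' B B' (hs.trans hδ) (hs'.trans hδ) x).trans (by gcongr)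

/-- `J' e - J e ≤ 4 C h` for a unit vector `e`, `h = ‖s - s'‖ > 0`:
`h J' e ≤ ‖s' + h e‖ - 1 = ‖s + (s' - s + h e)‖ - 1 ≤ J (s' - s) + h J e + C (2h)²` and `J (s' - s) ≤ 0`. -/
theorem lipJ_aux {s s' : X} {J J' : X →L[ℝ] ℝ} (hs : ‖s‖ = 1) (hs' : ‖s'‖ = 1) (hJ : Nm J s) (hJ' : Nm J' s')
    {δ C : ℝ} (hC : 0 ≤ C) (h : ∀ c, ‖c‖ ≤ δ → ‖s + c‖ - 1 - J c ≤ C * ‖c‖ ^ 2) (hne : s ≠ s')
    (hδ : 2 * ‖s - s'‖ ≤ δ) (x : X) : J' x - J x ≤ 4 * C * ‖s - s'‖ * ‖x‖ := by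
  rcases eq_or_ne x 0 with rfl | hx
  · simp
  have hx' : 0 < ‖x‖ := norm_pos_iff.2 hx
  have hh : 0 < ‖s - s'‖ := norm_pos_iff.2 (sub_ne_zero.2 hne)
  set r := ‖s - s'‖ with hr
  set t := r / ‖x‖ with ht
  have ht0 : 0 < t := div_pos hh hx'
  have htx : t * ‖x‖ = r := div_mul_cancel₀ _ hx'.ne'
  have hn : ‖t • x‖ = r := by rw [norm_smul, Real.norm_of_nonneg ht0.le, htx]
  have hc : ‖s' - s + t • x‖ ≤ 2 * r := by
    refine (norm_add_le _ _).trans ?_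
    rw [hn, norm_sub_rev]; linarith
  have h1 := hJ'.sub_le (t • x)
  have h2 := h _ (hc.trans hδ)
  have h3 : C * ‖s' - s + t • x‖ ^ 2 ≤ C * (2 * r) ^ 2 := by gcongr
  have h4 := hJ.le s'
  have h5 := hJ.2
  rw [show s + (s' - s + t • x) = s' + t • x by abel, map_add, map_sub, map_smul, smul_eq_mul] at h2
  rw [map_smul, smul_eq_mul] at h1
  have h6 : t * (J' x - J x) ≤ t * (4 * C * r * ‖x‖) := by
    have : t * (4 * C * r * ‖x‖) = C * (2 * r) ^ 2 := by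
      rw [show t * (4 * C * r * ‖x‖) = 4 * C * r * (t * ‖x‖) by ring, htx]; ring
    rw [this, mul_sub]; linarith
  exact le_of_mul_le_mul_left h6 ht0

/-- expand `F (s' + h e)` at `s'` and at `s`, and `F s'` at `s`. -/
theorem lipT_aux {F : X → Y} {s s' : X} {T T' : X →L[ℝ] Y} {δ C : ℝ} (hC : 0 ≤ C)
    (h : ∀ c, ‖c‖ ≤ δ → ‖F (s + c) - F s - T c‖ ≤ C * ‖c‖ ^ 2)
    (h' : ∀ c, ‖c‖ ≤ δ → ‖F (s' + c) - F s' - T' c‖ ≤ C * ‖c‖ ^ 2) (hne : s ≠ s')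
    (hδ : 2 * ‖s - s'‖ ≤ δ) (x : X) : ‖T x - T' x‖ ≤ 6 * C * ‖s - s'‖ * ‖x‖ := by
  rcases eq_or_ne x 0 with rfl | hx
  · simp
  have hx' : 0 < ‖x‖ := norm_pos_iff.2 hx
  have hh : 0 < ‖s - s'‖ := norm_pos_iff.2 (sub_ne_zero.2 hne)
  set r := ‖s - s'‖ with hr
  set t := r / ‖x‖ with ht
  have ht0 : 0 < t := div_pos hh hx'
  have htx : t * ‖x‖ = r := div_mul_cancel₀ _ hx'.ne'
  have hn : ‖t • x‖ = r := by rw [norm_smul, Real.norm_of_nonneg ht0.le, htx]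
  have hn' : ‖s' - s‖ = r := norm_sub_rev _ _
  have hc : ‖s' - s + t • x‖ ≤ 2 * r := by
    refine (norm_add_le _ _).trans ?_
    rw [hn, hn']; linarith
  have h1 := h' (t • x) (by rw [hn]; linarith)
  have h2 := h _ (hc.trans hδ)
  have h3 : C * ‖s' - s + t • x‖ ^ 2 ≤ C * (2 * r) ^ 2 := by gcongr
  have h4 := h (s' - s) (by rw [hn']; linarith)
  rw [show s + (s' - s + t • x) = s' + t • x by abel] at h2
  rw [show s + (s' - s) = s' by abel, hn'] at h4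
  rw [hn] at h1
  have e : t • (T x - T' x) = (F (s' + t • x) - F s' - T' (t • x)) -
      (F (s' + t • x) - F s - T (s' - s + t • x)) + (F s' - F s - T (s' - s)) := by
    rw [map_add, map_smul, map_smul, smul_sub]; abel
  have h5 : ‖t • (T x - T' x)‖ ≤ C * r ^ 2 + C * (2 * r) ^ 2 + C * r ^ 2 := by
    rw [e]
    refine (norm_add_le _ _).trans (add_le_add ((norm_sub_le _ _).trans (add_le_add h1 ?_)) h4)
    exact h2.trans h3
  rw [norm_smul, Real.norm_of_nonneg ht0.le] at h5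
  have h6 : t * ‖T x - T' x‖ ≤ t * (6 * C * r * ‖x‖) := by
    have : t * (6 * C * r * ‖x‖) = C * r ^ 2 + C * (2 * r) ^ 2 + C * r ^ 2 := by
      rw [show t * (6 * C * r * ‖x‖) = 6 * C * r * (t * ‖x‖) by ring, htx]; ring
    rw [this]; exact h5
  exact le_of_mul_le_mul_left h6 ht0

/-- `δ' = min δ c0 / 4`, `C' = 6 C0 (1 + C) + 4 C + 1`; `sm_of_D2_le`, `exists_BS`, `Nm.h_le_D2`, `BS.dc`;
for `s = s'` use `subst`, `J_unique`, `T_unique`. -/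
theorem tc0_of_tame [CompleteSpace X] [CompleteSpace Y] (S : SI X Y) {δ C : ℝ} (hδ : 0 < δ) (hC : 0 < C) :
    ∃ δ' C' : ℝ, 0 < δ' ∧ δ' ≤ δ ∧ 1 ≤ C' ∧ ∀ p, ‖p‖ = 1 → Tame S p δ C → TC0 S p δ' C' := by
  have hm : 0 < min δ c0 := lt_min hδ c0_pos
  have hm1 : min δ c0 ≤ δ := min_le_left _ _
  have hm2 : min δ c0 ≤ c0 := min_le_right _ _
  have hC0 := C0_pos
  have hCC : 0 < C0 * (1 + C) := by positivity
  have hd : min δ c0 / 4 ≤ δ := by linarith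
  refine ⟨min δ c0 / 4, 6 * (C0 * (1 + C)) + 4 * C + 1, by positivity, hd, by linarith,
    fun p hp hT => ?_⟩
  have hX : ∀ s (B : BS S s), ‖s - p‖ ≤ min δ c0 / 4 → ∀ c, ‖c‖ ≤ δ →
      ‖s + c‖ - 1 - B.J c ≤ C * ‖c‖ ^ 2 := by
    intro s B hs c hc
    have := B.hJ.h_le_D2 c
    rw [B.hp] at this
    exact this.trans ((hT s B.hp (hs.trans hd)).1 c hc)
  have hY : ∀ s (B : BS S s), ‖s - p‖ ≤ min δ c0 / 4 → ∀ c, ‖c‖ ≤ δ →
      ‖S.F s + c‖ - 1 - B.J' c ≤ C * ‖c‖ ^ 2 := by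
    intro s B hs c hc
    have := B.hJ'.h_le_D2 c
    rw [B.norm_Fp] at this
    exact this.trans ((hT s B.hp (hs.trans hd)).2 c hc)
  have hF : ∀ s (B : BS S s), ‖s - p‖ ≤ min δ c0 / 4 → ∀ c, ‖c‖ ≤ min δ c0 →
      ‖S.F (s + c) - S.F s - B.T c‖ ≤ C0 * (1 + C) * ‖c‖ ^ 2 := by
    intro s B hs c hc
    refine (B.dc c (hc.trans hm2)).trans ?_
    have := hX s B hs c (hc.trans hm1)
    rw [mul_assoc]
    refine mul_le_mul_of_nonneg_left ?_ hC0.le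
    linarith
  have hdist : ∀ s s' : X, ‖s - p‖ ≤ min δ c0 / 4 → ‖s' - p‖ ≤ min δ c0 / 4 →
      2 * ‖s - s'‖ ≤ min δ c0 := by
    intro s s' hs hs'
    have : ‖s - s'‖ ≤ ‖s - p‖ + ‖s' - p‖ := by
      rw [show s - s' = (s - p) - (s' - p) by abel]; exact norm_sub_le _ _
    linarith
  refine ⟨hp, fun s hs hsp => ?_, fun s B hs c hc => ?_, fun s B hs c hc => ?_,
    fun s B hs c hc => ?_, fun s s' B B' hs hs' x => ?_, fun s s' B B' hs hs' x => ?_⟩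
  · exact exists_BS S hs (sm_of_D2_le hδ (hT s hs (hsp.trans hd)).1)
      (sm_of_D2_le hδ (hT s hs (hsp.trans hd)).2)
  · exact (hX s B hs c (hc.trans hd)).trans (by gcongr; linarith)
  · exact (hY s B hs c (hc.trans hd)).trans (by gcongr; linarith)
  · exact (hF s B hs c (hc.trans (by linarith))).trans (by gcongr; linarith)
  · rcases eq_or_ne s s' with rfl | hne
    · rw [B.J_unique B' x]; simp
    have h1 := lipJ_aux B.hp B'.hp B.hJ B'.hJ hC.le (hX s B hs) hne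
      ((hdist s s' hs hs').trans hm1) x
    have h2 := lipJ_aux B'.hp B.hp B'.hJ B.hJ hC.le (hX s' B' hs') hne.symm
      ((hdist s' s hs' hs).trans hm1) x
    rw [norm_sub_rev s' s] at h2
    have h3 : |B.J x - B'.J x| ≤ 4 * C * ‖s - s'‖ * ‖x‖ := abs_sub_le_iff.2 ⟨h2, h1⟩
    exact h3.trans (by gcongr; linarith)
  · rcases eq_or_ne s s' with rfl | hne
    · rw [B.T_unique B' x]; simp
    have h1 := lipT_aux (F := S.F) (T := (B.T : X →L[ℝ] Y)) (T' := (B'.T : X →L[ℝ] Y)) hCC.le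
      (hF s B hs) (hF s' B' hs') hne (hdist s s' hs hs') x
    exact h1.trans (by gcongr; linarith)

end Crest.Agent.R74
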