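import Crest.Agent.R74.Walk1
import Crest.Agent.R74.Curv
import Crest.Agent.R74.R2
import Crest.Agent.R74.FamEx

/-!
# Row 74: the infinite dimensional case
-/

namespace Crest.Agent.R74

open Finset

variable {X Y : Type*} [NormedAddCommGroup X] [NormedSpace ℝ X] [NormedAddCommGroup Y]
  [NormedSpace ℝ Y]

/-- if `0` is on the segment `[x, y]` the ratio is `1`; otherwise the norm is at least `d > 0` on it (compactness), cut
it into `N` pieces of length `≤ δ d`; one piece has ratio `≥ l`; normalise its first end point. -/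
theorem short_pair (S : SI X Y) {x y : X} {l δ : ℝ} (hl : 1 ≤ l) (hδ : 0 < δ)
    (h : l * ‖x - y‖ < ‖S.F x - S.F y‖) :
    ∃ x₀ c : X, ‖x₀‖ = 1 ∧ c ≠ 0 ∧ ‖c‖ ≤ δ ∧ l * ‖c‖ < ‖S.F (x₀ + c) - S.F x₀‖ := by
  set d := x - y with hd
  have hne : ∀ s ∈ Set.Icc (0 : ℝ) 1, y + s • d ≠ 0 := by
    intro s hs h0
    have hy : y = (-s) • d := by rw [neg_smul]; exact eq_neg_of_add_eq_zero_left h0
    have hx : x = (1 - s) • d := by
      have : x = y + d := by rw [hd]; abel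
      rw [this, sub_smul, one_smul]
      conv_lhs => rw [hy, neg_smul]
      abel
    have e : S.F x - S.F y = S.F d := by
      conv_lhs => rw [hx, hy, S.smul, S.smul, ← sub_smul]
      simp
    rw [e, S.norm] at h
    nlinarith [norm_nonneg d]
  obtain ⟨s₀, hs₀, hmin⟩ := (isCompact_Icc (a := (0 : ℝ)) (b := 1)).exists_isMinOn ⟨0, by simp⟩
    (f := fun s : ℝ => ‖y + s • d‖) (by fun_prop)
  have hd₀ : 0 < ‖y + s₀ • d‖ := norm_pos_iff.2 (hne s₀ hs₀)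
  obtain ⟨N, hN⟩ := exists_nat_gt (‖d‖ / (δ * ‖y + s₀ • d‖))
  have hN0 : (0 : ℝ) < N := lt_of_le_of_lt (by positivity) hN
  rw [div_lt_iff₀ (by positivity)] at hN
  obtain ⟨k, hk, hkl⟩ : ∃ k < N, l * ‖(N : ℝ)⁻¹ • d‖ <
      ‖S.F (y + ((k : ℝ) / N) • d + (N : ℝ)⁻¹ • d) - S.F (y + ((k : ℝ) / N) • d)‖ := by
    by_contra hcon
    push Not at hcon
    have e1 := dist_le_range_sum_dist (fun k : ℕ => S.F (y + ((k : ℝ) / N) • d)) N
    have e2 : ∑ k ∈ range N, dist (S.F (y + ((k : ℝ) / N) • d)) (S.F (y + (((k + 1 : ℕ) : ℝ) / N) • d)) ≤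
        ∑ _k ∈ range N, l * ‖(N : ℝ)⁻¹ • d‖ := by
      refine Finset.sum_le_sum fun k hk => ?_
      rw [dist_comm, dist_eq_norm]
      have e : y + (((k + 1 : ℕ) : ℝ) / N) • d = y + ((k : ℝ) / N) • d + (N : ℝ)⁻¹ • d := by
        rw [add_assoc, ← add_smul]
        congr 2
        push_cast
        field_simp
      rw [e]
      exact hcon k (mem_range.1 hk)
    rw [Finset.sum_const, card_range, nsmul_eq_mul, norm_smul, norm_inv, Real.norm_natCast] at e2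
    have e3 : (N : ℝ) * (l * ((N : ℝ)⁻¹ * ‖d‖)) = l * ‖d‖ := by field_simp
    have e4 : y + ((N : ℝ) / N) • d = x := by rw [div_self hN0.ne', one_smul, hd]; abel
    simp only [Nat.cast_zero, zero_div, zero_smul, add_zero, e4] at e1
    rw [dist_comm, dist_eq_norm] at e1
    linarith
  set a := y + ((k : ℝ) / N) • d with ha
  have hkI : (k : ℝ) / N ∈ Set.Icc (0 : ℝ) 1 :=
    ⟨by positivity, (div_le_one hN0).2 (by exact_mod_cast hk.le)⟩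
  have ha0 : a ≠ 0 := hne _ hkI
  have hapos : 0 < ‖a‖ := norm_pos_iff.2 ha0
  have hamin : ‖y + s₀ • d‖ ≤ ‖a‖ := hmin hkI
  have key : l * ‖‖a‖⁻¹ • (N : ℝ)⁻¹ • d‖ < ‖S.F (‖a‖⁻¹ • a + ‖a‖⁻¹ • (N : ℝ)⁻¹ • d) - S.F (‖a‖⁻¹ • a)‖ := by
    rw [← smul_add, S.smul, S.smul, ← smul_sub, norm_smul ‖a‖⁻¹, norm_smul ‖a‖⁻¹, norm_inv, norm_norm,
      mul_left_comm]
    exact mul_lt_mul_of_pos_left hkl (inv_pos.2 hapos)
  refine ⟨‖a‖⁻¹ • a, ‖a‖⁻¹ • (N : ℝ)⁻¹ • d, norm_normalize ha0, ?_, ?_, key⟩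
  · intro h0
    rw [h0] at key
    simp at key
  · rw [norm_smul, norm_smul, norm_inv, norm_norm, norm_inv, Real.norm_natCast, inv_mul_le_iff₀ hapos,
      inv_mul_le_iff₀ hN0]
    have : δ * ‖y + s₀ • d‖ ≤ ‖a‖ * δ := by nlinarith
    nlinarith

/-- the Lipschitz constant: `L = sSup` of the ratios (bounded by `lip3`). -/
theorem exists_lip (S : SI X Y) {x y : X} (h : ‖x - y‖ < ‖S.F x - S.F y‖) :
    ∃ L : ℝ, 1 < L ∧ (∀ x y, ‖S.F x - S.F y‖ ≤ L * ‖x - y‖) ∧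
      ∀ l < L, ∃ x y, l * ‖x - y‖ < ‖S.F x - S.F y‖ := by
  let R : Set ℝ := {r | ∃ x y : X, x ≠ y ∧ r = ‖S.F x - S.F y‖ / ‖x - y‖}
  have hbd : BddAbove R := ⟨3, by
    rintro r ⟨x, y, hxy, rfl⟩
    rw [div_le_iff₀ (norm_pos_iff.2 (sub_ne_zero.2 hxy))]
    exact S.lip3 x y⟩
  have hxy : x ≠ y := by
    rintro rfl
    simp at h
  have hne : R.Nonempty := ⟨_, x, y, hxy, rfl⟩
  refine ⟨sSup R, lt_of_lt_of_le ?_ (le_csSup hbd ⟨x, y, hxy, rfl⟩), fun x' y' => ?_, fun l hl => ?_⟩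
  · rwa [lt_div_iff₀ (norm_pos_iff.2 (sub_ne_zero.2 hxy)), one_mul]
  · rcases eq_or_ne x' y' with rfl | h'
    · simp
    · have := le_csSup hbd ⟨x', y', h', rfl⟩
      rwa [div_le_iff₀ (norm_pos_iff.2 (sub_ne_zero.2 h'))] at this
  · obtain ⟨r, ⟨x', y', h', rfl⟩, hr⟩ := exists_lt_of_lt_csSup hne hl
    exact ⟨x', y', by rwa [lt_div_iff₀ (norm_pos_iff.2 (sub_ne_zero.2 h'))] at hr⟩

/-- `A₀ = (L - 1)/2`, `ε₁ = A₀ / 3`, `δ` from `good_pair`, `short_pair` with `l = L - A₀/500`, `‖c‖ ≤ min δ (1/8)`, `ψ` norming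
`F (x₀ + c) - F x₀`, `g z = ψ (F (z + c) - F z)`, `A = A₀ ‖c‖`, `R = 10‖c‖`, `tame_of_not_good`, `hh`, `exists_fam`, `walk_abs`. -/
theorem inf_lip [CompleteSpace X] [CompleteSpace Y] [TopologicalSpace.SeparableSpace X]
    [TopologicalSpace.SeparableSpace Y] (S : SI X Y) (hX : ¬ FiniteDimensional ℝ X) (x y : X) :
    ‖S.F x - S.F y‖ ≤ ‖x - y‖ := by
  by_contra hcon
  obtain ⟨L, hL, hlip, hsup⟩ := exists_lip S (not_le.1 hcon)
  set A₀ := (L - 1) / 2 with hA₀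
  have hA₀0 : 0 < A₀ := by rw [hA₀]; linarith
  have hε₁ : 0 < A₀ / 3 := by positivity
  obtain ⟨δg, hδg, hgood⟩ := good_pair S hε₁
  obtain ⟨x', y', hxy'⟩ := hsup (L - A₀ / 500) (by linarith)
  obtain ⟨x₀, c, hx₀, hc0, hcδ, hc⟩ := short_pair S (by rw [hA₀]; linarith) (δ := min δg (1 / 8))
    (by positivity) hxy'
  have hcpos : 0 < ‖c‖ := norm_pos_iff.2 hc0
  have hc8 : ‖c‖ ≤ 1 / 8 := hcδ.trans (min_le_right _ _)
  obtain ⟨ψ, hψ⟩ := exists_nm (S.F (x₀ + c) - S.F x₀)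
  obtain ⟨C, δ₀, hC, hδ₀, htame⟩ := tame_of_not_good S hε₁
  set A := A₀ * ‖c‖ with hA
  have hA0 : 0 < A := by positivity
  obtain ⟨ε₂, hε₂, hε₂a, hε₂b⟩ : ∃ ε₂ : ℝ, 0 < ε₂ ∧ 1025 * (3 * ε₂) ≤ A / 800 ∧ 4100 * (8 * ε₂) ≤ 1 / 800 :=
    ⟨min (A / (800 * 3075)) (1 / (800 * 32800)), by positivity,
      by linarith [min_le_left (A / (800 * 3075)) (1 / (800 * 32800))],
      by linarith [min_le_right (A / (800 * 3075)) (1 / (800 * 32800))]⟩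
  obtain ⟨β, b, n, hβ, hb, hn, hhh⟩ := hh S (δ := min δ₀ (10 * ‖c‖ / 4)) (by positivity) hC hε₁ hε₂
  obtain ⟨𝓕, hG⟩ := exists_fam hX (β := min β (min ε₂ 1)) (by positivity)
  obtain ⟨τ₀, hτ₀, hhh'⟩ := hhh 𝓕 (hG.mono (by positivity) (min_le_left _ _))
  obtain ⟨M, hM1, hM⟩ := 𝓕.exists_bound
  have hb0 : 0 < b := by linarith
  obtain ⟨τ, hτ, hτa, hτb⟩ : ∃ τ : ℝ, 0 < τ ∧ 4 * τ ≤ τ₀ ∧ 2 * sc τ b (2 * n) * M ≤ 1 := by
    refine ⟨min (τ₀ / 4) (1 / (2 * b ^ (2 * (n : ℤ)) * M)), by positivity,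
      by linarith [min_le_left (τ₀ / 4) (1 / (2 * b ^ (2 * (n : ℤ)) * M))], ?_⟩
    have := min_le_right (τ₀ / 4) (1 / (2 * b ^ (2 * (n : ℤ)) * M))
    rw [le_div_iff₀ (by positivity)] at this
    unfold sc
    linarith
  have hZ := Zs_pos hn hb hτ
  have hσ0 : 0 < (Zs n b τ)⁻¹ := inv_pos.2 hZ
  have ht0 := sc_pos hτ hb0 (2 * n)
  have hσ1 : (Zs n b τ)⁻¹ ≤ 1 := by
    refine (Zs_inv_le hn hb hτ).trans ?_
    have : sc τ b (2 * n) ≤ 1 := by nlinarith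
    nlinarith
  -- at points far from good points the averaged second differences are small
  have hsmall : ∀ (p₀ z : X), (∀ (p : X) (B : BS S p), ‖p - p₀‖ ≤ 10 * ‖c‖ → ¬ B.Good (A₀ / 3)) →
      3 / 8 ≤ ‖z‖ → ‖‖z‖⁻¹ • z - p₀‖ ≤ 10 * ‖c‖ / 2 →
      ‖DF S 𝓕 n b τ z‖ ≤ 3 * ε₂ ∧ HN 𝓕 n b τ z ≤ 3 * ε₂ := by
    intro p₀ z hng hz hzp
    have hzpos : 0 < ‖z‖ := by linarith
    have hz0 : z ≠ 0 := norm_pos_iff.1 hzpos
    have e : z = ‖z‖ • ‖z‖⁻¹ • z := by rw [smul_smul, mul_inv_cancel₀ hzpos.ne', one_smul]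
    have hτz : τ / ‖z‖ ≤ τ₀ := by rw [div_le_iff₀ hzpos]; nlinarith
    have hinv : ‖z‖⁻¹ ≤ 3 := by rw [inv_le_comm₀ hzpos (by norm_num)]; linarith
    rcases hhh' (τ / ‖z‖) (by positivity) hτz _ (norm_normalize hz0)
      (htame p₀ (10 * ‖c‖) (by positivity) hng _ hzp) with ⟨B, hB⟩ | ⟨h1, h2⟩
    · exact absurd hB (hng _ B (by linarith))
    · have e1 := DF_smul S 𝓕 n b τ hzpos (‖z‖⁻¹ • z)
      have e2 := HN_smul 𝓕 n b τ hzpos (‖z‖⁻¹ • z)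
      rw [← e] at e1 e2
      rw [e1, e2, norm_smul, norm_inv, norm_norm]
      have := HN_nonneg 𝓕 n b (τ / ‖z‖) (‖z‖⁻¹ • z)
      constructor <;> gcongr
  have key := walk_abs 𝓕 hG (pw_prob hn hb hτ) (pw_sq hn hb hτ) hσ0 hσ1
    (g := fun z => ψ (S.F (z + c) - S.F z)) (L := L * ‖c‖) (A := A) (ε₁ := 3 * ε₂) (ε₂ := 8 * ε₂) hA0.le
    (by positivity) (by positivity)
    (fun z => (hψ.le _).trans (by simpa using hlip (z + c) z)) (fun z hz1 hz2 => ?_) hx₀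
  · have e1 := hψ.2
    rw [e1] at key
    nlinarith
  by_cases hex : ∃ (p : X) (B : BS S p), ‖p - ‖z‖⁻¹ • z‖ ≤ 10 * ‖c‖ ∧ B.Good (A₀ / 3)
  · obtain ⟨p, B, hp, hB⟩ := hex
    left
    have := hgood p B hB z c hz1 hz2 (hcδ.trans (min_le_left _ _)) (by rwa [norm_sub_rev])
    refine (hψ.le _).trans (this.trans (le_of_eq ?_))
    rw [hA, hA₀]; ring
  · right
    push Not at hex
    have hzpos : 0 < ‖z‖ := by linarith
    have hz0 : z ≠ 0 := norm_pos_iff.1 hzpos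
    have hzc : 3 / 8 ≤ ‖z + c‖ := by
      have := norm_sub_le (z + c) c
      rw [add_sub_cancel_right] at this
      linarith
    have hzc0 : z + c ≠ 0 := norm_pos_iff.1 (by linarith)
    obtain ⟨h1, h2⟩ := hsmall _ z hex (by linarith) (by rw [sub_self, norm_zero]; positivity)
    obtain ⟨h3, -⟩ := hsmall _ (z + c) hex hzc (by
      rw [norm_sub_rev]
      refine (normalize_sub_le hz0 hzc0).trans ?_
      rw [div_le_iff₀ hzpos, sub_add_cancel_left, norm_neg]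
      nlinarith)
    constructor
    · have e1 := step_F S 𝓕 hn hb hτ ψ c z
      have e2 := (abs_le.1 ((hψ.abs_le (DF S 𝓕 n b τ (z + c) - DF S 𝓕 n b τ z)).trans (norm_sub_le _ _))).1
      change _ ≤ PW 𝓕 n b τ _ z + _
      nlinarith
    · have e1 := step_N 𝓕 hG hM hn hb hτ z
      change PW 𝓕 n b τ _ z ≤ _
      have e2 : |‖z‖ - 1| ≤ 1 := abs_le.2 ⟨by linarith, by linarith⟩
      have e3 : (|‖z‖ - 1| + 2 * sc τ b (2 * n) * M) * HN 𝓕 n b τ z ≤ 2 * (3 * ε₂) := by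
        have := HN_nonneg 𝓕 n b τ z
        gcongr
        linarith
      have e4 : (min β (min ε₂ 1)) ^ 2 ≤ ε₂ := by
        have f1 : min β (min ε₂ 1) ≤ ε₂ := (min_le_right _ _).trans (min_le_left _ _)
        have f2 : min β (min ε₂ 1) ≤ 1 := (min_le_right _ _).trans (min_le_right _ _)
        have f3 : 0 < min β (min ε₂ 1) := by positivity
        nlinarith
      have e5 := mul_le_mul_of_nonneg_left
        (show (|‖z‖ - 1| + 2 * sc τ b (2 * n) * M) * HN 𝓕 n b τ z + 2 * (min β (min ε₂ 1)) ^ 2 ≤ 8 * ε₂ by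
          linarith) hσ0.le
      linarith

end Crest.Agent.R74
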