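import Crest.Agent.R74.Psi
import Crest.Agent.R74.Seq

/-!
# Row 74: the random walk: one step, and the potential argument
-/

namespace Crest.Agent.R74

open Finset

variable {X Y : Type*} [NormedAddCommGroup X] [NormedSpace ℝ X] [NormedAddCommGroup Y]
  [NormedSpace ℝ Y]

theorem le_Zs {n : ℕ} (hn : 1 ≤ n) {b τ : ℝ} (hb : 1 < b) (hτ : 0 < τ) :
    (sc τ b (2 * n) ^ 2)⁻¹ ≤ Zs n b τ := by
  rw [← Wt_const hn (sc τ b (2 * n) ^ 2)⁻¹]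
  refine Wt_mono n fun i hi => ?_
  have h1 := sc_pos hτ (show (0 : ℝ) < b by linarith) i
  exact inv_anti₀ (pow_pos h1 2)
    (pow_le_pow_left₀ h1.le (sc_mono hτ.le hb.le (mem_Icc.1 hi).2) 2)

theorem Zs_pos {n : ℕ} (hn : 1 ≤ n) {b τ : ℝ} (hb : 1 < b) (hτ : 0 < τ) : 0 < Zs n b τ := by
  exact (inv_pos.2 (pow_pos (sc_pos hτ (by linarith) _) 2)).trans_le (le_Zs hn hb hτ)

theorem pw_prob {n : ℕ} (hn : 1 ≤ n) {b τ : ℝ} (hb : 1 < b) (hτ : 0 < τ) :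
    Fam.Prob (Icc (0 : ℤ) (2 * n)) (pw n b τ) := by
  have hZ := Zs_pos hn hb hτ
  refine ⟨fun i _ => ?_, ?_⟩
  · have := tent_nonneg n i
    unfold pw
    positivity
  · unfold pw
    rw [← Finset.sum_div, div_eq_one_iff_eq hZ.ne']
    rfl

theorem pw_sq {n : ℕ} (hn : 1 ≤ n) {b τ : ℝ} (hb : 1 < b) (hτ : 0 < τ) :
    ∑ i ∈ Icc (0 : ℤ) (2 * n), pw n b τ i * sc τ b i ^ 2 = (Zs n b τ)⁻¹ := by
  have hZ := Zs_pos hn hb hτ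
  have e : ∀ i, pw n b τ i * sc τ b i ^ 2 = tent n i * (Zs n b τ)⁻¹ := by
    intro i
    have h1 := sc_pos hτ (show (0 : ℝ) < b by linarith) i
    unfold pw
    field_simp
  simp only [e]
  rw [← Finset.sum_mul, tent_sum hn, one_mul]

theorem Zs_inv_le {n : ℕ} (hn : 1 ≤ n) {b τ : ℝ} (hb : 1 < b) (hτ : 0 < τ) :
    (Zs n b τ)⁻¹ ≤ sc τ b (2 * n) ^ 2 := by
  have h1 := sc_pos hτ (show (0 : ℝ) < b by linarith) (2 * n)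
  exact inv_le_of_inv_le₀ (pow_pos h1 2) (le_Zs hn hb hτ)

theorem PW_sub (𝓕 : Fam X) {n : ℕ} (hn : 1 ≤ n) {b τ : ℝ} (hb : 1 < b) (hτ : 0 < τ) (g : X → ℝ) (x : X) :
    PW 𝓕 n b τ g x - g x = (Zs n b τ)⁻¹ / 2 * Wt n fun i => ((sc τ b i) ^ 2)⁻¹ *
      𝓕.E fun ω => g (x + sc τ b i • 𝓕.u ω) + g (x - sc τ b i • 𝓕.u ω) - 2 * g x := by
  rw [PW, 𝓕.P_sub (pw_prob hn hb hτ), Wt, Finset.mul_sum]
  refine Finset.sum_congr rfl fun i _ => ?_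
  rw [pw, smul_eq_mul]
  ring

theorem step_F (S : SI X Y) (𝓕 : Fam X) {n : ℕ} (hn : 1 ≤ n) {b τ : ℝ} (hb : 1 < b) (hτ : 0 < τ)
    (ψ : Y →L[ℝ] ℝ) (c x : X) :
    PW 𝓕 n b τ (fun z => ψ (S.F (z + c) - S.F z)) x - ψ (S.F (x + c) - S.F x) =
      (Zs n b τ)⁻¹ / 2 * ψ (DF S 𝓕 n b τ (x + c) - DF S 𝓕 n b τ x) := by
  rw [PW_sub 𝓕 hn hb hτ (fun z => ψ (S.F (z + c) - S.F z)) x, DF, DF, ← Wt_sub, Wt_clm]
  congr 2
  funext i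
  rw [← smul_sub, ← 𝓕.E_sub, map_smul, 𝓕.E_clm, smul_eq_mul]
  congr 2
  funext ω
  rw [add_right_comm x _ c, show x - sc τ b i • 𝓕.u ω + c = x + c - sc τ b i • 𝓕.u ω by abel]
  simp only [map_sub, map_add, map_smul, smul_eq_mul]
  ring

/-- `J` norming `x`, `‖x ± c‖ - ‖x‖ = ± J c + h±`, `0 ≤ h±`, `h₊ + h₋ = D2 x c ≤ 2‖c‖`. -/
theorem sq_second_diff {x : X} {J : X →L[ℝ] ℝ} (hJ : Nm J x) (c : X) :
    (‖x + c‖ - 1) ^ 2 + (‖x - c‖ - 1) ^ 2 - 2 * (‖x‖ - 1) ^ 2 ≤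
      2 * |‖x‖ - 1| * D2 x c + 4 * J c ^ 2 + 4 * ‖c‖ * D2 x c := by
  have h1 := hJ.sub_le c
  have h2 := hJ.sub_le (-c)
  rw [map_neg, ← sub_eq_add_neg] at h2
  have h3 := D2_le x c
  have h4 := D2_nonneg x c
  have h5 : (‖x‖ - 1) * D2 x c ≤ |‖x‖ - 1| * D2 x c :=
    mul_le_mul_of_nonneg_right (le_abs_self _) h4
  have h6 : D2 x c * D2 x c ≤ 2 * ‖c‖ * D2 x c := mul_le_mul_of_nonneg_right h3 h4
  have hD : D2 x c = ‖x + c‖ + ‖x - c‖ - 2 * ‖x‖ := rfl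
  set p := ‖x + c‖ - ‖x‖ - J c with hp
  set q := ‖x - c‖ - ‖x‖ + J c with hq
  have hp0 : 0 ≤ p := by linarith
  have hq0 : 0 ≤ q := by linarith
  have e1 : ‖x + c‖ = ‖x‖ + J c + p := by linarith
  have e2 : ‖x - c‖ = ‖x‖ - J c + q := by linarith
  have e3 : D2 x c = p + q := by linarith
  rw [e3] at h5 h6 ⊢
  rw [e1, e2]
  nlinarith [sq_nonneg (J c - p), sq_nonneg (J c + q), mul_nonneg hp0 hq0]

theorem step_N (𝓕 : Fam X) {β M : ℝ} (hG : 𝓕.Good β) (hM : ∀ ω, ‖𝓕.u ω‖ ≤ M) {n : ℕ} (hn : 1 ≤ n) {b τ : ℝ}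
    (hb : 1 < b) (hτ : 0 < τ) (x : X) :
    PW 𝓕 n b τ (fun z => (‖z‖ - 1) ^ 2) x - (‖x‖ - 1) ^ 2 ≤
      (Zs n b τ)⁻¹ * ((|‖x‖ - 1| + 2 * sc τ b (2 * n) * M) * HN 𝓕 n b τ x + 2 * β ^ 2) := by
  have hZ := Zs_pos hn hb hτ
  obtain ⟨J, hJ⟩ := exists_nm x
  have hb0 : (0 : ℝ) < b := by linarith
  rw [PW_sub 𝓕 hn hb hτ (fun z => (‖z‖ - 1) ^ 2) x]
  have hβ : 𝓕.E (fun ω => J (𝓕.u ω) ^ 2) ≤ β ^ 2 := by
    refine (hG.weak J).trans (mul_le_of_le_one_right (sq_nonneg _) ?_)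
    exact pow_le_one₀ (norm_nonneg _) hJ.1
  set K : ℝ := |‖x‖ - 1| + 2 * sc τ b (2 * n) * M with hK
  have key : (Wt n fun i => ((sc τ b i) ^ 2)⁻¹ * 𝓕.E fun ω => (‖x + sc τ b i • 𝓕.u ω‖ - 1) ^ 2 +
      (‖x - sc τ b i • 𝓕.u ω‖ - 1) ^ 2 - 2 * (‖x‖ - 1) ^ 2) ≤
      Wt n fun i => 2 * K * (((sc τ b i) ^ 2)⁻¹ * 𝓕.E fun ω => D2 x (sc τ b i • 𝓕.u ω)) +
        4 * β ^ 2 := by
    refine Wt_mono n fun i hi => ?_
    have h1 := sc_pos hτ hb0 i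
    have h2 := sc_mono hτ.le hb.le (mem_Icc.1 hi).2
    have h3 : (𝓕.E fun ω => (‖x + sc τ b i • 𝓕.u ω‖ - 1) ^ 2 +
        (‖x - sc τ b i • 𝓕.u ω‖ - 1) ^ 2 - 2 * (‖x‖ - 1) ^ 2) ≤
        𝓕.E fun ω => 2 * K * D2 x (sc τ b i • 𝓕.u ω) + 4 * sc τ b i ^ 2 * J (𝓕.u ω) ^ 2 := by
      refine 𝓕.E_mono fun ω => (sq_second_diff hJ _).trans ?_
      have h4 := D2_nonneg x (sc τ b i • 𝓕.u ω)
      have h5 : ‖sc τ b i • 𝓕.u ω‖ ≤ sc τ b (2 * n) * M := by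
        rw [norm_smul, Real.norm_eq_abs, abs_of_pos h1]
        exact mul_le_mul h2 (hM ω) (norm_nonneg _) (h1.le.trans h2)
      have h6 := mul_le_mul_of_nonneg_right h5 h4
      rw [map_smul, smul_eq_mul, hK]
      nlinarith
    rw [𝓕.E_add, 𝓕.E_mul, 𝓕.E_mul] at h3
    have h7 : (0 : ℝ) < (sc τ b i ^ 2)⁻¹ := by positivity
    refine (mul_le_mul_of_nonneg_left h3 h7.le).trans ?_
    have e : (sc τ b i ^ 2)⁻¹ * (2 * K * (𝓕.E fun ω => D2 x (sc τ b i • 𝓕.u ω)) +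
        4 * sc τ b i ^ 2 * 𝓕.E fun ω => J (𝓕.u ω) ^ 2) =
        2 * K * (((sc τ b i) ^ 2)⁻¹ * 𝓕.E fun ω => D2 x (sc τ b i • 𝓕.u ω)) +
          4 * 𝓕.E fun ω => J (𝓕.u ω) ^ 2 := by
      field_simp
    rw [e]
    linarith
  rw [Wt_add, Wt_mul, Wt_const hn] at key
  have h8 : (0 : ℝ) ≤ (Zs n b τ)⁻¹ / 2 := by positivity
  refine (mul_le_mul_of_nonneg_left key h8).trans (le_of_eq ?_)
  rw [HN]
  ring

theorem sc_div (τ b : ℝ) {r : ℝ} (hr : 0 < r) (i : ℤ) : sc τ b i = r * sc (τ / r) b i := by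
  unfold sc
  field_simp

theorem DF_smul (S : SI X Y) (𝓕 : Fam X) (n : ℕ) (b τ : ℝ) {r : ℝ} (hr : 0 < r) (x : X) :
    DF S 𝓕 n b τ (r • x) = r⁻¹ • DF S 𝓕 n b (τ / r) x := by
  rw [DF, DF, ← Wt_smul]
  congr 1
  funext i
  rw [sc_div τ b hr i]
  have e : ∀ ω, S.F (r • x + (r * sc (τ / r) b i) • 𝓕.u ω) + S.F (r • x - (r * sc (τ / r) b i) • 𝓕.u ω) -
      (2 : ℝ) • S.F (r • x) = r • (S.F (x + sc (τ / r) b i • 𝓕.u ω) +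
        S.F (x - sc (τ / r) b i • 𝓕.u ω) - (2 : ℝ) • S.F x) := by
    intro ω
    rw [mul_smul, ← smul_add, ← smul_sub, S.smul, S.smul, S.smul]
    module
  simp only [e]
  rw [𝓕.E_smul, smul_smul, smul_smul]
  congr 1
  rw [mul_pow, mul_inv]
  field_simp

theorem HN_smul (𝓕 : Fam X) (n : ℕ) (b τ : ℝ) {r : ℝ} (hr : 0 < r) (x : X) :
    HN 𝓕 n b τ (r • x) = r⁻¹ * HN 𝓕 n b (τ / r) x := by
  rw [HN, HN, ← Wt_mul]
  congr 1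
  funext i
  rw [sc_div τ b hr i]
  simp only [mul_smul, D2_smul _ _ hr.le]
  rw [𝓕.E_mul, ← mul_assoc, ← mul_assoc]
  congr 1
  rw [mul_pow, mul_inv]
  field_simp

/-- **Potential argument.**  `k` with `k σ ∈ [1024, 1025]`, `h j = P^[j] ‖· - x₀‖²`, `E x = (‖x‖ - 1)²`.  By induction on `j ≤ k`,
for all `x`: `g x ≤ L - A (h j x - 32) / 4100 + 4 A (E x + j ε₂ σ) + j ε₁ σ`.  Use `h j x ≤ 2‖x - x₀‖² + 4100`
(`P_iter_up'`) when `‖x‖ ∉ [1/2, 2]` or `g x ≤ L - A`; otherwise apply `P` to the induction hypothesis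
(`P_iter_*` with `k = 1`, `Function.iterate_succ_apply'`).  At `x₀`: `h k x₀ ≥ k σ / 16 ≥ 64`. -/
theorem walk_abs (𝓕 : Fam X) {β : ℝ} (hG : 𝓕.Good β) {ι : Type*} {I : Finset ι} {π t : ι → ℝ}
    (hP : Fam.Prob I π) {σ : ℝ} (hσ : ∑ i ∈ I, π i * t i ^ 2 = σ) (hσ0 : 0 < σ) (hσ1 : σ ≤ 1) {g : X → ℝ}
    {L A ε₁ ε₂ : ℝ} (hA : 0 ≤ A) (hε₁ : 0 ≤ ε₁) (hε₂ : 0 ≤ ε₂) (hg : ∀ x, g x ≤ L)
    (hstep : ∀ x, 1 / 2 ≤ ‖x‖ → ‖x‖ ≤ 2 → g x ≤ L - A ∨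
      (g x ≤ 𝓕.P I π t g x + ε₁ * σ ∧ 𝓕.P I π t (fun z => (‖z‖ - 1) ^ 2) x ≤ (‖x‖ - 1) ^ 2 + ε₂ * σ))
    {x₀ : X} (hx₀ : ‖x₀‖ = 1) : g x₀ ≤ L - A / 200 + 4100 * A * ε₂ + 1025 * ε₁ := by
  set k : ℕ := ⌈1024 / σ⌉₊ with hk
  have hk1 : 1024 ≤ (k : ℝ) * σ := (div_le_iff₀ hσ0).1 (Nat.le_ceil _)
  have hk2 : (k : ℝ) * σ ≤ 1025 := by
    have h1 : (k : ℝ) < 1024 / σ + 1 := Nat.ceil_lt_add_one (by positivity)
    have h2 : (k : ℝ) * σ ≤ (1024 / σ + 1) * σ := mul_le_mul_of_nonneg_right h1.le hσ0.le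
    rw [add_mul, div_mul_cancel₀ _ hσ0.ne'] at h2
    linarith
  set h : ℕ → X → ℝ := fun j => (𝓕.P I π t)^[j] fun y => ‖y - x₀‖ ^ 2 with hh
  have hd : ∀ x : X, ‖x - x₀‖ ^ 2 ≤ (‖x‖ + 1) ^ 2 := fun x =>
    pow_le_pow_left₀ (norm_nonneg _) ((norm_sub_le _ _).trans (by rw [hx₀])) 2
  have hup : ∀ j ≤ k, ∀ x, h j x ≤ 2 * (‖x‖ + 1) ^ 2 + 4100 := by
    intro j hj x
    have h1 := 𝓕.P_iter_up' (t := t) hP hG.up j x₀ x
    rw [hσ] at h1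
    have h2 : (j : ℝ) * σ ≤ k * σ := mul_le_mul_of_nonneg_right (by exact_mod_cast hj) hσ0.le
    have h3 := hd x
    show (𝓕.P I π t)^[j] (fun y => ‖y - x₀‖ ^ 2) x ≤ _
    linarith
  have main : ∀ j ≤ k, ∀ x, g x ≤ (L + 32 / 4100 * A + (j : ℝ) * σ * (4 * A * ε₂ + ε₁)) +
      (-(A / 4100)) * h j x + 4 * A * (‖x‖ - 1) ^ 2 := by
    intro j
    induction j with
    | zero =>
      intro _ x
      have h1 : h 0 x = ‖x - x₀‖ ^ 2 := rfl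
      have h2 := hd x
      have h3 := hg x
      have h4 := norm_nonneg x
      have h5 : h 0 x ≤ 32 + 16400 * (‖x‖ - 1) ^ 2 := by
        rw [h1]
        nlinarith [sq_nonneg (‖x‖ - 1), sq_nonneg (‖x‖ - 3)]
      have h6 := mul_le_mul_of_nonneg_left h5 hA
      push_cast
      nlinarith
    | succ j ih =>
      intro hj x
      have hpos : 0 ≤ ((j + 1 : ℕ) : ℝ) * σ * (4 * A * ε₂ + ε₁) := by positivity
      have h1 := hup _ hj x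
      have h3 := hg x
      have h4 := norm_nonneg x
      have hE : 0 ≤ A * (‖x‖ - 1) ^ 2 := by positivity
      by_cases hx1 : 1 / 2 ≤ ‖x‖
      · by_cases hx2 : ‖x‖ ≤ 2
        · rcases hstep x hx1 hx2 with h5 | ⟨h5, h6⟩
          · have h7 : h (j + 1) x ≤ 4132 := by nlinarith
            have h8 := mul_le_mul_of_nonneg_left h7 hA
            nlinarith
          · have h7 := 𝓕.P_iter_mono (t := t) hP 1 (ih (by omega)) x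
            rw [𝓕.P_iter_add, 𝓕.P_iter_add, 𝓕.P_iter_const hP, 𝓕.P_iter_mul, 𝓕.P_iter_mul] at h7
            simp only [Function.iterate_one] at h7
            have h8 : h (j + 1) x = 𝓕.P I π t (h j) x := by
              simp only [hh, Function.iterate_succ_apply']
            have h9 := mul_le_mul_of_nonneg_left h6 hA
            rw [h8]
            push_cast
            nlinarith
        · have h5 : h (j + 1) x ≤ 32 + 16400 * (‖x‖ - 1) ^ 2 := by nlinarith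
          have h6 := mul_le_mul_of_nonneg_left h5 hA
          nlinarith
      · have h5 : h (j + 1) x ≤ 32 + 16400 * (‖x‖ - 1) ^ 2 := by nlinarith
        have h6 := mul_le_mul_of_nonneg_left h5 hA
        nlinarith
  have h1 := main k le_rfl x₀
  have h2 := 𝓕.P_iter_low (t := t) hP hG k x₀
  rw [hσ] at h2
  have h3 : 64 ≤ h k x₀ := by
    show _ ≤ (𝓕.P I π t)^[k] (fun y => ‖y - x₀‖ ^ 2) x₀
    linarith
  have h4 := mul_le_mul_of_nonneg_left h3 hA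
  have h5 : (k : ℝ) * σ * (4 * A * ε₂ + ε₁) ≤ 1025 * (4 * A * ε₂ + ε₁) :=
    mul_le_mul_of_nonneg_right hk2 (by positivity)
  rw [hx₀] at h1
  nlinarith

end Crest.Agent.R74
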